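import Crest.Agent.R169.Lin

/-!
# rid 169, file `AN`: graded modules over `k[x,y,z]` given by subspaces of one module

Prefix helper lemmas with `an_`.
-/

set_option autoImplicit false

namespace Crest.Agent.R169

open Module

variable {k R M : Type} [Field k] [CommRing R] [Algebra k R] [AddCommGroup M] [Module R M]
  [Module k M] [IsScalarTower k R M]

section An
open MvPolynomial

theorem an_finrank (k : Type) [Field k] (j : ℕ) :
    2 * finrank k (homogeneousSubmodule (Fin 3) k j) = (j + 1) * (j + 2) := by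
  have h1 : homogeneousSubmodule (Fin 3) k j =
      restrictSupport k (↑((Finset.univ : Finset (Fin 3)).finsuppAntidiag j)) := by
    rw [homogeneousSubmodule_eq_finsupp_supported, restrictSupport]
    congr 1
    ext d
    simp [Finsupp.degree_eq_sum]
  rw [h1, finrank_eq_nat_card_basis (basisRestrictSupport k _), Nat.card_coe_set_eq,
    Set.ncard_coe_finset, Finset.card_finsuppAntidiag_nat_eq_choose, Finset.card_univ,
    Fintype.card_fin, show 3 + j - 1 = j + 2 by omega, Nat.choose_symm_add, mul_comm 2,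
    ← Nat.add_one_mul_choose_eq (j + 1) 1, Nat.choose_one_right, mul_comm]

theorem an_split {E : MvPolynomial (Fin 3) k} {j : ℕ} (hE : E.IsHomogeneous (j + 1)) :
    ∃ b : Fin 3 → MvPolynomial (Fin 3) k, (∀ i, (b i).IsHomogeneous j) ∧ E = ∑ i, X i * b i := by
  have h : homogeneousSubmodule (Fin 3) k (j + 1) ≤
      sumX (X : Fin 3 → MvPolynomial (Fin 3) k) (homogeneousSubmodule (Fin 3) k j) := by
    rw [← homogeneousSubmodule_one_pow k (j + 1), pow_succ', homogeneousSubmodule_one_pow,
      homogeneousSubmodule_one_eq_span_X, Submodule.mul_le]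
    intro x hx y hy
    obtain ⟨c, rfl⟩ := (Submodule.mem_span_range_iff_exists_fun k).1 hx
    rw [Finset.sum_mul]
    refine Submodule.sum_mem _ fun i _ => ?_
    rw [smul_mul_assoc]
    exact Submodule.smul_mem _ _ (smul_mem_sumX X i hy)
  exact h hE

variable (k) in
/-- forms of degree `e : ℤ` -/
def anH (e : ℤ) : Submodule k (MvPolynomial (Fin 3) k) where
  carrier := {E | E.IsHomogeneous e.toNat ∧ (e < 0 → E = 0)}
  zero_mem' := ⟨isHomogeneous_zero _ _ _, fun _ => rfl⟩
  add_mem' := fun ha hb => ⟨ha.1.add hb.1, fun h => by rw [ha.2 h, hb.2 h, add_zero]⟩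
  smul_mem' := fun c _ ha => ⟨(homogeneousSubmodule _ k _).smul_mem c ha.1,
    fun h => by rw [ha.2 h, smul_zero]⟩

theorem an_mem_nat {E : MvPolynomial (Fin 3) k} {j : ℕ} : E ∈ anH k j ↔ E.IsHomogeneous j :=
  ⟨fun h => h.1, fun h => ⟨h, fun h' => absurd h' (by omega)⟩⟩

theorem an_mul {a b : ℤ} {E E' : MvPolynomial (Fin 3) k} (h : E ∈ anH k a) (h' : E' ∈ anH k b) :
    E * E' ∈ anH k (a + b) := by
  rcases lt_or_ge a 0 with ha | ha
  · rw [h.2 ha, zero_mul]; exact zero_mem _
  rcases lt_or_ge b 0 with hb | hb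
  · rw [h'.2 hb, mul_zero]; exact zero_mem _
  lift a to ℕ using ha
  lift b to ℕ using hb
  exact_mod_cast an_mem_nat.2 ((an_mem_nat.1 h).mul (an_mem_nat.1 h'))

instance an_fin (e : ℤ) : FiniteDimensional k (anH k e) :=
  have := Module.Finite.iff_fg.2 (homogeneousSubmodule_fg (Fin 3) k e.toNat)
  Submodule.finiteDimensional_of_le (S₂ := homogeneousSubmodule (Fin 3) k e.toNat) fun _ h => h.1

/-- the component of degree `e : ℤ` -/
noncomputable def anC (e : ℤ) : MvPolynomial (Fin 3) k →ₗ[k] MvPolynomial (Fin 3) k :=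
  if 0 ≤ e then homogeneousComponent e.toNat else 0

theorem anC_mem (e : ℤ) (E : MvPolynomial (Fin 3) k) : anC e E ∈ anH k e := by
  rw [anC]
  split_ifs with h
  · exact ⟨homogeneousComponent_isHomogeneous _ _, fun h' => absurd h' (by omega)⟩
  · exact zero_mem _

theorem anC_of_mem {e : ℤ} {E : MvPolynomial (Fin 3) k} (h : E ∈ anH k e) (e' : ℤ) :
    anC e' E = if e' = e then E else 0 := by
  rcases lt_or_ge e 0 with he | he
  · simp [h.2 he]
  rw [anC]
  by_cases h' : 0 ≤ e'
  · rw [if_pos h', homogeneousComponent_of_mem h.1]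
    exact if_congr (by omega) rfl rfl
  · rw [if_neg h', if_neg (by omega)]; rfl

theorem anC_mul {e : ℤ} {E : MvPolynomial (Fin 3) k} (h : E ∈ anH k e) (d : ℤ)
    (a : MvPolynomial (Fin 3) k) : anC d (a * E) = anC (d - e) a * E := by
  induction a using MvPolynomial.induction_on' with
  | monomial s c =>
    have h1 := an_mem_nat.2 (isHomogeneous_monomial (d := s) c rfl)
    rw [anC_of_mem h1, anC_of_mem (an_mul h1 h), ite_mul, zero_mul]
    exact if_congr (by omega) rfl rfl
  | add p q hp hq => rw [add_mul, map_add, map_add, hp, hq, add_mul]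

variable {L : Type} [Fintype L]

variable (k) in
/-- tuples of forms of total degree `d` -/
noncomputable def anG (dg : L → ℤ) (d : ℤ) : Submodule k (L → MvPolynomial (Fin 3) k) :=
  Submodule.pi Set.univ fun t => anH k (d - dg t)

omit [Fintype L] in
theorem an_memG {dg : L → ℤ} {d : ℤ} {E : L → MvPolynomial (Fin 3) k} :
    E ∈ anG k dg d ↔ ∀ t, E t ∈ anH k (d - dg t) := by simp [anG]

/-- evaluation on generators -/
noncomputable def anV (T : Fin 3 → R) (u : L → M) : (L → MvPolynomial (Fin 3) k) →ₗ[k] M where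
  toFun E := ∑ t, aeval T (E t) • u t
  map_add' E E' := by simp [add_smul, Finset.sum_add_distrib]
  map_smul' c E := by simp [Finset.smul_sum]

theorem anV_apply (T : Fin 3 → R) (u : L → M) (E : L → MvPolynomial (Fin 3) k) :
    anV T u E = ∑ t, aeval T (E t) • u t := rfl

theorem anV_smul (T : Fin 3 → R) (u : L → M) (a : MvPolynomial (Fin 3) k)
    (E : L → MvPolynomial (Fin 3) k) : anV T u (a • E) = aeval T a • anV T u E := by
  simp [anV_apply, Finset.smul_sum, mul_smul]

theorem an_iff {T : Fin 3 → R} {dg : L → ℤ} {u : L → M} {d : ℤ} {v : M} :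
    (∃ E : L → MvPolynomial (Fin 3) k,
        (∀ t, (E t).IsHomogeneous (d - dg t).toNat) ∧ (∀ t, d < dg t → E t = 0) ∧
        v = ∑ t, MvPolynomial.aeval T (E t) • u t) ↔ v ∈ (anG k dg d).map (anV T u) :=
  ⟨fun ⟨E, h1, h2, h3⟩ => ⟨E, an_memG.2 fun t => ⟨h1 t, fun h => h2 t (by omega)⟩, h3.symm⟩,
    fun ⟨E, h, h3⟩ => ⟨E, fun t => (an_memG.1 h t).1,
      fun t ht => (an_memG.1 h t).2 (by omega), h3.symm⟩⟩

/-- the image of the forms of degree `j` grows linearly if there is a relation -/
theorem an_rel {T : Fin 3 → R} {E : MvPolynomial (Fin 3) k} {m : ℕ} (hE : E.IsHomogeneous m)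
    (hE0 : E ≠ 0) (hrel : aeval T E = 0) (j : ℕ) :
    finrank k ((homogeneousSubmodule (Fin 3) k j).map (aeval T).toLinearMap) ≤
      (2 * m + 1) * (j + 1) := by
  have := fun j => Module.Finite.iff_fg.2 (homogeneousSubmodule_fg (Fin 3) k j)
  have h1 := ((aeval T).toLinearMap.domRestrict
    (homogeneousSubmodule (Fin 3) k j)).finrank_range_add_finrank_ker
  rw [LinearMap.range_domRestrict] at h1
  have h2 := an_finrank k j
  rcases lt_or_ge j m with hj | hj
  · nlinarith
  obtain ⟨i, rfl⟩ := Nat.exists_eq_add_of_le hj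
  have h3 := an_finrank k i
  have h4 : finrank k (homogeneousSubmodule (Fin 3) k i) ≤ finrank k (LinearMap.ker
      ((aeval T).toLinearMap.domRestrict (homogeneousSubmodule (Fin 3) k (m + i)))) := by
    refine LinearMap.finrank_le_finrank_of_injective (f := LinearMap.codRestrict _
      ((LinearMap.mulLeft k E).restrict fun x hx => hE.mul hx) fun x => ?_) fun x y h => ?_
    · show aeval T (E * x.1) = 0
      rw [map_mul, hrel, zero_mul]
    · exact Subtype.ext (mul_left_cancel₀ hE0 (congrArg (fun z => z.1.1) h))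
  nlinarith

end An

/-- A form of degree `j` raises the degree by `j` (induction on monomials). -/
theorem AFam.aeval_smul_mem {T : Fin 3 → R} {D : ℤ → Submodule k M} (h : AFam T D)
    {E : MvPolynomial (Fin 3) k} {j : ℕ} (hE : E.IsHomogeneous j) {d : ℤ} {v : M} (hv : v ∈ D d) :
    MvPolynomial.aeval T E • v ∈ D (d + j) := by
  induction j generalizing E with
  | zero =>
    obtain ⟨c, rfl⟩ : E ∈ (1 : Submodule k _) := by
      rw [← MvPolynomial.homogeneousSubmodule_zero]; exact hE
    simpa using (D d).smul_mem c hv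
  | succ j ih =>
    obtain ⟨b, hb, rfl⟩ := an_split hE
    rw [map_sum, Finset.sum_smul, Nat.cast_succ, ← add_assoc]
    refine Submodule.sum_mem _ fun i _ => ?_
    rw [map_mul, MvPolynomial.aeval_X, mul_smul]
    exact h i _ _ (ih (hb i))

theorem an_map_le {T : Fin 3 → R} {D : ℤ → Submodule k M} (h : AFam T D) {L : Type} [Fintype L]
    {dg : L → ℤ} {u : L → M} (hu : ∀ t, u t ∈ D (dg t)) (d : ℤ) :
    (anG k dg d).map (anV T u) ≤ D d := by
  rintro _ ⟨E, hE, rfl⟩
  refine Submodule.sum_mem _ fun t _ => ?_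
  have h1 := an_memG.1 hE t
  rcases lt_or_ge (d - dg t) 0 with ht | ht
  · simp [h1.2 ht]
  · have := h.aeval_smul_mem h1.1 (hu t)
    rwa [show dg t + ((d - dg t).toNat : ℤ) = d by omega] at this

/-- Finite presentation of the elements: finitely many homogeneous generators.
Proof: take bases of the `D d`, `d0 < d ≤ d1`, as generators (index them by `Fin l`); for `d > d1` induct with `gen`. -/
theorem AFG.exists_gens {T : Fin 3 → R} {D : ℤ → Submodule k M} (h : AFG T D) :
    ∃ (l : ℕ) (dg : Fin l → ℤ) (u : Fin l → M), (∀ t, u t ∈ D (dg t)) ∧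
      ∀ d, ∀ v ∈ D d, ∃ E : Fin l → MvPolynomial (Fin 3) k,
        (∀ t, (E t).IsHomogeneous (d - dg t).toNat) ∧ (∀ t, d < dg t → E t = 0) ∧
        v = ∑ t, MvPolynomial.aeval T (E t) • u t := by
  classical
  obtain ⟨d0, h0⟩ := h.low
  obtain ⟨d1, h1⟩ := h.gen
  choose S hS using fun d => Module.Finite.iff_fg.1 (h.fin d)
  obtain ⟨l, f, -, hf⟩ :=
    ((Finset.Icc d0 d1).biUnion fun d => (S d).image (Prod.mk d)).finite_toSet.fin_param
  refine ⟨l, fun t => (f t).1, fun t => (f t).2, fun t => ?_, fun d v hv => an_iff.2 ?_⟩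
  · have : f t ∈ Set.range f := ⟨t, rfl⟩
    rw [hf] at this
    obtain ⟨d, -, hd⟩ := Finset.mem_biUnion.1 this
    obtain ⟨x, hx, e⟩ := Finset.mem_image.1 hd
    show (f t).2 ∈ D (f t).1
    rw [← e, ← hS]
    exact Submodule.subset_span hx
  have key : ∀ d ≤ d1, D d ≤ (anG k (fun t => (f t).1) d).map (anV T fun t => (f t).2) := by
    intro d hd
    rcases le_total d d0 with hd0 | hd0
    · rw [h0 d hd0]; exact bot_le
    rw [← hS, Submodule.span_le]
    intro x hx
    obtain ⟨t, ht⟩ : (d, x) ∈ Set.range f := by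
      rw [hf]
      exact Finset.mem_biUnion.2 ⟨d, Finset.mem_Icc.2 ⟨hd0, hd⟩, Finset.mem_image_of_mem _ hx⟩
    refine ⟨Pi.single t 1, an_memG.2 fun s => ?_, ?_⟩
    · by_cases hs : s = t
      · subst hs
        rw [Pi.single_eq_same, ht, sub_self]
        exact (an_mem_nat (j := 0)).2 (MvPolynomial.isHomogeneous_one _ _)
      · rw [Pi.single_eq_of_ne hs]; exact zero_mem _
    · rw [anV_apply, Finset.sum_eq_single t] <;> simp +contextual [ht, Pi.single_eq_of_ne]
  rcases le_total d d1 with hd | hd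
  · exact key d hd hv
  revert v
  induction d, hd using Int.leInduction with
  | base => exact key d1 le_rfl
  | succ d hd ih =>
    refine (h1 d hd).trans (sumX_le fun i v hv => ?_)
    obtain ⟨E, hE, rfl⟩ := ih v hv
    refine ⟨(MvPolynomial.X i : MvPolynomial (Fin 3) k) • E, an_memG.2 fun t => ?_, by
      rw [anV_smul, MvPolynomial.aeval_X]⟩
    have := an_mul ((an_mem_nat (j := 1)).2 (MvPolynomial.isHomogeneous_X k i)) (an_memG.1 hE t)
    rwa [show ((1 : ℕ) : ℤ) + (d - (f t).1) = d + 1 - (f t).1 by omega] at this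

/-- Converse of `AFG.exists_gens`. Proof: the forms of a given degree are a finite-dimensional space, and a form
of positive degree is `∑ X i * E i` with forms `E i` of one degree less. -/
theorem AFG.of_gens {T : Fin 3 → R} {D : ℤ → Submodule k M} (h : AFam T D) {L : Type} [Fintype L]
    (dg : L → ℤ) (u : L → M) (hu : ∀ t, u t ∈ D (dg t))
    (hg : ∀ d, ∀ v ∈ D d, ∃ E : L → MvPolynomial (Fin 3) k,
        (∀ t, (E t).IsHomogeneous (d - dg t).toNat) ∧ (∀ t, d < dg t → E t = 0) ∧
        v = ∑ t, MvPolynomial.aeval T (E t) • u t) : AFG T D := by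
  have hg' : ∀ d, D d ≤ (anG k dg d).map (anV T u) := fun d v hv => an_iff.1 (hg d v hv)
  obtain ⟨B, hB⟩ := Finite.exists_le fun t => |dg t|
  refine ⟨h, fun d => ?_, ⟨-B - 1, fun d hd => ?_⟩, B, fun d hd v hv => ?_⟩
  · have : Module.Finite k (anG k dg d) :=
      Module.Finite.iff_fg.2 (Submodule.fg_pi fun _ => Submodule.FG.of_finite)
    exact Submodule.finiteDimensional_of_le (hg' d)
  · refine eq_bot_iff.2 fun v hv => ?_
    obtain ⟨E, -, h2, rfl⟩ := hg d v hv
    exact Finset.sum_eq_zero fun t _ => by simp [h2 t (by linarith [abs_le.1 (hB t)])]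
  · obtain ⟨E, h1, -, rfl⟩ := hg _ v hv
    have h3 : ∀ t, dg t ≤ d := fun t => by linarith [abs_le.1 (hB t)]
    have h4 : ∀ t, (E t).IsHomogeneous ((d - dg t).toNat + 1) := fun t => by
      have := h1 t
      rwa [show (d + 1 - dg t).toNat = (d - dg t).toNat + 1 by have := h3 t; omega] at this
    choose b hb he using fun t => an_split (h4 t)
    refine ⟨fun i => anV T u fun t => b t i, fun i => an_map_le h hu d ⟨_, an_memG.2 fun t =>
      ⟨hb t i, fun h' => absurd h' (by have := h3 t; omega)⟩, rfl⟩, ?_⟩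
    simp only [he, anV_apply, map_sum, Finset.sum_smul, Finset.smul_sum, map_mul,
      MvPolynomial.aeval_X, mul_smul]
    exact Finset.sum_comm

/-- Hilbert's basis theorem for graded submodules.
Proof: with the generators of `exists_gens`, let `L d ⊆ (Fin l → P)` (`P = MvPolynomial (Fin 3) k`) be the set of
tuples `E` as there with `∑ aeval T (E t) • u t ∈ D' d`.  The `P`-span of `⋃ d, L d` is finitely generated, by
finitely many elements `e s ∈ L (d s)` (Noetherian: `Submodule.exists_finset_span...`/`IsNoetherian` +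
`Submodule.mem_span_finite_of_mem_span` applied to a finite generating set).  For `d ≥ max d s` and
`E ∈ L (d+1)` write `E = ∑ a s • e s` and take in coordinate `t` the homogeneous component of degree `d + 1 - dg t`:
`E = ∑ (a s)_{d + 1 - d s} • e s`; each `(a s)_{d+1-d s}` is a form of positive degree, so `= ∑ i, X i * b s i`,
and `∑ s, aeval (b s i) • (value of e s) ∈ D' d` by `AFam.aeval_smul_mem`. -/
theorem AFG.of_le {T : Fin 3 → R} {D D' : ℤ → Submodule k M} (h : AFG T D) (h' : AFam T D')
    (hle : ∀ d, D' d ≤ D d) : AFG T D' := by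
  obtain ⟨l, dg, u, -, hg⟩ := h.exists_gens
  obtain ⟨s, hs, he⟩ := (Submodule.fg_span_iff_fg_span_finset_subset (R := MvPolynomial (Fin 3) k)
    {E | ∃ d, E ∈ anG k dg d ∧ anV T u E ∈ D' d}).1 (IsNoetherian.noetherian _)
  choose ds h1 h2 using fun e : s => hs e.2
  refine AFG.of_gens h' ds (fun e => anV T u e.1) h2 fun d v hv => an_iff.2 ?_
  obtain ⟨E, hE, rfl⟩ := an_iff.1 (hg d v (hle d hv))
  obtain ⟨a, ha⟩ := Submodule.mem_span_finset'.1 (he ▸ Submodule.subset_span ⟨d, hE, hv⟩ :
    E ∈ Submodule.span (MvPolynomial (Fin 3) k) (s : Set _))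
  refine ⟨fun e => anC (d - ds e) (a e), an_memG.2 fun e => anC_mem _ _, ?_⟩
  rw [anV_apply]
  simp only [← anV_smul, ← map_sum]
  congr 1
  funext t
  have h3 := anC_of_mem (an_memG.1 hE t) (d - dg t)
  rw [if_pos rfl] at h3
  rw [← h3, ← ha, Finset.sum_apply, Finset.sum_apply, map_sum]
  refine Finset.sum_congr rfl fun e _ => ?_
  rw [Pi.smul_apply, Pi.smul_apply, smul_eq_mul, smul_eq_mul, anC_mul (an_memG.1 (h1 e) t),
    sub_sub_sub_cancel_right]

/-- If the three elements satisfy a nonzero homogeneous equation on `M`, the growth is linear.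
Proof: fix a monomial order; let `x^α` be the leading monomial of `E`.  Modulo multiples of `E`, every form of degree
`j` is a combination of monomials of degree `j` not divisible by `x^α` (`MonomialOrder.div`, or direct induction
along the order, or: `A_j / E A_{j-m}` has dimension `C(j+2,2) - C(j-m+2,2) ≤ m (j+1)`); a monomial of degree `j` not
divisible by `x^α` has some exponent `i` below `α i`, so there are at most `m (j+1)` of them.  Sum over generators. -/
theorem AFG.finrank_le_of_rel {T : Fin 3 → R} {D : ℤ → Submodule k M} (h : AFG T D)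
    {E : MvPolynomial (Fin 3) k} {m : ℕ} (hE : E.IsHomogeneous m) (hE0 : E ≠ 0)
    (hrel : MvPolynomial.aeval T E = 0) :
    ∃ C : ℕ, ∀ d : ℕ, finrank k (D d) ≤ C * (d + 1) := by
  classical
  obtain ⟨l, dg, u, -, hg⟩ := h.exists_gens
  obtain ⟨B, hB⟩ := Finite.exists_le fun t => (dg t).natAbs
  refine ⟨l * ((2 * m + 1) * (B + 1)), fun d => ?_⟩
  have := fun j => Module.Finite.iff_fg.2 (MvPolynomial.homogeneousSubmodule_fg (Fin 3) k j)
  let A : Fin l → Submodule k R := fun t =>
    (MvPolynomial.homogeneousSubmodule (Fin 3) k (d - dg t).toNat).map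
      (MvPolynomial.aeval T).toLinearMap
  let f : (∀ t, A t) →ₗ[k] M := LinearMap.lsum k _ k fun t =>
    ((LinearMap.toSpanSingleton R M (u t)).restrictScalars k).domRestrict (A t)
  have h1 : D d ≤ LinearMap.range f := fun v hv => by
    obtain ⟨E, h1, -, rfl⟩ := hg d v hv
    exact ⟨fun t => ⟨_, E t, h1 t, rfl⟩, by simp [f]⟩
  refine (Submodule.finrank_mono h1).trans (f.finrank_range_le.trans ?_)
  rw [finrank_pi_fintype, mul_assoc]
  refine (Finset.sum_le_card_nsmul _ _ _ fun t _ => (an_rel hE hE0 hrel _).trans ?_).trans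
    (by rw [Finset.card_univ, Fintype.card_fin, smul_eq_mul])
  have h2 : ((d : ℤ) - dg t).toNat ≤ d + B := by have := hB t; omega
  rw [mul_assoc]
  exact Nat.mul_le_mul_left _ (by nlinarith [Nat.zero_le (B * d)])

/-- The forms of degree `j` in three variables: `2 * dim = (j+1)(j+2)`. -/
theorem finrank_homogeneousSubmodule (k : Type) [Field k] (j : ℕ) :
    FiniteDimensional k (MvPolynomial.homogeneousSubmodule (Fin 3) k j) ∧
    2 * finrank k (MvPolynomial.homogeneousSubmodule (Fin 3) k j) = (j + 1) * (j + 2) := by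
  exact ⟨Module.Finite.iff_fg.2 (MvPolynomial.homogeneousSubmodule_fg _ k j), an_finrank k j⟩

/-- The free graded module. -/
theorem AFG.free (k : Type) [Field k] (ι : Type) [Fintype ι] :
    AFG (k := k) (M := ι → MvPolynomial (Fin 3) k) (MvPolynomial.X : Fin 3 → MvPolynomial (Fin 3) k)
      (fun d : ℤ => if 0 ≤ d then
        Submodule.pi Set.univ (fun _ => MvPolynomial.homogeneousSubmodule (Fin 3) k d.toNat) else ⊥) := by
  classical
  have key : (fun d : ℤ => if 0 ≤ d then Submodule.pi Set.univ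
      (fun _ => MvPolynomial.homogeneousSubmodule (Fin 3) k d.toNat) else ⊥) =
      anG k (fun _ : ι => 0) := by
    funext d
    ext v
    rw [an_memG, sub_zero]
    split_ifs with hd
    · rw [Submodule.mem_pi]
      exact ⟨fun h t => ⟨h t trivial, fun h' => absurd h' (by omega)⟩, fun h t _ => (h t).1⟩
    · exact ⟨fun h t => by rw [(Submodule.mem_bot k).1 h]; exact zero_mem _,
        fun h => funext fun t => (h t).2 (by omega)⟩
  rw [key]
  refine AFG.of_gens (fun i d v hv => an_memG.2 fun t => ?_) (fun _ : ι => 0)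
    (fun t => Pi.single t 1) (fun t => an_memG.2 fun s => ?_) fun d v hv => an_iff.2 ⟨v, hv, ?_⟩
  · have := an_mul ((an_mem_nat (j := 1)).2 (MvPolynomial.isHomogeneous_X k i)) (an_memG.1 hv t)
    rwa [show ((1 : ℕ) : ℤ) + (d - 0) = d + 1 - 0 by omega] at this
  · by_cases hs : s = t
    · subst hs
      rw [Pi.single_eq_same]
      exact (an_mem_nat (j := 0)).2 (MvPolynomial.isHomogeneous_one _ _)
    · rw [Pi.single_eq_of_ne hs]; exact zero_mem _
  · simp only [anV_apply, MvPolynomial.aeval_X_left_apply]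
    exact (pi_eq_sum_univ' v).symm

end Crest.Agent.R169
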