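import Crest.Agent.R169.Comb2

/-!
# rid 169, file `Basic1`: the spaces `S γ`

Prefix helper lemmas with `basic1_`.
-/

set_option autoImplicit false

namespace Crest.Agent.R169

open Filter Module

variable {k : Type} [Field k] {n : ℕ}

theorem mono_neg (ρ : Fin 5 → ℤ) : mono k (-ρ) = (mono k ρ)⁻¹ := by
  simp only [mono, Pi.neg_apply, zpow_neg, Finset.prod_inv_distrib]

theorem mono_smul (m : ℤ) (ρ : Fin 5 → ℤ) : mono k (m • ρ) = mono k ρ ^ m := by
  simp only [mono, Pi.smul_apply, smul_eq_mul, ← Finset.prod_zpow, ← zpow_mul, mul_comm m]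

theorem mono_single (i : Fin 5) : mono k (Pi.single i 1) = pp k i := by
  rw [mono, Finset.prod_eq_single i]
  · simp
  · intro j _ hj
    simp [Pi.single_eq_of_ne hj]
  · simp

theorem algebraMap_pm (a : Fin 5 → ℕ) :
    algebraMap (Pl k) (KK k) (pm k a) = mono k (fun i => (a i : ℤ)) := by
  simp only [pm, mono, pp, map_prod, map_pow, zpow_natCast]

theorem map_ppP {A A' : Type} [CommRing A] [CommRing A'] (θ : A →+* A') (i : Fin 5) :
    MvPolynomial.map θ (ppP A i) = ppP A' i := by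
  fin_cases i <;> simp [ppP]

theorem map_pm {A A' : Type} [CommRing A] [CommRing A'] (θ : A →+* A') (a : Fin 5 → ℕ) :
    MvPolynomial.map θ (pm A a) = pm A' a := by
  simp only [pm, map_prod, map_pow, map_ppP]

theorem S_mono {γ γ' : Deg} (h : γ ≤ γ') : S k n γ ≤ S k n γ' := by
  refine Submodule.span_mono ?_
  rintro _ ⟨ρ, hρ, rfl⟩
  exact ⟨ρ, hρ.trans (add_le_add_left h _), rfl⟩

theorem mono_mem_S_neg (ρ : Fin 5 → ℤ) : mono k ρ ∈ S k n (-((n : ℤ) • rel ρ)) := by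
  exact mono_mem_S (by simp)

theorem pow_mem_S {γ : Deg} {f : KK k} (hf : f ∈ S k n γ) (m : ℕ) : f ^ m ∈ S k n ((m : ℤ) • γ) := by
  induction m with
  | zero => simpa using one_mem_S le_rfl
  | succ m ih =>
    rw [pow_succ, Nat.cast_succ, add_smul, one_smul]
    exact mul_mem_S ih hf

theorem prod_mem_S {T : Type} (s : Finset T) {γ : T → Deg} {f : T → KK k}
    (hf : ∀ t ∈ s, f t ∈ S k n (γ t)) : ∏ t ∈ s, f t ∈ S k n (∑ t ∈ s, γ t) := by
  classical
  induction s using Finset.induction_on with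
  | empty => simpa using one_mem_S le_rfl
  | insert a s ha ih =>
    rw [Finset.prod_insert ha, Finset.sum_insert ha]
    exact mul_mem_S (hf a (Finset.mem_insert_self _ _))
      (ih fun t ht => hf t (Finset.mem_insert_of_mem ht))

theorem exists_rel_of_mem_S {γ : Deg} {f : KK k} (hf : f ∈ S k n γ) (h0 : f ≠ 0) :
    ∃ ρ : Fin 5 → ℤ, 0 ≤ γ + (n : ℤ) • rel ρ := by
  by_contra h
  have h1 : S k n γ = ⊥ := by
    refine Submodule.span_eq_bot.2 ?_
    rintro _ ⟨ρ, hρ, rfl⟩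
    exact absurd ⟨ρ, hρ⟩ h
  rw [h1] at hf
  exact h0 hf

theorem S_eq_bot_of_neg {γ H : Deg} (hH : Nef H) (h : B γ H < 0) : S k n γ = ⊥ := by
  refine Submodule.span_eq_bot.2 ?_
  rintro _ ⟨ρ, hρ, rfl⟩
  have h1 := B_nonneg_of_eff hρ hH
  rw [B_add_left, B_smul_left, B_rel_left, mul_zero, add_zero] at h1
  exact absurd h1 (not_le.2 h)

theorem B_nonneg_of_mem_S {γ H : Deg} {f : KK k} (hf : f ∈ S k n γ) (h0 : f ≠ 0) (hH : Nef H) :
    0 ≤ B γ H := by
  by_contra h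
  rw [S_eq_bot_of_neg hH (not_le.1 h)] at hf
  exact h0 hf

/-- `s^a t^b = mono ![a,b,0,0,0]` and `rel ![a,b,0,0,0] ≥ -(a+b)`. -/
theorem algebraMap_mem_S {P : Pl k} {D : ℕ} (h : P.totalDegree ≤ D) :
    algebraMap (Pl k) (KK k) P ∈ S k n (((n : ℤ) * D) • (1 : Deg)) := by
  rw [P.as_sum, map_sum]
  refine Submodule.sum_mem _ fun d hd => ?_
  have h1 : d 0 + d 1 ≤ D := by
    have h2 := (MvPolynomial.le_totalDegree hd).trans h
    rwa [Finsupp.sum_fintype _ _ (fun _ => rfl), Fin.sum_univ_two] at h2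
  have h2 : MvPolynomial.monomial d (P.coeff d) = P.coeff d • pm k ![d 0, d 1, 0, 0, 0] := by
    rw [MvPolynomial.monomial_eq, Finsupp.prod_fintype _ _ (fun _ => pow_zero _), Fin.prod_univ_two,
      MvPolynomial.smul_eq_C_mul]
    simp [pm, ppP, Fin.prod_univ_five]
  rw [h2, ← IsScalarTower.toAlgHom_apply k, map_smul, IsScalarTower.toAlgHom_apply, algebraMap_pm]
  refine Submodule.smul_mem _ _ (mono_mem_S fun e => ?_)
  have h3 : (-D : ℤ) ≤ rel (fun i => ((![d 0, d 1, 0, 0, 0] : Fin 5 → ℕ) i : ℤ)) e := by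
    fin_cases e <;> simp [rel] <;> omega
  have h4 := mul_le_mul_of_nonneg_left h3 (Int.natCast_nonneg n)
  simp only [Pi.zero_apply, Pi.add_apply, Pi.smul_apply, smul_eq_mul, Pi.one_apply]
  linarith

/-- An element of `S γ` as an explicit combination over any finite set containing the admissible exponents. -/
theorem mem_S_iff_sum {γ : Deg} (T : Finset (Fin 5 → ℤ))
    (hT : ∀ ρ, ρ ∈ T ↔ 0 ≤ γ + (n : ℤ) • rel ρ) {f : KK k} :
    f ∈ S k n γ ↔ ∃ a : (Fin 5 → ℤ) → k, f = ∑ ρ ∈ T, a ρ • mono k ρ := by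
  have h1 : {f | ∃ ρ : Fin 5 → ℤ, 0 ≤ γ + (n : ℤ) • rel ρ ∧ f = mono k ρ} = mono k '' T := by
    ext g
    simp only [Set.mem_ofPred_eq, Set.mem_image, Finset.mem_coe, hT, eq_comm]
  rw [S, h1, Submodule.mem_span_image_finset_iff_exists_fun']
  simp only [eq_comm]

variable [NeZero n]

theorem basic1_eq_zero {ρ : Fin 5 → ℤ} (h : 0 ≤ (n : ℤ) • rel ρ) : ρ = 0 := by
  have hn : (0 : ℤ) < n := Int.natCast_pos.2 (Nat.pos_of_ne_zero (NeZero.ne n))
  exact eq_zero_of_rel_nonneg fun e => nonneg_of_mul_nonneg_right (by simpa [mul_comm] using h e) hn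

instance S_finite (γ : Deg) : FiniteDimensional k (S k n γ) := by
  refine FiniteDimensional.span_of_finite k (((finite_mon (n := n) γ).image (mono k)).subset ?_)
  rintro _ ⟨ρ, hρ, rfl⟩
  exact ⟨ρ, hρ, rfl⟩

theorem finrank_S_le {γ H : Deg} (hH : Ample H) {b : ℕ} (hb : B γ H ≤ b) :
    finrank k (S k n γ) ≤ (b + 1) ^ 10 := by
  classical
  have h1 : {f | ∃ ρ : Fin 5 → ℤ, 0 ≤ γ + (n : ℤ) • rel ρ ∧ f = mono k ρ} =
      ((finite_mon (n := n) γ).toFinset.image (mono k) : Finset (KK k)) := by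
    ext g
    simp [eq_comm]
  rw [S, h1]
  refine (finrank_span_finset_le_card _).trans (Finset.card_image_le.trans ?_)
  rw [← Set.ncard_eq_toFinset_card _ (finite_mon (n := n) γ)]
  exact ncard_mon_le hH hb

/-- An element of `S γ` with `Bv γ ≤ 0`-type degree: if `f ∈ S γ` and `g ∈ S (-γ)` are nonzero then `γ = -n • rel ρ`
(`eq_zero_of_rel_nonneg`). -/
theorem exists_eq_of_mem_S_neg {γ : Deg} {f g : KK k} (hf : f ∈ S k n γ) (hf0 : f ≠ 0)
    (hg : g ∈ S k n (-γ)) (hg0 : g ≠ 0) : ∃ ρ : Fin 5 → ℤ, γ + (n : ℤ) • rel ρ = 0 := by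
  obtain ⟨ρ, hρ⟩ := exists_rel_of_mem_S hf hf0
  obtain ⟨ρ', hρ'⟩ := exists_rel_of_mem_S hg hg0
  have h1 := add_nonneg hρ hρ'
  rw [add_add_add_comm, add_neg_cancel, zero_add, ← smul_add, ← rel_add] at h1
  have h2 : ρ' = -ρ := eq_neg_of_add_eq_zero_right (basic1_eq_zero h1)
  rw [h2, rel_neg, smul_neg, ← neg_add, neg_nonneg] at hρ'
  exact ⟨ρ, le_antisymm hρ' hρ⟩

/-- If `γ + n • rel ρ = 0` then `S γ` is the line spanned by `mono ρ`. -/
theorem mem_S_of_eq_zero {γ : Deg} {ρ : Fin 5 → ℤ} (h : γ + (n : ℤ) • rel ρ = 0) {f : KK k} :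
    f ∈ S k n γ ↔ ∃ c : k, f = c • mono k ρ := by
  rw [mem_S_iff_sum {ρ} fun ρ' => ?_]
  · simp only [Finset.sum_singleton]
    exact ⟨fun ⟨a, ha⟩ => ⟨a ρ, ha⟩, fun ⟨c, hc⟩ => ⟨fun _ => c, hc⟩⟩
  · rw [Finset.mem_singleton]
    refine ⟨fun h1 => by rw [h1, h], fun h1 => sub_eq_zero.1 (basic1_eq_zero (n := n) ?_)⟩
    rwa [eq_neg_of_add_eq_zero_left h, neg_add_eq_sub, ← smul_sub, ← rel_sub] at h1

/-- Common denominators in a prescribed deep degree.  Write `κ t = a t / b` with polynomials of total degree `≤ D`,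
`α = (n D) • 1`; for deep `γ` take a monomial `g' ∈ S (γ - α - ∑ t, |ε t|)` (`eventually_exists_rel`, `tendsto_sub_deep`) and
`g = b * g'`; use `S_mono`. -/
theorem exists_denom {T : Type} [Finite T] (κ : T → KK k) (ε : T → Deg) :
    ∀ᶠ γ in deep, ∃ g : KK k, g ≠ 0 ∧ g ∈ S k n γ ∧ ∀ t, g * κ t ∈ S k n (γ + ε t) := by
  classical
  have := Fintype.ofFinite T
  obtain ⟨b, hb⟩ := IsLocalization.exist_integer_multiples_of_finite (nonZeroDivisors (Pl k)) κ
  choose a ha using hb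
  set D : ℕ := (b : Pl k).totalDegree + ∑ t, (a t).totalDegree with hD
  set α : Deg := ((n : ℤ) * D) • (1 : Deg) with hα
  set η : Deg := ∑ t, |ε t| with hη
  have hη0 : 0 ≤ η := Finset.sum_nonneg fun t _ => abs_nonneg _
  have hη1 : ∀ t, -η ≤ ε t := fun t => neg_le.1 ((neg_le_abs _).trans
    (Finset.single_le_sum (f := fun t => |ε t|) (fun t _ => abs_nonneg _) (Finset.mem_univ t)))
  filter_upwards [(tendsto_sub_deep (α + η)).eventually (eventually_exists_rel (n := n))] with γ hγ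
  obtain ⟨ρ, hρ⟩ := hγ
  have key : ∀ P : Pl k, P.totalDegree ≤ D →
      algebraMap (Pl k) (KK k) P * mono k ρ ∈ S k n (γ + -η) := fun P hP => by
    have h1 := mul_mem_S (algebraMap_mem_S (n := n) hP) (mono_mem_S (k := k) hρ)
    rwa [← hα, show α + (γ - (α + η)) = γ + -η by abel] at h1
  refine ⟨algebraMap (Pl k) (KK k) b * mono k ρ, mul_ne_zero ?_ (mono_ne_zero k ρ), ?_, fun t => ?_⟩
  · exact (map_ne_zero_iff _ (IsFractionRing.injective (Pl k) (KK k))).2 (nonZeroDivisors.coe_ne_zero b)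
  · exact S_mono (add_le_of_nonpos_right (neg_nonpos.2 hη0)) (key _ (Nat.le_add_right _ _))
  · rw [mul_right_comm, ← Algebra.smul_def, ← ha t]
    refine S_mono (add_le_add_right (hη1 t) γ) (key _ (le_trans ?_ (Nat.le_add_left _ _)))
    exact Finset.single_le_sum (f := fun t => (a t).totalDegree) (fun _ _ => Nat.zero_le _)
      (Finset.mem_univ t)

end Crest.Agent.R169
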