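import Crest.Agent.R169.Basic1

/-!
# rid 169, file `Basic2`: families

Routine API.  Prefix helper lemmas with `basic2_`.
-/

set_option autoImplicit false

namespace Crest.Agent.R169

open Filter Module

namespace Fam

variable {k : Type} [Field k] {n : ℕ}
  {V : Type} [AddCommGroup V] [Module (KK k) V] [Module k V] [IsScalarTower k (KK k) V]
  {V' : Type} [AddCommGroup V'] [Module (KK k) V'] [Module k V'] [IsScalarTower k (KK k) V']
  {V'' : Type} [AddCommGroup V''] [Module (KK k) V''] [Module k V''] [IsScalarTower k (KK k) V'']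

theorem mono (N : Fam k n V) {γ γ' : Deg} (h : γ ≤ γ') : N.sub γ ≤ N.sub γ' := by
  intro v hv
  have := N.smul_mem (one_mem_S (sub_nonneg.2 h)) hv
  rwa [one_smul, sub_add_cancel] at this

@[simp] theorem SF_sub (γ : Deg) : (SF k n).sub γ = S k n γ := rfl
@[simp] theorem shift_sub (α γ : Deg) (N : Fam k n V) : (N.shift α).sub γ = N.sub (γ + α) := rfl
theorem mem_infW {N : Fam k n V} {W : Submodule (KK k) V} {γ : Deg} {v : V} :
    v ∈ (N.infW W).sub γ ↔ v ∈ N.sub γ ∧ v ∈ W := Iff.rfl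
theorem mem_map {N : Fam k n V} {ψ : V →ₗ[KK k] V'} {γ : Deg} {v : V'} :
    v ∈ (N.map ψ).sub γ ↔ ∃ u ∈ N.sub γ, ψ u = v := Iff.rfl

/-! ### `gen` -/

theorem subset_gen {G : Set (Deg × V)} {p : Deg × V} (h : p ∈ G) : p.2 ∈ (gen n G : Fam k n V).sub p.1 := by
  exact Submodule.subset_span ⟨p, h, 1, one_mem_S (sub_self _).ge, (one_smul _ _).symm⟩

theorem gen_le_iff {G : Set (Deg × V)} {N : Fam k n V} :
    gen n G ≤ N ↔ ∀ p ∈ G, p.2 ∈ N.sub p.1 := by
  refine ⟨fun h p hp => h _ (subset_gen hp), fun h γ => Submodule.span_le.2 ?_⟩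
  rintro _ ⟨p, hp, f, hf, rfl⟩
  have := N.smul_mem hf (h p hp)
  rwa [sub_add_cancel] at this

theorem gen_mono {G G' : Set (Deg × V)} (h : G ⊆ G') : (gen n G : Fam k n V) ≤ gen n G' := by
  exact gen_le_iff.2 fun p hp => subset_gen (h hp)

theorem gen_union (G G' : Set (Deg × V)) : (gen n (G ∪ G') : Fam k n V) = gen n G ⊔ gen n G' := by
  refine le_antisymm (gen_le_iff.2 ?_)
    (sup_le (gen_mono Set.subset_union_left) (gen_mono Set.subset_union_right))
  rintro p (hp | hp)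
  · exact Submodule.mem_sup_left (subset_gen hp)
  · exact Submodule.mem_sup_right (subset_gen hp)

theorem gen_empty : (gen n ∅ : Fam k n V) = ⊥ := by
  exact le_bot_iff.1 (gen_le_iff.2 fun _ h => h.elim)

theorem basic2_mem_gen_range {I : Type} [Fintype I] {δ : I → Deg} {u : I → V} {γ : Deg} {v : V} :
    v ∈ (gen n (Set.range fun i => (δ i, u i)) : Fam k n V).sub γ ↔
      ∃ f : I → KK k, (∀ i, f i ∈ S k n (γ - δ i)) ∧ v = ∑ i, f i • u i := by
  classical
  constructor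
  · intro hv
    induction hv using Submodule.span_induction with
    | mem x h =>
      obtain ⟨_, ⟨i, rfl⟩, f, hf, rfl⟩ := h
      refine ⟨Pi.single i f, fun j => ?_, ?_⟩
      · by_cases h : j = i
        · subst h; simpa using hf
        · simp [Pi.single_eq_of_ne h]
      · rw [Finset.sum_eq_single i] <;> simp +contextual [Pi.single_eq_of_ne]
    | zero => exact ⟨0, fun _ => zero_mem _, by simp⟩
    | add a b _ _ ha hb =>
      obtain ⟨f, hf, rfl⟩ := ha
      obtain ⟨g, hg, rfl⟩ := hb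
      exact ⟨f + g, fun i => add_mem (hf i) (hg i), by simp [add_smul, Finset.sum_add_distrib]⟩
    | smul c a _ ha =>
      obtain ⟨f, hf, rfl⟩ := ha
      exact ⟨c • f, fun i => Submodule.smul_mem _ c (hf i), by simp [Finset.smul_sum]⟩
  · rintro ⟨f, hf, rfl⟩
    exact Submodule.sum_mem _ fun i _ => Submodule.subset_span ⟨_, ⟨i, rfl⟩, f i, hf i, rfl⟩

theorem mem_gen_singleton {δ γ : Deg} {w v : V} :
    v ∈ (gen n {(δ, w)} : Fam k n V).sub γ ↔ ∃ f ∈ S k n (γ - δ), v = f • w := by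
  rw [← Set.range_const (ι := Unit), basic2_mem_gen_range (δ := fun _ => δ) (u := fun _ => w)]
  exact ⟨fun ⟨f, hf, e⟩ => ⟨f (), hf (), by simpa using e⟩,
    fun ⟨f, hf, e⟩ => ⟨fun _ => f, fun _ => hf, by simpa using e⟩⟩

theorem mem_gen_range {I : Type} [Fintype I] {δ : I → Deg} {u : I → V} {γ : Deg} {v : V} :
    v ∈ (gen n (Set.range fun i => (δ i, u i)) : Fam k n V).sub γ ↔
      ∃ f : I → KK k, (∀ i, f i ∈ S k n (γ - δ i)) ∧ v = ∑ i, f i • u i := by
  exact basic2_mem_gen_range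

theorem FG.exists_fin {N : Fam k n V} (h : N.FG) :
    ∃ (l : ℕ) (δ : Fin l → Deg) (u : Fin l → V), N = gen n (Set.range fun i => (δ i, u i)) := by
  obtain ⟨G, hG, rfl⟩ := h
  obtain ⟨l, f, -, rfl⟩ := hG.fin_param
  exact ⟨l, fun i => (f i).1, fun i => (f i).2, rfl⟩

theorem fg_gen {G : Set (Deg × V)} (h : G.Finite) : (gen n G : Fam k n V).FG := ⟨G, h, rfl⟩

theorem SF_eq_gen : SF k n = gen n {((0 : Deg), (1 : KK k))} := by
  ext γ v
  rw [mem_gen_singleton, sub_zero]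
  exact ⟨fun h => ⟨v, h, (mul_one v).symm⟩, fun ⟨f, hf, e⟩ => (e.trans (mul_one f)).symm ▸ hf⟩

theorem fg_SF : (SF k n).FG := by
  exact ⟨_, Set.finite_singleton _, SF_eq_gen⟩

theorem fg_bot : (⊥ : Fam k n V).FG := by
  exact ⟨_, Set.finite_empty, gen_empty.symm⟩

theorem map_gen (ψ : V →ₗ[KK k] V') (G : Set (Deg × V)) :
    (gen n G : Fam k n V).map ψ = gen n ((fun p => (p.1, ψ p.2)) '' G) := by
  ext1
  funext γ
  refine (Submodule.map_span _ _).trans (congrArg _ (Set.ext fun x => ⟨?_, ?_⟩))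
  · rintro ⟨_, ⟨p, hp, f, hf, rfl⟩, rfl⟩
    exact ⟨_, ⟨p, hp, rfl⟩, f, hf, ψ.map_smul f _⟩
  · rintro ⟨_, ⟨p, hp, rfl⟩, f, hf, rfl⟩
    exact ⟨_, ⟨p, hp, f, hf, rfl⟩, ψ.map_smul f _⟩

theorem shift_gen (α : Deg) (G : Set (Deg × V)) :
    (gen n G : Fam k n V).shift α = gen n ((fun p => (p.1 - α, p.2)) '' G) := by
  ext1
  funext γ
  refine congrArg (Submodule.span k) (Set.ext fun x => ⟨?_, ?_⟩)
  · rintro ⟨p, hp, f, hf, rfl⟩
    exact ⟨_, ⟨p, hp, rfl⟩, f, by rwa [← sub_add, ← add_sub_right_comm], rfl⟩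
  · rintro ⟨_, ⟨p, hp, rfl⟩, f, hf, rfl⟩
    exact ⟨p, hp, f, by rwa [← sub_add, ← add_sub_right_comm] at hf, rfl⟩

theorem FG.sup {A A' : Fam k n V} (h : A.FG) (h' : A'.FG) : (A ⊔ A').FG := by
  obtain ⟨G, hG, rfl⟩ := h
  obtain ⟨G', hG', rfl⟩ := h'
  exact ⟨_, hG.union hG', (gen_union G G').symm⟩

theorem FG.map {N : Fam k n V} (h : N.FG) (ψ : V →ₗ[KK k] V') : (N.map ψ).FG := by
  obtain ⟨G, hG, rfl⟩ := h
  exact ⟨_, hG.image _, map_gen ψ G⟩

theorem FG.shift {N : Fam k n V} (h : N.FG) (α : Deg) : (N.shift α).FG := by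
  obtain ⟨G, hG, rfl⟩ := h
  exact ⟨_, hG.image _, shift_gen α G⟩

/-! ### `map`, `infW`, `shift` -/

theorem map_mono (ψ : V →ₗ[KK k] V') {A A' : Fam k n V} (h : A ≤ A') : A.map ψ ≤ A'.map ψ := by
  exact fun γ => Submodule.map_mono (h γ)

theorem map_sup (ψ : V →ₗ[KK k] V') (A A' : Fam k n V) : (A ⊔ A').map ψ = A.map ψ ⊔ A'.map ψ := by
  exact Fam.ext (funext fun γ => Submodule.map_sup _ _ _)

theorem map_map (ψ : V →ₗ[KK k] V') (χ : V' →ₗ[KK k] V'') (N : Fam k n V) :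
    (N.map ψ).map χ = N.map (χ ∘ₗ ψ) := by
  exact Fam.ext (funext fun γ => (Submodule.map_comp _ _ _).symm)

theorem map_id (N : Fam k n V) : N.map LinearMap.id = N := by
  exact Fam.ext (funext fun γ => Submodule.map_id _)

theorem map_shift (ψ : V →ₗ[KK k] V') (α : Deg) (N : Fam k n V) :
    (N.shift α).map ψ = (N.map ψ).shift α := rfl

theorem map_congr {ψ ψ' : V →ₗ[KK k] V'} {N : Fam k n V} (h : ∀ v ∈ N.span, ψ v = ψ' v) :
    N.map ψ = N.map ψ' := by
  ext γ v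
  exact exists_congr fun u => and_congr_right fun hu =>
    Eq.congr_left (h u (Submodule.subset_span ⟨γ, hu⟩))

theorem map_eq_bot {ψ : V →ₗ[KK k] V'} {N : Fam k n V} (h : N.span ≤ LinearMap.ker ψ) :
    N.map ψ = ⊥ := by
  refine le_bot_iff.1 fun γ => ?_
  rintro _ ⟨v, hv, rfl⟩
  exact h (Submodule.subset_span ⟨γ, hv⟩)

theorem map_infW_comap (ψ : V →ₗ[KK k] V') (N : Fam k n V) (W : Submodule (KK k) V') :
    (N.infW (W.comap ψ)).map ψ = (N.map ψ).infW W := by
  ext γ v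
  exact ⟨fun ⟨u, hu, e⟩ => ⟨⟨u, hu.1, e⟩, e ▸ hu.2⟩,
    fun ⟨⟨u, hu, e⟩, h⟩ => ⟨u, ⟨hu, by subst e; exact h⟩, e⟩⟩

theorem infW_le (N : Fam k n V) (W : Submodule (KK k) V) : N.infW W ≤ N := fun _ => inf_le_left

theorem infW_mono {A A' : Fam k n V} (h : A ≤ A') (W : Submodule (KK k) V) :
    A.infW W ≤ A'.infW W := by
  exact fun γ v hv => ⟨h γ hv.1, hv.2⟩

theorem infW_mono_right (N : Fam k n V) {W W' : Submodule (KK k) V} (h : W ≤ W') :
    N.infW W ≤ N.infW W' := by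
  exact fun γ v hv => ⟨hv.1, h hv.2⟩

theorem infW_infW (N : Fam k n V) (W W' : Submodule (KK k) V) :
    (N.infW W).infW W' = N.infW (W ⊓ W') := by
  ext γ v
  exact and_assoc

theorem infW_bot (N : Fam k n V) : N.infW ⊥ = ⊥ := by
  exact le_bot_iff.1 fun γ v hv => hv.2

theorem infW_eq_self {N : Fam k n V} {W : Submodule (KK k) V} (h : N.span ≤ W) : N.infW W = N := by
  exact le_antisymm (infW_le N W) fun γ v hv => ⟨hv, h (Submodule.subset_span ⟨γ, hv⟩)⟩

theorem infW_top (N : Fam k n V) : N.infW ⊤ = N := infW_eq_self le_top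

theorem le_infW {A N : Fam k n V} {W : Submodule (KK k) V} (h : A ≤ N) (h' : A.span ≤ W) :
    A ≤ N.infW W := by
  exact fun γ v hv => ⟨h γ hv, h' (Submodule.subset_span ⟨γ, hv⟩)⟩

theorem shift_infW (α : Deg) (N : Fam k n V) (W : Submodule (KK k) V) :
    (N.shift α).infW W = (N.infW W).shift α := rfl

theorem shift_shift (α β : Deg) (N : Fam k n V) : (N.shift α).shift β = N.shift (β + α) := by
  exact Fam.ext (funext fun γ => congrArg N.sub (add_assoc _ _ _))

theorem shift_zero (N : Fam k n V) : N.shift 0 = N := by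
  exact Fam.ext (funext fun γ => congrArg N.sub (add_zero _))

theorem shift_mono (α : Deg) {A A' : Fam k n V} (h : A ≤ A') : A.shift α ≤ A'.shift α :=
  fun _ => h _

theorem colon_le_SF (N : Fam k n V) (δ : Deg) (w : V) : N.colon δ w ≤ SF k n := fun _ => inf_le_left

theorem colon_mono {A A' : Fam k n V} (h : A ≤ A') (δ : Deg) (w : V) : A.colon δ w ≤ A'.colon δ w := by
  exact fun γ f hf => ⟨hf.1, h _ hf.2⟩

/-! ### `frob` -/

theorem frob_mono (p : ℕ) (Φ : V → V) {A A' : Fam k n V} (h : A ≤ A') : frob p Φ A ≤ frob p Φ A' := by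
  exact gen_mono fun _ ⟨δ, v, hv, e⟩ => ⟨δ, v, h δ hv, e⟩

theorem mem_frob (p : ℕ) (Φ : V → V) {N : Fam k n V} {δ : Deg} {v : V} (h : v ∈ N.sub δ) :
    Φ v ∈ (frob p Φ N).sub ((p : ℤ) • δ) := by
  exact subset_gen (p := ((p : ℤ) • δ, Φ v)) ⟨δ, v, h, rfl⟩

/-- `Φ` additive and `p`-semilinear: generators go to generators (note `c • v = algebraMap c • v` for `c : k`). -/
theorem frob_gen (p : ℕ) (Φ : V → V) (hadd : ∀ u v, Φ (u + v) = Φ u + Φ v)
    (hsmul : ∀ (f : KK k) v, Φ (f • v) = f ^ p • Φ v) (G : Set (Deg × V)) :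
    frob p Φ (gen n G : Fam k n V) = gen n ((fun q => ((p : ℤ) • q.1, Φ q.2)) '' G) := by
  refine le_antisymm (gen_le_iff.2 ?_) (gen_le_iff.2 ?_)
  · rintro _ ⟨δ, v, hv, rfl⟩
    dsimp only
    induction hv using Submodule.span_induction with
    | mem x h =>
      obtain ⟨q, hq, f, hf, rfl⟩ := h
      exact Submodule.subset_span
        ⟨_, ⟨q, hq, rfl⟩, f ^ p, by simpa only [smul_sub] using pow_mem_S hf p, hsmul f _⟩
    | zero =>
      rw [show Φ 0 = 0 from left_eq_add.1 (by simpa only [add_zero] using hadd 0 0)]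
      exact zero_mem _
    | add a b _ _ ha hb => rw [hadd]; exact add_mem ha hb
    | smul c a _ ha =>
      rw [← algebraMap_smul (KK k) c, hsmul, ← map_pow, algebraMap_smul]
      exact Submodule.smul_mem _ _ ha
  · rintro _ ⟨q, hq, rfl⟩
    exact mem_frob p Φ (subset_gen hq)

theorem basic2_expChar (p : ℕ) [ExpChar k p] : ExpChar (KK k) p :=
  expChar_of_injective_algebraMap (algebraMap k (KK k)).injective p

theorem basic2_frob_sup (p : ℕ) (Φ : V → V) (hadd : ∀ u v, Φ (u + v) = Φ u + Φ v)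
    (A A' : Fam k n V) : frob p Φ (A ⊔ A') = frob p Φ A ⊔ frob p Φ A' := by
  refine le_antisymm (gen_le_iff.2 ?_)
    (sup_le (frob_mono p Φ le_sup_left) (frob_mono p Φ le_sup_right))
  rintro _ ⟨δ, v, hv, rfl⟩
  obtain ⟨a, ha, b, hb, rfl⟩ := Submodule.mem_sup.1 hv
  dsimp only
  rw [hadd]
  exact Submodule.add_mem_sup (mem_frob p Φ ha) (mem_frob p Φ hb)

theorem frobK_gen (p : ℕ) [ExpChar k p] (G : Set (Deg × KK k)) :
    frobK p (gen n G : Fam k n (KK k)) = gen n ((fun q => ((p : ℤ) • q.1, q.2 ^ p)) '' G) := by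
  have := basic2_expChar (k := k) p
  exact frob_gen p _ (fun u v => add_pow_expChar u v p) (fun f v => mul_pow f v p) G

theorem frobV_gen {ι : Type} (p : ℕ) [ExpChar k p] (G : Set (Deg × (ι → KK k))) :
    frobV p (gen n G : Fam k n (ι → KK k)) =
      gen n ((fun q => ((p : ℤ) • q.1, fun i => q.2 i ^ p)) '' G) := by
  have := basic2_expChar (k := k) p
  exact frob_gen p _ (fun u v => funext fun i => add_pow_expChar (u i) (v i) p)
    (fun f v => funext fun i => mul_pow f (v i) p) G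

theorem FG.frobK {I : Fam k n (KK k)} (h : I.FG) (p : ℕ) [ExpChar k p] : (frobK p I).FG := by
  obtain ⟨G, hG, rfl⟩ := h
  exact ⟨_, hG.image _, frobK_gen p G⟩

theorem FG.frobV {ι : Type} {N : Fam k n (ι → KK k)} (h : N.FG) (p : ℕ) [ExpChar k p] :
    (frobV p N).FG := by
  obtain ⟨G, hG, rfl⟩ := h
  exact ⟨_, hG.image _, frobV_gen p G⟩

theorem frobK_SF (p : ℕ) [ExpChar k p] : frobK p (SF k n) = SF k n := by
  rw [SF_eq_gen, frobK_gen, Set.image_singleton, smul_zero, one_pow]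

theorem frobK_le_SF (p : ℕ) {I : Fam k n (KK k)} (h : I ≤ SF k n) : frobK p I ≤ SF k n := by
  refine gen_le_iff.2 ?_
  rintro _ ⟨δ, v, hv, rfl⟩
  exact pow_mem_S (h δ hv) p

theorem frobK_sup_gen (p : ℕ) [ExpChar k p] (X : Fam k n (KK k)) (δ : Deg) (w : KK k) :
    frobK p (X ⊔ gen n {(δ, w)}) = frobK p X ⊔ gen n {((p : ℤ) • δ, w ^ p)} := by
  have := basic2_expChar (k := k) p
  rw [frobK, basic2_frob_sup p _ fun u v => add_pow_expChar u v p]
  exact congrArg _ ((frobK_gen p _).trans (by rw [Set.image_singleton]))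

theorem frobK_colon_le (p : ℕ) [ExpChar k p] (X : Fam k n (KK k)) (δ : Deg) (w : KK k) :
    frobK p (X.colon δ w) ≤ (frobK p X).colon ((p : ℤ) • δ) (w ^ p) := by
  refine gen_le_iff.2 ?_
  rintro _ ⟨γ, f, hf, rfl⟩
  refine mem_colon.2 ⟨pow_mem_S hf.1 p, ?_⟩
  rw [smul_eq_mul, ← mul_pow, ← smul_add]
  exact mem_frob p (fun f => f ^ p) (mem_colon.1 hf).2

/-! ### `span` -/

theorem mem_span_of_mem {N : Fam k n V} {γ : Deg} {v : V} (h : v ∈ N.sub γ) : v ∈ N.span :=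
  Submodule.subset_span ⟨γ, h⟩

theorem span_le_iff {N : Fam k n V} {W : Submodule (KK k) V} :
    N.span ≤ W ↔ ∀ γ, ∀ v ∈ N.sub γ, v ∈ W := by
  exact Submodule.span_le.trans ⟨fun h γ v hv => h ⟨γ, hv⟩, fun h v ⟨γ, hv⟩ => h γ v hv⟩

theorem span_mono {A A' : Fam k n V} (h : A ≤ A') : A.span ≤ A'.span := by
  exact span_le_iff.2 fun γ v hv => mem_span_of_mem (h γ hv)

theorem span_gen (G : Set (Deg × V)) :
    (gen n G : Fam k n V).span = Submodule.span (KK k) (Prod.snd '' G) := by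
  refine le_antisymm (span_le_iff.2 fun γ => ?_) (Submodule.span_le.2 ?_)
  · refine Submodule.span_le (p := (Submodule.span (KK k) (Prod.snd '' G)).restrictScalars k) |>.2 ?_
    rintro _ ⟨p, hp, f, -, rfl⟩
    exact Submodule.smul_mem (Submodule.span (KK k) (Prod.snd '' G)) f
      (Submodule.subset_span ⟨p, hp, rfl⟩)
  · rintro _ ⟨p, hp, rfl⟩
    exact mem_span_of_mem (subset_gen hp)

theorem span_map (ψ : V →ₗ[KK k] V') (N : Fam k n V) : (N.map ψ).span = N.span.map ψ := by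
  refine (congrArg _ (Set.ext fun x => ⟨?_, ?_⟩)).trans (Submodule.map_span _ _).symm
  · rintro ⟨γ, v, hv, rfl⟩
    exact ⟨v, ⟨γ, hv⟩, rfl⟩
  · rintro ⟨v, ⟨γ, hv⟩, rfl⟩
    exact ⟨γ, v, hv, rfl⟩

theorem span_shift (α : Deg) (N : Fam k n V) : (N.shift α).span = N.span := by
  refine le_antisymm (span_le_iff.2 fun γ v hv => mem_span_of_mem (N := N) hv)
    (span_le_iff.2 fun γ v hv => mem_span_of_mem (γ := γ - α) ?_)
  rwa [shift_sub, sub_add_cancel]

theorem span_sup (A A' : Fam k n V) : (A ⊔ A').span = A.span ⊔ A'.span := by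
  refine le_antisymm (span_le_iff.2 fun γ v hv => ?_)
    (sup_le (span_mono le_sup_left) (span_mono le_sup_right))
  obtain ⟨a, ha, b, hb, rfl⟩ := Submodule.mem_sup.1 hv
  exact Submodule.add_mem_sup (mem_span_of_mem ha) (mem_span_of_mem hb)

theorem span_eq_bot_iff {N : Fam k n V} : N.span = ⊥ ↔ N = ⊥ := by
  rw [← le_bot_iff, ← le_bot_iff, span_le_iff]
  rfl

theorem span_SF : (SF k n).span = ⊤ := by
  exact (Ideal.eq_top_iff_one _).2 (mem_span_of_mem (N := SF k n) (one_mem_S le_rfl))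

theorem rk_shift (α : Deg) (N : Fam k n V) : (N.shift α).rk = N.rk := by
  rw [rk, span_shift, rk]

theorem rk_bot : (⊥ : Fam k n V).rk = 0 := by
  rw [rk, span_eq_bot_iff.2 rfl, finrank_bot]

theorem rk_SF : (SF k n).rk = 1 := by
  rw [rk, span_SF, finrank_top, finrank_self]

theorem rk_eq_one {I : Fam k n (KK k)} (h : I ≠ ⊥) : I.rk = 1 := by
  rw [rk, (Ideal.eq_bot_or_top I.span).resolve_left (mt span_eq_bot_iff.1 h), finrank_top,
    finrank_self]

theorem rk_mono [FiniteDimensional (KK k) V] {A A' : Fam k n V} (h : A ≤ A') : A.rk ≤ A'.rk := by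
  exact Submodule.finrank_mono (span_mono h)

theorem rk_eq_zero_iff [FiniteDimensional (KK k) V] {N : Fam k n V} : N.rk = 0 ↔ N = ⊥ := by
  exact Submodule.finrank_eq_zero.trans span_eq_bot_iff

theorem span_eq_of_rk_eq [FiniteDimensional (KK k) V] {A A' : Fam k n V} (h : A ≤ A')
    (hr : A.rk = A'.rk) : A.span = A'.span := by
  exact Submodule.eq_of_le_of_finrank_eq (span_mono h) hr

end Fam

end Crest.Agent.R169
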