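import Crest.Agent.R169.Comb2

/-!
# rid 169, file `Comb4`: sums over the characters

`Fin 5 → Fin n` is the group `(ℤ/n)^5` (`Fin n` is an additive group for `NeZero n`; or transport to `ZMod n`).
Prefix helper lemmas with `comb4_`.
-/

set_option autoImplicit false

namespace Crest.Agent.R169

variable {n : ℕ} [NeZero n] {M : Type} [AddCommMonoid M]

/-- reduction mod `n` -/
def comb4_md (n : ℕ) [NeZero n] (i : ℤ) : Fin n :=
  ⟨(i % n).toNat, by
    have h0 : (0 : ℤ) < n := by exact_mod_cast NeZero.pos n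
    have h1 := Int.emod_lt_of_pos i h0
    have h2 := Int.emod_nonneg i h0.ne'
    omega⟩

theorem comb4_md_val (i : ℤ) : ((comb4_md n i : ℕ) : ℤ) = i % n :=
  Int.toNat_of_nonneg (Int.emod_nonneg i (by exact_mod_cast NeZero.ne n))

omit [NeZero n] in
theorem comb4_emod (i : Fin n) : ((i : ℕ) : ℤ) % n = (i : ℕ) :=
  Int.emod_eq_of_lt (Int.natCast_nonneg _) (by exact_mod_cast i.2)

omit [NeZero n] in
theorem comb4_eq {i j : Fin n} (h : ((i : ℕ) : ℤ) ≡ (j : ℕ) [ZMOD n]) : i = j := by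
  have h1 : ((i : ℕ) : ℤ) % n = ((j : ℕ) : ℤ) % n := h
  rw [comb4_emod, comb4_emod] at h1
  exact Fin.ext (by exact_mod_cast h1)

theorem comb4_modEq {i j : ℤ} (h : comb4_md n i = comb4_md n j) : i ≡ j [ZMOD n] := by
  have := congrArg (fun x : Fin n => ((x : ℕ) : ℤ)) h
  simp only [comb4_md_val] at this
  exact this

theorem comb4_sum (G : (Fin 5 → ℤ) → M) (hG : ∀ ρ ρ' : Fin 5 → ℤ, G (ρ + (n : ℤ) • ρ') = G ρ)
    (φ : (Fin 5 → Fin n) → Fin 5 → ℤ)
    (hφ : ∀ c c' i, φ c i ≡ φ c' i [ZMOD n] → chr c i ≡ chr c' i [ZMOD n]) :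
    ∑ c : Fin 5 → Fin n, G (φ c) = ∑ c : Fin 5 → Fin n, G (chr c) := by
  have hb : Function.Bijective fun (c : Fin 5 → Fin n) (i : Fin 5) => comb4_md n (φ c i) :=
    Finite.injective_iff_bijective.1 fun c c' h =>
      funext fun i => comb4_eq (hφ c c' i (comb4_modEq (congrFun h i)))
  rw [← hb.sum_comp fun c => G (chr c)]
  refine Finset.sum_congr rfl fun c _ => ?_
  rw [← hG (chr _) fun i => φ c i / n]
  congr 1
  funext i
  simp only [chr, comb4_md_val, Pi.add_apply, Pi.smul_apply, smul_eq_mul, Int.emod_add_mul_ediv]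

theorem comb4_sum1 (g : ℤ → M) (hg : ∀ i, g (i + n) = g i) (a : ℤ) :
    ∑ i : Fin n, g (a + (i : ℕ)) = ∑ i : Fin n, g (i : ℕ) := by
  have hb : Function.Bijective fun i : Fin n => comb4_md n (a + (i : ℕ)) :=
    Finite.injective_iff_bijective.1 fun i j h => comb4_eq ((comb4_modEq h).add_left_cancel' a)
  rw [← hb.sum_comp fun i => g (i : ℕ)]
  refine Finset.sum_congr rfl fun i _ => ?_
  rw [comb4_md_val, ← Function.Periodic.int_mul hg ((a + (i : ℕ)) / n) ((a + (i : ℕ)) % n),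
    Int.cast_id, Int.emod_add_ediv_mul]

/-- Translation of the characters is a bijection (`c ↦ c + ρ0 mod n`). -/
theorem sum_chr_add (G : (Fin 5 → ℤ) → M) (hG : ∀ ρ ρ' : Fin 5 → ℤ, G (ρ + (n : ℤ) • ρ') = G ρ)
    (ρ0 : Fin 5 → ℤ) : ∑ c : Fin 5 → Fin n, G (chr c + ρ0) = ∑ c : Fin 5 → Fin n, G (chr c) := by
  exact comb4_sum G hG _ fun c c' i h => Int.ModEq.add_right_cancel' (ρ0 i) h

theorem sum_chr_neg (G : (Fin 5 → ℤ) → M) (hG : ∀ ρ ρ' : Fin 5 → ℤ, G (ρ + (n : ℤ) • ρ') = G ρ) :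
    ∑ c : Fin 5 → Fin n, G (-chr c) = ∑ c : Fin 5 → Fin n, G (chr c) := by
  exact comb4_sum G hG _ fun c c' i h => by simpa using Int.ModEq.neg h

/-- Equidistribution at a node.  Proof: let `T(a,b) = ∑ c, G ((γ + rel c) e + a) ((γ + rel c) e' + b)`.  By `sum_chr_add`
and `exists_rel_pair`, `T(a,b) = T(0,0)`.  Sum over `(a,b) ∈ Fin n × Fin n` and swap: `n² T(0,0) = n^5 ∑∑ G` by periodicity. -/
theorem sum_chr_pair {e e' : Fin 10} (h : Adj e e') (G : ℤ → ℤ → ℚ)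
    (h1 : ∀ i j, G (i + n) j = G i j) (h2 : ∀ i j, G i (j + n) = G i j) (γ : Deg) :
    ∑ c : Fin 5 → Fin n, G ((γ + rel (chr c)) e) ((γ + rel (chr c)) e') =
      (n : ℚ) ^ 3 * ∑ i : Fin n, ∑ j : Fin n, G ((i : ℕ) : ℤ) ((j : ℕ) : ℤ) := by
  have hper : ∀ i j k l : ℤ, G (i + n * k) (j + n * l) = G i j := fun i j k l => by
    have e1 := Function.Periodic.int_mul (f := fun i => G i (j + n * l)) (fun i => h1 i _) k i
    have e2 := Function.Periodic.int_mul (f := G i) (fun j => h2 i j) l j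
    simp only [Int.cast_id] at e1 e2
    rw [mul_comm _ k, e1, mul_comm _ l, e2]
  have hT : ∀ a b : ℤ, ∑ c : Fin 5 → Fin n, G ((γ + rel (chr c)) e + a) ((γ + rel (chr c)) e' + b) =
      ∑ c : Fin 5 → Fin n, G ((γ + rel (chr c)) e) ((γ + rel (chr c)) e') := fun a b => by
    obtain ⟨ρ, ha, hb⟩ := exists_rel_pair h a b
    rw [← sum_chr_add (n := n) (fun ρ => G ((γ + rel ρ) e) ((γ + rel ρ) e')) (fun ρ ρ' => by
      simp only [rel_add, rel_smul, Pi.add_apply, Pi.smul_apply, smul_eq_mul, ← add_assoc, hper]) ρ]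
    simp only [rel_add, Pi.add_apply, ha, hb, add_assoc]
  have h3 : ∑ a : Fin n, ∑ b : Fin n, ∑ c : Fin 5 → Fin n,
      G ((γ + rel (chr c)) e + (a : ℕ)) ((γ + rel (chr c)) e' + (b : ℕ)) =
      ∑ c : Fin 5 → Fin n, ∑ i : Fin n, ∑ j : Fin n, G ((i : ℕ) : ℤ) ((j : ℕ) : ℤ) := by
    rw [Finset.sum_congr rfl fun a _ => Finset.sum_comm, Finset.sum_comm]
    refine Finset.sum_congr rfl fun c _ => ?_
    rw [Finset.sum_congr rfl fun a _ => comb4_sum1 _ (h2 _) _]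
    exact comb4_sum1 (fun i => ∑ j : Fin n, G i ((j : ℕ) : ℤ)) (fun i => by simp only [h1]) _
  simp only [hT, Finset.sum_const, Finset.card_univ, Fintype.card_fin, Fintype.card_pi,
    Finset.prod_const, nsmul_eq_mul] at h3
  have hn : (n : ℚ) ≠ 0 := by exact_mod_cast NeZero.ne n
  refine mul_left_cancel₀ (mul_ne_zero hn hn) ?_
  push_cast at h3
  linear_combination h3

theorem comb4_gauss (n : ℕ) : ∑ i : Fin n, ((i : ℕ) : ℚ) = n * (n - 1) / 2 ∧
    ∑ i : Fin n, ((i : ℕ) : ℚ) * (i : ℕ) = n * (n - 1) * (2 * n - 1) / 6 := by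
  induction n with
  | zero => simp
  | succ n ih =>
    simp only [Fin.sum_univ_castSucc, Fin.val_castSucc, Fin.val_last, ih.1, ih.2]
    push_cast
    constructor <;> ring

omit [NeZero n] in
theorem comb4_chi (γ : Deg) (ρ : Fin 5 → ℤ) (ε : Fin 10 → ℚ)
    (hε : ∀ e, ε e = (((γ + rel ρ) e % n : ℤ) : ℚ)) :
    (n : ℚ) ^ 2 * chi (flr n (γ + rel ρ)) = qq (toQ γ) + n * (∑ e, toQ γ e) / 2 + n ^ 2 -
      ∑ e, (Bv (toQ γ) e + n / 2) * ε e +
      (∑ e, (ε e * ε (nb e 0) + ε e * ε (nb e 1) + ε e * ε (nb e 2) - ε e * ε e)) / 2 := by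
  have h1 : (n : ℚ) • toQ (flr n (γ + rel ρ)) = toQ γ + rel (fun i => (ρ i : ℚ)) - ε := by
    rw [← toQ_rel, ← toQ_add]
    funext e
    have := Int.emod_add_mul_ediv ((γ + rel ρ) e) n
    rw [Pi.sub_apply, hε, eq_sub_iff_add_eq', Pi.smul_apply, smul_eq_mul, toQ, toQ, flr]
    exact_mod_cast this
  have h2 : (n : ℚ) ^ 2 * qq (toQ (flr n (γ + rel ρ))) = qq (toQ γ) - B ε (toQ γ) + qq ε := by
    have := congrArg qq h1
    simp only [qq, B_smul_left, B_smul_right, B_sub_left, B_sub_right, B_add_left, B_add_right,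
      B_rel_left, B_rel_right, B_comm (toQ γ) ε] at this ⊢
    linear_combination this
  have h3 : (n : ℚ) * ∑ e, toQ (flr n (γ + rel ρ)) e = ∑ e, toQ γ e - ∑ e, ε e := by
    have := congrArg (fun y => ∑ e, y e) h1
    simp only [Pi.smul_apply, smul_eq_mul, Pi.sub_apply, Pi.add_apply, Finset.sum_sub_distrib,
      Finset.sum_add_distrib, sum_rel, ← Finset.mul_sum, add_zero] at this
    exact this
  have h4 : ∑ e, (Bv (toQ γ) e + n / 2) * ε e = B ε (toQ γ) + n / 2 * ∑ e, ε e := by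
    rw [B, Finset.mul_sum, ← Finset.sum_add_distrib]
    exact Finset.sum_congr rfl fun e _ => by ring
  have h5 : ∑ e, (ε e * ε (nb e 0) + ε e * ε (nb e 1) + ε e * ε (nb e 2) - ε e * ε e) = B ε ε :=
    Finset.sum_congr rfl fun e _ => by rw [Bv]; ring
  rw [h4, h5]
  change _ * (_ + (∑ e, toQ (flr n (γ + rel ρ)) e) / 2 + 1) = _
  rw [qq] at h2
  unfold qq at h2 ⊢
  linear_combination h2 + (n / 2 : ℚ) * h3

/-- Riemann–Roch on the root stack.  Proof: with `ε = (γ + rel c) mod n` (coordinatewise, `Int.emod`),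
`n • flr = γ + rel c - ε`, so `n² chi = qq γ - B γ ε + qq ε + n (∑ γ - ∑ ε)/2 + n²`.  By `sum_chr_pair` the averages over `c` of
`ε e`, `(ε e)²`, `ε e * ε e'` (adjacent) are `(n-1)/2`, `(n-1)(2n-1)/6`, `(n-1)²/4`; `B γ ε = ∑ e, ε e * Bv γ e`,
`∑ e, Bv γ e = 2 ∑ γ`, `2 qq ε = ∑ e, ε e * (ε (nb e 0) + ε (nb e 1) + ε (nb e 2)) - ∑ (ε e)²`.  The total is
`n^5 / n² * (qq γ - (n-2)/2 ∑ γ + 7n²/12 - 5n/2 + 35/12)`, and the bracket is `Pol n 1 0 0 γ`. -/
theorem sum_chi (γ : Deg) :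
    ∑ c : Fin 5 → Fin n, chi (flr n (γ + rel (chr c))) = (n : ℚ) ^ 3 * Pol n 1 0 0 γ := by
  obtain ⟨g1, g2⟩ := comb4_gauss n
  have hn : (n : ℚ) ≠ 0 := by exact_mod_cast NeZero.ne n
  let ε : (Fin 5 → Fin n) → Fin 10 → ℚ := fun c e => (((γ + rel (chr c)) e % n : ℤ) : ℚ)
  have e1 : ∀ e, ∑ c, ε c e = n ^ 5 * (n - 1) / 2 := fun e => by
    have := sum_chr_pair (n := n) (adj_nb e 0) (fun i _ => ((i % n : ℤ) : ℚ))
      (fun i _ => by rw [Int.add_emod_right]) (fun _ _ => rfl) γ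
    simp only [comb4_emod, Finset.sum_const, Finset.card_univ, Fintype.card_fin, nsmul_eq_mul,
      ← Finset.mul_sum, Int.cast_natCast, g1] at this
    linear_combination this
  have e2 : ∀ e, ∑ c, ε c e * ε c e = n ^ 5 * (n - 1) * (2 * n - 1) / 6 := fun e => by
    have := sum_chr_pair (n := n) (adj_nb e 0) (fun i _ => ((i % n : ℤ) : ℚ) * ((i % n : ℤ) : ℚ))
      (fun i _ => by rw [Int.add_emod_right]) (fun _ _ => rfl) γ
    simp only [comb4_emod, Finset.sum_const, Finset.card_univ, Fintype.card_fin, nsmul_eq_mul,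
      ← Finset.mul_sum, Int.cast_natCast, g2] at this
    linear_combination this
  have e3 : ∀ e i, ∑ c, ε c e * ε c (nb e i) = n ^ 5 * (n - 1) ^ 2 / 4 := fun e i => by
    have := sum_chr_pair (n := n) (adj_nb e i) (fun i j => ((i % n : ℤ) : ℚ) * ((j % n : ℤ) : ℚ))
      (fun i _ => by rw [Int.add_emod_right]) (fun _ _ => by rw [Int.add_emod_right]) γ
    simp only [comb4_emod, ← Finset.mul_sum, ← Finset.sum_mul, Int.cast_natCast, g1] at this
    linear_combination this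
  have h1 := Finset.sum_congr (s₁ := Finset.univ) rfl fun c _ =>
    comb4_chi γ (chr c) (ε c) fun _ => rfl
  have h2 : ∑ c, ∑ e, (Bv (toQ γ) e + n / 2) * ε c e =
      (2 * ∑ e, toQ γ e + 5 * n) * (n ^ 5 * (n - 1) / 2) := by
    rw [Finset.sum_comm]
    simp only [← Finset.mul_sum, e1]
    rw [← Finset.sum_mul, Finset.sum_add_distrib, ← B_one_left, B]
    simp only [Pi.one_apply, one_mul, Finset.sum_const, Finset.card_univ, Fintype.card_fin,
      nsmul_eq_mul]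
    push_cast
    ring
  have h3 : ∑ c, ∑ e, (ε c e * ε c (nb e 0) + ε c e * ε c (nb e 1) + ε c e * ε c (nb e 2) -
      ε c e * ε c e) = 10 * (3 * (n ^ 5 * (n - 1) ^ 2 / 4) - n ^ 5 * (n - 1) * (2 * n - 1) / 6) := by
    rw [Finset.sum_comm]
    simp only [Finset.sum_sub_distrib, Finset.sum_add_distrib, e2, e3, Finset.sum_const,
      Finset.card_univ, Fintype.card_fin, nsmul_eq_mul]
    push_cast
    ring
  rw [← Finset.mul_sum, Finset.sum_add_distrib, Finset.sum_sub_distrib, ← Finset.sum_div, h2, h3,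
    Finset.sum_const, Finset.card_univ, Fintype.card_pi, Finset.prod_const, Fintype.card_fin,
    Finset.card_univ, Fintype.card_fin, nsmul_eq_mul] at h1
  have h4 : Pol n 1 0 0 γ = qq (toQ γ) - (n - 2) / 2 * ∑ e, toQ γ e + 7 * n ^ 2 / 12 - 5 * n / 2 +
      35 / 12 := by
    have k1 : B (kap2 n) (toQ γ) = 2 * ((n - 2) / 4) * ∑ e, toQ γ e := B_const_left _ _
    have k2 : B (kap2 n) (kap2 n) = 2 * ((n - 2) / 4) * ∑ e, kap2 n e := B_const_left _ _
    simp only [kap2, Finset.sum_const, Finset.card_univ, Fintype.card_fin, nsmul_eq_mul] at k2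
    simp only [Pol, toQ_zero, B_zero_right, qq, B_sub_left, B_sub_right, B_comm (toQ γ) (kap2 n),
      sig, k1]
    push_cast at k2 ⊢
    linear_combination k2 / 2
  refine mul_left_cancel₀ (pow_ne_zero 2 hn) ?_
  rw [h1, h4]
  push_cast
  ring

/-- `(i, x) ↦ i + n x` is a bijection onto `[0, n p)`, and `y ↦ y / p` takes each value of `[0, n)` exactly `p` times. -/
theorem sum_floor_frob {p : ℕ} (hp : 0 < p) (G : ℤ → ℕ) :
    ∑ i : Fin n, ∑ x : Fin p, G (((i : ℕ) + (n : ℤ) * (x : ℕ)) / p) = p * ∑ i : Fin n, G (i : ℕ) := by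
  have h1 : ∀ (a b : ℕ) (H : ℕ → ℕ), ∑ x : Fin a, ∑ i : Fin b, H (i + b * x) =
      ∑ y ∈ Finset.range (a * b), H y := fun a b H => by
    rw [← Fin.sum_univ_eq_sum_range, ← finProdFinEquiv.sum_comp, Fintype.sum_prod_type]
    rfl
  have h2 := h1 p n fun y => G ((y : ℤ) / p)
  have h3 := h1 n p fun y => G ((y : ℤ) / p)
  have hp' : (p : ℤ) ≠ 0 := by exact_mod_cast hp.ne'
  have h4 : ∀ (i : Fin n) (x : Fin p), (((x : ℕ) + p * (i : ℕ) : ℕ) : ℤ) / p = (i : ℕ) := fun i x => by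
    rw [← Int.natCast_div, Nat.add_mul_div_left _ _ hp, Nat.div_eq_of_lt x.2, zero_add]
  simp only [h4, Finset.sum_const, Finset.card_univ, Fintype.card_fin, smul_eq_mul] at h3
  rw [Finset.sum_comm, Finset.mul_sum, h3, mul_comm n p, ← h2]
  push_cast
  rfl

end Crest.Agent.R169
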