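import Crest.Agent.R169.Basic2
import Crest.Agent.R169.Comb4

/-!
# rid 169, file `Basic3`: dimensions of families

Routine API.  Prefix helper lemmas with `basic3_`.
-/

set_option autoImplicit false

namespace Crest.Agent.R169

open Filter Module

theorem basic3_rank_nullity {F M M' : Type} [Field F] [AddCommGroup M] [Module F M] [AddCommGroup M']
    [Module F M'] (A : Submodule F M) [FiniteDimensional F A] (ψ : M →ₗ[F] M') :
    finrank F A = finrank F ↥(A ⊓ LinearMap.ker ψ) + finrank F (A.map ψ) := by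
  rw [← LinearMap.finrank_range_add_finrank_ker (ψ.domRestrict A), LinearMap.range_domRestrict,
    LinearMap.ker_domRestrict, ← Submodule.finrank_map_subtype_eq, Submodule.map_comap_subtype,
    add_comm]

theorem basic3_sup_map {F M M' : Type} [Field F] [AddCommGroup M] [Module F M] [AddCommGroup M']
    [Module F M'] (X : Submodule F M') [FiniteDimensional F X] (A : Submodule F M)
    [FiniteDimensional F A] (ψ : M →ₗ[F] M') :
    finrank F ↥(X ⊔ A.map ψ) + finrank F ↥(A ⊓ X.comap ψ) = finrank F X + finrank F A := by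
  have h1 := Submodule.finrank_sup_add_finrank_inf_eq X (A.map ψ)
  have h2 := basic3_rank_nullity A ψ
  have h3 := basic3_rank_nullity (A ⊓ X.comap ψ) ψ
  have h4 : A ⊓ X.comap ψ ⊓ LinearMap.ker ψ = A ⊓ LinearMap.ker ψ := by
    rw [inf_assoc, inf_eq_right.2 (LinearMap.ker_le_comap ψ)]
  rw [h4, ← Submodule.map_inf_eq_map_inf_comap, inf_comm (A.map ψ)] at h3
  omega

theorem basic3_chr_zero {n : ℕ} [NeZero n] : chr (0 : Fin 5 → Fin n) = 0 := by
  funext i
  simp [chr]

namespace Fam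

variable {k : Type} [Field k] {n : ℕ}
  {V : Type} [AddCommGroup V] [Module (KK k) V] [Module k V] [IsScalarTower k (KK k) V]
  {V' : Type} [AddCommGroup V'] [Module (KK k) V'] [Module k V'] [IsScalarTower k (KK k) V']
  {V'' : Type} [AddCommGroup V''] [Module (KK k) V''] [Module k V''] [IsScalarTower k (KK k) V'']

variable [NeZero n]

/-- Clear denominators with `exists_denom`. -/
theorem exists_smul_mem {N : Fam k n V} {v : V} (hv : v ∈ N.span) (ε : Deg) :
    ∀ᶠ γ in deep, ∃ g : KK k, g ≠ 0 ∧ g ∈ S k n γ ∧ g • v ∈ N.sub (γ + ε) := by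
  obtain ⟨l, f, u, rfl⟩ := Submodule.mem_span_set'.1 hv
  choose δ hδ using fun i => (u i).2
  refine (exists_denom (n := n) f fun i => ε - δ i).mono fun γ ⟨g, h0, h1, h2⟩ => ⟨g, h0, h1, ?_⟩
  rw [Finset.smul_sum]
  refine Submodule.sum_mem _ fun i _ => ?_
  have := N.smul_mem (h2 i) (hδ i)
  rwa [add_assoc, sub_add_cancel, mul_smul] at this

theorem span_infW (N : Fam k n V) (W : Submodule (KK k) V) : (N.infW W).span = N.span ⊓ W := by
  refine le_antisymm (span_le_iff.2 fun γ v hv => ⟨mem_span_of_mem hv.1, hv.2⟩) fun v hv => ?_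
  obtain ⟨γ, g, h0, -, h2⟩ := (exists_smul_mem hv.1 0).exists
  have h3 : g • v ∈ (N.infW W).span := mem_span_of_mem (mem_infW.2 ⟨h2, W.smul_mem g hv.2⟩)
  have := Submodule.smul_mem _ g⁻¹ h3
  rwa [inv_smul_smul₀ h0] at this

theorem rk_map_add [FiniteDimensional (KK k) V] (ψ : V →ₗ[KK k] V') (N : Fam k n V) :
    N.rk = (N.infW (LinearMap.ker ψ)).rk + (N.map ψ).rk := by
  rw [rk, rk, rk, span_infW, span_map]
  exact basic3_rank_nullity _ ψ

/-! ### dimensions -/

theorem FG.finite {N : Fam k n V} (h : N.FG) (γ : Deg) : FiniteDimensional k (N.sub γ) := by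
  obtain ⟨l, δ, u, rfl⟩ := h.exists_fin
  refine Submodule.finiteDimensional_of_le (S₂ := ⨆ i, (S k n (γ - δ i)).map
    ((LinearMap.toSpanSingleton (KK k) V (u i)).restrictScalars k)) fun v hv => ?_
  obtain ⟨f, hf, rfl⟩ := mem_gen_range.1 hv
  exact Submodule.sum_mem _ fun i _ => Submodule.mem_iSup_of_mem i ⟨f i, hf i, rfl⟩

omit [NeZero n] in
theorem mem_add_rel_iff (N : Fam k n V) (γ : Deg) (ρ : Fin 5 → ℤ) (v : V) :
    v ∈ N.sub (γ + (n : ℤ) • rel ρ) ↔ R169.mono k ρ • v ∈ N.sub γ := by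
  constructor
  · intro h
    have := N.smul_mem (mono_mem_S_neg ρ) h
    rwa [neg_add_cancel_comm_assoc] at this
  · intro h
    have := N.smul_mem (mono_mem_S_neg (-ρ)) h
    rwa [rel_neg, smul_neg, neg_neg, mono_neg, inv_smul_smul₀ (mono_ne_zero k ρ), add_comm] at this

omit [NeZero n] in
theorem dim_add_rel (N : Fam k n V) (γ : Deg) (ρ : Fin 5 → ℤ) :
    N.dim (γ + (n : ℤ) • rel ρ) = N.dim γ := by
  have h : N.sub (γ + (n : ℤ) • rel ρ) = (N.sub γ).comap
      ((LinearEquiv.smulOfNeZero (KK k) V _ (mono_ne_zero k ρ)).restrictScalars k : V →ₗ[k] V) := by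
    ext v
    exact N.mem_add_rel_iff γ ρ v
  rw [dim, dim, h, Submodule.comap_equiv_eq_map_symm, LinearEquiv.finrank_map_eq]

omit [NeZero n] in
theorem basic3_per (N : Fam k n V) (γ : Deg) (ρ ρ' : Fin 5 → ℤ) :
    N.dim (γ + rel (ρ + (n : ℤ) • ρ')) = N.dim (γ + rel ρ) := by
  rw [rel_add, rel_smul, ← add_assoc, dim_add_rel]

theorem cdim_add_rel (N : Fam k n V) (γ : Deg) (ρ : Fin 5 → ℤ) : N.cdim (γ + rel ρ) = N.cdim γ := by
  have := sum_chr_add (n := n) (fun ρ' => N.dim (γ + rel ρ')) (basic3_per N γ) ρ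
  rw [cdim, cdim, ← this]
  refine Finset.sum_congr rfl fun c _ => ?_
  rw [rel_add, add_assoc, add_comm (rel ρ)]

theorem sum_dim_sub_rel (N : Fam k n V) (γ : Deg) :
    ∑ c : Fin 5 → Fin n, N.dim (γ - rel (chr c)) = N.cdim γ := by
  have := sum_chr_neg (n := n) (fun ρ' => N.dim (γ + rel ρ')) (basic3_per N γ)
  rw [cdim, ← this]
  refine Finset.sum_congr rfl fun c _ => ?_
  rw [rel_neg, sub_eq_add_neg]

theorem dim_le_cdim (N : Fam k n V) (γ : Deg) : N.dim γ ≤ N.cdim γ := by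
  have := Finset.single_le_sum (f := fun c : Fin 5 → Fin n => N.dim (γ + rel (chr c)))
    (fun _ _ => Nat.zero_le _) (Finset.mem_univ 0)
  rwa [basic3_chr_zero, rel_zero, add_zero] at this

omit [NeZero n] in
theorem cdim_shift (α γ : Deg) (N : Fam k n V) : (N.shift α).cdim γ = N.cdim (γ + α) := by
  refine Finset.sum_congr rfl fun c _ => ?_
  rw [dim, dim, shift_sub, add_right_comm]

omit [NeZero n] in
theorem cdim_bot (γ : Deg) : (⊥ : Fam k n V).cdim γ = 0 := by
  refine Finset.sum_eq_zero fun c _ => ?_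
  rw [dim, bot_sub, finrank_bot]

theorem dim_mono {A A' : Fam k n V} (hA : A'.FG) (h : A ≤ A') (γ : Deg) : A.dim γ ≤ A'.dim γ := by
  have := hA.finite γ
  exact Submodule.finrank_mono (h γ)

theorem cdim_mono {A A' : Fam k n V} (hA : A'.FG) (h : A ≤ A') (γ : Deg) : A.cdim γ ≤ A'.cdim γ := by
  exact Finset.sum_le_sum fun c _ => dim_mono hA h _

theorem basic3_dim_add_cdim_le {A A' : Fam k n V} (hA : A'.FG) (h : A ≤ A') (γ : Deg) :
    A'.dim γ + A.cdim γ ≤ A.dim γ + A'.cdim γ := by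
  have h1 := Finset.sum_le_sum (s := Finset.univ.erase (0 : Fin 5 → Fin n))
    fun c _ => dim_mono hA h (γ + rel (chr c))
  rw [cdim, cdim, ← Finset.add_sum_erase _ _ (Finset.mem_univ 0),
    ← Finset.add_sum_erase _ _ (Finset.mem_univ 0), basic3_chr_zero, rel_zero, add_zero]
  omega

/-- If the sums over the characters agree then the pieces agree. -/
theorem sub_eq_of_cdim_eq {A A' : Fam k n V} (hA : A'.FG) (h : A ≤ A') {γ : Deg}
    (hc : A'.cdim γ ≤ A.cdim γ) : A.sub γ = A'.sub γ := by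
  have := hA.finite γ
  have h1 := basic3_dim_add_cdim_le hA h γ
  exact Submodule.eq_of_le_of_finrank_le (h γ) (show A'.dim γ ≤ A.dim γ by omega)

/-- The difference in one degree is bounded by the difference of the sums. -/
theorem dim_add_cdim_le {A A' : Fam k n V} (hA : A'.FG) (h : A ≤ A') (γ : Deg) :
    A'.dim γ + A.cdim γ ≤ A.dim γ + A'.cdim γ := by
  exact basic3_dim_add_cdim_le hA h γ

theorem dim_map_add {N : Fam k n V} (h : N.FG) (ψ : V →ₗ[KK k] V') (γ : Deg) :
    N.dim γ = (N.infW (LinearMap.ker ψ)).dim γ + (N.map ψ).dim γ := by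
  have := h.finite γ
  exact basic3_rank_nullity (N.sub γ) (ψ.restrictScalars k)

theorem cdim_map_add {N : Fam k n V} (h : N.FG) (ψ : V →ₗ[KK k] V') (γ : Deg) :
    N.cdim γ = (N.infW (LinearMap.ker ψ)).cdim γ + (N.map ψ).cdim γ := by
  rw [cdim, cdim, cdim, ← Finset.sum_add_distrib]
  exact Finset.sum_congr rfl fun c _ => dim_map_add h ψ _

/-- `S (γ - δ) → (X ⊔ gen).sub γ / X.sub γ`, `f ↦ f • w` is onto with kernel the colon ideal. -/
theorem dim_sup_gen {X : Fam k n V} (h : X.FG) (δ : Deg) (w : V) (γ : Deg) :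
    (X ⊔ gen n {(δ, w)}).dim γ + (X.colon δ w).dim (γ - δ) = X.dim γ + (SF k n).dim (γ - δ) := by
  have := h.finite γ
  have h1 : (gen n {(δ, w)} : Fam k n V).sub γ = (S k n (γ - δ)).map
      ((LinearMap.toSpanSingleton (KK k) V w).restrictScalars k) := by
    ext v
    rw [mem_gen_singleton]
    exact ⟨fun ⟨f, hf, e⟩ => ⟨f, hf, e.symm⟩, fun ⟨f, hf, e⟩ => ⟨f, hf, e.symm⟩⟩
  have h2 : (X.colon δ w).sub (γ - δ) = S k n (γ - δ) ⊓ (X.sub γ).comap
      ((LinearMap.toSpanSingleton (KK k) V w).restrictScalars k) := by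
    ext f
    rw [mem_colon, sub_add_cancel]
    rfl
  rw [dim, dim, dim, dim, sup_sub, h1, h2, SF_sub]
  exact basic3_sup_map _ _ _

theorem cdim_sup_gen {X : Fam k n V} (h : X.FG) (δ : Deg) (w : V) (γ : Deg) :
    (X ⊔ gen n {(δ, w)}).cdim γ + (X.colon δ w).cdim (γ - δ) = X.cdim γ + (SF k n).cdim (γ - δ) := by
  rw [cdim, cdim, cdim, cdim, ← Finset.sum_add_distrib, ← Finset.sum_add_distrib]
  refine Finset.sum_congr rfl fun c _ => ?_
  rw [sub_add_eq_add_sub]
  exact dim_sup_gen h δ w _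

omit [NeZero n] in
/-- Eventual equality of the pieces gives eventual equality of `cdim` (`eventually_forall_add_rel`). -/
theorem eventually_cdim_eq {A A' : Fam k n V} (h : ∀ᶠ γ in deep, A.sub γ = A'.sub γ) :
    ∀ᶠ γ in deep, A.cdim γ = A'.cdim γ := by
  refine (eventually_forall_add_rel h).mono fun γ hγ => Finset.sum_congr rfl fun c _ => ?_
  rw [dim, dim, hγ]

end Fam

end Crest.Agent.R169
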