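import Crest.Agent.R169.Val2
import Crest.Agent.R169.Basic3

/-!
# rid 169, file `Val3`: the dimension of `S γ`

Prefix helper lemmas with `val3_`.
-/

set_option autoImplicit false

namespace Crest.Agent.R169

open Module Filter

variable {k : Type} [Field k] {n : ℕ} [NeZero n]

/-- The thresholds of the polynomial model. -/
def thr (β : Deg) : Fin 5 → ℤ := fun i => rel (fun j => β (lo j)) (up i) - β (up i)

variable (k) in
/-- Multiplication by a monomial, on polynomials. -/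
noncomputable def val3L (ρ : Fin 5 → ℤ) : Pl k →ₗ[k] KK k :=
  LinearMap.mulRight k (mono k ρ) ∘ₗ (IsScalarTower.toAlgHom k (Pl k) (KK k)).toLinearMap

theorem val3_L (ρ : Fin 5 → ℤ) (P : Pl k) :
    val3L k ρ P = algebraMap (Pl k) (KK k) P * mono k ρ := rfl

theorem val3_inj (ρ : Fin 5 → ℤ) : Function.Injective (val3L k ρ) := fun _ _ h =>
  IsFractionRing.injective (Pl k) (KK k) (mul_right_cancel₀ (mono_ne_zero k ρ) h)

theorem val3_cases : ∀ e : Fin 10, (∃ j, e = lo j) ∨ ∃ i, e = up i := by decide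

theorem val3_S (γ : Deg) :
    S k n γ = (Rp k (thr (flr n γ))).map (val3L k fun j => -flr n γ (lo j)) := by
  rw [Rp_eq_span, Submodule.map_span, S]
  simp only [nonneg_iff_flr]
  generalize flr n γ = β
  congr 1
  ext f
  constructor
  · rintro ⟨ρ, hρ, rfl⟩
    have h1 : (fun j => (((ρ j + β (lo j)).toNat : ℕ) : ℤ)) = ρ + fun j => β (lo j) := by
      funext j
      have h2 : 0 ≤ β (lo j) + rel ρ (lo j) := hρ (lo j)
      rw [rel_lo] at h2
      exact Int.toNat_of_nonneg (by omega)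
    refine ⟨_, ⟨fun j => (ρ j + β (lo j)).toNat, fun i => ?_, rfl⟩, ?_⟩
    · have h2 : 0 ≤ β (up i) + rel ρ (up i) := hρ (up i)
      rw [h1, rel_add, thr, Pi.add_apply]
      omega
    · rw [val3_L, algebraMap_pm, h1, ← mono_add]
      congr 1
      funext j
      simp
  · rintro ⟨_, ⟨a, ha, rfl⟩, rfl⟩
    refine ⟨(fun j => (a j : ℤ)) - fun j => β (lo j), fun e => ?_, ?_⟩
    · rw [rel_sub]
      simp only [Pi.zero_apply, Pi.add_apply, Pi.sub_apply]
      rcases val3_cases e with ⟨j, rfl⟩ | ⟨i, rfl⟩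
      · rw [rel_lo, rel_lo]
        omega
      · have h2 := ha i
        rw [thr] at h2
        omega
    · rw [val3_L, algebraMap_pm, ← mono_add, sub_eq_add_neg]
      rfl

/-- With `β = flr n γ`: `0 ≤ γ + n • rel ρ ↔ 0 ≤ β + rel ρ` (`nonneg_iff_flr`) `↔ a = ρ + β ∘ lo ≥ 0` and
`thr β i ≤ rel a (up i)`; `mono ρ = algebraMap (pm a) * mono (-β ∘ lo)`; `Rp_eq_span`. -/
theorem mem_S_iff_Rp {γ : Deg} {f : KK k} :
    f ∈ S k n γ ↔ ∃ P ∈ Rp k (thr (flr n γ)),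
      f = algebraMap (Pl k) (KK k) P * mono k (fun j => -flr n γ (lo j)) := by
  rw [val3_S, Submodule.mem_map]
  exact exists_congr fun P => and_congr_right fun _ => eq_comm

theorem finrank_S_eq_Rp (γ : Deg) : finrank k (S k n γ) = finrank k (Rp k (thr (flr n γ))) := by
  rw [val3_S]
  exact (Submodule.equivMapOfInjective _ (val3_inj _) _).finrank_eq.symm

/-- `thr β = ![m0, m1, -a, -b, -(a+b-m2)]` with `m0 = β0+β1+β4-β5 = Bv β 5`, `m1 = β2+β3+β4-β6 = Bv β 6`,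
`a = β7+β0+β2+β4`, `b = β8+β1+β3+β4`, `m2 = Bv β 9 = β7+β8+β4-β9`, and
`Bv β = ![b-m0, a-m0, b-m1, a-m1, a+b-m2-m0-m1, m0, m1, b-m2, a-m2, m2]`.  Then `finrank_Rp` and `ring` (`B_eq`, `sum_fin10`). -/
theorem finrank_S {γ : Deg} (h : Nef (flr n γ)) : (finrank k (S k n γ) : ℚ) = chi (flr n γ) := by
  rw [finrank_S_eq_Rp]
  generalize flr n γ = β at h ⊢
  have n0 : 0 ≤ β 5 + β 8 + β 3 - β 0 := h 0
  have n1 : 0 ≤ β 5 + β 7 + β 2 - β 1 := h 1
  have n2 : 0 ≤ β 6 + β 1 + β 8 - β 2 := h 2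
  have n3 : 0 ≤ β 6 + β 0 + β 7 - β 3 := h 3
  have n4 : 0 ≤ β 6 + β 9 + β 5 - β 4 := h 4
  have n5 : 0 ≤ β 0 + β 1 + β 4 - β 5 := h 5
  have n6 : 0 ≤ β 2 + β 3 + β 4 - β 6 := h 6
  have n7 : 0 ≤ β 9 + β 1 + β 3 - β 7 := h 7
  have n8 : 0 ≤ β 9 + β 0 + β 2 - β 8 := h 8
  have n9 : 0 ≤ β 7 + β 8 + β 4 - β 9 := h 9
  have h1 := finrank_Rp (k := k) (β 7 + β 0 + β 2 + β 4) (β 8 + β 1 + β 3 + β 4)
    (β 0 + β 1 + β 4 - β 5) (β 2 + β 3 + β 4 - β 6) (β 7 + β 8 + β 4 - β 9) n5 n6 n9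
    (by omega) (by omega) (by omega) (by omega) (by omega) (by omega) (by omega)
  have h2 : thr β = ![β 0 + β 1 + β 4 - β 5, β 2 + β 3 + β 4 - β 6, -(β 7 + β 0 + β 2 + β 4),
      -(β 8 + β 1 + β 3 + β 4), -(β 7 + β 0 + β 2 + β 4 + (β 8 + β 1 + β 3 + β 4) -
        (β 7 + β 8 + β 4 - β 9))] := by
    have e2 : -(β 0 + β 2 + β 4) - β 7 = -(β 7 + β 0 + β 2 + β 4) := by ring
    have e3 : -(β 1 + β 3 + β 4) - β 8 = -(β 8 + β 1 + β 3 + β 4) := by ring
    have e4 : -(β 0 + β 1 + β 2 + β 3 + β 4) - β 9 = -(β 7 + β 0 + β 2 + β 4 +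
        (β 8 + β 1 + β 3 + β 4) - (β 7 + β 8 + β 4 - β 9)) := by ring
    funext i
    fin_cases i
    exacts [rfl, rfl, e2, e3, e4]
  rw [← h2] at h1
  have h3 := congrArg (Int.cast : ℤ → ℚ) h1
  push_cast at h3
  rw [chi, qq, B_eq, sum_fin10]
  simp only [toQ]
  linear_combination h3 / 2

/-- `eventually_nef_flr`, `eventually_forall_add_rel`, `sum_chi`. -/
theorem hasData_SF : (SF k n).HasData 1 0 0 := by
  refine (eventually_forall_add_rel (eventually_nef_flr (n := n))).mono fun γ h => ?_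
  rw [← sum_chi, Fam.cdim, Nat.cast_sum]
  exact Finset.sum_congr rfl fun c _ => finrank_S (h _)

end Crest.Agent.R169
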