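import Crest.Agent.R169.Gen
import Crest.Agent.R169.Val3

/-!
# rid 169, file `Spread1`: generic flatness

Prefix helper lemmas with `spread1_`.
-/

set_option autoImplicit false

namespace Crest.Agent.R169

open Filter Module

variable {n : ℕ} {I ι : Type}

/-- A linear relation with coefficients in `Λ` among the vectors `mono ρ • v i` reduces along `θ`.  Choose `m : ℕ` with `ρ t + m ≥ 0`; multiply by
`mono m`; then (`algebraMap_pm`, injectivity of `Pl → K` and of `map Λ.subtype`) the relation is the identity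
`∑ C (a t) * pm (ρ t + m) * v' (i t) j = 0` over `Λ`; apply `map θ` (`map_pm`) and divide again. -/
theorem relation_transfer {Λ : Subring ℂ} (v' : I → ι → MvPolynomial (Fin 2) Λ) {T : Type} (s : Finset T)
    (a : T → Λ) (ρ : T → Fin 5 → ℤ) (i : T → I)
    (h : ∑ t ∈ s, (a t : ℂ) • mono ℂ (ρ t) •
      (fun j => algebraMap (Pl ℂ) (KK ℂ) (MvPolynomial.map Λ.subtype (v' (i t) j))) = 0)
    (k : Type) [Field k] (θ : Λ →+* k) :
    ∑ t ∈ s, θ (a t) • mono k (ρ t) •
      (fun j => algebraMap (Pl k) (KK k) (MvPolynomial.map θ (v' (i t) j))) = 0 := by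
  classical
  let m : ℕ := ∑ t ∈ s, ∑ l, (ρ t l).natAbs
  have hm : ∀ t ∈ s, ∀ l, 0 ≤ ρ t l + m := fun t ht l => by
    have h1 : (ρ t l).natAbs ≤ ∑ l, (ρ t l).natAbs :=
      Finset.single_le_sum (f := fun l => (ρ t l).natAbs) (fun _ _ => Nat.zero_le _) (Finset.mem_univ l)
    have h2 : ∑ l, (ρ t l).natAbs ≤ m :=
      Finset.single_le_sum (f := fun t => ∑ l, (ρ t l).natAbs) (fun _ _ => Nat.zero_le _) ht
    omega
  let e : T → Fin 5 → ℕ := fun t l => (ρ t l + m).toNat
  let P : ι → MvPolynomial (Fin 2) Λ := fun j =>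
    ∑ t ∈ s, MvPolynomial.C (a t) * pm Λ (e t) * v' (i t) j
  have key : ∀ (F : Type) [Field F] (φ : Λ →+* F) (j : ι),
      algebraMap (Pl F) (KK F) (MvPolynomial.map φ (P j)) = mono F (fun _ => (m : ℤ)) *
        (∑ t ∈ s, φ (a t) • mono F (ρ t) •
          (fun j => algebraMap (Pl F) (KK F) (MvPolynomial.map φ (v' (i t) j)))) j := by
    intro F _ φ j
    rw [Finset.sum_apply, Finset.mul_sum, map_sum, map_sum]
    refine Finset.sum_congr rfl fun t ht => ?_
    have h1 : (fun l => (e t l : ℤ)) = (fun _ => (m : ℤ)) + ρ t := by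
      funext l
      have := hm t ht l
      simp only [e, Pi.add_apply]
      omega
    simp only [map_mul, MvPolynomial.map_C, map_pm, algebraMap_pm, h1, mono_add]
    rw [Pi.smul_apply, Pi.smul_apply, smul_eq_mul, Algebra.smul_def]
    rw [IsScalarTower.algebraMap_apply F (Pl F) (KK F), MvPolynomial.algebraMap_eq]
    ring
  have hP : ∀ j, P j = 0 := fun j => by
    have h1 := key ℂ Λ.subtype j
    have h2 : (∑ t ∈ s, Λ.subtype (a t) • mono ℂ (ρ t) •
      (fun j => algebraMap (Pl ℂ) (KK ℂ) (MvPolynomial.map Λ.subtype (v' (i t) j)))) = 0 := h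
    rw [h2, Pi.zero_apply, mul_zero] at h1
    refine MvPolynomial.map_injective Λ.subtype Subtype.val_injective ?_
    rw [map_zero]
    exact (map_eq_zero_iff _ (IsFractionRing.injective (Pl ℂ) (KK ℂ))).1 h1
  funext j
  have h1 := key k θ j
  rw [hP, map_zero, map_zero] at h1
  exact (mul_eq_zero.1 h1.symm).resolve_left (mono_ne_zero k _)

open Classical in
/-- The dimension of a span counts the vectors that are not combinations of the previous ones. -/
theorem spread1_count {F V T α : Type} [Field F] [AddCommGroup V] [Module F V] [LinearOrder α]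
    (key : T → α) (hkey : Function.Injective key) (vec : T → V) (W : Submodule F V)
    [FiniteDimensional F W] (M : Finset T) :
    finrank F ↥(Submodule.span F (vec '' M) ⊔ W) = finrank F W +
      (M.filter fun t => vec t ∉ Submodule.span F (vec '' {s | s ∈ M ∧ key s < key t}) ⊔ W).card := by
  induction M using Finset.induction_on_max_value key with
  | empty => rw [Finset.coe_empty, Set.image_empty, Submodule.span_empty, bot_sup_eq]; simp
  | insert a M ha hmax ih =>
    have hlt : ∀ s ∈ M, key s < key a := fun s hs =>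
      lt_of_le_of_ne (hmax s hs) fun h => ha (hkey h ▸ hs)
    have h1 : ∀ t ∈ M, {s | s ∈ insert a M ∧ key s < key t} = {s | s ∈ M ∧ key s < key t} := by
      intro t ht
      ext s
      simp only [Finset.mem_insert, Set.mem_ofPred_eq]
      constructor
      · rintro ⟨rfl | hs, h⟩
        · exact absurd h (hlt t ht).not_gt
        · exact ⟨hs, h⟩
      · exact fun ⟨hs, h⟩ => ⟨Or.inr hs, h⟩
    have h2 : {s | s ∈ insert a M ∧ key s < key a} = (M : Set T) := by
      ext s
      simp only [Finset.mem_insert, Set.mem_ofPred_eq, Finset.mem_coe]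
      constructor
      · rintro ⟨rfl | hs, h⟩
        · exact absurd h (lt_irrefl _)
        · exact hs
      · exact fun hs => ⟨Or.inr hs, hlt s hs⟩
    have h3 : (M.filter fun t =>
        vec t ∉ Submodule.span F (vec '' {s | s ∈ insert a M ∧ key s < key t}) ⊔ W) =
        M.filter fun t => vec t ∉ Submodule.span F (vec '' {s | s ∈ M ∧ key s < key t}) ⊔ W :=
      Finset.filter_congr fun t ht => by rw [h1 t ht]
    have hfin : FiniteDimensional F (Submodule.span F (vec '' M)) :=
      FiniteDimensional.span_of_finite F (M.finite_toSet.image vec)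
    rw [Finset.filter_insert, h2, h3, Finset.coe_insert, Set.image_insert_eq, Submodule.span_insert,
      sup_assoc]
    by_cases h : vec a ∉ Submodule.span F (vec '' M) ⊔ W
    · rw [if_pos h, Finset.card_insert_of_notMem (fun h' => ha (Finset.mem_filter.1 h').1), ← add_assoc, ← ih]
      have h0 : vec a ≠ 0 := fun h0 => h (h0 ▸ Submodule.zero_mem _)
      have h4 := Submodule.finrank_sup_add_finrank_inf_eq (Submodule.span F {vec a})
        (Submodule.span F (vec '' M) ⊔ W)
      rw [(Submodule.disjoint_span_singleton_of_notMem h).symm.eq_bot, finrank_bot,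
        finrank_span_singleton h0] at h4
      omega
    · rw [if_neg h, ← ih, sup_eq_right.2 ((Submodule.span_singleton_le_iff_mem _ _).2 (not_not.1 h))]

/-- Dickson's lemma. -/
theorem spread1_dickson (A : Set (Fin 10 → ℕ)) :
    ∃ B : Set (Fin 10 → ℕ), B.Finite ∧ B ⊆ A ∧ ∀ a ∈ A, ∃ b ∈ B, b ≤ a := by
  have hpwo := Set.isPWO_of_wellQuasiOrderedLE A
  refine ⟨{x | Minimal (· ∈ A) x}, (setOfPred_minimal_antichain _).finite_of_partiallyWellOrderedOn
    (hpwo.mono (setOfPred_minimal_subset _)), setOfPred_minimal_subset _, fun a ha => ?_⟩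
  obtain ⟨b, hb, hb'⟩ := hpwo.exists_le_minimal ha
  exact ⟨b, hb', hb⟩

section
variable {k : Type} [Field k] {V : Type} [AddCommGroup V] [Module (KK k) V] [Module k V]
  [IsScalarTower k (KK k) V]

/-- The monomials of degree `γ`. -/
def spread1Mon (n : ℕ) (δ : I → Deg) (γ : Deg) : Set (I × (Fin 5 → ℤ)) :=
  {t | 0 ≤ γ - δ t.1 + (n : ℤ) • rel t.2}

/-- The vector of a monomial. -/
noncomputable def spread1Vec (u : I → V) (t : I × (Fin 5 → ℤ)) : V := mono k t.2 • u t.1

theorem spread1_sub (δ : I → Deg) (u : I → V) (q : I → Prop) (γ : Deg) :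
    (Fam.gen n (Set.range fun i : {i // q i} => (δ i, u i)) : Fam k n V).sub γ =
      Submodule.span k (spread1Vec (k := k) u '' {t | t ∈ spread1Mon n δ γ ∧ q t.1}) := by
  refine le_antisymm (Submodule.span_le.2 ?_) (Submodule.span_le.2 ?_)
  · rintro _ ⟨_, ⟨i, rfl⟩, f, hf, rfl⟩
    induction hf using Submodule.span_induction with
    | mem f h =>
      obtain ⟨ρ, hρ, rfl⟩ := h
      exact Submodule.subset_span ⟨(i, ρ), ⟨hρ, i.2⟩, rfl⟩
    | zero => simp
    | add a b _ _ ha hb => rw [add_smul]; exact add_mem ha hb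
    | smul c a _ ha => rw [smul_assoc]; exact Submodule.smul_mem _ c ha
  · rintro _ ⟨⟨i, ρ⟩, ⟨h, hq⟩, rfl⟩
    exact Submodule.subset_span ⟨_, ⟨⟨i, hq⟩, rfl⟩, mono k ρ, mono_mem_S h, rfl⟩

theorem spread1_sub' (δ : I → Deg) (u : I → V) (γ : Deg) :
    (Fam.gen n (Set.range fun i => (δ i, u i)) : Fam k n V).sub γ =
      Submodule.span k (spread1Vec (k := k) u '' spread1Mon n δ γ) := by
  have h1 : (Set.range fun i => (δ i, u i)) = Set.range fun i : {_i : I // True} => (δ i, u i) := by
    ext x
    exact ⟨fun ⟨i, h⟩ => ⟨⟨i, trivial⟩, h⟩, fun ⟨i, h⟩ => ⟨i, h⟩⟩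
  rw [h1, spread1_sub δ u (fun _ => True)]
  simp

/-- The key of a monomial. -/
def spread1Key {c : ℕ} (e : I → Fin c) (t : I × (Fin 5 → ℤ)) : Lex (Fin c × Lex (Fin 5 → ℤ)) :=
  toLex (e t.1, toLex t.2)

theorem spread1_key_inj {c : ℕ} {e : I → Fin c} (he : Function.Injective e) :
    Function.Injective (spread1Key e) := by
  rintro ⟨i, ρ⟩ ⟨i', ρ'⟩ h
  have h1 := toLex.injective h
  rw [Prod.mk.injEq] at h1
  exact Prod.ext (he h1.1) (toLex.injective h1.2)

theorem spread1_key_add {c : ℕ} (e : I → Fin c) {i i' : I} {ρ ρ' : Fin 5 → ℤ} (σ : Fin 5 → ℤ)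
    (h : spread1Key e (i, ρ) < spread1Key e (i', ρ')) :
    spread1Key e (i, ρ + σ) < spread1Key e (i', ρ' + σ) := by
  unfold spread1Key at h ⊢
  rw [Prod.Lex.toLex_lt_toLex] at h ⊢
  refine h.imp id fun h => ⟨h.1, ?_⟩
  exact add_lt_add_left (α := Lex (Fin 5 → ℤ)) h.2 (toLex σ)

variable (k) in
/-- `t` is a leading monomial in degree `γ`. -/
def spread1Lead (n : ℕ) {c : ℕ} (e : I → Fin c) (δ : I → Deg) (u : I → V) (q : I → Prop) (γ : Deg)
    (t : I × (Fin 5 → ℤ)) : Prop :=
  spread1Vec (k := k) u t ∈ Submodule.span k (spread1Vec (k := k) u ''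
    {s | s ∈ spread1Mon n δ γ ∧ (spread1Key e s < spread1Key e t ∨ q s.1)})

omit [IsScalarTower k (KK k) V] in
theorem spread1_lead_mono {c : ℕ} {e : I → Fin c} {δ : I → Deg} {u : I → V} {q : I → Prop}
    {γ γ' : Deg} (h : γ ≤ γ') {t : I × (Fin 5 → ℤ)} (ht : spread1Lead k n e δ u q γ t) :
    spread1Lead k n e δ u q γ' t := by
  refine Submodule.span_mono (Set.image_mono ?_) ht
  refine fun s hs => ⟨?_, hs.2⟩
  exact le_trans hs.1 (add_le_add_left (sub_le_sub_right h _) _)

theorem spread1_lead_shift {c : ℕ} {e : I → Fin c} {δ : I → Deg} {u : I → V} {q : I → Prop}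
    {γ : Deg} {i : I} {ρ : Fin 5 → ℤ} (σ : Fin 5 → ℤ)
    (ht : spread1Lead k n e δ u q (γ + (n : ℤ) • rel σ) (i, ρ)) :
    spread1Lead k n e δ u q γ (i, ρ + σ) := by
  have h1 : ∀ (i : I) (ρ : Fin 5 → ℤ),
      spread1Vec (k := k) u (i, ρ + σ) = mono k σ • spread1Vec (k := k) u (i, ρ) := fun i ρ => by
    simp only [spread1Vec, mono_add, mul_smul]
    rw [smul_comm]
  unfold spread1Lead at ht ⊢
  rw [h1]
  generalize spread1Vec (k := k) u (i, ρ) = x at ht
  induction ht using Submodule.span_induction with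
  | mem x h =>
    obtain ⟨⟨i', ρ'⟩, ⟨hs, hs'⟩, rfl⟩ := h
    refine Submodule.subset_span ⟨(i', ρ' + σ), ⟨?_, hs'.imp (spread1_key_add e σ) id⟩, h1 _ _⟩
    have h2 : 0 ≤ γ + (n : ℤ) • rel σ - δ i' + (n : ℤ) • rel ρ' := hs
    change 0 ≤ γ - δ i' + (n : ℤ) • rel (ρ' + σ)
    rw [rel_add, smul_add]
    convert h2 using 1
    abel
  | zero => simp
  | add a b _ _ ha hb => rw [smul_add]; exact add_mem ha hb
  | smul c a _ ha => rw [smul_comm]; exact Submodule.smul_mem _ c ha

theorem spread1_mon_finite [NeZero n] [Finite I] (δ : I → Deg) (γ : Deg) :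
    (spread1Mon n δ γ).Finite := by
  refine (Set.finite_iUnion fun i : I =>
    (finite_mon (n := n) (γ - δ i)).image fun ρ => (i, ρ)).subset ?_
  rintro ⟨i, ρ⟩ h
  exact Set.mem_iUnion.2 ⟨i, ρ, h, rfl⟩

open Classical in
theorem spread1_dim [NeZero n] [Finite I] {c : ℕ} {e : I → Fin c} (he : Function.Injective e)
    (δ : I → Deg) (u : I → V) (q : I → Prop) (γ : Deg) :
    (Fam.gen n (Set.range fun i => (δ i, u i)) : Fam k n V).dim γ =
      (Fam.gen n (Set.range fun i : {i // q i} => (δ i, u i)) : Fam k n V).dim γ +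
        ((spread1_mon_finite (n := n) δ γ).toFinset.filter fun t =>
          ¬ spread1Lead k n e δ u q γ t).card := by
  have hfin : FiniteDimensional k (Submodule.span k
      (spread1Vec (k := k) u '' {t | t ∈ spread1Mon n δ γ ∧ q t.1})) :=
    FiniteDimensional.span_of_finite k
      (((spread1_mon_finite (n := n) δ γ).subset fun t ht => ht.1).image _)
  have h := spread1_count (spread1Key e) (spread1_key_inj he) (spread1Vec (k := k) u)
    (Submodule.span k (spread1Vec (k := k) u '' {t | t ∈ spread1Mon n δ γ ∧ q t.1}))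
    (spread1_mon_finite (n := n) δ γ).toFinset
  rw [Set.Finite.coe_toFinset, sup_eq_left.2 (Submodule.span_mono (Set.image_mono fun t ht => ht.1))]
    at h
  rw [Fam.dim, Fam.dim, spread1_sub', spread1_sub, h]
  congr 2
  refine Finset.filter_congr fun t _ => not_congr ?_
  rw [spread1Lead, ← Submodule.span_union, ← Set.image_union]
  have h1 : {s | s ∈ (spread1_mon_finite (n := n) δ γ).toFinset ∧ spread1Key e s < spread1Key e t} ∪
      {t | t ∈ spread1Mon n δ γ ∧ q t.1} =
      {s | s ∈ spread1Mon n δ γ ∧ (spread1Key e s < spread1Key e t ∨ q s.1)} := by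
    ext s
    simp only [Set.Finite.mem_toFinset, Set.mem_union, Set.mem_ofPred_eq, and_or_left]
  rw [h1]

end

theorem spread1_transfer (v : I → ι → Pl ℂ) (A : Set (I × (Fin 5 → ℤ))) (t : I × (Fin 5 → ℤ))
    (h : spread1Vec (k := ℂ) (fun i j => algebraMap (Pl ℂ) (KK ℂ) (v i j)) t ∈
      Submodule.span ℂ (spread1Vec (k := ℂ) (fun i j => algebraMap (Pl ℂ) (KK ℂ) (v i j)) '' A)) :
    Generic v fun k _ w => spread1Vec (k := k) (fun i j => algebraMap (Pl k) (KK k) (w i j)) t ∈
      Submodule.span k (spread1Vec (k := k) (fun i j => algebraMap (Pl k) (KK k) (w i j)) '' A) := by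
  classical
  obtain ⟨s, hs, c, hc⟩ := (Submodule.mem_span_image_iff_exists_fun ℂ).1 h
  refine ⟨Finset.univ.image c, fun Λ hΛ v' hv k _ θ => ?_⟩
  let a : Option s → Λ := fun o => o.elim (-1) fun x =>
    ⟨c x, hΛ _ (Finset.mem_image_of_mem c (Finset.mem_univ x))⟩
  let τ : Option s → I × (Fin 5 → ℤ) := fun o => o.elim t fun x => x.1
  have h1 := relation_transfer v' Finset.univ a (fun o => (τ o).2) (fun o => (τ o).1) (by
    rw [Fintype.sum_option]
    simp only [hv]
    have h2 : ∑ x : s, (a (some x) : ℂ) • mono ℂ (τ (some x)).2 •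
        (fun j => algebraMap (Pl ℂ) (KK ℂ) (v (τ (some x)).1 j)) = mono ℂ t.2 •
        (fun j => algebraMap (Pl ℂ) (KK ℂ) (v t.1 j)) := hc
    rw [h2]
    simp [a, τ]) k θ
  rw [Fintype.sum_option] at h1
  have h3 : θ (a none) = -1 := by simp [a]
  rw [h3, neg_one_smul, neg_add_eq_zero] at h1
  have h4 : spread1Vec (k := k) (fun i j => algebraMap (Pl k) (KK k) (MvPolynomial.map θ (v' i j))) t =
      ∑ x : s, θ (a (some x)) •
        spread1Vec (k := k) (fun i j => algebraMap (Pl k) (KK k) (MvPolynomial.map θ (v' i j))) x := h1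
  beta_reduce
  rw [h4]
  exact Submodule.sum_mem _ fun x _ => Submodule.smul_mem _ _
    (Submodule.subset_span ⟨x, hs x.2, rfl⟩)

variable [NeZero n] [Fintype I] [Fintype ι]

/-- Upper semicontinuity of `dim N/N'`, uniformly in the degree; `N'` is generated by the generators satisfying `q`.

For a degree `γ` the *monomials* are the finitely many pairs `(i, ρ)` with `a = γ - δ i + n • rel ρ ≥ 0` (`finite_mon`); their vectors
`mono ρ • v i` span `N.sub γ`.  Order them by the key `(a, i)`, `a` lexicographically first (injective; invariant under adding the same vector to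
`a`).  Call `(i, a)` (`a ≥ 0`) *leading* if, over `ℂ`, in the degree `δ i + a` the vector `v i` is a combination of smaller monomials and of monomials
`(i', ρ)` with `q i'`.  For each `i` the leading `a` form an upper set; by Dickson's lemma it has finitely many minimal elements; `X` = the
coefficients of one relation for each.  Over `ℂ` the non-leading monomials of degree `γ` are linearly independent modulo `N'.sub γ` (look at the
largest one with nonzero coefficient, multiply by `mono (-ρ)`), so `#nonleading + dim N' ≤ dim N`.  Over `k`, by `relation_transfer` and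
multiplication by a monomial, every leading monomial of degree `γ` is a combination of smaller ones and of `N'_k.sub γ`; by induction along the
order `N_k.sub γ ≤ span (non-leading) ⊔ N'_k.sub γ`. -/
theorem generic_dim_le (δ : I → Deg) (v : I → ι → Pl ℂ) (q : I → Prop) :
    Generic v fun k _ w => ∀ γ,
      (genP k n δ w).dim γ + (genP ℂ n (fun i : {i // q i} => δ i) fun i => v i).dim γ ≤
      (genP ℂ n δ v).dim γ + (genP k n (fun i : {i // q i} => δ i) fun i => w i).dim γ := by
  classical
  let e := Fintype.equivFin I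
  choose B hB hBA hAB using fun i : I => spread1_dickson
    {a | spread1Lead ℂ n e δ (fun i j => algebraMap (Pl ℂ) (KK ℂ) (v i j)) q
      (δ i + fun l => (a l : ℤ)) (i, 0)}
  have : ∀ i, Finite (B i) := fun i => (hB i).to_subtype
  have h1 : Generic v fun k _ w => ∀ x : Σ i, B i,
      spread1Lead k n e δ (fun i j => algebraMap (Pl k) (KK k) (w i j)) q
        (δ x.1 + fun l => (x.2.1 l : ℤ)) (x.1, 0) :=
    Generic.forall_finite fun x => spread1_transfer v _ _ (hBA x.1 x.2.2)
  refine h1.mono fun k _ w hw γ => ?_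
  have h2 := spread1_dim (n := n) (k := k) e.injective δ
    (fun i j => algebraMap (Pl k) (KK k) (w i j)) q γ
  have h3 := spread1_dim (n := n) (k := ℂ) e.injective δ
    (fun i j => algebraMap (Pl ℂ) (KK ℂ) (v i j)) q γ
  have h4 : ((spread1_mon_finite (n := n) δ γ).toFinset.filter fun t => ¬ spread1Lead k n e δ
      (fun i j => algebraMap (Pl k) (KK k) (w i j)) q γ t).card ≤
      ((spread1_mon_finite (n := n) δ γ).toFinset.filter fun t => ¬ spread1Lead ℂ n e δ
      (fun i j => algebraMap (Pl ℂ) (KK ℂ) (v i j)) q γ t).card := by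
    refine Finset.card_le_card fun t ht => ?_
    rw [Finset.mem_filter] at ht ⊢
    refine ⟨ht.1, fun hl => ht.2 ?_⟩
    obtain ⟨i, ρ⟩ := t
    have h0 : 0 ≤ γ - δ i + (n : ℤ) • rel ρ := (Set.Finite.mem_toFinset _).1 ht.1
    have h5 : (δ i + fun l => (((γ - δ i + (n : ℤ) • rel ρ) l).toNat : ℤ)) =
        γ + (n : ℤ) • rel ρ := by
      have h6 : (fun l => (((γ - δ i + (n : ℤ) • rel ρ) l).toNat : ℤ)) =
          γ - δ i + (n : ℤ) • rel ρ := funext fun l => Int.toNat_of_nonneg (h0 l)
      rw [h6]; abel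
    obtain ⟨b, hb, hba⟩ := hAB i (fun l => ((γ - δ i + (n : ℤ) • rel ρ) l).toNat) (by
      change spread1Lead ℂ n e δ _ q _ _
      rw [h5, ← add_neg_cancel ρ]
      refine spread1_lead_shift (-ρ) ?_
      rwa [rel_neg, smul_neg, add_neg_cancel_right])
    have h7 := spread1_lead_mono (γ' := γ + (n : ℤ) • rel ρ) (by
      rw [← h5]
      exact add_le_add_right (fun l => Int.ofNat_le.2 (hba l)) _) (hw ⟨i, b, hb⟩)
    have h8 := spread1_lead_shift ρ h7
    rwa [zero_add] at h8
  unfold genP
  beta_reduce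
  omega

omit [NeZero n] [Fintype I] in
theorem spread1_big (k : Type) [Field k] [DecidableEq ι] (δ : I → Deg) (w : I → ι → Pl k) (α : Deg)
    (hw : ∀ i j, algebraMap (Pl k) (KK k) (w i j) ∈ S k n (δ i + α)) (γ : Deg) :
    (genP k n (Sum.elim (fun _ : ι => -α) δ) (Sum.elim (fun j : ι => Pi.single j 1) w)).sub γ =
      Submodule.pi Set.univ fun _ => S k n (γ + α) := by
  refine le_antisymm (Submodule.span_le.2 ?_) fun x hx => ?_
  · rintro _ ⟨_, ⟨i, rfl⟩, f, hf, rfl⟩ j _
    have h1 : algebraMap (Pl k) (KK k) (Sum.elim (fun j : ι => (Pi.single j 1 : ι → Pl k)) w i j) ∈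
        S k n (Sum.elim (fun _ : ι => -α) δ i + α) := by
      rcases i with i | i
      · simp only [Sum.elim_inl, neg_add_cancel]
        by_cases h : j = i
        · subst h
          rw [Pi.single_eq_same, map_one]; exact one_mem_S le_rfl
        · rw [Pi.single_eq_of_ne h, map_zero]; exact zero_mem _
      · exact hw i j
    have h2 := mul_mem_S hf h1
    rwa [← add_assoc, sub_add_cancel] at h2
  · rw [← Finset.univ_sum_single x]
    refine Submodule.sum_mem _ fun j _ => Submodule.subset_span
      ⟨_, ⟨Sum.inl j, rfl⟩, x j, by simpa using hx j (Set.mem_univ j), ?_⟩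
    funext j'
    by_cases h : j' = j
    · subst h; simp
    · simp [Pi.single_eq_of_ne h]

omit [NeZero n] [Fintype I] in
theorem spread1_finrank_pi {F W : Type} [Field F] [AddCommGroup W] [Module F W] (U : Submodule F W)
    [FiniteDimensional F U] :
    finrank F (Submodule.pi Set.univ fun _ : ι => U) = Fintype.card ι * finrank F U := by
  let E : (Submodule.pi Set.univ fun _ : ι => U) ≃ₗ[F] (ι → U) :=
    { toFun := fun x j => ⟨x.1 j, x.2 j (Set.mem_univ j)⟩
      invFun := fun y => ⟨fun j => y j, fun j _ => (y j).2⟩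
      map_add' := fun _ _ => rfl
      map_smul' := fun _ _ => rfl
      left_inv := fun _ => rfl
      right_inv := fun _ => rfl }
  rw [E.finrank_eq, Module.finrank_pi_fintype]
  simp

omit [NeZero n] [Fintype I] [Fintype ι] in
theorem spread1_right (k : Type) [Field k] {J : Type} (ε : J → Deg) (u : J → ι → Pl k) (δ : I → Deg)
    (w : I → ι → Pl k) :
    genP k n (fun i : {i : J ⊕ I // i.isRight = true} => Sum.elim ε δ i) (fun i => Sum.elim u w i) =
      genP k n δ w := by
  unfold genP
  congr 1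
  ext x
  constructor
  · rintro ⟨⟨i | i, hi⟩, rfl⟩
    · simp at hi
    · exact ⟨i, rfl⟩
  · rintro ⟨i, rfl⟩
    exact ⟨⟨Sum.inr i, rfl⟩, rfl⟩

omit [NeZero n] [Fintype I] [Fintype ι] in
theorem spread1_false (k : Type) [Field k] (δ : I → Deg) (w : I → ι → Pl k) (γ : Deg) :
    (genP k n (fun i : {_i : I // False} => δ i) fun i => w i).dim γ = 0 := by
  have : IsEmpty {_i : I // False} := ⟨fun i => i.2⟩
  rw [genP, Set.range_eq_empty, Fam.gen_empty, Fam.dim, Fam.bot_sub, finrank_bot]

theorem spread1_ge (δ : I → Deg) (v : I → ι → Pl ℂ) :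
    Generic v fun k _ w => ∀ᶠ γ in deep, (genP ℂ n δ v).dim γ ≤ (genP k n δ w).dim γ := by
  classical
  let D : ℕ := ∑ i, ∑ j, (v i j).totalDegree
  have hD : ∀ i j, (v i j).totalDegree ≤ D := fun i j =>
    (Finset.single_le_sum (f := fun j => (v i j).totalDegree) (fun _ _ => Nat.zero_le _)
      (Finset.mem_univ j)).trans (Finset.single_le_sum (f := fun i => ∑ j, (v i j).totalDegree)
        (fun _ _ => Nat.zero_le _) (Finset.mem_univ i))
  let α : Deg := ((n : ℤ) * D) • (1 : Deg) + ∑ i, |δ i|
  have hα : ∀ i, ((n : ℤ) * D) • (1 : Deg) ≤ δ i + α := fun i => by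
    have h1 : |δ i| ≤ ∑ i, |δ i| :=
      Finset.single_le_sum (f := fun i => |δ i|) (fun _ _ => abs_nonneg _) (Finset.mem_univ i)
    have h2 : -δ i ≤ |δ i| := neg_le_abs _
    rw [add_left_comm]
    exact le_add_of_nonneg_right (neg_le_iff_add_nonneg'.1 (h2.trans h1))
  obtain ⟨X, hX⟩ := generic_dim_le (n := n) (Sum.elim (fun _ : ι => -α) δ)
    (Sum.elim (fun j : ι => (Pi.single j 1 : ι → Pl ℂ)) v) fun i => i.isRight = true
  refine ⟨X, fun Λ hΛ v' hv k _ θ => ?_⟩
  have hs : ∀ (F : Type) [CommRing F] (φ : Λ →+* F) (j j' : ι),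
      MvPolynomial.map φ ((Pi.single j 1 : ι → MvPolynomial (Fin 2) Λ) j') =
        (Pi.single j 1 : ι → MvPolynomial (Fin 2) F) j' := by
    intro F _ φ j j'
    by_cases h : j' = j
    · subst h; simp
    · simp [Pi.single_eq_of_ne h]
  have h1 := hX Λ hΛ (Sum.elim (fun j : ι => (Pi.single j 1 : ι → MvPolynomial (Fin 2) Λ)) v')
    (by
      rintro (i | i) j
      · exact hs ℂ _ i j
      · exact hv i j) k θ
  have h2 : (fun i j => MvPolynomial.map θ
      (Sum.elim (fun j : ι => (Pi.single j 1 : ι → MvPolynomial (Fin 2) Λ)) v' i j)) =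
      Sum.elim (fun j : ι => (Pi.single j 1 : ι → Pl k)) fun i j => MvPolynomial.map θ (v' i j) := by
    funext i j
    rcases i with i | i
    · exact hs k _ i j
    · rfl
  rw [h2] at h1
  refine ((tendsto_add_deep α).eventually (eventually_nef_flr (n := n))).mono fun γ hγ => ?_
  have h3 := h1 γ
  beta_reduce at h3
  rw [spread1_right, spread1_right] at h3
  have hfin : ∀ (F : Type) [Field F], FiniteDimensional F (S F n (γ + α)) := fun F _ =>
    (Fam.fg_SF (k := F) (n := n)).finite _
  have h4 : finrank k (S k n (γ + α)) = finrank ℂ (S ℂ n (γ + α)) := by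
    have h5 := (finrank_S (k := k) hγ).trans (finrank_S (k := ℂ) hγ).symm
    exact_mod_cast h5
  have hdeg : ∀ i j, (v' i j).totalDegree ≤ D := fun i j => by
    have h6 := hD i j
    rw [← hv, MvPolynomial.totalDegree, MvPolynomial.support_map_of_injective _
      (show Function.Injective Λ.subtype from Subtype.val_injective)] at h6
    exact h6
  have h6 : ∀ (F : Type) [Field F] (w : I → ι → Pl F), (∀ i j, (w i j).totalDegree ≤ D) →
      (genP F n (Sum.elim (fun _ : ι => -α) δ) (Sum.elim (fun j : ι => Pi.single j 1) w)).dim γ =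
        Fintype.card ι * finrank F (S F n (γ + α)) := fun F _ w hw => by
    have := hfin F
    rw [Fam.dim, spread1_big F δ w α fun i j => S_mono (hα i) (algebraMap_mem_S (hw i j)),
      spread1_finrank_pi]
  have hdeg' : ∀ i j, (MvPolynomial.map θ (v' i j)).totalDegree ≤ D := fun i j =>
    le_trans (Finset.sup_mono (MvPolynomial.support_map_subset θ (v' i j))) (hdeg i j)
  have h7 := h6 k (fun i j => MvPolynomial.map θ (v' i j)) hdeg'
  rw [h7, h6 ℂ v hD, h4] at h3
  exact Nat.le_of_add_le_add_left h3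

/-- `≤`: `generic_dim_le` with `q = False`.  `≥`: let `D` bound the total degrees, `α` with `(n D) • 1 ≤ α + δ i` for all `i`; adjoin the
generators `(-α, Pi.single j 1)`, `j : ι` (index type `ι ⊕ I`, `q = isRight`; they lift to every `Λ`).  The big family has pieces
`∏ j, S (γ + α)` over `ℂ` and over `k` (`algebraMap_mem_S`; reduction does not raise the total degree), of the same dimension
`card ι * chi (flr n (γ + α))` for deep `γ` (`finrank_S`, `eventually_nef_flr`). -/
theorem generic_hasData (δ : I → Deg) (v : I → ι → Pl ℂ) {r : ℕ} {c : Deg} {s : ℚ}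
    (h : (genP ℂ n δ v).HasData r c s) : Generic v fun k _ w => (genP k n δ w).HasData r c s := by
  refine ((generic_dim_le (n := n) δ v fun _ => False).and (spread1_ge (n := n) δ v)).mono
    fun k _ w hw => ?_
  refine (h.and (eventually_forall_add_rel hw.2)).mono fun γ hγ => ?_
  rw [← hγ.1]
  congr 1
  refine Finset.sum_congr rfl fun x _ => le_antisymm ?_ (hγ.2 _)
  have := hw.1 (γ + rel (chr x))
  rwa [spread1_false, spread1_false, add_zero, add_zero] at this

end Crest.Agent.R169
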