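import Crest.Agent.R169.Data

/-!
# rid 169, file `Det`: the first Chern class is the class of the determinant

Prefix helper lemmas with `det_`.
-/

set_option autoImplicit false

namespace Crest.Agent.R169

open Filter Module

section Lin
variable {K V : Type} [Field K] [AddCommGroup V] [Module K V] {r : ℕ}

theorem det_le_finrank [FiniteDimensional K V] (D : V [⋀^Fin r]→ₗ[K] K) (W : Submodule K V)
    {v : Fin r → V} (hv : ∀ i, v i ∈ W) (h : D v ≠ 0) : r ≤ finrank K W := by
  have h1 : LinearIndependent K v := by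
    by_contra h1
    exact h (D.map_linearDependent v h1)
  have h2 : LinearIndependent K fun i => (⟨v i, hv i⟩ : W) :=
    LinearIndependent.of_comp W.subtype h1
  simpa using h2.fintype_card_le_finrank

theorem det_cons_zero (D : V [⋀^Fin (r + 1)]→ₗ[K] K) (v0 : V) (w : Fin r → V) (i : Fin r) (a : K)
    (h : w i = a • v0) : D (Matrix.vecCons v0 w) = 0 := by
  have h1 : Matrix.vecCons v0 w = Function.update (Matrix.vecCons v0 w) i.succ
      (a • Matrix.vecCons v0 w 0) := by
    rw [Matrix.cons_val_zero, ← h, ← Matrix.cons_val_succ v0 w i, Function.update_eq_self]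
  rw [h1, D.map_update_smul, D.map_update_self _ (Fin.succ_ne_zero i), smul_zero]

theorem det_cons_sub (D : V [⋀^Fin (r + 1)]→ₗ[K] K) (v0 : V) (u : Fin r → V) (c : Fin r → K) :
    D (Matrix.vecCons v0 fun i => u i - c i • v0) = D (Matrix.vecCons v0 u) := by
  have h1 := (D.curryLeft v0).map_add_univ u fun i => (-c i) • v0
  rw [Finset.sum_eq_single Finset.univ] at h1
  · rw [Finset.piecewise_univ] at h1
    simp only [AlternatingMap.curryLeft_apply_apply] at h1
    rw [← h1]
    congr 2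
    funext i
    rw [Pi.add_apply, neg_smul, sub_eq_add_neg]
  · intro s _ hs
    obtain ⟨i, hi⟩ : ∃ i, i ∉ s := by
      by_contra h
      push Not at h
      exact hs (Finset.eq_univ_of_forall h)
    exact det_cons_zero D v0 _ i (-c i) (Finset.piecewise_eq_of_notMem _ _ _ hi)
  · simp

theorem det_cons_eq [FiniteDimensional K V] (D : V [⋀^Fin (r + 1)]→ₗ[K] K) (U : Submodule K V)
    (ψ : V →ₗ[K] K) (hr : finrank K (U ⊓ LinearMap.ker ψ : Submodule K V) = r) {v0 v : V}
    (h0 : v0 ∈ U) (h1 : ψ v0 = 1) (hv : v ∈ U) {u : Fin r → V}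
    (hu : ∀ i, u i ∈ U ⊓ LinearMap.ker ψ) :
    D (Matrix.vecCons v u) = ψ v * D.curryLeft v0 u := by
  have h2 : D (Matrix.vecCons (v - ψ v • v0) u) = 0 := by
    by_contra h
    have := det_le_finrank D (U ⊓ LinearMap.ker ψ) (fun i => ?_) h
    · omega
    · refine Fin.cases ?_ (fun i => hu i) i
      refine ⟨U.sub_mem hv (U.smul_mem _ h0), ?_⟩
      change ψ (v - ψ v • v0) = 0
      rw [map_sub, map_smul, h1, smul_eq_mul, mul_one, sub_self]
  have h3 := D.map_vecCons_add u (v - ψ v • v0) (ψ v • v0)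
  rw [sub_add_cancel, h2, zero_add, D.map_vecCons_smul] at h3
  exact h3

/-- a nonvanishing minor -/
theorem det_minor {ι : Type} [Fintype ι] {v : Fin r → ι → K} (hv : LinearIndependent K v) :
    ∃ J : Fin r → ι, (Matrix.of fun a c => v a (J c)).det ≠ 0 := by
  obtain ⟨κ, a, ha, hsp, hli⟩ := exists_linearIndependent' K (Matrix.of v).col
  have := Fintype.ofInjective a ha
  have h1 : Fintype.card κ = r := by
    rw [← finrank_span_eq_card hli, hsp, ← Matrix.rank_eq_finrank_span_cols,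
      LinearIndependent.rank_matrix (M := Matrix.of v) hv, Fintype.card_fin]
  let e := (Fintype.equivFinOfCardEq h1).symm
  refine ⟨fun c => a (e c), ?_⟩
  have h2 : LinearIndependent K (Matrix.of fun b c => v b (a (e c))).col :=
    hli.comp e e.injective
  exact ((Matrix.isUnit_iff_isUnit_det _).1 (Matrix.linearIndependent_cols_iff_isUnit.1 h2)).ne_zero

end Lin

namespace Fam

variable {k : Type} [Field k] {n : ℕ}
  {V : Type} [AddCommGroup V] [Module (KK k) V] [Module k V] [IsScalarTower k (KK k) V]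
  {N : Fam k n V} {r : ℕ} {D : V [⋀^Fin r]→ₗ[KK k] KK k}

theorem mem_det {δ : Fin r → Deg} {v : Fin r → V} (h : ∀ i, v i ∈ N.sub (δ i)) :
    D v ∈ (N.det D).sub (∑ i, δ i) := by
  exact subset_gen (p := (∑ i, δ i, D v)) ⟨δ, v, h, rfl⟩

/-- Multilinearity: show by induction on a finset `s` of positions that `D v` lies in the right side when `v i ∈ (gen G).sub (δ i)` for
`i ∈ s` and `(δ i, v i) ∈ G` for `i ∉ s` (span induction in one slot, `AlternatingMap.map_update_add/smul`). -/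
theorem det_gen (G : Set (Deg × V)) (D : V [⋀^Fin r]→ₗ[KK k] KK k) :
    (gen n G : Fam k n V).det D = gen n {q | ∃ t : Fin r → Deg × V, (∀ i, t i ∈ G) ∧
      q = (∑ i, (t i).1, D fun i => (t i).2)} := by
  classical
  refine le_antisymm ?_ (gen_mono ?_)
  swap
  · rintro _ ⟨t, ht, rfl⟩
    exact ⟨fun i => (t i).1, fun i => (t i).2, fun i => subset_gen (ht i), rfl⟩
  set R : Fam k n (KK k) := gen n {q | ∃ t : Fin r → Deg × V, (∀ i, t i ∈ G) ∧
      q = (∑ i, (t i).1, D fun i => (t i).2)} with hR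
  have key : ∀ (s : Finset (Fin r)) (δ : Fin r → Deg) (v : Fin r → V),
      (∀ i ∈ s, v i ∈ (gen n G : Fam k n V).sub (δ i)) → (∀ i ∉ s, (δ i, v i) ∈ G) →
      D v ∈ R.sub (∑ i, δ i) := by
    intro s
    induction s using Finset.induction_on with
    | empty =>
      intro δ v _ h
      exact subset_gen (p := (∑ i, δ i, D v)) ⟨fun i => (δ i, v i), fun i => h i (by simp), rfl⟩
    | insert a s ha ih =>
      intro δ v h1 h2
      have h3 : ∀ x ∈ (gen n G : Fam k n V).sub (δ a),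
          D (Function.update v a x) ∈ R.sub (∑ i, δ i) := by
        intro x hx
        induction hx using Submodule.span_induction with
        | mem x hx =>
          obtain ⟨p, hp, f, hf, rfl⟩ := hx
          rw [D.map_update_smul]
          have h4 := ih (Function.update δ a p.1) (Function.update v a p.2) (fun i hi => by
            have : i ≠ a := fun h => ha (h ▸ hi)
            rw [Function.update_of_ne this, Function.update_of_ne this]
            exact h1 i (Finset.mem_insert_of_mem hi)) (fun i hi => by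
            by_cases h : i = a
            · subst h
              rw [Function.update_self, Function.update_self]
              exact hp
            · rw [Function.update_of_ne h, Function.update_of_ne h]
              exact h2 i (by simp [h, hi]))
          have h5 := R.smul_mem hf h4
          rw [Finset.sum_update_of_mem (Finset.mem_univ a), ← add_assoc, sub_add_cancel,
            Finset.sdiff_singleton_eq_erase, Finset.add_sum_erase _ _ (Finset.mem_univ a)] at h5
          exact h5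
        | zero => rw [D.map_update_zero]; exact zero_mem _
        | add x y _ _ hx hy => rw [D.map_update_add]; exact add_mem hx hy
        | smul c x _ hx =>
          rw [← algebraMap_smul (KK k) c x, D.map_update_smul, algebraMap_smul]
          exact Submodule.smul_mem _ c hx
      have := h3 (v a) (h1 a (Finset.mem_insert_self _ _))
      rwa [Function.update_eq_self] at this
  refine gen_le_iff.2 ?_
  rintro _ ⟨δ, v, hv, rfl⟩
  exact key Finset.univ δ v (fun i _ => hv i) (fun i hi => absurd (Finset.mem_univ i) hi)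

theorem FG.fg_det (hN : N.FG) (D : V [⋀^Fin r]→ₗ[KK k] KK k) : (N.det D).FG := by
  obtain ⟨G, hG, rfl⟩ := hN
  rw [det_gen]
  refine fg_gen (((Set.Finite.pi' fun _ : Fin r => hG).image
    fun t : Fin r → Deg × V => (∑ i, (t i).1, D fun i => (t i).2)).subset ?_)
  rintro _ ⟨t, ht, rfl⟩
  exact ⟨t, ht, rfl⟩

/-- `D` does not vanish on the span of `N`. -/
def AltNe (N : Fam k n V) (D : V [⋀^Fin r]→ₗ[KK k] KK k) : Prop :=
  ∃ v : Fin r → V, (∀ i, v i ∈ N.span) ∧ D v ≠ 0

variable [NeZero n]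

/-- Clear denominators (`exists_smul_mem`, `AlternatingMap.map_smul_univ`). -/
theorem AltNe.det_ne_bot (h : N.AltNe D) : N.det D ≠ ⊥ := by
  obtain ⟨v, hv, hD⟩ := h
  choose γ g hg0 _ hg using fun i => (exists_smul_mem (hv i) 0).exists
  intro hb
  have h1 := mem_det (D := D) hg
  rw [hb, bot_sub, Submodule.mem_bot, D.map_smul_univ, smul_eq_mul] at h1
  exact mul_ne_zero (Finset.prod_ne_zero_iff.2 fun i _ => hg0 i) hD h1

omit [NeZero n] in
theorem altNe_of_det_ne_bot (h : N.det D ≠ ⊥) : N.AltNe D := by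
  by_contra hc
  refine h (eq_bot_iff.2 (gen_le_iff.2 ?_))
  rintro _ ⟨δ, v, hv, rfl⟩
  by_contra h0
  exact hc ⟨v, fun i => mem_span_of_mem (hv i), h0⟩

variable [FiniteDimensional (KK k) V]

omit [NeZero n] in
/-- A tuple with `D v ≠ 0` is linearly independent (`AlternatingMap.map_linearDependent`). -/
theorem AltNe.le_rk (h : N.AltNe D) : r ≤ N.rk := by
  obtain ⟨v, hv, hD⟩ := h
  exact det_le_finrank D N.span hv hD

omit [NeZero n] in
/-- `Basis.det` of a basis of `N.span`, composed with a projection `V → N.span`. -/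
theorem exists_altNe (N : Fam k n V) : ∃ D : V [⋀^Fin N.rk]→ₗ[KK k] KK k, N.AltNe D := by
  obtain ⟨π, hπ⟩ := N.span.subtype.exists_leftInverse_of_injective N.span.ker_subtype
  let b := Module.finBasis (KK k) N.span
  refine ⟨b.det.compLinearMap π, fun i => b i, fun i => (b i).2, ?_⟩
  have h1 : (fun i => π (b i : V)) = b := funext fun i => LinearMap.congr_fun hπ (b i)
  change b.det (fun i => π (b i : V)) ≠ 0
  rw [h1, Basis.det_self]
  exact one_ne_zero

theorem det_local {𝒱 : ValSys k n} {D : V [⋀^Fin (r + 1)]→ₗ[KK k] KK k} {ψ : V →ₗ[KK k] KK k}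
    (hr : (N.infW (LinearMap.ker ψ)).rk = r) {v0 : V} (h0 : v0 ∈ N.span) (h1 : ψ v0 = 1)
    {g' g'' : KK k} {α' α'' : Deg} (hg' : g' ≠ 0) (hg'' : g'' ≠ 0)
    (hw' : ((N.infW (LinearMap.ker ψ)).det (D.curryLeft v0)).Within g' α')
    (hw'' : (N.map ψ).Within g'' α'') (j : 𝒱.J) {δ : Fin (r + 1) → Deg} {v : Fin (r + 1) → V}
    (hv : ∀ i, v i ∈ N.sub (δ i)) (hD : D v ≠ 0) (hψ : ψ (v 0) ≠ 0)
    (hmin : ∀ i, ψ (v i) = 0 ∨ 𝒱.w j (δ 0) (ψ (v 0)) ≤ 𝒱.w j (δ i) (ψ (v i))) :
    0 ≤ 𝒱.w j (α' + α'' + ∑ i, δ i) (D v / (g' * g'')) := by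
  rw [rk, span_infW] at hr
  have hu : ∀ i : Fin r, ψ (v i.succ) / ψ (v 0) = 0 ∨
      0 ≤ 𝒱.w j (δ i.succ - δ 0) (ψ (v i.succ) / ψ (v 0)) := by
    intro i
    by_cases h : ψ (v i.succ) = 0
    · exact Or.inl (by rw [h, zero_div])
    · right
      rw [𝒱.w_div j _ _ h hψ]
      have := (hmin i.succ).resolve_left h
      omega
  choose ε f hf0 hf hfw hfu using fun i => 𝒱.exists_local_denom j _ (hu i)
  set v' : Fin r → V := fun i => f i • v i.succ - (f i * (ψ (v i.succ) / ψ (v 0))) • v 0 with hv'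
  have hv'1 : ∀ i, v' i ∈ (N.infW (LinearMap.ker ψ)).sub (ε i + δ i.succ) := by
    intro i
    refine mem_infW.2 ⟨sub_mem (N.smul_mem (hf i) (hv _)) ?_, ?_⟩
    · have := N.smul_mem (hfu i) (hv 0)
      rwa [add_assoc, sub_add_cancel] at this
    · change ψ _ = 0
      rw [map_sub, map_smul, map_smul, smul_eq_mul, smul_eq_mul]
      field_simp
      ring
  have e1 : D (Matrix.vecCons (v 0) v') = (∏ i, f i) * D v := by
    rw [hv', det_cons_sub, ← D.curryLeft_apply_apply, AlternatingMap.map_smul_univ,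
      D.curryLeft_apply_apply, smul_eq_mul]
    congr 2
    exact Fin.cons_self_tail v
  have e2 := det_cons_eq D N.span ψ hr h0 h1 (mem_span_of_mem (hv 0)) (u := v') fun i => by
    rw [← span_infW]
    exact mem_span_of_mem (hv'1 i)
  have hf1 : ∏ i, f i ≠ 0 := Finset.prod_ne_zero_iff.2 fun i _ => hf0 i
  have hD' : D.curryLeft v0 v' ≠ 0 := by
    intro h
    rw [e1, h, mul_zero] at e2
    exact mul_ne_zero hf1 hD e2
  have w1 := 𝒱.w_nonneg j (hw' _ _ (mem_det hv'1)) (div_ne_zero hD' hg')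
  have w2 := 𝒱.w_nonneg j (hw'' (δ 0) (ψ (v 0)) ⟨v 0, hv 0, rfl⟩) (div_ne_zero hψ hg'')
  have w3 := 𝒱.w_mul j (α' + ∑ i, (ε i + δ i.succ)) (α'' + δ 0) _ _ (div_ne_zero hD' hg')
    (div_ne_zero hψ hg'')
  have w4 := 𝒱.w_mul j (∑ i, ε i) (α' + α'' + ∑ i, δ i) _ _ hf1
    (div_ne_zero hD (mul_ne_zero hg' hg''))
  rw [𝒱.w_prod j _ _ _ (fun i _ => hf0 i), Finset.sum_eq_zero fun i _ => hfw i, zero_add] at w4
  have e3 : (∏ i, f i) * (D v / (g' * g'')) = D.curryLeft v0 v' / g' * (ψ (v 0) / g'') := by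
    rw [← mul_div_assoc, ← e1, e2]
    field_simp
  have e4 : ∑ i, ε i + (α' + α'' + ∑ i, δ i) = α' + ∑ i, (ε i + δ i.succ) + (α'' + δ 0) := by
    rw [Fin.sum_univ_succ, Finset.sum_add_distrib]
    abel
  rw [e3, e4, w3] at w4
  omega

theorem det_tight {𝒱 : ValSys k n} {D : V [⋀^Fin (r + 1)]→ₗ[KK k] KK k} {ψ : V →ₗ[KK k] KK k}
    (hr : (N.infW (LinearMap.ker ψ)).rk = r) {v0 : V} (h0 : v0 ∈ N.span) (h1 : ψ v0 = 1)
    {g' g'' : KK k} {α' α'' : Deg}
    (h' : Tight 𝒱 ((N.infW (LinearMap.ker ψ)).det (D.curryLeft v0)) g' α')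
    (h'' : Tight 𝒱 (N.map ψ) g'' α'') : Tight 𝒱 (N.det D) (g' * g'') (α' + α'') := by
  classical
  have hr' := hr
  rw [rk, span_infW] at hr'
  refine ⟨mul_ne_zero h'.ne h''.ne, within_gen_iff.2 ?_, fun j => ?_⟩
  · rintro _ ⟨δ, v, hv, rfl⟩
    by_cases hD : D v = 0
    · simp [hD]
    have hne : D v / (g' * g'') ≠ 0 := div_ne_zero hD (mul_ne_zero h'.ne h''.ne)
    refine (𝒱.mem_S _ _ hne).2 fun j => ?_
    have hex : (Finset.univ.filter fun i => ψ (v i) ≠ 0).Nonempty := by
      by_contra hc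
      have := det_le_finrank D (N.span ⊓ LinearMap.ker ψ) (v := v) (fun i =>
        ⟨mem_span_of_mem (hv i), by
          by_contra h
          exact hc ⟨i, Finset.mem_filter.2 ⟨Finset.mem_univ i, h⟩⟩⟩) hD
      omega
    obtain ⟨i0, hi0, hmin⟩ := Finset.exists_min_image _ (fun i => 𝒱.w j (δ i) (ψ (v i))) hex
    have hi0' : ψ (v i0) ≠ 0 := (Finset.mem_filter.1 hi0).2
    have hmin' : ∀ i, ψ (v i) = 0 ∨ 𝒱.w j (δ i0) (ψ (v i0)) ≤ 𝒱.w j (δ i) (ψ (v i)) := fun i => by
      by_cases h : ψ (v i) = 0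
      · exact Or.inl h
      · exact Or.inr (hmin i (Finset.mem_filter.2 ⟨Finset.mem_univ i, h⟩))
    by_cases hi : i0 = 0
    · subst hi
      exact det_local hr h0 h1 h'.ne h''.ne h'.within h''.within j hv hD hi0' hmin'
    · have e1 : D (v ∘ Equiv.swap i0 0) = -D v := D.map_swap v hi
      have := det_local (𝒱 := 𝒱) hr h0 h1 h'.ne h''.ne h'.within h''.within j
        (δ := δ ∘ Equiv.swap i0 0) (v := v ∘ Equiv.swap i0 0) (fun i => hv _)
        (by rw [e1]; exact neg_ne_zero.2 hD) (by simpa using hi0')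
        (fun i => by simpa using hmin' (Equiv.swap i0 0 i))
      rw [e1, neg_div, 𝒱.w_neg j _ hne] at this
      simp only [Function.comp_apply] at this
      rwa [Equiv.sum_comp (Equiv.swap i0 0) δ] at this
  · obtain ⟨δ', f', hf', hf'0, hw'⟩ := h'.att j
    obtain ⟨δ'', _, ⟨v, hv, rfl⟩, hf''0, hw''⟩ := h''.att j
    have hle : ((N.infW (LinearMap.ker ψ)).det (D.curryLeft v0)).map
        (LinearMap.mulLeft (KK k) (ψ v)) ≤ (N.det D).shift δ'' := by
      rw [det, map_gen, gen_le_iff]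
      rintro _ ⟨_, ⟨δ, u, hu, rfl⟩, rfl⟩
      have e2 := det_cons_eq D N.span ψ hr' h0 h1 (mem_span_of_mem hv) (u := u) fun i => by
        rw [← span_infW]
        exact mem_span_of_mem (hu i)
      have e3 := mem_det (D := D) (δ := Matrix.vecCons δ'' δ) (v := Matrix.vecCons v u) fun i =>
        Fin.cases hv (fun i => (hu i).1) i
      rw [e2, Fin.sum_univ_succ, Matrix.cons_val_zero, add_comm δ''] at e3
      exact e3
    refine ⟨δ' + δ'', ψ v * f', hle δ' ⟨f', hf', rfl⟩, mul_ne_zero hf''0 hf'0, ?_⟩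
    have := 𝒱.w_mul j (α' + δ') (α'' + δ'') _ _ (div_ne_zero hf'0 h'.ne) (div_ne_zero hf''0 h''.ne)
    rw [hw', hw'', add_add_add_comm, div_mul_div_comm, mul_comm f'] at this
    exact this

theorem det_data_aux {𝒱 : ValSys k n} (r : ℕ) : ∀ (N : Fam k n V)
    (D : V [⋀^Fin r]→ₗ[KK k] KK k), N.FG → N.rk = r → ∀ (g : KK k) (α : Deg),
    Tight 𝒱 (N.det D) g α → ∃ s, N.HasData r α s := by
  induction r with
  | zero =>
    intro N D _ hr g α h
    obtain rfl := rk_eq_zero_iff.1 hr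
    obtain ⟨v, -, hv⟩ := altNe_of_det_ne_bot h.ne_bot
    have h1 : (⊥ : Fam k n V).det D = gen n {((0 : Deg), D v)} := by
      rw [det]
      congr 1
      ext q
      constructor
      · rintro ⟨δ, u, -, rfl⟩
        rw [Subsingleton.elim u v]
        simp
      · rintro rfl
        exact ⟨fun _ => 0, v, fun i => i.elim0, by simp⟩
    rw [h1] at h
    have h2 := (tight_gen_singleton 𝒱 0 hv).Bv_eq h
    rw [neg_zero] at h2
    exact ⟨0, hasData_bot.congr h2⟩
  | succ r ih =>
    intro N D hN hr g α h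
    obtain ⟨v, hv, hD⟩ := altNe_of_det_ne_bot h.ne_bot
    have hv0 : v 0 ≠ 0 := fun h0 => hD (D.map_coord_zero 0 h0)
    obtain ⟨ψ, hψ⟩ := Module.Projective.exists_dual_eq_one (KK k) hv0
    have hne : N.map ψ ≠ ⊥ := by
      intro hb
      have h1 : (1 : KK k) ∈ (N.map ψ).span := by
        rw [span_map]
        exact ⟨v 0, hv 0, hψ⟩
      rw [span_eq_bot_iff.2 hb] at h1
      exact one_ne_zero h1
    have hr' : (N.infW (LinearMap.ker ψ)).rk = r := by
      have := rk_map_add ψ N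
      rw [rk_eq_one hne] at this
      omega
    have hD' : (N.infW (LinearMap.ker ψ)).AltNe (D.curryLeft (v 0)) := by
      refine ⟨fun i => v i.succ - ψ (v i.succ) • v 0, fun i => ?_, ?_⟩
      · rw [span_infW]
        refine ⟨sub_mem (hv _) (Submodule.smul_mem _ _ (hv 0)), ?_⟩
        change ψ _ = 0
        rw [map_sub, map_smul, hψ, smul_eq_mul, mul_one, sub_self]
      · rw [D.curryLeft_apply_apply, det_cons_sub]
        convert hD
        exact Fin.cons_self_tail v
    obtain ⟨g', α', h'⟩ := ((hN.infW _).fg_det _).exists_tight 𝒱 hD'.det_ne_bot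
    obtain ⟨g'', α'', h''⟩ := (hN.map ψ).exists_tight 𝒱 hne
    obtain ⟨s', hs'⟩ := ih _ _ (hN.infW _) hr' g' α' h'
    obtain ⟨s'', hs'', -⟩ := h''.data (ringExpChar k)
    exact ⟨_, (HasData.add hN ψ hs' hs'').congr ((det_tight hr' (hv 0) hψ h' h'').Bv_eq h)⟩

/-- Induction on `r` (generalising `N, D, g, α`).
`r = 0`: `N = ⊥`, `N.det D = gen {(0, D ![])}`, `tight_gen_singleton`, `Tight.Bv_eq`, `hasData_bot`.
`r + 1`: pick a linear form `ψ` and `v0 ∈ N.span` with `ψ v0 = 1`; `N' = N.infW (ker ψ)` has rank `r`; `D' = D.curryLeft v0`.  For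
`v ∈ N.span` and `u i ∈ N'.span`: `D (Fin.cons v u) = ψ v * D' u` (`v - ψ v • v0 ∈ N'.span`, and `r + 1` vectors of `N'.span` are
dependent).  `D'` does not vanish on `N'.span` (subtract multiples of a vector with `ψ ≠ 0`).  Take `Tight (N'.det D') g' α'` and
`Tight (N.map ψ) g'' α''`.  Claim `Tight (N.det D) (g' * g'') (α' + α'')`.  `att`: products (note `att` for `N'.det D'` may be taken at a
generator `D' u`, by `le_w_gen`).  `within`: for a tuple `v i ∈ N.sub (δ i)` with `D v ≠ 0` and each `j`: choose `i0` minimising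
`w j (δ i) (ψ (v i))` among `ψ (v i) ≠ 0`, wlog `i0 = 0` (`map_swap`); for `i ≠ 0` let `u i = ψ (v i) / ψ (v 0)` and take
`(ε i, f i)` from `exists_local_denom j (δ i - δ 0)`; `v' i = f i • v i - (f i * u i) • v 0 ∈ N'.sub (ε i + δ i)` and
`(∏ f i) * D v = D (cons (v 0) v') = ψ (v 0) * D' v'`; compare valuations.  Conclude with `Tight.Bv_eq`, `Tight.data`,
`HasData.add`, `HasData.congr`. -/
theorem Tight.det_data {𝒱 : ValSys k n} (hN : N.FG) (hr : N.rk = r) {g : KK k} {α : Deg}
    (h : Tight 𝒱 (N.det D) g α) : ∃ s, N.HasData r α s := by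
  exact det_data_aux r N D hN hr g α h

theorem exists_within_deg (hN : N.FG) (hr : N.rk = r) (hD : N.AltNe D) :
    ∃ (g : KK k) (α : Deg), g ≠ 0 ∧ (N.det D).Within g α ∧ ∀ H, deg H N = B α H := by
  obtain ⟨𝒱⟩ := exists_valSys k n
  obtain ⟨g, α, h⟩ := (hN.fg_det D).exists_tight 𝒱 hD.det_ne_bot
  obtain ⟨s, hs⟩ := h.det_data hN hr
  exact ⟨g, α, h.ne, h.within, hs.deg_eq hN⟩

theorem deg_le_of_within (hN : N.FG) (hr : N.rk = r) (hD : N.AltNe D) {g : KK k} (hg : g ≠ 0) {α : Deg}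
    (h : (N.det D).Within g α) {H : Deg} (hH : Nef H) : deg H N ≤ B α H := by
  obtain ⟨𝒱⟩ := exists_valSys k n
  obtain ⟨g0, α0, h0⟩ := (hN.fg_det D).exists_tight 𝒱 hD.det_ne_bot
  obtain ⟨s, hs⟩ := h0.det_data hN hr
  rw [hs.deg_eq hN]
  exact h0.B_le hg h hH

/-- Equality in codimension one.  The spans agree.  With `(g, α)` from `exists_within_deg` for `A`, a tuple `v` of `A'` has
`x0^(m r) * (D v / g)` and `x1^(m r) * (D v / g)` in `S (α + ∑ δ + (m r) • h)`, so `D v / g ∈ S (α + ∑ δ)` by `ν.cop`;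
`deg_le_of_within`, `deg_mono`. -/
theorem deg_eq_of_cop {h : Deg} (ν : NN k n h) {A A' : Fam k n V} (hA : A'.FG) (hle : A ≤ A') (m : ℕ)
    (h0 : ∀ δ, ∀ v ∈ A'.sub δ, ν.x 0 ^ m • v ∈ A.sub (δ + (m : ℤ) • h))
    (h1 : ∀ δ, ∀ v ∈ A'.sub δ, ν.x 1 ^ m • v ∈ A.sub (δ + (m : ℤ) • h)) {H : Deg} (hH : Nef H) :
    A.rk = A'.rk ∧ deg H A = deg H A' := by
  have hsp : A.span = A'.span := by
    refine le_antisymm (span_mono hle) (span_le_iff.2 fun δ v hv => ?_)
    exact (Submodule.smul_mem_iff _ (pow_ne_zero m (ν.ne 0))).1 (mem_span_of_mem (h0 δ v hv))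
  have hrk : A.rk = A'.rk := by rw [rk, rk, hsp]
  refine ⟨hrk, le_antisymm (deg_mono hA hle hrk hH) ?_⟩
  obtain ⟨D, hD⟩ := exists_altNe A
  obtain ⟨g, α, hg, hw, hdeg⟩ := exists_within_deg (hA.of_le hle) rfl hD
  have hD' : A'.AltNe D := by
    obtain ⟨v, hv, hv'⟩ := hD
    exact ⟨v, fun i => hsp ▸ hv i, hv'⟩
  rw [hdeg]
  refine deg_le_of_within hA hrk.symm hD' hg (within_gen_iff.2 ?_) hH
  rintro _ ⟨δ, v, hv, rfl⟩
  have key : ∀ x : KK k, (∀ δ, ∀ v ∈ A'.sub δ, x ^ m • v ∈ A.sub (δ + (m : ℤ) • h)) →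
      x ^ (m * A.rk) * (D v / g) ∈ S k n (α + ∑ i, δ i + ((m * A.rk : ℕ) : ℤ) • h) := by
    intro x hx
    have h2 := hw _ _ (mem_det (D := D) fun i => hx _ _ (hv i))
    rw [D.map_smul_univ, Finset.prod_const, Finset.sum_add_distrib, Finset.sum_const,
      Finset.card_univ, Fintype.card_fin, smul_eq_mul, ← pow_mul, mul_div_assoc, ← add_assoc,
      ← natCast_zsmul, smul_smul, mul_comm (A.rk : ℤ), ← Nat.cast_mul] at h2
    exact h2
  exact ν.cop _ _ _ (key _ h0) (key _ h1)

/-- Take `J : Fin r → ι` such that the minor `D_J v = det (fun a b => v a (J b))`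
(`Matrix.detRowAlternating.compLinearMap (LinearMap.funLeft _ _ J)`) does not vanish on `N.span` (the columns of the matrix of a basis
of `N.span` span `Fin r → K`, so contain a basis).  `D_J (v^p) = (D_J v)^p` (`RingHom.map_det (frobenius K p)`), so
`(frobV p N).det D_J = frobK p (N.det D_J)` (`det_gen` for the defining generators, `frobK_gen`).  `rk (frobV p N) = r`: `≥` by
`AltNe.le_rk`, `≤` since the `p`-th powers of a basis span.  `Tight.pow`, `det_data`, `frobV_lower`, `Pol_le_const`. -/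
theorem HasData.frob_data {ι : Type} [Fintype ι] {N : Fam k n (ι → KK k)} (hN : N.FG) (p : ℕ) [ExpChar k p]
    {c : Deg} {s : ℚ} (h : N.HasData r c s) :
    ∃ s', (Fam.frobV p N).HasData r ((p : ℤ) • c) s' ∧ (p : ℚ) ^ 2 * s ≤ s' := by
  classical
  have := basic2_expChar (k := k) p
  have hr := h.rk_eq hN
  let b := Module.finBasisOfFinrankEq (KK k) N.span hr
  have hb : LinearIndependent (KK k) fun a => (b a : ι → KK k) :=
    b.linearIndependent.map' N.span.subtype N.span.ker_subtype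
  obtain ⟨J, hJ⟩ := det_minor hb
  let D : (ι → KK k) [⋀^Fin r]→ₗ[KK k] KK k :=
    Matrix.detRowAlternating.compLinearMap (LinearMap.funLeft (KK k) (KK k) J)
  have hD : N.AltNe D := ⟨fun a => b a, fun a => (b a).2, hJ⟩
  have hDp : ∀ v : Fin r → ι → KK k, (D fun a i => v a i ^ p) = D v ^ p := fun v =>
    ((frobenius (KK k) p).map_det (Matrix.of fun a c => v a (J c))).symm
  have hdet : (Fam.frobV p N).det D = frobK p (N.det D) := by
    rw [Fam.frobV, frob, det_gen, det, frobK_gen]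
    congr 1
    ext q
    constructor
    · rintro ⟨t, ht, rfl⟩
      choose δ v hv ht using ht
      refine ⟨_, ⟨δ, v, hv, rfl⟩, ?_⟩
      simp only [ht, hDp, Finset.smul_sum]
    · rintro ⟨_, ⟨δ, v, hv, rfl⟩, rfl⟩
      refine ⟨fun a => ((p : ℤ) • δ a, fun i => v a i ^ p), fun a => ⟨δ a, v a, hv a, rfl⟩, ?_⟩
      simp only [hDp, Finset.smul_sum]
  obtain ⟨𝒱⟩ := exists_valSys k n
  obtain ⟨g, α, ht⟩ := (hN.fg_det D).exists_tight 𝒱 hD.det_ne_bot
  obtain ⟨s0, hs0⟩ := ht.det_data hN hr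
  have hα : Bv α = Bv c := (hs0.unique h).2.1
  have htp := ht.pow p
  rw [← hdet] at htp
  have hrp : (Fam.frobV p N).rk = r := by
    refine le_antisymm ?_ (altNe_of_det_ne_bot htp.ne_bot).le_rk
    have h1 : (Fam.frobV p N).span ≤
        Submodule.span (KK k) (Set.range fun a i => (b a : ι → KK k) i ^ p) := by
      rw [Fam.frobV, frob, span_gen, Submodule.span_le]
      rintro _ ⟨_, ⟨δ, v, hv, rfl⟩, rfl⟩
      have h2 := congrArg N.span.subtype (b.sum_repr ⟨v, mem_span_of_mem hv⟩)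
      rw [map_sum] at h2
      have h3 : (fun i => v i ^ p) = ∑ a, b.repr ⟨v, mem_span_of_mem hv⟩ a ^ p •
          fun i => (b a : ι → KK k) i ^ p := by
        funext i
        have h4 := congrArg (frobenius (KK k) p) (congrFun h2 i)
        rw [Finset.sum_apply, map_sum] at h4
        rw [Finset.sum_apply]
        simpa [frobenius_def, mul_pow] using h4.symm
      change (fun i => v i ^ p) ∈ _
      rw [h3]
      exact Submodule.sum_mem _ fun a _ => Submodule.smul_mem _ _ (Submodule.subset_span ⟨a, rfl⟩)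
    refine (Submodule.finrank_mono h1).trans ?_
    simpa [Set.finrank] using finrank_range_le_card (R := KK k) fun a i => (b a : ι → KK k) i ^ p
  obtain ⟨s', hs'⟩ := htp.det_data (hN.frobV p) hrp
  have hs'' : (Fam.frobV p N).HasData r ((p : ℤ) • c) s' :=
    hs'.congr (by rw [Bv_smul, Bv_smul, hα])
  refine ⟨s', hs'', Pol_le_const (n := n) (r := r) (c := (p : ℤ) • c) rfl ?_⟩
  filter_upwards [hs'', h.frobV_lower hN p] with γ e1 e2
  rw [e1] at e2
  have hn : (0 : ℚ) < (n : ℚ) ^ 3 := pow_pos (Nat.cast_pos.2 (NeZero.pos n)) 3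
  exact le_of_mul_le_mul_left e2 hn

end Fam

end Crest.Agent.R169
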