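import Crest.Agent.R169.Data

/-!
# rid 169, file `Slope1`: calculus of slope bounds

All proofs are bookkeeping with `deg_map_add`, `rk_map_add`, `deg_mono`, `span_infW`, `map_infW_comap`.
Prefix helper lemmas with `slope1_`.
-/

set_option autoImplicit false

namespace Crest.Agent.R169

open Filter Module

/-- A linear map factors through another one on a subspace if the kernels allow it. -/
theorem slope1_factor {F A B C : Type} [Field F] [AddCommGroup A] [Module F A] [AddCommGroup B] [Module F B]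
    [AddCommGroup C] [Module F C] (T : Submodule F A) (f : A →ₗ[F] B) (g : A →ₗ[F] C)
    (h : ∀ v ∈ T, f v = 0 → g v = 0) : ∃ χ : B →ₗ[F] C, ∀ v ∈ T, χ (f v) = g v := by
  obtain ⟨σ, hσ⟩ := (f.domRestrict T).rangeRestrict.exists_rightInverse_of_surjective
    (LinearMap.range_rangeRestrict _)
  obtain ⟨χ, hχ⟩ := LinearMap.exists_extend (g.domRestrict T ∘ₗ σ)
  refine ⟨χ, fun v hv => ?_⟩
  let y : LinearMap.range (f.domRestrict T) := ⟨f v, ⟨⟨v, hv⟩, rfl⟩⟩
  have h1 : χ (f v) = g (σ y) := LinearMap.congr_fun hχ y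
  have h2 : f (σ y) = f v := congrArg Subtype.val (LinearMap.congr_fun hσ y)
  have h3 := h ((σ y : A) - v) (T.sub_mem (σ y).2 hv) (by rw [map_sub, h2, sub_self])
  rw [map_sub, sub_eq_zero] at h3
  rw [h1, h3]

namespace Fam

variable {k : Type} [Field k] {n : ℕ} [NeZero n]
  {V : Type} [AddCommGroup V] [Module (KK k) V] [Module k V] [IsScalarTower k (KK k) V]
  [FiniteDimensional (KK k) V]
  {V' : Type} [AddCommGroup V'] [Module (KK k) V'] [Module k V'] [IsScalarTower k (KK k) V']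
  [FiniteDimensional (KK k) V'] {N : Fam k n V} {H : Deg} {μ : ℚ}

omit [NeZero n] [FiniteDimensional (KK k) V] in
theorem SlopeLE.mono_slope (h : SlopeLE H N μ) {μ' : ℚ} (hμ : μ ≤ μ') : SlopeLE H N μ' :=
  fun W => (h W).trans (mul_le_mul_of_nonneg_right hμ (Nat.cast_nonneg _))

omit [NeZero n] in
theorem SlopeGE.mono_slope (h : SlopeGE H N μ) {μ' : ℚ} (hμ : μ' ≤ μ) : SlopeGE H N μ' := by
  intro W
  refine le_trans (mul_le_mul_of_nonneg_right hμ ?_) (h W)
  have : (N.infW W).rk ≤ N.rk := rk_mono (infW_le N W)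
  exact sub_nonneg.2 (Nat.cast_le.2 this)

omit [NeZero n] [FiniteDimensional (KK k) V] in
theorem SlopeLE.deg_le (h : SlopeLE H N μ) : (deg H N : ℚ) ≤ μ * N.rk := by
  have := h ⊤
  rwa [infW_top] at this

theorem SlopeGE.le_deg (h : SlopeGE H N μ) : μ * N.rk ≤ (deg H N : ℚ) := by
  have := h ⊥
  rw [infW_bot, rk_bot, deg_bot] at this
  simpa using this

omit [NeZero n] [FiniteDimensional (KK k) V] in
theorem slope1_bot_infW (W : Submodule (KK k) V) : (⊥ : Fam k n V).infW W = ⊥ :=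
  le_bot_iff.1 (infW_le _ _)

theorem slopeLE_bot (H : Deg) (μ : ℚ) : SlopeLE H (⊥ : Fam k n V) μ := by
  intro W
  rw [slope1_bot_infW, rk_bot, deg_bot]
  simp

theorem slopeGE_bot (H : Deg) (μ : ℚ) : SlopeGE H (⊥ : Fam k n V) μ := by
  intro W
  rw [slope1_bot_infW, rk_bot]
  simp

omit [FiniteDimensional (KK k) V] in
theorem slope1_rk_infW_span {A : Fam k n V} (hA : A ≤ N) : A.rk = (N.infW A.span).rk := by
  unfold rk
  rw [span_infW, inf_eq_right.2 (span_mono hA)]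

theorem slope1_deg_le_infW_span (hN : N.FG) (hH : Nef H) {A : Fam k n V} (hA : A ≤ N) :
    (deg H A : ℚ) ≤ deg H (N.infW A.span) :=
  Int.cast_le.2 (deg_mono (hN.infW _) (le_infW hA le_rfl) (slope1_rk_infW_span hA) hH)

theorem slope1_deg_map (hN : N.FG) (ψ : V →ₗ[KK k] V') (H : Deg) :
    (deg H N : ℚ) = deg H (N.infW (LinearMap.ker ψ)) + deg H (N.map ψ) := by
  rw [deg_map_add hN ψ H, Int.cast_add]

omit [FiniteDimensional (KK k) V'] in
theorem slope1_rk_map (N : Fam k n V) (ψ : V →ₗ[KK k] V') :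
    (N.rk : ℚ) = (N.infW (LinearMap.ker ψ)).rk + (N.map ψ).rk := by
  rw [rk_map_add ψ N, Nat.cast_add]

/-- Compare `A` with `N.infW A.span`, of the same rank. -/
theorem SlopeLE.deg_le_of_le (h : SlopeLE H N μ) (hN : N.FG) (hH : Nef H) {A : Fam k n V} (hA : A ≤ N) :
    (deg H A : ℚ) ≤ μ * A.rk := by
  rw [slope1_rk_infW_span hA]
  exact (slope1_deg_le_infW_span hN hH hA).trans (h A.span)

theorem SlopeLE.of_le (h : SlopeLE H N μ) (hN : N.FG) (hH : Nef H) {A : Fam k n V} (hA : A ≤ N) :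
    SlopeLE H A μ :=
  fun W => h.deg_le_of_le hN hH ((infW_le A W).trans hA)

theorem SlopeGE.le_deg_map (h : SlopeGE H N μ) (hN : N.FG) (ψ : V →ₗ[KK k] V') :
    μ * (N.map ψ).rk ≤ (deg H (N.map ψ) : ℚ) := by
  have h1 := h (LinearMap.ker ψ)
  rw [slope1_deg_map hN ψ H, slope1_rk_map N ψ, add_sub_cancel_left, add_sub_cancel_left] at h1
  exact h1

theorem slopeGE_of_mkQ (hN : N.FG)
    (h : ∀ W : Submodule (KK k) V, μ * (N.map W.mkQ).rk ≤ (deg H (N.map W.mkQ) : ℚ)) : SlopeGE H N μ := by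
  intro W
  have h1 := slope1_deg_map hN W.mkQ H
  have h2 := slope1_rk_map N W.mkQ
  rw [Submodule.ker_mkQ] at h1 h2
  rw [h1, h2, add_sub_cancel_left, add_sub_cancel_left]
  exact h W

theorem SlopeGE.image (h : SlopeGE H N μ) (hN : N.FG) (ψ : V →ₗ[KK k] V') : SlopeGE H (N.map ψ) μ := by
  refine slopeGE_of_mkQ (hN.map ψ) fun W => ?_
  rw [map_map]
  exact h.le_deg_map hN _

/-- Enlarging without changing the rank. -/
theorem SlopeGE.of_le_of_rk {A A' : Fam k n V} (h : SlopeGE H A μ) (hA : A'.FG) (hH : Nef H) (hle : A ≤ A')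
    (hr : A.rk = A'.rk) : SlopeGE H A' μ := by
  refine slopeGE_of_mkQ hA fun W => ?_
  have h1 : (A.map W.mkQ).rk = (A'.map W.mkQ).rk := by
    unfold rk
    rw [span_map, span_map, span_eq_of_rk_eq hle hr]
  rw [← h1]
  exact (h.le_deg_map (hA.of_le hle) W.mkQ).trans
    (Int.cast_le.2 (deg_mono (hA.map _) (map_mono _ hle) h1 hH))

/-- For `W`, apply `deg_map_add` to `N.infW W` and `deg_le_of_le` to both parts. -/
theorem SlopeLE.extension (hN : N.FG) (hH : Nef H) (ψ : V →ₗ[KK k] V')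
    (h1 : SlopeLE H (N.infW (LinearMap.ker ψ)) μ) (h2 : SlopeLE H (N.map ψ) μ) : SlopeLE H N μ := by
  intro W
  rw [slope1_deg_map (hN.infW W) ψ H, slope1_rk_map (N.infW W) ψ, mul_add]
  exact add_le_add (h1.deg_le_of_le (hN.infW _) hH (infW_mono (infW_le N W) _))
    (h2.deg_le_of_le (hN.map ψ) hH (map_mono ψ (infW_le N W)))

/-- For `π = W.mkQ` let `A = (N.infW (ker ψ)).map π`, `U = A.span`.  `(N.map π).infW U ≥ A` has the same rank, so degree
`≥ μ rk`; and `(N.map π).map U.mkQ = (N.map ψ).map χ` for a linear `χ` with `χ ∘ ψ = U.mkQ ∘ π` on `N.span` (exists because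
`N.span ⊓ ker ψ` is killed: define on `N.span.map ψ` and extend; `map_congr`). -/
theorem SlopeGE.extension (hN : N.FG) (hH : Nef H) (ψ : V →ₗ[KK k] V')
    (h1 : SlopeGE H (N.infW (LinearMap.ker ψ)) μ) (h2 : SlopeGE H (N.map ψ) μ) : SlopeGE H N μ := by
  refine slopeGE_of_mkQ hN fun W => ?_
  have hAM : (N.infW (LinearMap.ker ψ)).map W.mkQ ≤ N.map W.mkQ := map_mono _ (infW_le _ _)
  have hA := h1.le_deg_map (hN.infW _) W.mkQ
  have hsp := span_map W.mkQ (N.infW (LinearMap.ker ψ))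
  generalize (N.infW (LinearMap.ker ψ)).map W.mkQ = A at hAM hA hsp
  have e1 := slope1_deg_map (hN.map W.mkQ) A.span.mkQ H
  have e2 := slope1_rk_map (N.map W.mkQ) A.span.mkQ
  rw [Submodule.ker_mkQ] at e1 e2
  obtain ⟨χ, hχ⟩ := slope1_factor N.span ψ (A.span.mkQ ∘ₗ W.mkQ) fun v hv h0 => by
    rw [LinearMap.comp_apply, ← LinearMap.mem_ker, Submodule.ker_mkQ, hsp, span_infW]
    exact Submodule.mem_map_of_mem ⟨hv, h0⟩
  have e3 : (N.map W.mkQ).map A.span.mkQ = (N.map ψ).map χ := by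
    rw [map_map, map_map]
    exact map_congr fun v hv => (hχ v hv).symm
  rw [e1, e2, mul_add, ← slope1_rk_infW_span hAM, e3]
  exact add_le_add (hA.trans (slope1_deg_le_infW_span (hN.map _) hH hAM)) (h2.le_deg_map (hN.map ψ) χ)

theorem SlopeLE.twist (h : SlopeLE H N μ) (hN : N.FG) (α : Deg) :
    SlopeLE H (N.shift α) (μ + (B α H : ℤ)) := by
  intro W
  rw [shift_infW, deg_shift (hN.infW W), rk_shift]
  have := h W
  push_cast
  linarith

theorem SlopeGE.twist (h : SlopeGE H N μ) (hN : N.FG) (α : Deg) :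
    SlopeGE H (N.shift α) (μ + (B α H : ℤ)) := by
  intro W
  rw [shift_infW, deg_shift (hN.infW W), deg_shift hN, rk_shift, rk_shift]
  have := h W
  push_cast
  linarith

/-- `extension` with `ψ = A.span.mkQ`. -/
theorem SlopeGE.sum {A A' : Fam k n V} (hA : A.FG) (hA' : A'.FG) (hH : Nef H) (h : SlopeGE H A μ)
    (h' : SlopeGE H A' μ) : SlopeGE H (A ⊔ A') μ := by
  refine SlopeGE.extension (hA.sup hA') hH A.span.mkQ ?_ ?_
  · rw [Submodule.ker_mkQ]
    exact h.of_le_of_rk ((hA.sup hA').infW _) hH (le_infW le_sup_left le_rfl)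
      (slope1_rk_infW_span le_sup_left)
  · rw [map_sup, map_eq_bot (N := A) (by rw [Submodule.ker_mkQ]), bot_sup_eq]
    exact h'.image hA' _

theorem SlopeLE.image_of_inj (h : SlopeLE H N μ) (hN : N.FG) {ψ : V →ₗ[KK k] V'}
    (hψ : N.span ⊓ LinearMap.ker ψ = ⊥) : SlopeLE H (N.map ψ) μ := by
  intro W
  have h0 : (N.infW (W.comap ψ)).infW (LinearMap.ker ψ) = ⊥ := by
    refine le_bot_iff.1 fun γ v hv => ?_
    have h1 : v ∈ N.span ⊓ LinearMap.ker ψ :=
      ⟨mem_span_of_mem (mem_infW.1 (mem_infW.1 hv).1).1, (mem_infW.1 hv).2⟩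
    rw [hψ] at h1
    exact h1
  have h1 := h (W.comap ψ)
  rw [slope1_deg_map (hN.infW _) ψ H, slope1_rk_map (N.infW _) ψ, h0, deg_bot, rk_bot,
    map_infW_comap] at h1
  simpa using h1

omit [NeZero n] in
theorem slopeLE_iff_slopeGE (h : (deg H N : ℚ) = μ * N.rk) : SlopeLE H N μ ↔ SlopeGE H N μ := by
  refine forall_congr' fun W => ?_
  rw [h, mul_sub]
  constructor <;> intro h1 <;> linarith

/-- In rank one `N.infW W` is `N` or `⊥`. -/
theorem slopeLE_of_rk_eq_one (h : N.rk = 1) (H : Deg) : SlopeLE H N (deg H N) := by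
  intro W
  have h1 : (N.infW W).rk ≤ N.rk := rk_mono (infW_le N W)
  rcases Nat.eq_zero_or_pos (N.infW W).rk with h2 | h2
  · rw [h2, rk_eq_zero_iff.1 h2, deg_bot]
    simp
  · have h3 := span_eq_of_rk_eq (infW_le N W) (by omega)
    have h4 : N.span ≤ W := by
      rw [← h3]
      exact span_le_iff.2 fun γ v hv => (mem_infW.1 hv).2
    rw [infW_eq_self h4, h]
    simp

theorem SlopeLE.neg_B_le (h : SlopeLE H N μ) (hN : N.FG) (hH : Nef H) {δ : Deg} {v : V} (hv : v ∈ N.sub δ)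
    (h0 : v ≠ 0) : -((B δ H : ℤ) : ℚ) ≤ μ := by
  have hle : (gen n {(δ, v)} : Fam k n V) ≤ N := gen_le_iff.2 fun p hp => by
    rw [Set.mem_singleton_iff.1 hp]
    exact hv
  have h1 := h.deg_le_of_le hN hH hle
  obtain ⟨h2, h3⟩ := deg_gen_singleton (k := k) (n := n) δ h0 H
  rw [h2, h3] at h1
  simpa using h1

/-- `deg_eq_of_ray` for `A.infW W ≤ A'.infW W`. -/
theorem SlopeLE.of_ray {A A' : Fam k n V} (h : SlopeLE H A μ) (hA : A'.FG) (hle : A ≤ A') {ℓ : Deg}
    (hℓ : Ample ℓ) (he : ∀ (m : ℤ) (ρ : Fin 5 → ℤ), A'.sub (m • ℓ + rel ρ) ≤ A.sub (m • ℓ + rel ρ)) :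
    SlopeLE H A' μ := by
  intro W
  obtain ⟨h1, h2⟩ := deg_eq_of_ray (hA.infW W) (infW_mono hle W) hℓ
    (fun m ρ v hv => mem_infW.2 ⟨he m ρ (mem_infW.1 hv).1, (mem_infW.1 hv).2⟩) H
  rw [← h1, ← h2]
  exact h W

end Fam

end Crest.Agent.R169
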