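import Crest.Agent.R169.Gen
import Crest.Agent.R169.Det
import Crest.Agent.R169.Slope1

/-!
# rid 169, file `Spread2`: a lower bound for the slopes of quotients spreads out

Prefix helper lemmas with `spread2_`.
-/

set_option autoImplicit false

namespace Crest.Agent.R169

open Filter Module

variable {n : ℕ} [NeZero n] {I ι : Type} [Fintype I] [Fintype ι]

/-- A destabilising quotient of rank `ρ` in Plücker coordinates: `y J` is the minor of the images of the generators `J 0, .., J (ρ-1)`. -/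
structure Destab (k : Type) [Field k] (n : ℕ) (δ : I → Deg) {L : Type} (κ : L → I → KK k) (ρ : ℕ)
    (J0 : Fin ρ → I) (α : Deg) (y : (Fin ρ → I) → KK k) : Prop where
  mem : ∀ J, y J ∈ S k n (α + ∑ a, δ (J a))
  ne : y J0 ≠ 0
  rel : ∀ l a, ∑ i, y (Function.update J0 a i) * κ l i = 0
  det : ∀ J : Fin ρ → I, (Matrix.of fun b a => y (Function.update J0 a (J b))).det * y J0 = y J0 ^ ρ * y J

variable {k : Type} [Field k]

theorem spread2_alt {K V : Type} [Field K] [AddCommGroup V] [Module K V] {ρ : ℕ}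
    (D : V [⋀^Fin ρ]→ₗ[K] K) (e : Fin ρ → V) (c : Fin ρ → Fin ρ → K) :
    D (fun b => ∑ a, c b a • e a) = D e * (Matrix.of c).det := by
  have := congrArg (fun f => f c) (AlternatingMap.eq_smul_basis_det (Pi.basisFun K (Fin ρ))
    (D.compLinearMap (Fintype.linearCombination K e)))
  rw [Pi.basisFun_det] at this
  simp [Fintype.linearCombination_apply, Pi.single_apply] at this
  exact this

theorem spread2_cramer {K V : Type} [Field K] [AddCommGroup V] [Module K V] {ρ : ℕ}
    (D : V [⋀^Fin ρ]→ₗ[K] K) (e : Fin ρ → V) (c : Fin ρ → K) (a : Fin ρ) :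
    D (Function.update e a (∑ b, c b • e b)) = D e * c a := by
  rw [D.map_update_sum, Finset.sum_eq_single a (fun b _ hb => by
    rw [D.map_update_smul, D.map_update_self _ hb.symm, smul_zero]) (by simp), D.map_update_smul,
    Function.update_eq_self, smul_eq_mul, mul_comm]

theorem spread2_upd {A B C : Type} [DecidableEq A] (w : B → C) (J : A → B) (a : A) (i : B) :
    (fun b => w (Function.update J a i b)) = Function.update (fun b => w (J b)) a (w i) :=
  Function.comp_update w J a i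

theorem spread2_map_gen {V V' : Type} [AddCommGroup V] [Module (KK k) V] [Module k V]
    [IsScalarTower k (KK k) V] [AddCommGroup V'] [Module (KK k) V'] [Module k V']
    [IsScalarTower k (KK k) V'] {I : Type} (n : ℕ) (δ : I → Deg) (u : I → V) (ψ : V →ₗ[KK k] V') :
    (Fam.gen n (Set.range fun i => (δ i, u i)) : Fam k n V).map ψ =
      Fam.gen n (Set.range fun i => (δ i, ψ (u i))) := by
  rw [Fam.map_gen, ← Set.range_comp]
  rfl

/-- From a destabilising quotient to coordinates.  Let `Q = N.map W.mkQ`, `ρ = Q.rk ≥ 1` (`slopeGE_of_mkQ`, `deg_bot`), `ρ ≤ card I`; compose with a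
linear map that is an isomorphism `Q.span → (Fin ρ → K)` to get `ψ0` with `Q' = N.map ψ0` spanning, same degree (`HasData.map_iff`).  With
`D = Matrix.detRowAlternating` take `(g, α0)` from `exists_within_deg`; `y0 J = D (fun a => ψ0 (u (J a))) / g`; some `y0 J0 ≠ 0` (`det_gen`,
`det_ne_bot`).  `exists_rel_of_mem_S` gives `ρ0`; `α = α0 + n • rel ρ0`, `y = y0 * mono (-ρ0)`.  With `M0` the matrix of rows `ψ0 (u (J0 a))`, Cramer's
rule says `ψ0 (u i) = ∑ a, (y (update J0 a i) / y J0) • ψ0 (u (J0 a))`; this gives `rel` (independence of the rows) and `det` (`det_mul`). -/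
theorem exists_destab {V : Type} [AddCommGroup V] [Module (KK k) V] [Module k V] [IsScalarTower k (KK k) V]
    [FiniteDimensional (KK k) V] (δ : I → Deg) (u : I → V) {L : Type} (κ : L → I → KK k)
    (hκ : ∀ l, ∑ i, κ l i • u i = 0) {H : Deg} {μ : ℚ}
    (h : ¬ Fam.SlopeGE H (Fam.gen n (Set.range fun i => (δ i, u i)) : Fam k n V) μ) :
    ∃ (ρ : ℕ) (J0 : Fin ρ → I) (α : Deg) (y : (Fin ρ → I) → KK k), ρ ≤ Fintype.card I ∧
      0 ≤ α + ∑ a, δ (J0 a) ∧ ((B α H : ℤ) : ℚ) < μ * ρ ∧ Destab k n δ κ ρ J0 α y := by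
  obtain ⟨W, hW⟩ := not_forall.1 (mt (Fam.slopeGE_of_mkQ (Fam.fg_gen (Set.finite_range _))) h)
  rw [spread2_map_gen] at hW
  have hw : ∀ l, ∑ i, κ l i • W.mkQ (u i) = 0 := fun l => by
    simpa only [map_sum, map_smul, map_zero] using congrArg W.mkQ (hκ l)
  obtain ⟨w, hw'⟩ : ∃ w : I → V ⧸ W, ∀ i, W.mkQ (u i) = w i := ⟨_, fun _ => rfl⟩
  simp only [hw'] at hW hw
  set Q : Fam k n (V ⧸ W) := Fam.gen n (Set.range fun i => (δ i, w i)) with hQ
  have hm : ∀ i, w i ∈ Q.sub (δ i) := fun i => Fam.subset_gen (p := (_, _)) ⟨i, rfl⟩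
  obtain ⟨D, hD⟩ := Q.exists_altNe
  obtain ⟨g, α, hg, h1, h2⟩ := Fam.exists_within_deg (Fam.fg_gen (Set.finite_range _)) rfl hD
  have h3 : ∀ J : Fin Q.rk → I, D (fun a => w (J a)) / g ∈ S k n (α + ∑ a, δ (J a)) := fun J =>
    h1 _ _ (Fam.mem_det fun a => hm (J a))
  obtain ⟨J0, h4⟩ : ∃ J0 : Fin Q.rk → I, D (fun a => w (J0 a)) ≠ 0 := by
    by_contra hn
    push Not at hn
    refine hD.det_ne_bot (le_bot_iff.1 ((Fam.det_gen _ D).trans_le (Fam.gen_le_iff.2 ?_)))
    rintro _ ⟨t, ht, rfl⟩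
    choose J hJ using ht
    obtain rfl := funext hJ
    exact hn J
  have h5 : LinearIndependent (KK k) fun a => w (J0 a) :=
    by_contra fun hn => h4 (D.map_linearDependent _ hn)
  have h6 : Submodule.span (KK k) (Set.range fun a => w (J0 a)) = Q.span :=
    Submodule.eq_of_le_of_finrank_eq
      (Submodule.span_le.2 (Set.range_subset_iff.2 fun a => Fam.mem_span_of_mem (hm _)))
      ((finrank_span_eq_card h5).trans (Fintype.card_fin _))
  choose c hc using fun i => (Submodule.mem_span_range_iff_exists_fun (KK k)).1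
    (h6.ge (Fam.mem_span_of_mem (hm i)))
  obtain ⟨ρ0, h7⟩ := exists_rel_of_mem_S (h3 J0) (div_ne_zero h4 hg)
  have h8 : ∀ J : Fin Q.rk → I, ((mono k (-ρ0) / g) • D) (fun a => w (J a)) =
      mono k (-ρ0) * (D (fun a => w (J a)) / g) := fun J => by
    rw [AlternatingMap.smul_apply, smul_eq_mul, div_mul_eq_mul_div, mul_div_assoc]
  refine ⟨Q.rk, J0, α + (n : ℤ) • rel ρ0, fun J => ((mono k (-ρ0) / g) • D) fun a => w (J a),
    (Fintype.card_fin _).symm.trans_le (Fintype.card_le_of_injective J0 (h5.injective.of_comp)),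
    by rwa [add_right_comm], by rw [comb2_B, ← h2]; exact not_le.1 hW, fun J => ?_, ?_,
    fun l a => ?_, fun J => ?_⟩
  · have := mul_mem_S (mono_mem_S_neg (n := n) (-ρ0)) (h3 J)
    rwa [rel_neg, smul_neg, neg_neg, ← add_assoc, add_comm _ α, ← h8] at this
  · rw [h8]
    exact mul_ne_zero (mono_ne_zero k _) (div_ne_zero h4 hg)
  all_goals generalize (mono k (-ρ0) / g) • D = D'
  · simp only [spread2_upd w, mul_comm _ (κ l _), ← smul_eq_mul, ← D'.map_update_smul]
    rw [← D'.map_update_sum, hw, D'.map_update_zero]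
  · have e1 : ∀ a i, D' (fun b => w (Function.update J0 a i b)) = D' (fun b => w (J0 b)) * c i a :=
      fun a i => by rw [spread2_upd w, ← hc i, spread2_cramer]
    have e2 := spread2_alt D' (fun a => w (J0 a)) fun b => c (J b)
    have e3 := Matrix.det_smul (Matrix.of fun b => c (J b)) (D' fun b => w (J0 b))
    simp only [hc] at e2
    simp only [e1]
    rw [Fintype.card_fin] at e3
    rw [e2]
    exact (congrArg (· * _) e3).trans (by ring)

/-- Conversely, if the `κ l` span all relations.  The matrix `W i a = y (update J0 a i)` kills the kernel of `(I → K) → V`, so there is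
`ψ : V → (Fin ρ → K)` with `ψ (u i) = W i`.  `N.map ψ` is generated by the `(δ i, W i)`; its minors are `y J0 ^ (ρ-1) * y J`, so it has rank `ρ`
(`AltNe.le_rk`) and `Within (y J0 ^ ρ / y J0) α`; `deg_le_of_within`, `SlopeGE.le_deg_map`. -/
theorem Destab.le {V : Type} [AddCommGroup V] [Module (KK k) V] [Module k V] [IsScalarTower k (KK k) V]
    [FiniteDimensional (KK k) V] {δ : I → Deg} {u : I → V} {L : Type} {κ : L → I → KK k}
    (hκ : ∀ x : I → KK k, ∑ i, x i • u i = 0 → x ∈ Submodule.span (KK k) (Set.range κ)) {H : Deg} (hH : Nef H)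
    {μ : ℚ} (h : Fam.SlopeGE H (Fam.gen n (Set.range fun i => (δ i, u i)) : Fam k n V) μ)
    {ρ : ℕ} {J0 : Fin ρ → I} {α : Deg} {y : (Fin ρ → I) → KK k} (hy : Destab k n δ κ ρ J0 α y) :
    μ * ρ ≤ ((B α H : ℤ) : ℚ) := by
  let χ := Fintype.linearCombination (KK k) fun i a => y (Function.update J0 a i)
  let φ := Fintype.linearCombination (KK k) u
  have hker : LinearMap.ker φ ≤ LinearMap.ker χ := fun x hx => by
    refine (Submodule.span_le.2 ?_ : _ ≤ LinearMap.ker χ) (hκ x hx)
    rintro _ ⟨l, rfl⟩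
    funext a
    simpa [χ, Fintype.linearCombination_apply, mul_comm] using hy.rel l a
  obtain ⟨ψ, hψ⟩ := LinearMap.exists_extend
    (((LinearMap.ker φ).liftQ χ hker).comp φ.quotKerEquivRange.symm.toLinearMap)
  have h1 : ∀ i, ψ (u i) = fun a => y (Function.update J0 a i) := fun i => by
    classical
    have := LinearMap.congr_fun hψ ⟨φ (Pi.single i 1), LinearMap.mem_range_self _ _⟩
    rw [LinearMap.comp_apply, LinearMap.comp_apply, LinearEquiv.coe_coe,
      LinearMap.quotKerEquivRange_symm_apply_image] at this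
    simpa [φ, χ] using this
  have h2 := h.le_deg_map (Fam.fg_gen (Set.finite_range _)) ψ
  rw [spread2_map_gen] at h2
  simp only [h1] at h2
  set Q : Fam k n (Fin ρ → KK k) :=
    Fam.gen n (Set.range fun i => (δ i, fun a => y (Function.update J0 a i))) with hQ
  have hD : Q.AltNe Matrix.detRowAlternating :=
    ⟨fun b a => y (Function.update J0 a (J0 b)),
      fun b => Fam.mem_span_of_mem (Fam.subset_gen (p := (_, _)) ⟨J0 b, rfl⟩), fun e =>
        mul_ne_zero (pow_ne_zero ρ hy.ne) hy.ne ((hy.det J0).symm.trans (mul_eq_zero_of_left e _))⟩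
  have hr : Q.rk = ρ := le_antisymm ((Submodule.finrank_le _).trans (by simp)) hD.le_rk
  have h3 := Fam.deg_le_of_within (Fam.fg_gen (Set.finite_range _)) hr hD
    (div_ne_zero (pow_ne_zero ρ hy.ne) hy.ne) (α := α) (by
      rw [Fam.det_gen, Fam.within_gen_iff]
      rintro _ ⟨t, ht, rfl⟩
      choose J hJ using ht
      obtain rfl := funext hJ
      have := hy.mem J
      rwa [← mul_div_cancel_left₀ (y J) (pow_ne_zero ρ hy.ne), ← hy.det J, ← div_div_eq_mul_div]
        at this) hH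
  rw [hr] at h2
  exact h2.trans (by exact_mod_cast h3)

/-- the equations `rel` and `det` over any ring -/
def spread2Eqn {R L : Type} [CommRing R] {ρ : ℕ} (J0 : Fin ρ → I) (κ : L → I → R)
    (y : (Fin ρ → I) → R) : (L × Fin ρ) ⊕ (Fin ρ → I) → R
  | Sum.inl q => ∑ i, y (Function.update J0 q.2 i) * κ q.1 i
  | Sum.inr J => (Matrix.of fun b a => y (Function.update J0 a (J b))).det * y J0 - y J0 ^ ρ * y J

theorem spread2_eqn_map {R R' L : Type} [CommRing R] [CommRing R'] (f : R →+* R') {ρ : ℕ}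
    (J0 : Fin ρ → I) (κ : L → I → R) (y : (Fin ρ → I) → R) (j : (L × Fin ρ) ⊕ (Fin ρ → I)) :
    f (spread2Eqn J0 κ y j) = spread2Eqn J0 (fun l i => f (κ l i)) (fun J => f (y J)) j := by
  rcases j with q | J
  · simp only [spread2Eqn, map_sum, map_mul]
  · simp only [spread2Eqn, map_sub, map_mul, map_pow, RingHom.map_det]
    rfl

theorem spread2_eqn_mul {R L : Type} [Field R] {t : R} (ht : t ≠ 0) {ρ : ℕ}
    (J0 : Fin ρ → I) (κ : L → I → R) (y : (Fin ρ → I) → R) (j : (L × Fin ρ) ⊕ (Fin ρ → I)) :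
    spread2Eqn J0 κ (fun J => t * y J) j = 0 ↔ spread2Eqn J0 κ y j = 0 := by
  rcases j with q | J
  · simp only [spread2Eqn, mul_assoc, ← Finset.mul_sum, mul_eq_zero, ht, false_or]
  · have := Matrix.det_smul (Matrix.of fun b a => y (Function.update J0 a (J b))) t
    rw [Fintype.card_fin] at this
    refine Iff.trans (Eq.congr_left ?_) (mul_eq_zero_iff_left (pow_ne_zero (ρ + 1) ht))
    refine (congrArg (· * _ - _) this).trans ?_
    simp only [spread2Eqn]
    ring

/-- the generic element of `S`, denominators cleared -/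
noncomputable def spread2Y {A P : Type} [CommRing A] (T : P → Finset (Fin 5 → ℤ)) (m : ℕ)
    (a : (Σ J, T J) → A) (J : P) : MvPolynomial (Fin 2) A :=
  ∑ t : T J, MvPolynomial.C (a ⟨J, t⟩) * pm A fun i => (t.1 i + m).toNat

theorem spread2_Y_map {A A' P : Type} [CommRing A] [CommRing A'] (θ : A →+* A')
    (T : P → Finset (Fin 5 → ℤ)) (m : ℕ) (a : (Σ J, T J) → A) (J : P) :
    MvPolynomial.map θ (spread2Y T m a J) = spread2Y T m (fun s => θ (a s)) J := by
  simp only [spread2Y, map_sum, map_mul, MvPolynomial.map_C, map_pm]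

theorem spread2_univ {A A' L : Type} [CommRing A] [CommRing A'] {ρ : ℕ} (J0 : Fin ρ → I)
    (T : (Fin ρ → I) → Finset (Fin 5 → ℤ)) (m : ℕ) (f : MvPolynomial (Σ J, T J) A →+* A')
    (κ : L → I → MvPolynomial (Fin 2) A) (j : (L × Fin ρ) ⊕ (Fin ρ → I)) :
    MvPolynomial.map f (spread2Eqn J0 (fun l i => MvPolynomial.map MvPolynomial.C (κ l i))
      (spread2Y T m MvPolynomial.X) j) =
    spread2Eqn J0 (fun l i => MvPolynomial.map (f.comp MvPolynomial.C) (κ l i))
      (spread2Y T m fun s => f (MvPolynomial.X s)) j := by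
  simp only [spread2_eqn_map, spread2_Y_map, MvPolynomial.map_map]

theorem spread2_Y_K {P : Type} {T : P → Finset (Fin 5 → ℤ)} {m : ℕ}
    (hm : ∀ J, ∀ t ∈ T J, ∀ i, 0 ≤ t i + m) (a : (Σ J, T J) → k) (J : P) :
    algebraMap (Pl k) (KK k) (spread2Y T m a J) =
      mono k (fun _ => m) * ∑ t : T J, a ⟨J, t⟩ • mono k t := by
  rw [spread2Y, map_sum, Finset.mul_sum]
  refine Finset.sum_congr rfl fun t _ => ?_
  rw [MvPolynomial.C_mul', Algebra.smul_def, map_mul, ← IsScalarTower.algebraMap_apply,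
    ← Algebra.smul_def, algebraMap_pm, mul_smul_comm, ← mono_add]
  congr 2
  funext i
  rw [Int.toNat_of_nonneg (hm J t t.2 i), add_comm]
  rfl

omit [NeZero n] in
theorem spread2_iff {δ : I → Deg} {L : Type} (κ : L → I → Pl k) {ρ : ℕ} {J0 : Fin ρ → I} {α : Deg}
    {T : (Fin ρ → I) → Finset (Fin 5 → ℤ)} {m : ℕ}
    (hT : ∀ J t, t ∈ T J ↔ 0 ≤ α + ∑ a, δ (J a) + (n : ℤ) • rel t)
    (hm : ∀ J, ∀ t ∈ T J, ∀ i, 0 ≤ t i + m) :
    (¬ ∃ y, Destab k n δ (fun l i => algebraMap (Pl k) (KK k) (κ l i)) ρ J0 α y) ↔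
      ∀ a : (Σ J, T J) → k, (∀ j, spread2Eqn J0 κ (spread2Y T m a) j = 0) →
        spread2Y T m a J0 = 0 := by
  have hi := IsFractionRing.injective (Pl k) (KK k)
  have key : ∀ a j, spread2Eqn J0 κ (spread2Y T m a) j = 0 ↔
      spread2Eqn J0 (fun l i => algebraMap (Pl k) (KK k) (κ l i))
        (fun J => ∑ t : T J, a ⟨J, t⟩ • mono k t) j = 0 := fun a j => by
    rw [← map_eq_zero_iff _ hi, spread2_eqn_map]
    simp only [spread2_Y_K hm]
    exact spread2_eqn_mul (mono_ne_zero k _) _ _ _ _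
  have key' : ∀ a, spread2Y T m a J0 = 0 ↔ ∑ t : T J0, a ⟨J0, t⟩ • mono k t = 0 := fun a => by
    rw [← map_eq_zero_iff _ hi, spread2_Y_K hm, mul_eq_zero_iff_left (mono_ne_zero k _)]
  simp only [key, key']
  constructor
  · intro h a ha
    by_contra h0
    exact h ⟨fun J => ∑ t : T J, a ⟨J, t⟩ • mono k t, fun J => Submodule.sum_mem _ fun t _ =>
      Submodule.smul_mem _ _ (mono_mem_S ((hT J t).1 t.2)), h0, fun l b => ha (Sum.inl (l, b)),
      fun J => sub_eq_zero.1 (ha (Sum.inr J))⟩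
  · rintro h ⟨y, hy⟩
    choose b hb using fun J => (mem_S_iff_sum (T J) (hT J)).1 (hy.mem J)
    have e : (fun J => ∑ t : T J, b J t • mono k t) = y := funext fun J =>
      (Finset.sum_coe_sort (T J) fun t => b J t • mono k t).trans (hb J).symm
    refine hy.ne ((congrFun e J0).symm.trans (h (fun s => b s.1 s.2) fun j => ?_))
    rw [e]
    rcases j with q | J
    · exact hy.rel _ _
    · exact sub_eq_zero.2 (hy.det J)

/-- For fixed `(ρ, J0, α)` and polynomial `κ`, non-existence of a solution spreads out.  Unknowns `σ = Σ J, T J` with `T J` the finite set of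
admissible exponents in degree `α + ∑ δ (J a)` (`finite_mon`, `mem_S_iff_sum`); choose `m : ℕ` with `ρ' + m ≥ 0` for all of them.  Over any ring `A`
put `Y A J = ∑ ρ' ∈ T J, C (X ⟨J, ρ'⟩) * pm _ (ρ' + m) : MvPolynomial (Fin 2) (MvPolynomial σ A)`; the equations `rel`, `det` written with `Y` (both
are homogeneous, so multiplying `y` by `mono m` does not matter) are natural in `A`; apply `nullst` with the target `Y J0`. -/
theorem generic_no_destab (δ : I → Deg) {L : Type} [Fintype L] (κ : L → I → Pl ℂ) (ρ : ℕ) (J0 : Fin ρ → I) (α : Deg)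
    (h : ¬ ∃ y, Destab ℂ n δ (fun l i => algebraMap (Pl ℂ) (KK ℂ) (κ l i)) ρ J0 α y) :
    Generic κ fun k _ κ' => ¬ ∃ y, Destab k n δ (fun l i => algebraMap (Pl k) (KK k) (κ' l i)) ρ J0 α y := by
  let T : (Fin ρ → I) → Finset (Fin 5 → ℤ) := fun J =>
    (finite_mon (n := n) (α + ∑ a, δ (J a))).toFinset
  have hT : ∀ J t, t ∈ T J ↔ 0 ≤ α + ∑ a, δ (J a) + (n : ℤ) • rel t := fun J t =>
    Set.Finite.mem_toFinset _
  obtain ⟨m, hm'⟩ := Finite.exists_le fun x : (Σ J, T J) × Fin 5 => (- x.1.2.1 x.2).toNat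
  have hm : ∀ J, ∀ t ∈ T J, ∀ i, 0 ≤ t i + m := fun J t ht i => by
    have := hm' (⟨J, t, ht⟩, i)
    dsimp only at this
    omega
  obtain ⟨X, hX⟩ := nullst
    (spread2Eqn J0 (fun l i => MvPolynomial.map MvPolynomial.C (κ l i)) (spread2Y T m MvPolynomial.X))
    (spread2Y T m MvPolynomial.X J0) fun a ha => by
      simp only [spread2_univ, spread2_Y_map, MvPolynomial.eval_X] at ha ⊢
      refine (spread2_iff κ hT hm).1 h a fun j => ?_
      simpa only [show (MvPolynomial.eval a).comp MvPolynomial.C = RingHom.id ℂ from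
        RingHom.ext fun _ => MvPolynomial.eval_C _, MvPolynomial.map_id] using ha j
  refine ⟨X, fun Λ hΛ v' hv k _ θ => (spread2_iff _ hT hm).2 fun a ha => ?_⟩
  have := hX Λ hΛ
    (spread2Eqn J0 (fun l i => MvPolynomial.map MvPolynomial.C (v' l i)) (spread2Y T m MvPolynomial.X))
    (spread2Y T m MvPolynomial.X J0) (fun j => by
      refine (spread2_univ J0 T m _ v' j).trans ?_
      simp only [MvPolynomial.map_map, MvPolynomial.map_X, ← hv, MvPolynomial.map_comp_C])
    (by simp only [spread2_Y_map, MvPolynomial.map_X]) k θ a fun j => by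
      refine (spread2_univ J0 T m _ v' j).trans ?_
      simpa only [MvPolynomial.eval₂Hom_X', MvPolynomial.eval₂Hom_comp_C] using ha j
  simpa only [spread2_Y_map, MvPolynomial.eval₂Hom_X'] using this

/-- Choose finitely many polynomial relations `κ l` spanning all `K`-linear relations among the generators (basis of the kernel, clear
denominators).  The triples `(ρ, J0, α)` with `ρ ≤ card I`, `0 ≤ α + ∑ δ (J0 a)`, `B α H < μ ρ` are finitely many (`finite_eff`); none has a solution over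
`ℂ` (`Destab.le`); `Generic.forall_finite`.  Enlarge `X` by the coefficients of `κ`, lift `κ` to `Λ` (`exists_lift_subring`); the relations
`∑ κ' l i * v' i j = 0` hold over `Λ` and reduce to `k`; `exists_destab`. -/
theorem generic_slopeGE (δ : I → Deg) (v : I → ι → Pl ℂ) {H : Deg} (hH : Ample H) {μ : ℚ}
    (h : Fam.SlopeGE H (genP ℂ n δ v) μ) : Generic v fun k _ w => Fam.SlopeGE H (genP k n δ w) μ := by
  classical
  have hi := IsFractionRing.injective (Pl ℂ) (KK ℂ)
  obtain ⟨l, s, hs⟩ := Submodule.fg_iff_exists_fin_generating_family.1 (IsNoetherian.noetherian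
    (LinearMap.ker (Fintype.linearCombination (KK ℂ) fun i j => algebraMap (Pl ℂ) (KK ℂ) (v i j))))
  obtain ⟨b, hb⟩ := IsLocalization.exist_integer_multiples_of_finite (nonZeroDivisors (Pl ℂ))
    fun q : Fin l × I => s q.1 q.2
  choose κ hκ using fun l i => hb (l, i)
  have hb0 : algebraMap (Pl ℂ) (KK ℂ) b ≠ 0 :=
    (map_ne_zero_iff _ hi).2 (nonZeroDivisors.coe_ne_zero b)
  have hκ' : ∀ l, (fun i => algebraMap (Pl ℂ) (KK ℂ) (κ l i)) = algebraMap (Pl ℂ) (KK ℂ) b • s l :=
    fun l => funext fun i => (hκ l i).trans (Algebra.smul_def _ _)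
  have hfin : ∀ (ρ : ℕ) (J0 : Fin ρ → I),
      {α : Deg | 0 ≤ α + ∑ a, δ (J0 a) ∧ ((B α H : ℤ) : ℚ) < μ * ρ}.Finite := fun ρ J0 =>
    ((finite_eff hH (⌈μ * ρ⌉ + B (∑ a, δ (J0 a)) H)).preimage
      (add_left_injective (∑ a, δ (J0 a))).injOn).subset fun α hα => ⟨hα.1, by
        rw [B_add_left, add_le_add_iff_right]
        exact_mod_cast hα.2.le.trans (Int.le_ceil _)⟩
  obtain ⟨X, hX⟩ := Generic.forall_finite fun ρ : Fin (Fintype.card I + 1) =>
    Generic.forall_finite fun J0 : Fin ρ → I =>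
      haveI := (hfin ρ J0).to_subtype
      Generic.forall_finite
        fun α : {α : Deg | 0 ≤ α + ∑ a, δ (J0 a) ∧ ((B α H : ℤ) : ℚ) < μ * (ρ : ℕ)} =>
          generic_no_destab (n := n) δ κ ρ J0 α fun ⟨y, hy⟩ => α.2.2.not_ge <|
            hy.le (fun x hx => by
              refine (Submodule.span_le.2 ?_ : Submodule.span _ (Set.range s) ≤ _) (hs.ge hx)
              rintro _ ⟨l, rfl⟩
              exact (Submodule.smul_mem_iff _ hb0).1 (Submodule.subset_span ⟨l, hκ' l⟩)) hH.nef h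
  refine ⟨X ∪ Finset.univ.biUnion fun q : Fin l × I => (κ q.1 q.2).coeffs,
    fun Λ hΛ v' hv k _ θ => ?_⟩
  choose κ' hκ'' using fun l i => exists_lift_subring Λ (κ l i) fun m => by
    by_cases hm : (κ l i).coeff m = 0
    · rw [hm]; exact Λ.zero_mem
    · exact hΛ _ (Finset.mem_union_right _ (Finset.mem_biUnion.2
        ⟨(l, i), Finset.mem_univ _, MvPolynomial.coeff_mem_coeffs m hm⟩))
  have h1 : ∀ l j, ∑ i, κ' l i * v' i j = 0 := fun l j => by
    refine MvPolynomial.map_injective Λ.subtype Subtype.val_injective (hi ?_)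
    have := congrFun (hs.le (Submodule.smul_mem _ (algebraMap (Pl ℂ) (KK ℂ) b)
      (Submodule.subset_span ⟨l, rfl⟩))) j
    rw [← hκ', Fintype.linearCombination_apply] at this
    simpa only [map_sum, map_mul, hκ'', hv, map_zero, Finset.sum_apply, Pi.smul_apply, smul_eq_mul,
      Pi.zero_apply] using this
  by_contra hn
  obtain ⟨ρ, J0, α, y, h2, h3, h4, h5⟩ := exists_destab δ _
    (fun l i => algebraMap (Pl k) (KK k) (MvPolynomial.map θ (κ' l i))) (fun l => funext fun j => by
      simpa only [map_sum, map_mul, map_zero, Finset.sum_apply, Pi.smul_apply, smul_eq_mul,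
        Pi.zero_apply] using congrArg (fun f => algebraMap (Pl k) (KK k) (MvPolynomial.map θ f))
          (h1 l j)) hn
  exact hX Λ (fun x hx => hΛ x (Finset.mem_union_left _ hx)) κ' hκ'' k θ
    ⟨ρ, Nat.lt_succ_of_le h2⟩ J0 ⟨α, h3, h4⟩ ⟨y, h5⟩

end Crest.Agent.R169
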