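import Crest.Agent.R169.BogP
import Crest.Agent.R169.Spread1
import Crest.Agent.R169.Spread2

/-!
# rid 169, file `Bog`: Bogomolov's inequality (with the Hodge index theorem built in)

Prefix helper lemmas with `bog_`.
-/

set_option autoImplicit false

namespace Crest.Agent.R169

open Filter Module

namespace Fam

variable {n : ℕ} [NeZero n]

/-- Choose coordinates `V ≃ (Fin m → K)` and multiply by a common denominator of the generators. -/
theorem FG.exists_genP {k : Type} [Field k] {V : Type} [AddCommGroup V] [Module (KK k) V] [Module k V]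
    [IsScalarTower k (KK k) V] [FiniteDimensional (KK k) V] {N : Fam k n V} (hN : N.FG) :
    ∃ (l m : ℕ) (δ : Fin l → Deg) (v : Fin l → Fin m → Pl k) (ψ : V →ₗ[KK k] (Fin m → KK k)),
      LinearMap.ker ψ = ⊥ ∧ N.map ψ = genP k n δ v := by
  obtain ⟨l, δ, u, rfl⟩ := hN.exists_fin
  let e := (Module.finBasis (KK k) V).equivFun
  obtain ⟨b, hb⟩ := IsLocalization.exist_integer_multiples_of_finite (nonZeroDivisors (Pl k))
    (fun q : Fin l × Fin (finrank (KK k) V) => e (u q.1) q.2)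
  choose v hv using hb
  have hb0 : algebraMap (Pl k) (KK k) b ≠ 0 :=
    (map_ne_zero_iff _ (IsFractionRing.injective (Pl k) (KK k))).2 (nonZeroDivisors.ne_zero b.2)
  refine ⟨l, _, δ, fun i j => v (i, j), algebraMap (Pl k) (KK k) b • e.toLinearMap, ?_, ?_⟩
  · rw [LinearMap.ker_smul _ _ hb0, e.ker]
  · rw [map_gen, ← Set.range_comp, genP]
    congr 2
    funext i
    refine Prod.ext rfl (funext fun j => ?_)
    change algebraMap (Pl k) (KK k) b * e (u i) j = algebraMap (Pl k) (KK k) (v (i, j))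
    rw [hv, Algebra.smul_def]

theorem bog_abs {η : Fin 10 → ℚ} (hη : ∀ e, |η e| ≤ 1) (y : Fin 10 → ℚ) :
    |B η y| ≤ ∑ e, |Bv y e| := by
  refine (Finset.abs_sum_le_sum_abs _ _).trans (Finset.sum_le_sum fun e _ => ?_)
  rw [abs_mul]
  exact mul_le_of_le_one_left (abs_nonneg _) (hη e)

theorem bog_qq {η : Fin 10 → ℚ} (hη : ∀ e, |η e| ≤ 1) : |B η η| ≤ 40 := by
  refine (bog_abs hη η).trans ?_
  have h : ∀ e, |Bv η e| ≤ 4 := fun e => by
    have h0 := abs_le.1 (hη (nb e 0))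
    have h1 := abs_le.1 (hη (nb e 1))
    have h2 := abs_le.1 (hη (nb e 2))
    have h3 := abs_le.1 (hη e)
    rw [Bv, abs_le]
    constructor <;> linarith
  refine (Finset.sum_le_sum fun e _ => h e).trans ?_
  norm_num

omit [NeZero n] in
/-- The numerical end.  Suppose `A = r qq ξ + B ξ c + s > 0`.  `B ξ H + μ = 0`.  Put `γ = ⌊p ξ⌋ + a • H`, `η = ⌊p ξ⌋ - p ξ ∈ (-1, 0]^10`, so
`p μ + B γ H = B η H + a B H H` with `-∑ e, Bv H e ≤ B η H ≤ 0`; fix `a`, then `b`, independent of `p`.  With `θ = η + a H - kap2 n` (bounded),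
`Pol n r (p c) (p² s) γ = p² A + p B θ (r ξ + c) + r (qq θ - sig n)`, unbounded in `p`. -/
theorem bog_numeric (hn : 0 < n) {r : ℕ} (hr : 1 ≤ r) {c H : Deg} (hH : Ample H) {s μ : ℚ} (hμ : μ * r = (B c H : ℤ))
    (h : ∀ M : ℕ, ∃ p : ℕ, M < p ∧ ∀ (γ : Deg) (b : ℕ),
      kap n H < p * μ - (r : ℚ) ^ 2 * (n * (B 1 H : ℤ)) + (B γ H : ℤ) →
      p * μ + r * (n * (B 1 H : ℤ)) + (B γ H : ℤ) ≤ b →
      (n : ℚ) ^ 3 * Pol n r ((p : ℤ) • c) ((p : ℚ) ^ 2 * s) γ ≤ (n : ℚ) ^ 5 * (r * (2 ^ r * b + 1) ^ 10))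
    {ξ : Fin 10 → ℚ} (hξ : B (toQ c + (r : ℚ) • ξ) (toQ H) = 0) : r * qq ξ + B ξ (toQ c) + s ≤ 0 := by
  by_contra hA
  rw [not_le] at hA
  set A := r * qq ξ + B ξ (toQ c) + s with hAdef
  have hr0 : (0 : ℚ) < r := by exact_mod_cast hr
  have hn0 : (0 : ℚ) < n := by exact_mod_cast hn
  have hξH : B ξ (toQ H) = -μ := by
    rw [B_add_left, B_smul_left, B_toQ, ← hμ] at hξ
    apply mul_left_cancel₀ hr0.ne'
    linarith
  set W : ℚ := ((B 1 H : ℤ) : ℚ) with hW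
  have hBv : ∀ e, 0 ≤ Bv (toQ H) e := fun e => by
    rw [Bv_toQ]
    exact_mod_cast hH.nef e
  have hW1 : ∑ e, |Bv (toQ H) e| = W := by
    rw [hW, ← B_toQ, B]
    refine Finset.sum_congr rfl fun e _ => ?_
    rw [abs_of_nonneg (hBv e)]
    simp [toQ]
  have hHH : (1 : ℚ) ≤ (B H H : ℤ) := by exact_mod_cast B_pos_of_ample hH hH
  obtain ⟨a, ha⟩ := exists_nat_gt (kap n H + W + (r : ℚ) ^ 2 * (n * W))
  obtain ⟨b, hb⟩ := exists_nat_ge ((a : ℚ) * (B H H : ℤ) + W + r * (n * W))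
  set θ0 : Fin 10 → ℚ := (a : ℚ) • toQ H - kap2 n with hθ0
  set y : Fin 10 → ℚ := (r : ℚ) • ξ + toQ c with hy
  set L : ℚ := ∑ e, |Bv y e| + |B θ0 y| with hL
  set L' : ℚ := r * (20 + ∑ e, |Bv θ0 e| + |qq θ0 - sig n|) with hL'
  set K : ℚ := (n : ℚ) ^ 2 * (r * (2 ^ r * b + 1) ^ 10) with hK
  have hL'0 : 0 ≤ L' := by positivity
  have hK0 : 0 ≤ K := by positivity
  obtain ⟨M, hM⟩ := exists_nat_gt ((L + L' + K) / A)
  obtain ⟨p, hp, h⟩ := h M
  have hp1 : (1 : ℚ) ≤ p := by exact_mod_cast (by omega : 1 ≤ p)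
  have hpA : L + L' + K < p * A := by
    rw [div_lt_iff₀ hA] at hM
    have : (M : ℚ) ≤ p := by exact_mod_cast hp.le
    nlinarith
  set η : Fin 10 → ℚ := fun e => (⌊(p : ℚ) * ξ e⌋ : ℚ) - p * ξ e with hη
  have hη1 : ∀ e, |η e| ≤ 1 := fun e => by
    have h1 := Int.floor_le ((p : ℚ) * ξ e)
    have h2 := Int.lt_floor_add_one ((p : ℚ) * ξ e)
    rw [abs_le]
    constructor <;> simp only [hη] <;> linarith
  set γ : Deg := (fun e => ⌊(p : ℚ) * ξ e⌋) + (a : ℤ) • H with hγ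
  have hγQ : toQ γ = (p : ℚ) • ξ + η + (a : ℚ) • toQ H := by
    funext e
    simp [hγ, hη, toQ]
  have hγH : ((B γ H : ℤ) : ℚ) = -(p * μ) + B η (toQ H) + a * (B H H : ℤ) := by
    rw [← B_toQ, hγQ, B_add_left, B_add_left, B_smul_left, B_smul_left, hξH, B_toQ]
    ring
  have hηH := abs_le.1 (bog_abs hη1 (toQ H))
  rw [hW1] at hηH
  have haH : (a : ℚ) ≤ a * (B H H : ℤ) := le_mul_of_one_le_right (Nat.cast_nonneg a) hHH
  have h1 := h γ b (by rw [hγH]; linarith [hηH.1]) (by rw [hγH]; linarith [hηH.2])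
  have h2 : Pol n r ((p : ℤ) • c) ((p : ℚ) ^ 2 * s) γ ≤ K := by
    refine le_of_mul_le_mul_left (h1.trans (le_of_eq ?_)) (pow_pos hn0 3)
    rw [hK]; ring
  have h3 : Pol n r ((p : ℤ) • c) ((p : ℚ) ^ 2 * s) γ = p ^ 2 * A + p * (B η y + B θ0 y) +
      r * (B η η / 2 + B η θ0 + (qq θ0 - sig n)) := by
    have e1 : toQ γ - kap2 n = (p : ℚ) • ξ + (η + θ0) := by rw [hγQ, hθ0]; abel
    rw [Pol, e1, toQ_smul, hAdef, hy]
    simp only [qq, B_add_left, B_add_right, B_smul_left, B_smul_right, B_comm ξ η, B_comm ξ θ0,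
      B_comm θ0 η]
    push_cast
    ring
  have h4 : -L ≤ B η y + B θ0 y := by
    have := (abs_le.1 (bog_abs hη1 y)).1
    linarith [neg_abs_le (B θ0 y)]
  have h5 : -L' ≤ r * (B η η / 2 + B η θ0 + (qq θ0 - sig n)) := by
    rw [hL', ← mul_neg]
    refine mul_le_mul_of_nonneg_left ?_ hr0.le
    have e1 := (abs_le.1 (bog_abs hη1 θ0)).1
    have e2 := (abs_le.1 (bog_qq hη1)).1
    linarith [neg_abs_le (qq θ0 - sig n)]
  have h6 : p * (L + L' + K) < p * (p * A) := mul_lt_mul_of_pos_left hpA (by linarith)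
  have h7 : L' + K ≤ p * (L' + K) := le_mul_of_one_le_left (by linarith) hp1
  have h8 : p * -L ≤ p * (B η y + B θ0 y) := mul_le_mul_of_nonneg_left h4 (by linarith)
  nlinarith

/-- `exists_genP`, `HasData.map_iff`, `SlopeGE.image`, `generic_hasData`, `generic_slopeGE`, `Generic.and`, `Generic.exists_char`
(a finite field is perfect), `pol_frob_le`, `bog_numeric`. -/
theorem bogomolov {V : Type} [AddCommGroup V] [Module (KK ℂ) V] [Module ℂ V] [IsScalarTower ℂ (KK ℂ) V]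
    [FiniteDimensional (KK ℂ) V] {N : Fam ℂ n V} (hN : N.FG) {r : ℕ} {c : Deg} {s : ℚ} (hd : N.HasData r c s)
    (hr : 1 ≤ r) {H : Deg} (hH : Ample H) {μ : ℚ} (hμ : μ * r = (B c H : ℤ)) (hge : SlopeGE H N μ)
    {ξ : Fin 10 → ℚ} (hξ : B (toQ c + (r : ℚ) • ξ) (toQ H) = 0) : r * qq ξ + B ξ (toQ c) + s ≤ 0 := by
  obtain ⟨l, m, δ, v, ψ, hψ, hv⟩ := hN.exists_genP
  have hd' := (HasData.map_iff hN (ψ := ψ) (by rw [hψ, inf_bot_eq])).2 hd
  have hge' := hge.image hN ψ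
  rw [hv] at hd' hge'
  have G := (generic_hasData δ v hd').and (generic_slopeGE δ v hH hge')
  refine bog_numeric (NeZero.pos n) hr hH hμ (fun M => ?_) hξ
  obtain ⟨k, _, _, p, _, _, w, hM, h1, h2⟩ := G.exists_char M
  exact ⟨p, hM, fun γ b h3 h4 =>
    HasData.pol_frob_le p (fg_gen (Set.finite_range _)) h1 hH hμ h2 h3 h4⟩

end Fam

end Crest.Agent.R169
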