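import Crest.Agent.R169.Slope1
import Crest.Agent.R169.Det

/-!
# rid 169, file `H0`: slopes bound the sections

Prefix helper lemmas with `h0_`.
-/

set_option autoImplicit false

namespace Crest.Agent.R169

open Filter Module

namespace Fam

variable {k : Type} [Field k] {n : ℕ} [NeZero n]
  {V : Type} [AddCommGroup V] [Module (KK k) V] [Module k V] [IsScalarTower k (KK k) V]
  [FiniteDimensional (KK k) V] {N : Fam k n V} {H h : Deg} {μ : ℚ}

/-- Take a linear form `ψ` injective on `N.span`, `Tight (N.map ψ) g α`, `B α H = deg ≤ b`; `(N.map ψ).sub 0 ≤ g • S α`; `finrank_S_le`. -/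
theorem dim_zero_le_of_rk_eq_one (hN : N.FG) (hH : Ample H) (h1 : N.rk = 1) {b : ℕ} (hb : deg H N ≤ b) :
    N.dim 0 ≤ (b + 1) ^ 10 := by
  have h0 : N ≠ ⊥ := by
    intro h
    rw [h, rk_bot] at h1
    exact zero_ne_one h1
  obtain ⟨γ, v, hv, hv0⟩ := data_exists_ne_zero h0
  obtain ⟨ψ, hψ⟩ := Module.Projective.exists_dual_ne_zero (KK k) hv0
  have hne : N.map ψ ≠ ⊥ := data_map_ne_bot hv hψ
  have hr := rk_map_add ψ N
  rw [h1, rk_eq_one hne] at hr
  have hbot : N.infW (LinearMap.ker ψ) = ⊥ := rk_eq_zero_iff.1 (by omega)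
  have hdeg := deg_map_add hN ψ H
  have hdim := dim_map_add hN ψ 0
  rw [hbot, deg_bot, zero_add] at hdeg
  rw [hbot] at hdim
  have hd0 : (⊥ : Fam k n V).dim 0 = 0 := by simp [dim]
  rw [hd0, zero_add] at hdim
  obtain ⟨𝒱⟩ := exists_valSys k n
  obtain ⟨g, α, hT⟩ := (hN.map ψ).exists_tight 𝒱 hne
  have hB : B α H ≤ b := by
    rw [← hT.deg_eq (hN.map ψ) H, ← hdeg]
    exact hb
  rw [hdim]
  refine le_trans ?_ (finrank_S_le (k := k) (n := n) hH hB)
  let φ : ((N.map ψ).sub 0) →ₗ[k] S k n α :=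
    { toFun := fun f => ⟨f.1 / g, by simpa using hT.within 0 f.1 f.2⟩
      map_add' := fun a b => by ext; simp [add_div]
      map_smul' := fun c a => by ext; simp [smul_div_assoc] }
  refine LinearMap.finrank_le_finrank_of_injective (f := φ) ?_
  intro a b hab
  have h2 : a.1 / g = b.1 / g := congrArg Subtype.val hab
  exact Subtype.ext ((div_left_inj' hT.ne).1 h2)

theorem h0_aux (hH : Ample H) (r : ℕ) : ∀ (V : Type) [AddCommGroup V] [Module (KK k) V] [Module k V]
    [IsScalarTower k (KK k) V] [FiniteDimensional (KK k) V] (N : Fam k n V), N.FG → N.rk = r →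
    ∀ b : ℕ, SlopeLE H N b → N.dim 0 ≤ r * (2 ^ r * b + 1) ^ 10 := by
  induction r with
  | zero =>
    intro V _ _ _ _ _ N _ hr b _
    rw [rk_eq_zero_iff.1 hr]
    simp [dim]
  | succ r ih =>
    intro V _ _ _ _ _ N hN hr b hb
    by_cases h0 : N.sub 0 = ⊥
    · unfold dim
      rw [h0]
      simp
    obtain ⟨v, hv, hv0⟩ := (Submodule.ne_bot_iff _).1 h0
    set W : Submodule (KK k) V := Submodule.span (KK k) {v} with hW
    have hWle : W ≤ N.span := (Submodule.span_singleton_le_iff_mem _ _).2 (mem_span_of_mem hv)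
    have hL1 : (N.infW W).rk = 1 := by
      unfold rk
      rw [span_infW, inf_eq_right.2 hWle]
      exact finrank_span_singleton hv0
    have hgen : (gen n {((0 : Deg), v)} : Fam k n V) ≤ N.infW W := gen_le_iff.2 fun p hp => by
      rw [Set.mem_singleton_iff.1 hp]
      exact mem_infW.2 ⟨hv, Submodule.mem_span_singleton_self v⟩
    obtain ⟨g1, g2⟩ := deg_gen_singleton (k := k) (n := n) 0 hv0 H
    have hL0 : 0 ≤ deg H (N.infW W) := by
      have := deg_mono (hN.infW W) hgen (by rw [g1, hL1]) hH.nef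
      rwa [g2, B_zero_left, neg_zero] at this
    have hLb : deg H (N.infW W) ≤ b := by
      have := hb W
      rw [hL1] at this
      exact_mod_cast (by simpa using this : (deg H (N.infW W) : ℚ) ≤ b)
    have hker : LinearMap.ker W.mkQ = W := W.ker_mkQ
    have hrk := rk_map_add W.mkQ N
    rw [hker, hL1, hr] at hrk
    have hQ : SlopeLE H (N.map W.mkQ) ((2 * b : ℕ) : ℚ) := by
      intro W'
      rw [← map_infW_comap]
      have hWW : W'.comap W.mkQ ⊓ W = W := inf_eq_right.2 (Submodule.le_comap_mkQ W W')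
      have e1 := slope1_deg_map (hN.infW (W'.comap W.mkQ)) W.mkQ H
      have e2 := slope1_rk_map (N.infW (W'.comap W.mkQ)) W.mkQ
      rw [hker, infW_infW, hWW] at e1 e2
      rw [hL1] at e2
      have e3 := hb (W'.comap W.mkQ)
      by_cases hρ : ((N.infW (W'.comap W.mkQ)).map W.mkQ).rk = 0
      · rw [rk_eq_zero_iff.1 hρ, deg_bot, rk_bot]
        simp
      · have e4 : (1 : ℚ) ≤ ((N.infW (W'.comap W.mkQ)).map W.mkQ).rk := by
          exact_mod_cast Nat.one_le_iff_ne_zero.2 hρ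
        have e5 : (0 : ℚ) ≤ deg H (N.infW W) := by exact_mod_cast hL0
        have e6 : (0 : ℚ) ≤ b := Nat.cast_nonneg b
        rw [e2] at e3
        push_cast at e3 ⊢
        nlinarith [mul_nonneg e6 (sub_nonneg.2 e4)]
    have i1 := ih (V ⧸ W) (N.map W.mkQ) (hN.map _) (by omega) (2 * b) hQ
    have i2 := dim_zero_le_of_rk_eq_one (hN.infW W) hH hL1 hLb
    have i3 := dim_map_add hN W.mkQ 0
    rw [hker] at i3
    have i4 : (b + 1) ^ 10 ≤ (2 ^ (r + 1) * b + 1) ^ 10 := by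
      refine Nat.pow_le_pow_left ?_ _
      have : 1 ≤ 2 ^ (r + 1) := Nat.one_le_two_pow
      nlinarith
    have i5 : 2 ^ r * (2 * b) = 2 ^ (r + 1) * b := by ring
    rw [i5] at i1
    rw [i3, add_mul, one_mul]
    omega

/-- Induction on the rank (generalising `V, N, b`).  If `v ≠ 0` lies in `N.sub 0` let `W = span {v}`, `L = N.infW W` of rank one,
`0 = deg (gen {(0,v)}) ≤ deg L ≤ b`; the quotient `N.map W.mkQ` has rank one less and `SlopeLE _ (2 b)`
(`deg ≤ b (ρ + 1) - deg L ≤ 2 b ρ` for rank `ρ ≥ 1`; rank `0` means `⊥`); `dim_map_add`. -/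
theorem SlopeLE.dim_zero_le (hN : N.FG) (hH : Ample H) {b : ℕ} (hb : SlopeLE H N b) :
    N.dim 0 ≤ N.rk * (2 ^ N.rk * b + 1) ^ 10 := by
  exact h0_aux hH N.rk V N hN rfl b hb

/-- The family of hulls. -/
noncomputable def h0Hull (ν : NN k n h) (κ : ℕ) (N : Fam k n V) : Fam k n V where
  sub δ := hull (fun i => ν.x i ^ κ) (N.sub (δ + (κ : ℤ) • h))
  smul_mem := by
    intro γ δ f v hf hv i
    have := N.smul_mem hf (hv i)
    rw [smul_comm, add_assoc]
    exact this

omit [NeZero n] [FiniteDimensional (KK k) V] in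
theorem h0_le_hull (ν : NN k n h) (κ : ℕ) (N : Fam k n V) : N ≤ h0Hull ν κ N := by
  intro δ v hv i
  have := N.smul_mem (pow_mem_S (ν.mem i) κ) hv
  rwa [add_comm] at this

omit [FiniteDimensional (KK k) V] in
theorem h0_hull_finite (ν : NN k n h) (hN : N.FG) (κ : ℕ) (γ : Deg) :
    FiniteDimensional k ((h0Hull ν κ N).sub γ) := by
  have := hN.finite (γ + (κ : ℤ) • h)
  let φ : ((h0Hull ν κ N).sub γ) →ₗ[k] N.sub (γ + (κ : ℤ) • h) :=
    { toFun := fun v => ⟨ν.x 0 ^ κ • v.1, v.2 0⟩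
      map_add' := fun a b => by ext; simp
      map_smul' := fun c a => by ext; simp [smul_comm c] }
  refine Module.Finite.of_injective φ ?_
  intro a b hab
  have h2 : ν.x 0 ^ κ • a.1 = ν.x 0 ^ κ • b.1 := congrArg Subtype.val hab
  exact Subtype.ext (smul_right_injective V (pow_ne_zero κ (ν.ne 0)) h2)

/-- Adjoin the hull in degree `γ`: it is finite-dimensional (multiplication by `x 0 ^ κ` injects it in `N.sub _`), so
`N' = N ⊔ gen (γ, basis)` is finitely generated; `deg_eq_of_cop` for `N.infW W ≤ N'.infW W`. -/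
theorem SlopeLE.exists_hull (ν : NN k n h) (hN : N.FG) (hH : Nef H) (hμ : SlopeLE H N μ) (γ : Deg) (κ : ℕ) :
    ∃ N' : Fam k n V, N'.FG ∧ N'.rk = N.rk ∧ SlopeLE H N' μ ∧
      hull (fun i => ν.x i ^ κ) (N.sub (γ + (κ : ℤ) • h)) ≤ N'.sub γ := by
  have := h0_hull_finite ν hN κ γ
  obtain ⟨T, hT⟩ : ((h0Hull ν κ N).sub γ).FG := Module.Finite.iff_fg.1 inferInstance
  set G : Set (Deg × V) := (fun v => (γ, v)) '' (T : Set V) with hG
  have hGf : G.Finite := T.finite_toSet.image _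
  have hfg : (N ⊔ gen n G).FG := hN.sup (fg_gen hGf)
  have hle : N ⊔ gen n G ≤ h0Hull ν κ N := by
    refine sup_le (h0_le_hull ν κ N) (gen_le_iff.2 ?_)
    rintro _ ⟨v, hv, rfl⟩
    change v ∈ (h0Hull ν κ N).sub γ
    rw [← hT]
    exact Submodule.subset_span hv
  have key : ∀ W : Submodule (KK k) V, (N.infW W).rk = ((N ⊔ gen n G).infW W).rk ∧
      deg H (N.infW W) = deg H ((N ⊔ gen n G).infW W) := fun W =>
    deg_eq_of_cop ν (hfg.infW W) (infW_mono le_sup_left W) κ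
      (fun δ v hv => mem_infW.2 ⟨hle δ (mem_infW.1 hv).1 0, W.smul_mem _ (mem_infW.1 hv).2⟩)
      (fun δ v hv => mem_infW.2 ⟨hle δ (mem_infW.1 hv).1 1, W.smul_mem _ (mem_infW.1 hv).2⟩) hH
  refine ⟨N ⊔ gen n G, hfg, ?_, ?_, ?_⟩
  · have := (key ⊤).1
    rw [infW_top, infW_top] at this
    exact this.symm
  · intro W
    rw [← (key W).1, ← (key W).2]
    exact hμ W
  · change (h0Hull ν κ N).sub γ ≤ _
    rw [← hT, Submodule.span_le]
    intro v hv
    have h1 : ((γ, v) : Deg × V) ∈ G := ⟨v, hv, rfl⟩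
    have h2 : (gen n G : Fam k n V) ≤ N ⊔ gen n G := le_sup_right
    exact le_def.1 h2 γ (subset_gen (p := (γ, v)) h1)

theorem SlopeLE.finrank_hull_le (ν : NN k n h) (hN : N.FG) (hH : Ample H) (hμ : SlopeLE H N μ) {γ : Deg}
    {b : ℕ} (hb : μ + (B γ H : ℤ) ≤ b) (κ : ℕ) :
    finrank k (hull (fun i => ν.x i ^ κ) (N.sub (γ + (κ : ℤ) • h))) ≤ N.rk * (2 ^ N.rk * b + 1) ^ 10 := by
  obtain ⟨N', h1, h2, h3, h4⟩ := hμ.exists_hull ν hN hH.nef γ κ
  have h5 := ((h3.twist h1 γ).mono_slope hb).dim_zero_le (h1.shift γ) hH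
  rw [rk_shift, h2] at h5
  refine le_trans ?_ h5
  have := h1.finite γ
  unfold dim
  rw [shift_sub, zero_add]
  exact Submodule.finrank_mono h4

theorem SlopeLE.hull_eq_bot (ν : NN k n h) (hN : N.FG) (hH : Nef H) (hμ : SlopeLE H N μ) {γ : Deg}
    (hb : μ + (B γ H : ℤ) < 0) (κ : ℕ) :
    hull (fun i => ν.x i ^ κ) (N.sub (γ + (κ : ℤ) • h)) = ⊥ := by
  obtain ⟨N', h1, -, h3, h4⟩ := hμ.exists_hull ν hN hH γ κ
  rw [Submodule.eq_bot_iff]
  intro v hv
  by_contra h0
  have := h3.neg_B_le h1 hH (h4 hv) h0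
  linarith

end Fam

end Crest.Agent.R169
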