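import Crest.Agent.R169.Val3

/-!
# rid 169, file `Val4`: the valuation system exists

Take `J = Fin 5 ⊕ {P : Associates (Pl k) // Irreducible P}`.  A function `ν : Pl k → ℤ` that is additive on nonzero
products extends to `K` by `ν (a / b) = ν a - ν b` (define it with `IsLocalization.sec` or `IsFractionRing.num/den`,
or by `Classical.choose` of `IsFractionRing.div_surjective`; prove once: additivity, the ultrametric inequality from the one on
polynomials, invariance under constants).  Apply this to `ov i` and to `ν P a = Associates.count P (Associates.mk a).factors`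
(or `multiplicity`).  `w (inl i) γ f = γ (up i) + n * ov i f`; `w (inr P) γ f = γ (lo i) + n * ν P f` if `P = mk (ppP k i)`
(the five `ppP k i` are irreducible and pairwise not associated), and `ν P f` otherwise.
`bd e = inr (mk (ppP e))` for `e < 5`, `inl (e - 5)` otherwise.
`mem_S`: `→` by span induction (monomials: `w_bd`, `w_nbd`; ultrametric inequality).  `←`: with `β = flr n γ`,
`g = f * mono (β ∘ lo)` has `ν P g ≥ 0` for all `P` (`γ e + n v ≥ 0 ↔ flr n γ e + v ≥ 0`), so in the UFD `Pl k` it is a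
polynomial (`g = a / b` with all multiplicities of `b` at most those of `a`, so `b ∣ a`), in `Rp (thr β)`; `mem_S_iff_Rp`.
`unif`: `(single e 1, 1)` for `bd e`; for another irreducible `P` with representative `Q`: `f = Q`,
`γ (up i) = -n * ov i Q`, `γ (lo i) = 0`.
Prefix helper lemmas with `val4_`.
-/

set_option autoImplicit false

namespace Crest.Agent.R169

/-- Additive on nonzero products, ultrametric. -/
structure val4_V {R : Type} [CommRing R] (ν : R → ℤ) : Prop where
  mul : ∀ a b, a ≠ 0 → b ≠ 0 → ν (a * b) = ν a + ν b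
  add : ∀ a b, a ≠ 0 → b ≠ 0 → a + b ≠ 0 → min (ν a) (ν b) ≤ ν (a + b)

theorem val4_V.one {R : Type} [CommRing R] [Nontrivial R] {ν : R → ℤ} (h : val4_V ν) :
    ν 1 = 0 := by
  have := h.mul 1 1 one_ne_zero one_ne_zero
  rw [mul_one] at this
  omega

section Field
variable {K : Type} [Field K] {ν : K → ℤ}

theorem val4_V.inv (h : val4_V ν) {f : K} (hf : f ≠ 0) : ν f⁻¹ = -ν f := by
  have := h.mul f f⁻¹ hf (inv_ne_zero hf)
  rw [mul_inv_cancel₀ hf, h.one] at this
  omega

theorem val4_V.pow (h : val4_V ν) {f : K} (hf : f ≠ 0) (m : ℕ) : ν (f ^ m) = m * ν f := by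
  induction m with
  | zero => rw [pow_zero, h.one]; simp
  | succ m ih => rw [pow_succ, h.mul _ _ (pow_ne_zero _ hf) hf, ih]; push_cast; ring

theorem val4_V.zpow (h : val4_V ν) {f : K} (hf : f ≠ 0) (m : ℤ) : ν (f ^ m) = m * ν f := by
  obtain ⟨m, rfl | rfl⟩ := Int.eq_nat_or_neg m
  · rw [zpow_natCast, h.pow hf]
  · rw [zpow_neg, zpow_natCast, h.inv (pow_ne_zero _ hf), h.pow hf, neg_mul]

theorem val4_V.prod (h : val4_V ν) {T : Type} (s : Finset T) (f : T → K) (hf : ∀ t, f t ≠ 0) :
    ν (∏ t ∈ s, f t) = ∑ t ∈ s, ν (f t) := by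
  classical
  induction s using Finset.induction_on with
  | empty => rw [Finset.prod_empty, Finset.sum_empty, h.one]
  | insert t s ht ih =>
    rw [Finset.prod_insert ht, Finset.sum_insert ht,
      h.mul _ _ (hf t) (Finset.prod_ne_zero_iff.2 fun t _ => hf t), ih]

end Field

section Ext
variable {R : Type} [CommRing R] [IsDomain R] {ν : R → ℤ}

/-- Extension to the fraction field. -/
noncomputable def val4_ext (ν : R → ℤ) (f : FractionRing R) : ℤ :=
  ν (IsLocalization.sec (nonZeroDivisors R) f).1 -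
    ν ((IsLocalization.sec (nonZeroDivisors R) f).2 : R)

theorem val4_frac {f : FractionRing R} (hf : f ≠ 0) : ∃ a b : R, a ≠ 0 ∧ b ≠ 0 ∧
    f * algebraMap R (FractionRing R) b = algebraMap R (FractionRing R) a ∧
    ∀ ν : R → ℤ, val4_ext ν f = ν a - ν b := by
  have h := IsLocalization.sec_spec (nonZeroDivisors R) f
  have hb : ((IsLocalization.sec (nonZeroDivisors R) f).2 : R) ≠ 0 :=
    nonZeroDivisors.ne_zero (IsLocalization.sec (nonZeroDivisors R) f).2.2
  refine ⟨_, _, fun h0 => ?_, hb, h, fun _ => rfl⟩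
  rw [h0, map_zero] at h
  exact mul_ne_zero hf ((map_ne_zero_iff _ (IsFractionRing.injective R (FractionRing R))).2 hb) h

theorem val4_ext_eq (h : val4_V ν) {f : FractionRing R} {a b : R} (ha : a ≠ 0) (hb : b ≠ 0)
    (e : f * algebraMap R (FractionRing R) b = algebraMap R (FractionRing R) a) :
    val4_ext ν f = ν a - ν b := by
  have hf : f ≠ 0 := by
    rintro rfl
    rw [zero_mul] at e
    exact (map_ne_zero_iff _ (IsFractionRing.injective R (FractionRing R))).2 ha e.symm
  obtain ⟨a', b', ha', hb', e', hν⟩ := val4_frac hf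
  have h1 : a * b' = a' * b := IsFractionRing.injective R (FractionRing R) (by
    rw [map_mul, map_mul, ← e, ← e']; ring)
  have h2 := h.mul a b' ha hb'
  rw [h1, h.mul a' b ha' hb] at h2
  rw [hν]
  omega

theorem val4_ext_map (h : val4_V ν) {a : R} (ha : a ≠ 0) :
    val4_ext ν (algebraMap R (FractionRing R) a) = ν a := by
  rw [val4_ext_eq h ha one_ne_zero (by rw [map_one, mul_one]), h.one, sub_zero]

theorem val4_V.ext (h : val4_V ν) : val4_V (val4_ext ν) := by
  constructor
  · intro f g hf hg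
    obtain ⟨a, b, ha, hb, e, h1⟩ := val4_frac hf
    obtain ⟨c, d, hc, hd, e', h2⟩ := val4_frac hg
    rw [val4_ext_eq h (mul_ne_zero ha hc) (mul_ne_zero hb hd) (f := f * g) (by
      rw [map_mul, map_mul, ← e, ← e']; ring), h1, h2, h.mul _ _ ha hc, h.mul _ _ hb hd]
    ring
  · intro f g hf hg hfg
    obtain ⟨a, b, ha, hb, e, h1⟩ := val4_frac hf
    obtain ⟨c, d, hc, hd, e', h2⟩ := val4_frac hg
    have e2 : (f + g) * algebraMap R (FractionRing R) (b * d) =
        algebraMap R (FractionRing R) (a * d + c * b) := by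
      rw [map_add, map_mul, map_mul, map_mul, ← e, ← e']; ring
    have h0 : a * d + c * b ≠ 0 := fun h0 => by
      rw [h0, map_zero] at e2
      exact mul_ne_zero hfg ((map_ne_zero_iff _ (IsFractionRing.injective R (FractionRing R))).2
        (mul_ne_zero hb hd)) e2
    have h3 := h.add _ _ (mul_ne_zero ha hd) (mul_ne_zero hc hb) h0
    rw [h.mul _ _ ha hd, h.mul _ _ hc hb] at h3
    rw [val4_ext_eq h h0 (mul_ne_zero hb hd) e2, h1, h2, h.mul _ _ hb hd]
    omega

variable [UniqueFactorizationMonoid R]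

open Classical in
/-- Multiplicity of the prime `P`. -/
noncomputable def val4_cnt (P : Associates R) (a : R) : ℤ :=
  (P.count (Associates.mk a).factors : ℕ)

omit [IsDomain R] in
theorem val4_cnt_V {P : Associates R} (hP : Irreducible P) : val4_V (val4_cnt P) := by
  classical
  constructor
  · intro a b ha hb
    unfold val4_cnt
    rw [← Associates.mk_mul_mk, Associates.count_mul (Associates.mk_ne_zero.2 ha)
      (Associates.mk_ne_zero.2 hb) hP]
    push_cast
    rfl
  · intro a b ha hb hab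
    unfold val4_cnt
    rw [← Nat.cast_min, Nat.cast_le,
      ← Associates.prime_pow_dvd_iff_le (Associates.mk_ne_zero.2 hab) hP]
    have h1 := (Associates.prime_pow_dvd_iff_le (Associates.mk_ne_zero.2 ha) hP).2
      (min_le_left _ (P.count (Associates.mk b).factors))
    have h2 := (Associates.prime_pow_dvd_iff_le (Associates.mk_ne_zero.2 hb) hP).2
      (min_le_right (P.count (Associates.mk a).factors) _)
    obtain ⟨Q, rfl⟩ := Associates.mk_surjective P
    rw [← Associates.mk_pow, Associates.mk_le_mk_iff_dvd] at h1 h2 ⊢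
    exact dvd_add h1 h2

theorem val4_cnt_unit {P : Associates R} (hP : Irreducible P) {a : R} (ha : IsUnit a) :
    val4_cnt P a = 0 := by
  classical
  unfold val4_cnt
  rw [Associates.mk_eq_one.2 ha, Associates.factors_one, Associates.count_zero hP]
  rfl

theorem val4_cnt_self {Q : R} (hQ : Irreducible Q) : val4_cnt (Associates.mk Q) Q = 1 := by
  classical
  unfold val4_cnt
  rw [Associates.count_self (Associates.irreducible_mk.2 hQ)]
  rfl

omit [IsDomain R] in
theorem val4_cnt_ne {P : Associates R} (hP : Irreducible P) {Q : R} (hQ : Irreducible Q)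
    (h : P ≠ Associates.mk Q) : val4_cnt P Q = 0 := by
  classical
  unfold val4_cnt
  rw [Associates.count_eq_zero_of_ne hP (Associates.irreducible_mk.2 hQ) h]
  rfl

omit [IsDomain R] in
theorem val4_dvd {a b : R} (ha : a ≠ 0) (hb : b ≠ 0)
    (h : ∀ P : Associates R, Irreducible P → val4_cnt P b ≤ val4_cnt P a) : b ∣ a := by
  classical
  rw [← Associates.mk_le_mk_iff_dvd, ← Associates.factors_le]
  unfold val4_cnt at h
  obtain ⟨sa, hsa⟩ := Associates.factors_eq_some_iff_ne_zero.2 (Associates.mk_ne_zero.2 ha)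
  obtain ⟨sb, hsb⟩ := Associates.factors_eq_some_iff_ne_zero.2 (Associates.mk_ne_zero.2 hb)
  rw [hsa, hsb] at h ⊢
  refine WithTop.coe_le_coe.2 (Multiset.le_iff_count.2 fun P => ?_)
  have := h P.1 P.2
  rw [Associates.count_some P.2, Associates.count_some P.2, Nat.cast_le] at this
  convert this

omit [IsDomain R] in
theorem val4_cnt_finite {a : R} (ha : a ≠ 0) :
    {P : Associates R | Irreducible P ∧ val4_cnt P a ≠ 0}.Finite := by
  classical
  obtain ⟨sa, hsa⟩ := Associates.factors_eq_some_iff_ne_zero.2 (Associates.mk_ne_zero.2 ha)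
  refine (sa.toFinset.finite_toSet.image Subtype.val).subset ?_
  rintro P ⟨hP, h⟩
  unfold val4_cnt at h
  rw [hsa, Associates.count_some hP, Nat.cast_ne_zero, Multiset.count_ne_zero] at h
  exact ⟨⟨P, hP⟩, Multiset.mem_toFinset.2 h, rfl⟩

end Ext

section Plane
variable {k : Type} [Field k]

theorem val4_irr_aux (g : Pl k) (i : Fin 2) (h : i ∉ g.vars) :
    Irreducible (MvPolynomial.X i - g) := by
  have := MvPolynomial.irreducible_mul_X_add (1 : Pl k) (-g) i one_ne_zero (by simp)
    (by rwa [MvPolynomial.vars_neg]) isRelPrime_one_left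
  rwa [one_mul, ← sub_eq_add_neg] at this

theorem val4_irr (i : Fin 5) : Irreducible (ppP k i) := by
  fin_cases i
  · exact MvPolynomial.X_prime.irreducible
  · exact MvPolynomial.X_prime.irreducible
  · exact val4_irr_aux 1 0 (by simp)
  · exact val4_irr_aux 1 1 (by simp)
  · exact val4_irr_aux (MvPolynomial.X 0) 1 (by simp [MvPolynomial.vars_X])

theorem val4_irr' (i : Fin 5) : Irreducible (Associates.mk (ppP k i)) :=
  Associates.irreducible_mk.2 (val4_irr i)

theorem val4_mk_inj {i j : Fin 5} (h : Associates.mk (ppP k i) = Associates.mk (ppP k j)) :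
    i = j := by
  obtain ⟨u, hu⟩ := Associates.mk_eq_mk_iff_associated.1 h
  obtain ⟨r, -, hr⟩ := MvPolynomial.isUnit_iff_eq_C_of_isReduced.1 u.isUnit
  have h1 : ∀ l, rel (Pi.single i (1 : ℤ)) (up l) = rel (Pi.single j (1 : ℤ)) (up l) := fun l => by
    rw [← ov_ppP (k := k), ← ov_ppP (k := k), ← hu, ov_mul l (ppP_ne_zero k i) u.ne_zero, hr, ov_C,
      add_zero]
  clear hu h
  revert h1
  revert i j
  decide

theorem val4_ov_V (i : Fin 5) : val4_V (ov (k := k) i) :=
  ⟨fun _ _ ha hb => ov_mul i ha hb, fun _ _ ha hb h => ov_add i ha hb h⟩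

variable (k) in
/-- The valuations of the ten lines on polynomials. -/
noncomputable def val4_v : Fin 10 → Pl k → ℤ :=
  Fin.append (m := 5) (n := 5) (fun i => val4_cnt (Associates.mk (ppP k i))) fun i => ov i

theorem val4_v_lo (i : Fin 5) : val4_v k (lo i) = val4_cnt (Associates.mk (ppP k i)) :=
  Fin.append_left (n := 5) _ _ i

theorem val4_v_up (i : Fin 5) : val4_v k (up i) = ov i :=
  Fin.append_right (m := 5) _ _ i

theorem val4_cases (e : Fin 10) : (∃ i, e = lo i) ∨ ∃ i, e = up i := by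
  revert e
  decide

theorem val4_v_V (e : Fin 10) : val4_V (val4_v k e) := by
  obtain ⟨i, rfl⟩ | ⟨i, rfl⟩ := val4_cases e
  · rw [val4_v_lo]; exact val4_cnt_V (val4_irr' i)
  · rw [val4_v_up]; exact val4_ov_V i

theorem val4_unit_C {c : k} (hc : c ≠ 0) : IsUnit (MvPolynomial.C c : Pl k) :=
  (IsUnit.mk0 c hc).map _

theorem val4_v_C (e : Fin 10) {c : k} (hc : c ≠ 0) : val4_v k e (MvPolynomial.C c) = 0 := by
  obtain ⟨i, rfl⟩ | ⟨i, rfl⟩ := val4_cases e
  · rw [val4_v_lo]; exact val4_cnt_unit (val4_irr' i) (val4_unit_C hc)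
  · rw [val4_v_up]; exact ov_C i c

theorem val4_v_ppP (e : Fin 10) (j : Fin 5) :
    val4_v k e (ppP k j) = rel (Pi.single j (1 : ℤ)) e := by
  obtain ⟨i, rfl⟩ | ⟨i, rfl⟩ := val4_cases e
  · rw [val4_v_lo, rel_lo]
    by_cases h : i = j
    · subst h
      rw [val4_cnt_self (val4_irr i), Pi.single_eq_same]
    · rw [val4_cnt_ne (val4_irr' i) (val4_irr j) fun h' => h (val4_mk_inj h'),
        Pi.single_eq_of_ne h]
  · rw [val4_v_up]; exact ov_ppP i j

theorem val4_ext_smul {ν : Pl k → ℤ} (h : val4_V ν) {c : k} (hc : c ≠ 0)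
    (h0 : ν (MvPolynomial.C c) = 0) {f : KK k} (hf : f ≠ 0) :
    val4_ext ν (c • f) = val4_ext ν f := by
  have hC : (MvPolynomial.C c : Pl k) ≠ 0 := (val4_unit_C hc).ne_zero
  have e : c • f = algebraMap (Pl k) (KK k) (MvPolynomial.C c) * f := by
    rw [Algebra.smul_def, IsScalarTower.algebraMap_apply k (Pl k) (KK k)]
    rfl
  rw [e, h.ext.mul _ _ ((map_ne_zero_iff _ (IsFractionRing.injective (Pl k) (KK k))).2 hC) hf,
    val4_ext_map h hC, h0, zero_add]

theorem val4_ext_mono {ν : Pl k → ℤ} (h : val4_V ν) (ρ : Fin 5 → ℤ) :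
    val4_ext ν (mono k ρ) = ∑ j, ρ j * ν (ppP k j) := by
  rw [mono, h.ext.prod _ _ fun j => zpow_ne_zero _ (pp_ne_zero k j)]
  refine Finset.sum_congr rfl fun j _ => ?_
  rw [h.ext.zpow (pp_ne_zero k j), pp, val4_ext_map h (ppP_ne_zero k j)]

theorem val4_v_mono (e : Fin 10) (ρ : Fin 5 → ℤ) :
    val4_ext (val4_v k e) (mono k ρ) = rel ρ e := by
  rw [val4_ext_mono (val4_v_V e)]
  simp only [val4_v_ppP]
  rw [Fin.sum_univ_five]
  fin_cases e <;> simp [rel] <;> ring

variable (k) in
/-- The other prime divisors. -/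
def val4_J : Type :=
  {P : Associates (Pl k) // Irreducible P ∧ ∀ i, P ≠ Associates.mk (ppP k i)}

theorem val4_J_mono (P : val4_J k) (ρ : Fin 5 → ℤ) :
    val4_ext (val4_cnt P.1) (mono k ρ) = 0 := by
  rw [val4_ext_mono (val4_cnt_V P.2.1)]
  exact Finset.sum_eq_zero fun j _ => by
    rw [val4_cnt_ne P.2.1 (val4_irr j) (P.2.2 j), mul_zero]

/-- The valuations of the root stack. -/
noncomputable def val4_w (n : ℕ) : Fin 10 ⊕ val4_J k → Deg → KK k → ℤ
  | .inl e, γ, f => γ e + n * val4_ext (val4_v k e) f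
  | .inr P, _, f => val4_ext (val4_cnt P.1) f

theorem val4_w_add (n : ℕ) (j : Fin 10 ⊕ val4_J k) (γ : Deg) (f g : KK k) (hf : f ≠ 0)
    (hg : g ≠ 0) (h : f + g ≠ 0) :
    min (val4_w n j γ f) (val4_w n j γ g) ≤ val4_w n j γ (f + g) := by
  rcases j with e | P
  · have h1 := (val4_v_V (k := k) e).ext.add f g hf hg h
    have hn : (0 : ℤ) ≤ n := Int.natCast_nonneg n
    simp only [val4_w]
    rcases min_le_iff.1 h1 with h2 | h2
    · exact min_le_of_left_le (by nlinarith [mul_le_mul_of_nonneg_left h2 hn])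
    · exact min_le_of_right_le (by nlinarith [mul_le_mul_of_nonneg_left h2 hn])
  · exact (val4_cnt_V P.2.1).ext.add f g hf hg h

theorem val4_w_smul (n : ℕ) (j : Fin 10 ⊕ val4_J k) (γ : Deg) (c : k) (f : KK k) (hc : c ≠ 0)
    (hf : f ≠ 0) : val4_w n j γ (c • f) = val4_w n j γ f := by
  rcases j with e | P
  · simp only [val4_w]
    rw [val4_ext_smul (val4_v_V e) hc (val4_v_C e hc) hf]
  · exact val4_ext_smul (val4_cnt_V P.2.1) hc (val4_cnt_unit P.2.1 (val4_unit_C hc)) hf

theorem val4_nonneg {n : ℕ} {γ : Deg} {f : KK k} (hf : f ∈ S k n γ) :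
    f = 0 ∨ ∀ j, 0 ≤ val4_w n j γ f := by
  induction hf using Submodule.span_induction with
  | mem f h =>
    obtain ⟨ρ, hρ, rfl⟩ := h
    refine Or.inr ?_
    rintro (e | P)
    · simp only [val4_w]
      rw [val4_v_mono]
      exact hρ e
    · exact (val4_J_mono P ρ).ge
  | zero => exact Or.inl rfl
  | add f g _ _ hf hg =>
    by_cases h : f + g = 0
    · exact Or.inl h
    by_cases hf0 : f = 0
    · subst hf0; rwa [zero_add]
    by_cases hg0 : g = 0
    · subst hg0; rwa [add_zero]
    exact Or.inr fun j => le_trans (le_min (hf.resolve_left hf0 j) (hg.resolve_left hg0 j))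
      (val4_w_add n j γ f g hf0 hg0 h)
  | smul c f _ hf =>
    by_cases hc : c = 0
    · subst hc; exact Or.inl (zero_smul _ _)
    by_cases hf0 : f = 0
    · subst hf0; exact Or.inl (smul_zero _)
    exact Or.inr fun j => by
      rw [val4_w_smul n j γ c f hc hf0]
      exact hf.resolve_left hf0 j

theorem val4_mem {n : ℕ} [NeZero n] {γ : Deg} {f : KK k} (hf : f ≠ 0)
    (h : ∀ j, 0 ≤ val4_w n j γ f) : f ∈ S k n γ := by
  have hn : (0 : ℤ) < n := Int.natCast_pos.2 (NeZero.pos n)
  have h1 : ∀ e, 0 ≤ flr n γ e + val4_ext (val4_v k e) f := fun e => by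
    have h2 : 0 ≤ γ e + n * val4_ext (val4_v k e) f := h (.inl e)
    have h3 := Int.ediv_nonneg h2 hn.le
    rwa [Int.add_mul_ediv_left _ _ hn.ne'] at h3
  set ρ : Fin 5 → ℤ := fun j => flr n γ (lo j) with hρ
  have hg : f * mono k ρ ≠ 0 := mul_ne_zero hf (mono_ne_zero k ρ)
  have hv : ∀ e, val4_ext (val4_v k e) (f * mono k ρ) = val4_ext (val4_v k e) f + rel ρ e :=
    fun e => by rw [(val4_v_V e).ext.mul _ _ hf (mono_ne_zero k ρ), val4_v_mono]
  obtain ⟨a, b, ha, hb, e, hν⟩ := val4_frac hg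
  obtain ⟨c, rfl⟩ : b ∣ a := by
    refine val4_dvd ha hb fun P hP => ?_
    rw [← sub_nonneg, ← hν]
    by_cases hi : ∃ i, P = Associates.mk (ppP k i)
    · obtain ⟨i, rfl⟩ := hi
      rw [← val4_v_lo, hv, rel_lo, add_comm]
      exact h1 (lo i)
    · have h2 : 0 ≤ val4_ext (val4_cnt P) f := h (.inr ⟨P, hP, fun i hi' => hi ⟨i, hi'⟩⟩)
      rw [(val4_cnt_V hP).ext.mul _ _ hf (mono_ne_zero k ρ),
        val4_J_mono ⟨P, hP, fun i hi' => hi ⟨i, hi'⟩⟩ ρ, add_zero]
      exact h2
  have hc : c ≠ 0 := right_ne_zero_of_mul ha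
  have e2 : f * mono k ρ = algebraMap (Pl k) (KK k) c := by
    rw [map_mul, mul_comm] at e
    exact mul_left_cancel₀
      ((map_ne_zero_iff _ (IsFractionRing.injective (Pl k) (KK k))).2 hb) e
  refine mem_S_iff_Rp.2 ⟨c, Or.inr fun i => ?_, ?_⟩
  · have h2 := hv (up i)
    rw [e2, val4_ext_map (val4_v_V _) hc] at h2
    have h3 := h1 (up i)
    rw [← val4_v_up, h2, thr, ← hρ]
    omega
  · rw [← e2, mul_assoc, ← mono_add]
    have : (ρ + fun j => -flr n γ (lo j)) = 0 := funext fun j => add_neg_cancel _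
    rw [this, mono_zero, mul_one]

theorem val4_fin (n : ℕ) (γ : Deg) {f : KK k} (hf : f ≠ 0) :
    {j | val4_w n j γ f ≠ 0}.Finite := by
  obtain ⟨a, b, ha, hb, -, hν⟩ := val4_frac hf
  have h1 : {P : val4_J k | val4_ext (val4_cnt P.1) f ≠ 0}.Finite := by
    refine (((val4_cnt_finite ha).union (val4_cnt_finite hb)).preimage
      (f := fun P : val4_J k => P.1) Subtype.val_injective.injOn).subset fun P hP => ?_
    have h2 : val4_cnt P.1 a - val4_cnt P.1 b ≠ 0 := by rw [← hν]; exact hP
    by_cases h3 : val4_cnt P.1 a = 0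
    · exact Or.inr ⟨P.2.1, fun h4 => h2 (by rw [h3, h4, sub_zero])⟩
    · exact Or.inl ⟨P.2.1, h3⟩
  refine ((Set.finite_range Sum.inl).union (h1.image Sum.inr)).subset ?_
  rintro (e | P) hj
  · exact Or.inl ⟨e, rfl⟩
  · exact Or.inr ⟨P, hj, rfl⟩

theorem val4_unif (n : ℕ) (j : Fin 10 ⊕ val4_J k) : ∃ (γ : Deg) (f : KK k), f ≠ 0 ∧
    val4_w n j γ f = 1 ∧ ∀ j', j' ≠ j → val4_w n j' γ f = 0 := by
  rcases j with e | P
  · refine ⟨Pi.single e 1, 1, one_ne_zero, ?_, ?_⟩
    · simp only [val4_w]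
      rw [(val4_v_V e).ext.one, Pi.single_eq_same, mul_zero, add_zero]
    · rintro (e' | P) hj
      · simp only [val4_w]
        rw [(val4_v_V e').ext.one, Pi.single_eq_of_ne fun h => hj (congrArg _ h), mul_zero,
          add_zero]
      · exact (val4_cnt_V P.2.1).ext.one
  · obtain ⟨P, hP, hP'⟩ := P
    obtain ⟨Q, rfl⟩ := Associates.mk_surjective P
    have hQ : Irreducible Q := Associates.irreducible_mk.1 hP
    refine ⟨fun e => -(n * val4_ext (val4_v k e) (algebraMap (Pl k) (KK k) Q)),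
      algebraMap (Pl k) (KK k) Q,
      (map_ne_zero_iff _ (IsFractionRing.injective (Pl k) (KK k))).2 hQ.ne_zero, ?_, ?_⟩
    · exact (val4_ext_map (val4_cnt_V hP) hQ.ne_zero).trans (val4_cnt_self hQ)
    · rintro (e | P') hj
      · exact neg_add_cancel _
      · exact (val4_ext_map (val4_cnt_V P'.2.1) hQ.ne_zero).trans
          (val4_cnt_ne P'.2.1 hQ fun h => hj (congrArg _ (Subtype.ext h)))

end Plane

theorem exists_valSys (k : Type) [Field k] (n : ℕ) [NeZero n] : Nonempty (ValSys k n) := by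
  refine ⟨{
    J := Fin 10 ⊕ val4_J k
    w := val4_w n
    bd := Sum.inl
    bd_inj := Sum.inl_injective
    w_mul := ?_
    w_add := val4_w_add n
    w_smul := val4_w_smul n
    mem_S := fun γ f hf => ⟨fun h => (val4_nonneg h).resolve_left hf, val4_mem hf⟩
    fin := fun γ f hf => val4_fin n γ hf
    unif := val4_unif n
    w_bd := fun e γ ρ => ?_
    w_nbd := ?_ }⟩
  · rintro (e | P) γ δ f g hf hg
    · simp only [val4_w]
      rw [(val4_v_V e).ext.mul f g hf hg, Pi.add_apply]
      ring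
    · exact (val4_cnt_V P.2.1).ext.mul f g hf hg
  · simp only [val4_w]
    rw [val4_v_mono]
  · rintro (e | P) hj γ ρ
    · exact absurd ⟨e, rfl⟩ hj
    · exact val4_J_mono P ρ

end Crest.Agent.R169
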