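import Crest.Agent.R169.Prime
import Crest.Agent.R169.Val4

/-!
# rid 169, file `NN1`: a Noether normalisation exists

Prefix helper lemmas with `nn1_`.
-/

set_option autoImplicit false

namespace Crest.Agent.R169

/-- `T` is contained in a node. -/
def nn1_ok (T : Finset (Fin 10)) : Prop := ∃ e e', Adj e e' ∧ T ⊆ {e, e'}

theorem nn1_ex {β : Deg} (hβ : ∀ e, 3 ≤ Bv β e) (T : Finset (Fin 10)) : ∃ ρ : Fin 5 → ℤ,
    nn1_ok T → (∀ f ∈ T, β f + rel ρ f = 0) ∧ ∀ f ∉ T, 1 ≤ β f + rel ρ f := by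
  by_cases hT : nn1_ok T
  swap
  · exact ⟨0, fun h => absurd h hT⟩
  obtain ⟨e, e', he, hT⟩ := hT
  obtain ⟨ρ, h1, h2, h3⟩ := exists_rel_node he
    (β := β - 1 + fun f => if f ∈ T then 1 else 0) fun g => by
      have h1 := hβ g
      have h2 : -1 ≤ Bv (fun f => if f ∈ T then (1 : ℤ) else 0) g := by
        simp only [Bv]
        split_ifs <;> norm_num
      rw [Bv_add, Bv_sub, Pi.add_apply, Pi.sub_apply, Bv_one]
      linarith
  refine ⟨ρ, fun _ => ⟨fun f hf => ?_, fun f hf => ?_⟩⟩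
  · have h4 : β f - 1 + (if f ∈ T then 1 else 0) + rel ρ f = 0 := by
      rcases Finset.mem_insert.1 (hT hf) with rfl | h
      · exact h1
      · rw [Finset.mem_singleton.1 h]; exact h2
    rw [if_pos hf] at h4
    linarith
  · have h4 : 0 ≤ β f - 1 + (if f ∈ T then 1 else 0) + rel ρ f := h3 f
    rw [if_neg hf] at h4
    linarith

/-- Monomials of degree `h = n • β` correspond to `a = β + rel ρ ≥ 0` (`h + n • rel ρ = n • a`).  By `exists_rel_node`: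
* (for `β - 1`, nef since `Bv 1 e = 2`) `ρ0` with `a ≥ 1` everywhere; `x 0 = mono ρ0`;
* (for `β - 1 + single e 1` and the node `(e, nb e 0)`) `ρ e` with `a e = 0`, `a ≥ 1` elsewhere; `x 1 = ∑ e, mono (ρ e)`;
* (for `β - 1 + single e 1 + single e' 1`) for each of the 15 nodes `e < e'`, `Adj e e'`, a `ρ` with `a = 0` at `e, e'`, `≥ 1` elsewhere;
  `z` = the sum of these 15 monomials (over the filtered finset of pairs), and `x 2 = if z = 0 then x 0 else z`.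
(Nefness: `Bv (single e 1) f ≥ -1`, and `Bv (single e 1 + single e' 1) f ≥ 0` for adjacent `e, e'`; `decide`.)
`x 1 ≠ 0` and `w (bd e) h (x 1) = 0` by `w_add_of_lt`, `le_w_sum`; `w j h (x 0) = 0` for `j ∉ range bd`; so `cop` follows from
`mem_S_of_coprime`, `w_pow`.  `irr`: `z ∈ P.sub h` in both cases.  By `irr_of_not_node` it suffices to refute that the variables in `P` all
belong to a node `{e, e'}`.  `x 0 ∈ P` gives a variable `e1`; all `mono (ρ f)`, `f ≠ e1`, lie in `P` (`Var.mono_mem`), so `mono (ρ e1)` does, giving a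
variable `e2 ≠ e1`; so both `e, e'` are variables in `P`; every node monomial other than that of `{e,e'}` lies in `P`, so that one does too,
giving a variable outside the node. -/
theorem exists_NN (k : Type) [Field k] (n : ℕ) [NeZero n] {β : Deg} (hβ : ∀ e, 3 ≤ Bv β e) :
    Nonempty (NN k n ((n : ℤ) • β)) := by
  classical
  obtain ⟨𝒱⟩ := exists_valSys k n
  choose ρ hρ using nn1_ex hβ
  have hn : (1 : ℤ) ≤ n := by exact_mod_cast NeZero.pos n
  have ev : ∀ T f, ((n : ℤ) • β + (n : ℤ) • rel (ρ T)) f = n * (β f + rel (ρ T) f) :=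
    fun T f => (mul_add _ _ _).symm
  have h1 : ∀ T, nn1_ok T → ∀ f ∉ T, 1 ≤ ((n : ℤ) • β + (n : ℤ) • rel (ρ T)) f := fun T hT f hf =>
    ev T f ▸ one_le_mul_of_one_le_of_one_le hn ((hρ T hT).2 f hf)
  have h0 : ∀ T, nn1_ok T → ∀ f ∈ T, ((n : ℤ) • β + (n : ℤ) • rel (ρ T)) f = 0 := fun T hT f hf => by
    rw [ev, (hρ T hT).1 f hf, mul_zero]
  have hpos : ∀ T, nn1_ok T → 0 ≤ (n : ℤ) • β + (n : ℤ) • rel (ρ T) := fun T hT f => by
    by_cases hf : f ∈ T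
    · exact (h0 T hT f hf).ge
    · exact zero_le_one.trans (h1 T hT f hf)
  let 𝒯 : ℕ → Finset (Finset (Fin 10)) := fun j => Finset.univ.filter fun T => T.card = j ∧ nn1_ok T
  have mem𝒯 : ∀ {j T}, T ∈ 𝒯 j ↔ T.card = j ∧ nn1_ok T := by simp [𝒯]
  have hne : ∀ {j T T0}, T0 ∈ 𝒯 j → T ∈ (𝒯 j).erase T0 → ∃ f ∈ T0, f ∉ T := fun h0 h =>
    Finset.not_subset.1 fun hs => (Finset.mem_erase.1 h).1 (Finset.eq_of_subset_of_card_le hs
      ((mem𝒯.1 (Finset.mem_erase.1 h).2).1.trans (mem𝒯.1 h0).1.symm).le).symm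
  let y : ℕ → KK k := fun j => ∑ T ∈ 𝒯 j, mono k (ρ T)
  have ymem : ∀ j, y j ∈ S k n ((n : ℤ) • β) := fun j =>
    sum_mem fun T hT => mono_mem_S (hpos T (mem𝒯.1 hT).2)
  have m0 : ∅ ∈ 𝒯 0 := mem𝒯.2 ⟨rfl, 0, _, adj_nb 0 0, Finset.empty_subset _⟩
  have m1 : ∀ e, {e} ∈ 𝒯 1 := fun e => mem𝒯.2 ⟨rfl, e, _, adj_nb e 0, by simp⟩
  have y0 : y 0 = mono k (ρ ∅) := Finset.sum_eq_single_of_mem _ m0 fun T hT h =>
    absurd (Finset.card_eq_zero.1 (mem𝒯.1 hT).1) h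
  have y1 : ∀ e, y 1 ≠ 0 ∧ 𝒱.w (𝒱.bd e) ((n : ℤ) • β) (y 1) = 0 := fun e => by
    have hw : 𝒱.w (𝒱.bd e) ((n : ℤ) • β) (mono k (ρ {e})) = 0 :=
      (𝒱.w_bd _ _ _).trans (h0 _ (mem𝒯.1 (m1 e)).2 e (Finset.mem_singleton_self e))
    have := 𝒱.w_add_of_lt (𝒱.bd e) ((n : ℤ) • β) (mono_ne_zero k (ρ {e}))
      ((𝒱.le_w_sum (𝒱.bd e) ((n : ℤ) • β) 1 ((𝒯 1).erase {e}) (fun T => mono k (ρ T))
        fun T hT => Or.inr (by
          obtain ⟨f, hf, hf'⟩ := hne (m1 e) hT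
          rw [Finset.mem_singleton.1 hf] at hf'
          exact (h1 T (mem𝒯.1 (Finset.mem_erase.1 hT).2).2 e hf').trans_eq
            (𝒱.w_bd _ _ _).symm)).imp_right fun h => by rw [hw]; omega)
    rwa [Finset.add_sum_erase _ (fun T => mono k (ρ T)) (m1 e), hw] at this
  have y0' : y 0 ≠ 0 := y0 ▸ mono_ne_zero k _
  refine ⟨⟨![y 0, y 1, if y 2 = 0 then y 0 else y 2], fun e => ?_, fun i => ?_, fun i => ?_,
    fun γ f m => 𝒱.mem_S_of_coprime (pow_ne_zero _ y0') (pow_ne_zero _ (y1 0).1) fun j => ?_,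
    fun P hP hx => ?_⟩⟩
  · rw [Bv_smul]
    exact one_le_mul_of_one_le_of_one_le hn (by linarith [hβ e])
  · fin_cases i
    exacts [ymem 0, ymem 1, by dsimp only [Matrix.cons_val]; split_ifs <;> exact ymem _]
  · fin_cases i
    exacts [y0', (y1 0).1, by dsimp only [Matrix.cons_val]; split_ifs <;> assumption]
  · change 𝒱.w j _ (y 0 ^ m) = 0 ∨ 𝒱.w j _ (y 1 ^ m) = 0
    rw [𝒱.w_pow _ _ y0', 𝒱.w_pow _ _ (y1 0).1]
    by_cases hj : j ∈ Set.range 𝒱.bd
    · obtain ⟨e, rfl⟩ := hj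
      exact Or.inr (by rw [(y1 e).2, mul_zero])
    · exact Or.inl (by rw [y0, 𝒱.w_nbd j hj, mul_zero])
  · have key : ∀ j, y j ∈ P.sub ((n : ℤ) • β) → ∀ T0 ∈ 𝒯 j, (∀ f ∈ T0, P.Var f) →
        ∃ f ∉ T0, P.Var f := fun j hj T0 hT0 hv => by
      have h2 : ∑ T ∈ (𝒯 j).erase T0, mono k (ρ T) ∈ P.sub ((n : ℤ) • β) := sum_mem fun T hT => by
        obtain ⟨f, hf, hf'⟩ := hne hT0 hT
        have ok := (mem𝒯.1 (Finset.mem_erase.1 hT).2).2
        exact (hv f hf).mono_mem (hpos T ok) (h1 T ok f hf')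
      have h3 := sub_mem hj h2
      rw [show y j = _ from (Finset.add_sum_erase _ (fun T => mono k (ρ T)) hT0).symm,
        add_sub_cancel_right] at h3
      obtain ⟨f, hf, hf'⟩ := hP.exists_var_of_mono_mem (hpos _ (mem𝒯.1 hT0).2) h3
      exact ⟨f, fun h => by rw [h0 _ (mem𝒯.1 hT0).2 f h] at hf; omega, hf'⟩
    have hy2 : y 2 ∈ P.sub ((n : ℤ) • β) := by
      by_cases h : y 2 = 0
      · rw [h]; exact zero_mem _
      · simpa [h] using hx 2
    refine hP.irr_of_not_node fun e e' he => ?_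
    by_contra hc
    have hc' : ∀ f, P.Var f → f = e ∨ f = e' := fun f hf => by
      by_contra h
      exact hc ⟨f, fun h' => h (Or.inl h'), fun h' => h (Or.inr h'), hf⟩
    obtain ⟨e1, -, v1⟩ := key 0 (hx 0) ∅ m0 (by simp)
    obtain ⟨e2, n2, v2⟩ := key 1 (hx 1) {e1} (m1 e1) (by simpa using v1)
    rw [Finset.mem_singleton] at n2
    obtain ⟨f, nf, vf⟩ := key 2 hy2 {e, e'}
      (mem𝒯.2 ⟨Finset.card_pair he.ne, e, e', he, subset_rfl⟩) (by
        rcases hc' e1 v1 with rfl | rfl <;> rcases hc' e2 v2 with rfl | rfl <;> simp_all)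
    exact nf (by simpa using hc' f vf)

end Crest.Agent.R169
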