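import Crest.Agent.R169.Lin

/-!
# rid 169, file `Kos`: three dimension counts with the Koszul complex

Linear algebra only.  Prefix helper lemmas with `kos_`.
-/

set_option autoImplicit false

namespace Crest.Agent.R169

open Module

theorem kos_finrank {k W : Type} [Field k] [AddCommGroup W] [Module k W] [FiniteDimensional k W] :
    finrank k (Fin 3 → W) = 3 * finrank k W := by
  rw [Module.finrank_pi_fintype]; simp

/-- the Koszul maps built from three linear maps -/
def kos_d2 {k A B : Type} [Field k] [AddCommGroup A] [Module k A] [AddCommGroup B] [Module k B]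
    (m : Fin 3 → A →ₗ[k] B) : (Fin 3 → A) →ₗ[k] (Fin 3 → B) :=
  LinearMap.pi ![m 1 ∘ₗ LinearMap.proj 2 - m 2 ∘ₗ LinearMap.proj 1,
    m 2 ∘ₗ LinearMap.proj 0 - m 0 ∘ₗ LinearMap.proj 2,
    m 0 ∘ₗ LinearMap.proj 1 - m 1 ∘ₗ LinearMap.proj 0]

/-- the Koszul maps built from three linear maps -/
def kos_d1 {k A B : Type} [Field k] [AddCommGroup A] [Module k A] [AddCommGroup B] [Module k B]
    (m : Fin 3 → A →ₗ[k] B) : (Fin 3 → A) →ₗ[k] B :=
  ∑ i, m i ∘ₗ LinearMap.proj i

theorem kos_d1_apply {k A B : Type} [Field k] [AddCommGroup A] [Module k A] [AddCommGroup B]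
    [Module k B] (m : Fin 3 → A →ₗ[k] B) (u : Fin 3 → A) : kos_d1 m u = ∑ i, m i (u i) := by
  simp [kos_d1, LinearMap.sum_apply]

/-- multiplication by `x` as a `k`-linear map -/
def kos_mul (k : Type) {R : Type} (M : Type) [Field k] [CommRing R] [Algebra k R] [AddCommGroup M]
    [Module R M] [Module k M] [IsScalarTower k R M] (x : R) : M →ₗ[k] M :=
  (LinearMap.lsmul R M x).restrictScalars k

/-- Koszul inequality inside a vector space over a bigger field `K`.

Proof.  `d2 : A1^3 → A2^3`, `u ↦ cross X u` and `d1 : A2^3 → V`, `u ↦ ∑ X i • u i` are `k`-linear, `d1 ∘ d2 = 0`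
(`sum_smul_cross`), the range of `d1` is `sumX X A2`.  If `cross X u = 0` then `u i = X i • w` with
`w = (X 0)⁻¹ • u 0 ∈ hull X A1`, so `ker d2` injects in `hull X A1` (which is finite-dimensional: `v ↦ X 0 • v`
injects it in `A1`).  Rank-nullity: `3 dim A1 - dim ker d2 = dim range d2 ≤ dim ker d1 = 3 dim A2 - dim sumX`. -/
theorem koszul_ineq {k K V : Type} [Field k] [Field K] [Algebra k K] [AddCommGroup V] [Module K V]
    [Module k V] [IsScalarTower k K V] (X : Fin 3 → K) (hX : X 0 ≠ 0) (A1 A2 : Submodule k V)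
    [FiniteDimensional k A1] [FiniteDimensional k A2] (h12 : ∀ i, ∀ v ∈ A1, X i • v ∈ A2) :
    3 * finrank k A1 + finrank k (sumX X A2) ≤ finrank k (hull X A1) + 3 * finrank k A2 := by
  let m : Fin 3 → A1 →ₗ[k] A2 := fun i => (kos_mul k V (X i)).restrict (h12 i)
  let m' : Fin 3 → A2 →ₗ[k] V := fun i => kos_mul k V (X i) ∘ₗ A2.subtype
  have e2 : ∀ (u : Fin 3 → A1) (i : Fin 3),
      (kos_d2 m u i : V) = cross X (fun j => (u j : V)) i := by
    intro u i
    fin_cases i <;> rfl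
  have e1 : ∀ u : Fin 3 → A2, kos_d1 m' u = ∑ i, X i • (u i : V) := fun u => kos_d1_apply m' u
  have hr : LinearMap.range (kos_d1 m') = sumX X A2 := by
    ext v
    constructor
    · rintro ⟨u, rfl⟩
      exact ⟨fun i => u i, fun i => (u i).2, e1 u⟩
    · rintro ⟨u, hu, rfl⟩
      exact ⟨fun i => ⟨u i, hu i⟩, e1 _⟩
  have hle : LinearMap.range (kos_d2 m) ≤ LinearMap.ker (kos_d1 m') := by
    rintro _ ⟨u, rfl⟩
    rw [LinearMap.mem_ker, e1]
    simp only [e2]
    exact sum_smul_cross X _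
  have hinj : Function.Injective (kos_mul k V (X 0)) := smul_right_injective V hX
  have : FiniteDimensional k (hull X A1) :=
    FiniteDimensional.of_injective ((kos_mul k V (X 0)).restrict
      (p := hull X A1) (q := A1) fun v hv => hv 0)
      fun a b h => Subtype.ext (hinj (congrArg Subtype.val h))
  have key : ∀ u : Fin 3 → A1, kos_d2 m u = 0 → ∀ i, X i • (X 0)⁻¹ • (u 0 : V) = u i := by
    intro u hu i
    have h1 : X 2 • (u 0 : V) - X 0 • (u 2 : V) = 0 := by
      have := e2 u 1; rw [hu] at this; exact this.symm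
    have h2 : X 0 • (u 1 : V) - X 1 • (u 0 : V) = 0 := by
      have := e2 u 2; rw [hu] at this; exact this.symm
    rw [smul_comm, inv_smul_eq_iff₀ hX]
    fin_cases i
    · rfl
    · exact (sub_eq_zero.1 h2).symm
    · exact sub_eq_zero.1 h1
  let g : LinearMap.ker (kos_d2 m) →ₗ[k] hull X A1 :=
    LinearMap.codRestrict _ (kos_mul k V (X 0)⁻¹ ∘ₗ A1.subtype ∘ₗ LinearMap.proj 0 ∘ₗ
      (LinearMap.ker (kos_d2 m)).subtype) fun u i => by
        have := key u.1 u.2 i
        exact this ▸ (u.1 i).2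
  have hg : Function.Injective g := by
    intro a b h
    have h0 : (X 0)⁻¹ • (a.1 0 : V) = (X 0)⁻¹ • (b.1 0 : V) := congrArg Subtype.val h
    refine Subtype.ext (funext fun i => Subtype.ext ?_)
    rw [← key a.1 a.2 i, ← key b.1 b.2 i, h0]
  have n1 := LinearMap.finrank_le_finrank_of_injective hg
  have n2 := LinearMap.finrank_range_add_finrank_ker (kos_d2 m)
  have n3 := LinearMap.finrank_range_add_finrank_ker (kos_d1 m')
  have n4 := Submodule.finrank_mono hle
  rw [kos_finrank] at n2 n3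
  rw [hr] at n3
  omega

variable {k R M : Type} [Field k] [CommRing R] [Algebra k R] [AddCommGroup M] [Module R M]
  [Module k M] [IsScalarTower k R M]

theorem kos_complex (X : Fin 3 → R) (F1 F2 F3 : Submodule k M) [FiniteDimensional k (M ⧸ F3)]
    (h12 : ∀ i, ∀ v ∈ F1, X i • v ∈ F2) (h23 : ∀ i, ∀ v ∈ F2, X i • v ∈ F3) :
    ∃ (D2 : (Fin 3 → M ⧸ F1) →ₗ[k] (Fin 3 → M ⧸ F2)) (D1 : (Fin 3 → M ⧸ F2) →ₗ[k] M ⧸ F3),
      (∀ u : Fin 3 → M, D2 (fun i => F1.mkQ (u i)) = fun i => F2.mkQ (cross X u i)) ∧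
      (∀ u : Fin 3 → M, D1 (fun i => F2.mkQ (u i)) = F3.mkQ (∑ i, X i • u i)) ∧
      codim (F3 ⊔ sumX X (⊤ : Submodule k M)) + finrank k (LinearMap.range D1) = codim F3 := by
  let m : Fin 3 → (M ⧸ F1) →ₗ[k] (M ⧸ F2) := fun i => F1.mapQ F2 (kos_mul k M (X i)) (h12 i)
  let m' : Fin 3 → (M ⧸ F2) →ₗ[k] (M ⧸ F3) := fun i => F2.mapQ F3 (kos_mul k M (X i)) (h23 i)
  have e1 : ∀ u : Fin 3 → M, kos_d1 m' (fun i => F2.mkQ (u i)) = F3.mkQ (∑ i, X i • u i) :=
    fun u => by rw [kos_d1_apply, map_sum]; rfl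
  refine ⟨kos_d2 m, kos_d1 m', fun u => funext fun i => ?_, e1, ?_⟩
  · fin_cases i <;> rfl
  · have hr : LinearMap.range (kos_d1 m') = (sumX X (⊤ : Submodule k M)).map F3.mkQ := by
      ext v
      constructor
      · rintro ⟨u, rfl⟩
        choose w hw using fun i => F2.mkQ_surjective (u i)
        refine ⟨_, ⟨w, fun _ => trivial, rfl⟩, ?_⟩
        rw [← e1, funext hw]
      · rintro ⟨_, ⟨u, -, rfl⟩, rfl⟩
        exact ⟨_, e1 u⟩
    rw [hr, codim, ← (Submodule.quotientQuotientEquivQuotientSup F3 _).finrank_eq]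
    exact Submodule.finrank_quotient_add_finrank _

/-- Lower end of the window.  Proof: the complex `C2 = (M/F1)^3 → C1 = (M/F2)^3 → C0 = M/F3` (maps induced by
`cross X` and `u ↦ ∑ X i • u i`) has `d2` injective by `hinj`, so `dim C2 ≤ dim ker d1 = dim C1 - dim range d1`,
and `dim C0 - dim range d1 = codim (F3 ⊔ sumX X ⊤) ≤ codim (sumX X ⊤)`.
(One can avoid quotients of products: work with `G1 = pi F1 ≤ M^3` etc. and `Submodule.mapQ`.) -/
theorem window_low (X : Fin 3 → R) (F1 F2 F3 : Submodule k M) [FiniteDimensional k (M ⧸ F1)]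
    [FiniteDimensional k (M ⧸ F2)] [FiniteDimensional k (M ⧸ F3)]
    [FiniteDimensional k (M ⧸ sumX X (⊤ : Submodule k M))]
    (h12 : ∀ i, ∀ v ∈ F1, X i • v ∈ F2) (h23 : ∀ i, ∀ v ∈ F2, X i • v ∈ F3)
    (hinj : ∀ u : Fin 3 → M, (∀ i, cross X u i ∈ F2) → ∀ i, u i ∈ F1) :
    codim F3 + 3 * codim F1 ≤ codim (sumX X (⊤ : Submodule k M)) + 3 * codim F2 := by
  obtain ⟨D2, D1, e2, e1, n0⟩ := kos_complex X F1 F2 F3 h12 h23
  have hle : LinearMap.range D2 ≤ LinearMap.ker D1 := by
    rintro _ ⟨u, rfl⟩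
    choose w hw using fun i => F1.mkQ_surjective (u i)
    rw [LinearMap.mem_ker, ← funext hw, e2, e1, sum_smul_cross, map_zero]
  have hk : Function.Injective D2 := by
    rw [injective_iff_map_eq_zero]
    intro u hu
    choose w hw using fun i => F1.mkQ_surjective (u i)
    rw [← funext hw] at hu ⊢
    rw [e2] at hu
    exact funext fun i => (Submodule.Quotient.mk_eq_zero F1).2
      (hinj w (fun j => (Submodule.Quotient.mk_eq_zero F2).1 (congrFun hu j)) i)
  have n1 := LinearMap.finrank_range_of_inj hk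
  have n3 := LinearMap.finrank_range_add_finrank_ker D1
  have n4 := Submodule.finrank_mono hle
  have n5 : codim (F3 ⊔ sumX X (⊤ : Submodule k M)) ≤ codim (sumX X (⊤ : Submodule k M)) :=
    LinearMap.finrank_le_finrank_of_surjective (Submodule.factor_surjective le_sup_right)
  rw [kos_finrank] at n1 n3
  unfold codim at *
  omega

/-- Upper end of the window.  Proof: same complex; it is exact at `C1`: if `∑ X i • a i ∈ F3` then it equals
`∑ X i • b i` with `b i ∈ F2`, and `a - b = cross X u` by `hH`.  So `dim ker d1 = dim range d2 ≤ dim C2`, and the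
cokernel of `d1` is `M / sumX X ⊤` because `F3 ≤ sumX X ⊤`. -/
theorem window_high (X : Fin 3 → R) (F1 F2 F3 : Submodule k M) [FiniteDimensional k (M ⧸ F1)]
    [FiniteDimensional k (M ⧸ F2)] [FiniteDimensional k (M ⧸ F3)]
    (h12 : ∀ i, ∀ v ∈ F1, X i • v ∈ F2) (h23 : ∀ i, ∀ v ∈ F2, X i • v ∈ F3)
    (hH : KosH1 M X) (h3 : F3 ≤ sumX X F2) :
    codim (sumX X (⊤ : Submodule k M)) + 3 * codim F2 ≤ codim F3 + 3 * codim F1 := by
  obtain ⟨D2, D1, e2, e1, n0⟩ := kos_complex X F1 F2 F3 h12 h23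
  have hle : LinearMap.ker D1 ≤ LinearMap.range D2 := by
    intro u hu
    choose a ha using fun i => F2.mkQ_surjective (u i)
    rw [LinearMap.mem_ker, ← funext ha, e1] at hu
    obtain ⟨b, hb, e⟩ := h3 ((Submodule.Quotient.mk_eq_zero F3).1 hu)
    obtain ⟨v, hv⟩ := hH (a - b) (by
      simp only [Pi.sub_apply, smul_sub, Finset.sum_sub_distrib, e, sub_self])
    refine ⟨fun i => F1.mkQ (v i), ?_⟩
    rw [e2, ← hv, ← funext ha]
    refine funext fun i => ?_
    rw [Pi.sub_apply, map_sub, show F2.mkQ (b i) = 0 from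
      (Submodule.Quotient.mk_eq_zero F2).2 (hb i), sub_zero]
  rw [sup_eq_right.2 (h3.trans (sumX_mono X le_top))] at n0
  have n1 := LinearMap.finrank_range_le D2
  have n3 := LinearMap.finrank_range_add_finrank_ker D1
  have n4 := Submodule.finrank_mono hle
  rw [kos_finrank] at n1 n3
  unfold codim at *
  omega

end Crest.Agent.R169
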