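import Crest.Agent.R169.Omega2
import Crest.Agent.R169.Slope1
import Crest.Agent.R169.Kos

/-!
# rid 169, file `SD`: Serre duality as a vanishing theorem

Prefix helper lemmas with `sd_`.
-/

set_option autoImplicit false

namespace Crest.Agent.R169

open Filter Module

variable {k : Type} [Field k] {n : ℕ} [NeZero n] {h : Deg}
  {V : Type} [AddCommGroup V] [Module (KK k) V] [Module k V] [IsScalarTower k (KK k) V]

omit [NeZero n] in
/-- `tendsto_add_nsmul_deep`, `Pol_third`. -/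
theorem Fam.HasData.third {N : Fam k n V} {r : ℕ} {c : Deg} {s : ℚ} (hd : N.HasData r c s) (hh : Ample h)
    (γ : Deg) : ∀ᶠ κ : ℕ in atTop, (N.cdim (γ + (3 * (κ : ℤ)) • h) : ℚ) - 3 * N.cdim (γ + (2 * (κ : ℤ)) • h) +
      3 * N.cdim (γ + (κ : ℤ) • h) = (n : ℚ) ^ 3 * Pol n r c s γ := by
  have hm : ∀ a : ℕ, 0 < a → Tendsto (fun κ : ℕ => a * κ) atTop atTop := fun a ha =>
    tendsto_atTop_mono (fun κ => Nat.le_mul_of_pos_left κ ha) tendsto_id
  have t1 := (tendsto_add_nsmul_deep hh γ).eventually hd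
  have t2 := (hm 2 (by norm_num)).eventually t1
  have t3 := (hm 3 (by norm_num)).eventually t1
  filter_upwards [t1, t2, t3] with κ h1 h2 h3
  have := Pol_third (n := n) r c s γ ((κ : ℤ) • h)
  rw [smul_smul, smul_smul] at this
  push_cast at h2 h3
  rw [h1, h2, h3, ← this]; ring

/-- For `β` with `B (β + 3h) h > 0` (all deep `β`) and each character put `γ = -(β + 3h) - rel (chr c)`, `e = -3`, so `e h - γ = β + rel (chr c)`.
`hω.dim`, `koszul_ineq` (the hull is `≤ S γ = ⊥`: `hull_S_le`, `S_eq_bot_of_neg`) give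
`dim S (γ + 3κh) - 3 dim S (γ + 2κh) + 3 dim S (γ + κh) ≤ ω.dim (β + rel c)` for large `κ`.  Sum (`sum_dim_sub_rel`, `third`, `hasData_SF`). -/
theorem IsDual.lower {ν : NN k n h} {ω : Fam k n (KK k)} (hω : IsDual ν ω) :
    ∀ᶠ β in deep, (n : ℚ) ^ 3 * Pol n 1 0 0 (-β - (3 : ℤ) • h) ≤ ω.cdim β := by
  filter_upwards [(tendsto_add_deep ((3 : ℤ) • h)).eventually (eventually_le_Bv 1)] with β hβ
  have hpos : 0 < B (β + (3 : ℤ) • h) h := B_pos_of_ample hβ ν.ample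
  set γ0 : Deg := -β - (3 : ℤ) • h with hγ0
  choose k0 hk0 using fun c0 : Fin 5 → Fin n => hω.dim (γ0 - rel (chr c0)) (-3)
  obtain ⟨κ, hκ1, hκ2⟩ := ((eventually_ge_atTop (∑ c0, k0 c0)).and
    ((hasData_SF (k := k) (n := n)).third ν.ample γ0)).exists
  have key : ∀ c0 : Fin 5 → Fin n,
      (SF k n).dim (γ0 + (3 * (κ : ℤ)) • h - rel (chr c0)) + 3 * (SF k n).dim (γ0 + (κ : ℤ) • h - rel (chr c0)) ≤
        3 * (SF k n).dim (γ0 + (2 * (κ : ℤ)) • h - rel (chr c0)) + ω.dim (β + rel (chr c0)) := by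
    intro c0
    have h1 := hk0 c0 κ (le_trans (Finset.single_le_sum (f := k0) (fun _ _ => Nat.zero_le _)
      (Finset.mem_univ c0)) hκ1) (-3) le_rfl
    have e1 : (3 * (κ : ℤ) - 3 - -3) = 3 * κ := by ring
    have e2 : (2 * (κ : ℤ) - 3 - -3) = 2 * κ := by ring
    have e3 : (-3 : ℤ) • h - (γ0 - rel (chr c0)) = β + rel (chr c0) := by
      rw [hγ0, neg_smul]; abel
    rw [e1, e2, e3] at h1
    have h2 := koszul_ineq (fun i => ν.x i ^ κ) (pow_ne_zero _ (ν.ne 0))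
      (S k n (γ0 - rel (chr c0) + (κ : ℤ) • h)) (S k n (γ0 - rel (chr c0) + (2 * (κ : ℤ)) • h)) (by
        intro i v hv
        have := ν.pow_smul_mem (N := SF k n) i κ hv
        rwa [add_assoc, ← add_smul, ← two_mul] at this)
    have h3 : hull (fun i => ν.x i ^ κ) (S k n (γ0 - rel (chr c0) + (κ : ℤ) • h)) = ⊥ := by
      rw [eq_bot_iff]
      refine (ν.hull_S_le _ κ).trans (S_eq_bot_of_neg ν.ample.nef ?_).le
      have : γ0 = -(β + (3 : ℤ) • h) := by rw [hγ0]; abel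
      rw [B_sub_left, B_rel_left, this, B_neg_left]; omega
    rw [h3, finrank_bot] at h2
    have e4 : ∀ a : ℤ, γ0 + a • h - rel (chr c0) = γ0 - rel (chr c0) + a • h := fun a => by abel
    rw [e4, e4, e4]
    have e5 : ∀ x, (SF k n).dim x = finrank k (S k n x) := fun _ => rfl
    rw [e5, e5, e5]
    omega
  have hs := Finset.sum_le_sum fun c0 (_ : c0 ∈ Finset.univ) => key c0
  rw [Finset.sum_add_distrib, Finset.sum_add_distrib, ← Finset.mul_sum, ← Finset.mul_sum,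
    Fam.sum_dim_sub_rel, Fam.sum_dim_sub_rel, Fam.sum_dim_sub_rel] at hs
  rw [← hκ2]
  have hs' : (((SF k n).cdim (γ0 + (3 * (κ : ℤ)) • h) : ℚ)) + 3 * (SF k n).cdim (γ0 + (κ : ℤ) • h) ≤
      3 * (SF k n).cdim (γ0 + (2 * (κ : ℤ)) • h) + ω.cdim β := by exact_mod_cast hs
  linarith

/-- `ω ≠ ⊥` because the lower bound is positive somewhere (on the ray `t • 1` it is a quadratic with positive leading term); so `ω` has data
`(1, c, s)`; `dual_class`. -/
theorem IsDual.deg_eq {ν : NN k n h} {ω : Fam k n (KK k)} (hω : IsDual ν ω) (H : Deg) :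
    ω.rk = 1 ∧ (Fam.deg H ω : ℚ) = kap n H + 3 * (B h H : ℤ) := by
  have hn : (0 : ℚ) < (n : ℚ) ^ 3 := by
    have : (0 : ℚ) < n := by exact_mod_cast Nat.pos_of_ne_zero (NeZero.ne n)
    positivity
  have hne : ω ≠ ⊥ := by
    rintro rfl
    have h1 := (tendsto_smul_deep ample_one).eventually hω.lower
    have h2 : ∀ᶠ t : ℤ in atTop, 0 < Pol n 1 0 0 (-(t • (1 : Deg)) - (3 : ℤ) • h) := by
      have e : ∀ t : ℤ, -(t • (1 : Deg)) - (3 : ℤ) • h = -((3 : ℤ) • h) + t • (-1 : Deg) := by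
        intro t; rw [smul_neg]; abel
      have hq : qq (toQ (-1 : Deg)) = 10 := by
        rw [qq, B_toQ, B_neg_left, B_neg_right, B_one_left]; simp; norm_num
      simp only [e, Pol_ray, hq]
      set a := Pol n 1 0 0 (-((3 : ℤ) • h))
      set b := (((1 : ℕ) : ℚ) * B (toQ (-((3 : ℤ) • h)) - kap2 n) (toQ (-1 : Deg)) + ((B (-1 : Deg) 0 : ℤ) : ℚ))
      obtain ⟨T, hT⟩ := exists_int_gt (|a| + |b| + 1)
      filter_upwards [eventually_ge_atTop T] with t ht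
      have ht' : (T : ℚ) ≤ t := by exact_mod_cast ht
      have h3 := neg_abs_le a
      have h4 := neg_abs_le b
      have h5 := abs_nonneg a
      have h6 := abs_nonneg b
      push_cast
      nlinarith
    obtain ⟨t, ht1, ht2⟩ := (h1.and h2).exists
    rw [Fam.cdim_bot] at ht1
    have := mul_pos hn ht2
    push_cast at ht1
    linarith
  have hr := Fam.rk_eq_one hne
  obtain ⟨c, s, hd⟩ := hω.fg.exists_data
  rw [hr] at hd
  refine ⟨hr, ?_⟩
  rw [hd.deg_eq hω.fg]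
  obtain ⟨C, hC⟩ := hω.upper
  refine dual_class (s := s) (C := C / (n : ℚ) ^ 3) ν.ample ?_ ?_ H
  · filter_upwards [hω.lower, hd] with β h1 h2
    rw [h2] at h1
    exact le_of_mul_le_mul_left h1 hn
  · filter_upwards [hC, (tendsto_smul_deep ν.ample).eventually hd,
      (tendsto_smul_deep ν.ample).eventually (hasData_SF (k := k) (n := n))] with t h1 h2 h3
    rw [h2, h3] at h1
    refine le_of_mul_le_mul_left ?_ hn
    rw [mul_add, mul_add, mul_div_cancel₀ _ hn.ne']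
    linarith

/-- `exists_dual`, `hω.ex` with `e0 = -3`, `e = -t - 3`.  In the second case `N.map Φ ≤ ω.shift (e h - γ)` both have rank one, so
`μ ≤ deg (N.map Φ) ≤ kap + 3 B h H + B (e h - γ) H = kap - t B h H - B γ H ≤ kap - B γ H < μ` (`B_nonneg_of_nef`). -/
theorem NN.sd [FiniteDimensional (KK k) V] (ν : NN k n h) {N : Fam k n V} (hN : N.FG) {H : Deg} (hH : Nef H)
    {μ : ℚ} (hμ : Fam.SlopeGE H N μ) {γ : Deg} (hγ : kap n H < μ + (B γ H : ℤ)) :
    ∃ k0 : ℕ, ∀ κ : ℕ, k0 ≤ κ → ∀ t : ℕ, N.sub (γ + ((t : ℤ) + 3 * κ) • h) ≤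
      sumX (fun i => ν.x i ^ κ) (N.sub (γ + ((t : ℤ) + 2 * κ) • h)) := by
  obtain ⟨ω, hω⟩ := ν.exists_dual
  obtain ⟨k0, hk0⟩ := hω.ex V N hN γ (-3)
  refine ⟨k0, fun κ hκ t => ?_⟩
  rcases hk0 κ hκ (-(t : ℤ) - 3) (by omega) with h1 | ⟨Φ, ⟨δ, v, hv, hv0⟩, hΦ⟩
  · have e1 : 3 * (κ : ℤ) - 3 - (-(t : ℤ) - 3) = t + 3 * κ := by ring
    have e2 : 2 * (κ : ℤ) - 3 - (-(t : ℤ) - 3) = t + 2 * κ := by ring
    rwa [e1, e2] at h1
  exfalso
  obtain ⟨hr, hdeg⟩ := hω.deg_eq H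
  have hle : N.map Φ ≤ ω.shift ((-(t : ℤ) - 3) • h - γ) := by
    rintro δ' _ ⟨u, hu, rfl⟩
    exact hΦ δ' u hu
  have hne : N.map Φ ≠ ⊥ := by
    intro h0
    have : Φ v ∈ (N.map Φ).sub δ := ⟨v, hv, rfl⟩
    rw [h0] at this
    exact hv0 this
  have hr1 := Fam.rk_eq_one hne
  have h1 := hμ.le_deg_map hN Φ
  have h2 := Fam.deg_mono (hω.fg.shift _) hle (by rw [hr1, Fam.rk_shift, hr]) hH
  rw [Fam.deg_shift hω.fg, hr, B_sub_left, B_smul_left] at h2
  have h3 : (0 : ℚ) ≤ ((B h H : ℤ) : ℚ) := by exact_mod_cast B_nonneg_of_nef ν.ample.nef hH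
  have h2' : (Fam.deg H (N.map Φ) : ℚ) ≤ Fam.deg H ω + ((-(t : ℚ) - 3) * (B h H : ℤ) - (B γ H : ℤ)) := by
    have : (Fam.deg H (N.map Φ) : ℤ) ≤ Fam.deg H ω + ((-(t : ℤ) - 3) * B h H - B γ H) := by
      simpa using h2
    exact_mod_cast this
  rw [hr1] at h1
  have h4 : (0 : ℚ) ≤ t := Nat.cast_nonneg t
  push_cast at h1
  nlinarith

end Crest.Agent.R169
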