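import Crest.Agent.R169.FrobSlope
import Crest.Agent.R169.H0
import Crest.Agent.R169.SD
import Crest.Agent.R169.NN1

/-!
# rid 169, file `BogP`: the Euler characteristic of a Frobenius pull-back is bounded

Prefix helper lemmas with `bogp_`.
-/

set_option autoImplicit false

namespace Crest.Agent.R169

open Filter Module

namespace Fam

variable {k : Type} [Field k] {n : ℕ} [NeZero n]

/-- The third difference in one degree is bounded by the hull. -/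
theorem bogp_one {V : Type} [AddCommGroup V] [Module (KK k) V] [Module k V] [IsScalarTower k (KK k) V]
    [FiniteDimensional (KK k) V] {N : Fam k n V} (hN : N.FG) {h : Deg} (ν : NN k n h)
    {H : Deg} (hH : Ample H) {μ μ' : ℚ} (hle : SlopeLE H N μ') (hge : SlopeGE H N μ) {γ : Deg} {b : ℕ}
    (h1 : kap n H < μ + (B γ H : ℤ)) (h2 : μ' + (B γ H : ℤ) ≤ b) :
    ∀ᶠ κ : ℕ in atTop, N.dim (γ + (3 * (κ : ℤ)) • h) + 3 * N.dim (γ + (κ : ℤ) • h) ≤
      N.rk * (2 ^ N.rk * b + 1) ^ 10 + 3 * N.dim (γ + (2 * (κ : ℤ)) • h) := by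
  obtain ⟨k0, hk0⟩ := ν.sd hN hH.nef hge h1
  filter_upwards [eventually_ge_atTop k0] with κ hκ
  have e1 := hk0 κ hκ 0
  rw [Nat.cast_zero, zero_add, zero_add] at e1
  have f1 := hN.finite (γ + (κ : ℤ) • h)
  have f2 := hN.finite (γ + (2 * (κ : ℤ)) • h)
  have f3 := hN.finite (γ + (3 * (κ : ℤ)) • h)
  have e2 := koszul_ineq (fun i => ν.x i ^ κ) (pow_ne_zero κ (ν.ne 0)) (N.sub (γ + (κ : ℤ) • h))
    (N.sub (γ + (2 * (κ : ℤ)) • h)) fun i v hv => by
      have := ν.pow_smul_mem i κ hv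
      rwa [add_assoc, ← add_smul, ← two_mul] at this
  have e3 := hle.finrank_hull_le ν hN hH h2 κ
  have e4 : sumX (fun i => ν.x i ^ κ) (N.sub (γ + (2 * (κ : ℤ)) • h)) ≤ N.sub (γ + (3 * (κ : ℤ)) • h) :=
    sumX_le fun i v hv => by
      have := ν.pow_smul_mem i κ hv
      rwa [add_assoc, ← add_smul, show 2 * (κ : ℤ) + κ = 3 * κ by ring] at this
  rw [← le_antisymm e1 e4] at e2
  unfold dim
  omega

/-- `χ ≤ h⁰` when the slopes exceed the canonical degree.  Take `ν` from `exists_NN` for `β = 3 • H`.  For each character,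
`NN.sd` (with `t = 0`), `koszul_ineq` (`pow_smul_mem`) and `finrank_hull_le` at `γ + rel (chr c)` (`B_rel_left`) give
`dim (γ_c + 3κh) - 3 dim (γ_c + 2κh) + 3 dim (γ_c + κh) ≤ r (2^r b + 1)^10` for large `κ`; sum and use `HasData.third`. -/
theorem HasData.pol_le {V : Type} [AddCommGroup V] [Module (KK k) V] [Module k V] [IsScalarTower k (KK k) V]
    [FiniteDimensional (KK k) V] {N : Fam k n V} (hN : N.FG) {r : ℕ} {c : Deg} {s : ℚ} (hd : N.HasData r c s)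
    {H : Deg} (hH : Ample H) {μ μ' : ℚ} (hle : SlopeLE H N μ') (hge : SlopeGE H N μ) {γ : Deg} {b : ℕ}
    (h1 : kap n H < μ + (B γ H : ℤ)) (h2 : μ' + (B γ H : ℤ) ≤ b) :
    (n : ℚ) ^ 3 * Pol n r c s γ ≤ (n : ℚ) ^ 5 * (r * (2 ^ r * b + 1) ^ 10) := by
  obtain ⟨ν⟩ := exists_NN k n (β := (3 : ℤ) • H) fun e => by
    rw [Bv_smul, Pi.smul_apply, smul_eq_mul]
    have := hH e
    omega
  generalize (n : ℤ) • (3 : ℤ) • H = h at ν
  have hall := eventually_all.2 fun c : Fin 5 → Fin n =>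
    bogp_one hN ν hH hle hge (γ := γ + rel (chr c)) (b := b)
      (by rwa [B_add_left, B_rel_left, add_zero]) (by rwa [B_add_left, B_rel_left, add_zero])
  obtain ⟨κ, e1, e2⟩ := (hall.and (hd.third ν.ample γ)).exists
  have e3 : N.cdim (γ + (3 * (κ : ℤ)) • h) + 3 * N.cdim (γ + (κ : ℤ) • h) ≤
      n ^ 5 * (r * (2 ^ r * b + 1) ^ 10) + 3 * N.cdim (γ + (2 * (κ : ℤ)) • h) := by
    have e4 := Finset.sum_le_sum fun c (_ : c ∈ Finset.univ) => e1 c
    rw [Finset.sum_add_distrib, Finset.sum_add_distrib, Finset.sum_const, ← Finset.mul_sum,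
      ← Finset.mul_sum, Finset.card_univ, Fintype.card_fun, Fintype.card_fin, Fintype.card_fin,
      smul_eq_mul, hd.rk_eq hN] at e4
    simpa only [cdim, add_right_comm γ] using e4
  have e5 : (N.cdim (γ + (3 * (κ : ℤ)) • h) : ℚ) + 3 * N.cdim (γ + (κ : ℤ) • h) ≤
      (n : ℚ) ^ 5 * (r * (2 ^ r * b + 1) ^ 10) + 3 * N.cdim (γ + (2 * (κ : ℤ)) • h) := by
    exact_mod_cast e3
  linarith

/-- `frob_data`, `SlopeLE.frob`, `SlopeLE.frob_ge`, `slopeLE_iff_slopeGE`, `pol_le`, `Pol_const`. -/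
theorem HasData.pol_frob_le {ι : Type} [Fintype ι] {N : Fam k n (ι → KK k)} (p : ℕ) [Fact p.Prime] [CharP k p]
    [PerfectField k] (hN : N.FG) {r : ℕ} {c : Deg} {s : ℚ} (hd : N.HasData r c s) {H : Deg} (hH : Ample H)
    {μ : ℚ} (hμ : μ * r = (B c H : ℤ)) (hge : SlopeGE H N μ) {γ : Deg} {b : ℕ}
    (h1 : kap n H < p * μ - (r : ℚ) ^ 2 * (n * (B 1 H : ℤ)) + (B γ H : ℤ))
    (h2 : p * μ + r * (n * (B 1 H : ℤ)) + (B γ H : ℤ) ≤ b) :
    (n : ℚ) ^ 3 * Pol n r ((p : ℤ) • c) ((p : ℚ) ^ 2 * s) γ ≤ (n : ℚ) ^ 5 * (r * (2 ^ r * b + 1) ^ 10) := by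
  obtain ⟨s', hs', hss⟩ := hd.frob_data hN p
  have hr := hd.rk_eq hN
  have hdeg : (deg H N : ℚ) = μ * N.rk := by rw [hd.deg_eq hN H, hr, hμ]
  have hle := (slopeLE_iff_slopeGE hdeg).2 hge
  have a1 := hle.frob p hN hH.nef
  have a2 := hle.frob_ge p hN hH.nef hdeg
  rw [hr] at a1 a2
  refine le_trans ?_ (hs'.pol_le (hN.frobV p) hH a1 a2 h1 h2)
  refine mul_le_mul_of_nonneg_left ?_ (pow_nonneg (Nat.cast_nonneg n) 3)
  have e := Pol_const (n := n) r ((p : ℤ) • c) ((p : ℚ) ^ 2 * s) (s' - (p : ℚ) ^ 2 * s) γ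
  rw [add_sub_cancel] at e
  linarith

end Fam

end Crest.Agent.R169
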