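import Crest.Agent.R169.Defs

/-!
# rid 169, file `Comb`: the intersection form, the filter `deep`

Elementary (complete).
-/

set_option autoImplicit false

namespace Crest.Agent.R169

open Filter

theorem sum_fin10 {M : Type} [AddCommMonoid M] (f : Fin 10 → M) :
    ∑ e, f e = f 0 + f 1 + f 2 + f 3 + f 4 + f 5 + f 6 + f 7 + f 8 + f 9 := by
  simp only [Fin.sum_univ_succ, Fin.sum_univ_zero, add_zero, ← add_assoc]
  rfl

section
variable {R : Type} [CommRing R]

theorem Bv_add (x y : Fin 10 → R) : Bv (x + y) = Bv x + Bv y := by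
  funext e; simp only [Bv, Pi.add_apply]; ring
theorem Bv_sub (x y : Fin 10 → R) : Bv (x - y) = Bv x - Bv y := by
  funext e; simp only [Bv, Pi.sub_apply]; ring
theorem Bv_neg (x : Fin 10 → R) : Bv (-x) = -Bv x := by
  funext e; simp only [Bv, Pi.neg_apply]; ring
theorem Bv_smul (c : R) (x : Fin 10 → R) : Bv (c • x) = c • Bv x := by
  funext e; simp only [Bv, Pi.smul_apply, smul_eq_mul]; ring
theorem Bv_zero : Bv (0 : Fin 10 → R) = 0 := by
  funext e; simp [Bv]
theorem Bv_const (c : R) (e : Fin 10) : Bv (fun _ => c) e = 2 * c := by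
  simp only [Bv]; ring
theorem Bv_one (e : Fin 10) : Bv (1 : Fin 10 → R) e = 2 := by
  simp only [Bv, Pi.one_apply]; ring

theorem B_eq (x y : Fin 10 → R) : B x y =
    x 0 * (y 5 + y 8 + y 3 - y 0) + x 1 * (y 5 + y 7 + y 2 - y 1) + x 2 * (y 6 + y 1 + y 8 - y 2) +
    x 3 * (y 6 + y 0 + y 7 - y 3) + x 4 * (y 6 + y 9 + y 5 - y 4) + x 5 * (y 0 + y 1 + y 4 - y 5) +
    x 6 * (y 2 + y 3 + y 4 - y 6) + x 7 * (y 9 + y 1 + y 3 - y 7) + x 8 * (y 9 + y 0 + y 2 - y 8) +
    x 9 * (y 7 + y 8 + y 4 - y 9) := by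
  rw [B, sum_fin10]; rfl

theorem B_comm (x y : Fin 10 → R) : B x y = B y x := by rw [B_eq, B_eq]; ring
theorem B_add_left (x x' y : Fin 10 → R) : B (x + x') y = B x y + B x' y := by
  simp only [B_eq, Pi.add_apply]; ring
theorem B_add_right (x y y' : Fin 10 → R) : B x (y + y') = B x y + B x y' := by
  simp only [B_eq, Pi.add_apply]; ring
theorem B_sub_left (x x' y : Fin 10 → R) : B (x - x') y = B x y - B x' y := by
  simp only [B_eq, Pi.sub_apply]; ring
theorem B_sub_right (x y y' : Fin 10 → R) : B x (y - y') = B x y - B x y' := by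
  simp only [B_eq, Pi.sub_apply]; ring
theorem B_neg_left (x y : Fin 10 → R) : B (-x) y = -B x y := by
  simp only [B_eq, Pi.neg_apply]; ring
theorem B_neg_right (x y : Fin 10 → R) : B x (-y) = -B x y := by
  simp only [B_eq, Pi.neg_apply]; ring
theorem B_smul_left (c : R) (x y : Fin 10 → R) : B (c • x) y = c * B x y := by
  simp only [B_eq, Pi.smul_apply, smul_eq_mul]; ring
theorem B_smul_right (c : R) (x y : Fin 10 → R) : B x (c • y) = c * B x y := by
  simp only [B_eq, Pi.smul_apply, smul_eq_mul]; ring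
theorem B_zero_left (y : Fin 10 → R) : B 0 y = 0 := by simp [B_eq]
theorem B_zero_right (x : Fin 10 → R) : B x 0 = 0 := by simp [B_eq]
theorem B_single (e : Fin 10) (y : Fin 10 → R) : B (Pi.single e 1) y = Bv y e := by
  rw [B, Finset.sum_eq_single e] <;> simp +contextual [Pi.single_eq_of_ne]
theorem B_const_left (c : R) (y : Fin 10 → R) : B (fun _ => c) y = 2 * c * ∑ e, y e := by
  rw [B_eq, sum_fin10]; ring
theorem B_one_left (y : Fin 10 → R) : B (1 : Fin 10 → R) y = 2 * ∑ e, y e := by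
  rw [B_eq, sum_fin10]; simp only [Pi.one_apply]; ring
theorem B_congr_right {y y' : Fin 10 → R} (h : Bv y = Bv y') (x : Fin 10 → R) : B x y = B x y' := by
  simp only [B, h]
theorem B_congr_left {x x' : Fin 10 → R} (h : Bv x = Bv x') (y : Fin 10 → R) : B x y = B x' y := by
  rw [B_comm, B_congr_right h, B_comm]

theorem rel_lo (ρ : Fin 5 → R) (i : Fin 5) : rel ρ (lo i) = ρ i := by
  fin_cases i <;> rfl
theorem rel_smul (c : R) (ρ : Fin 5 → R) : rel (c • ρ) = c • rel ρ := by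
  funext e; fin_cases e <;> simp [rel] <;> ring
theorem rel_neg (ρ : Fin 5 → R) : rel (-ρ) = -rel ρ := by
  funext e; fin_cases e <;> simp [rel] <;> ring
theorem rel_sub (ρ ρ' : Fin 5 → R) : rel (ρ - ρ') = rel ρ - rel ρ' := by
  rw [sub_eq_add_neg, rel_add, rel_neg, sub_eq_add_neg]
theorem rel_injective : Function.Injective (rel : (Fin 5 → R) → Fin 10 → R) := fun ρ ρ' h =>
  funext fun i => by rw [← rel_lo ρ i, h, rel_lo]
theorem Bv_rel (ρ : Fin 5 → R) : Bv (rel ρ) = 0 := by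
  funext e; fin_cases e <;> simp [Bv, nb, rel] <;> ring
theorem B_rel_right (x : Fin 10 → R) (ρ : Fin 5 → R) : B x (rel ρ) = 0 := by
  simp [B, Bv_rel]
theorem B_rel_left (ρ : Fin 5 → R) (y : Fin 10 → R) : B (rel ρ) y = 0 := by
  rw [B_comm, B_rel_right]
theorem sum_rel (ρ : Fin 5 → R) : ∑ e, rel ρ e = 0 := by
  rw [sum_fin10]; simp [rel]; ring

end

theorem toQ_add (x y : Deg) : toQ (x + y) = toQ x + toQ y := by funext e; simp [toQ]
theorem toQ_sub (x y : Deg) : toQ (x - y) = toQ x - toQ y := by funext e; simp [toQ]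
theorem toQ_neg (x : Deg) : toQ (-x) = -toQ x := by funext e; simp [toQ]
theorem toQ_smul (m : ℤ) (x : Deg) : toQ (m • x) = (m : ℚ) • toQ x := by funext e; simp [toQ]
theorem toQ_zero : toQ 0 = 0 := by funext e; simp [toQ]
theorem toQ_rel (ρ : Fin 5 → ℤ) : toQ (rel ρ) = rel (fun i => (ρ i : ℚ)) := by
  funext e; fin_cases e <;> simp [toQ, rel]
theorem Bv_toQ (x : Deg) (e : Fin 10) : Bv (toQ x) e = (Bv x e : ℤ) := by simp [Bv, toQ]
theorem B_toQ (x y : Deg) : B (toQ x) (toQ y) = (B x y : ℤ) := by simp [B, Bv_toQ, toQ]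

theorem kap_eq (n : ℕ) (H : Deg) : kap n H = ((n : ℚ) - 2) * ((∑ e, H e : ℤ) : ℚ) := by
  unfold kap kap2
  rw [B_const_left]; simp only [toQ]; push_cast; ring

theorem Adj.symm {e e' : Fin 10} (h : Adj e e') : Adj e' e := by revert e e'; decide
theorem Adj.ne {e e' : Fin 10} (h : Adj e e') : e ≠ e' := by revert e e'; decide
theorem adj_nb (e : Fin 10) (i : Fin 3) : Adj e (nb e i) := ⟨i, rfl⟩

theorem Ample.nef {H : Deg} (h : Ample H) : Nef H := fun e => le_trans zero_le_one (h e)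

theorem ample_one : Ample 1 := fun e => by rw [Bv_one]; norm_num

theorem eq_zero_of_rel_nonneg {ρ : Fin 5 → ℤ} (h : 0 ≤ rel ρ) : ρ = 0 := by
  have h0 := (Finset.sum_eq_zero_iff_of_nonneg (s := Finset.univ) (f := rel ρ) fun e _ => h e).1
    (sum_rel ρ)
  funext i
  rw [← rel_lo ρ i]; exact h0 _ (Finset.mem_univ _)

theorem B_nonneg_of_eff {a H : Deg} (ha : 0 ≤ a) (hH : Nef H) : 0 ≤ B a H :=
  Finset.sum_nonneg fun e _ => mul_nonneg (ha e) (hH e)

theorem sum_le_B {a H : Deg} (ha : 0 ≤ a) (hH : Ample H) : ∑ e, a e ≤ B a H :=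
  Finset.sum_le_sum fun e _ => le_mul_of_one_le_right (ha e) (hH e)

theorem eventually_deep_iff {P : Deg → Prop} :
    (∀ᶠ γ in deep, P γ) ↔ ∃ M : ℤ, ∀ γ : Deg, (∀ e, M ≤ Bv γ e) → P γ := by
  unfold deep
  rw [Filter.eventually_comap, Filter.eventually_atTop]
  constructor
  · rintro ⟨a, ha⟩
    refine ⟨∑ e, |a e|, fun γ hγ => ha (Bv γ) (fun e => ?_) γ rfl⟩
    exact le_trans (le_trans (le_abs_self _)
      (Finset.single_le_sum (f := fun e => |a e|) (fun _ _ => abs_nonneg _) (Finset.mem_univ e))) (hγ e)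
  · rintro ⟨M, hM⟩
    exact ⟨fun _ => M, fun b hb γ hγ => hM γ fun e => by rw [hγ]; exact hb e⟩

theorem eventually_le_Bv (M : ℤ) : ∀ᶠ γ in deep, ∀ e, M ≤ Bv γ e :=
  eventually_deep_iff.2 ⟨M, fun _ h => h⟩

theorem tendsto_deep_iff {T : Type} {l : Filter T} {f : T → Deg} :
    Tendsto f l deep ↔ ∀ M : ℤ, ∀ᶠ t in l, ∀ e, M ≤ Bv (f t) e := by
  constructor
  · intro h M; exact h.eventually (eventually_le_Bv M)
  · intro h s hs
    obtain ⟨M, hM⟩ := eventually_deep_iff.1 hs
    exact (h M).mono fun t ht => hM _ ht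

theorem tendsto_add_deep (α : Deg) : Tendsto (fun γ => γ + α) deep deep := by
  refine tendsto_deep_iff.2 fun M => (eventually_le_Bv (M + ∑ e, |Bv α e|)).mono fun γ h e => ?_
  have h1 := h e
  have h2 : |Bv α e| ≤ ∑ e, |Bv α e| :=
    Finset.single_le_sum (f := fun e => |Bv α e|) (fun _ _ => abs_nonneg _) (Finset.mem_univ e)
  have h3 := neg_abs_le (Bv α e)
  rw [Bv_add, Pi.add_apply]; omega

theorem tendsto_sub_deep (α : Deg) : Tendsto (fun γ => γ - α) deep deep := by
  simpa only [sub_eq_add_neg] using tendsto_add_deep (-α)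

theorem tendsto_smul_deep {h : Deg} (hh : Ample h) : Tendsto (fun t : ℤ => t • h) atTop deep := by
  refine tendsto_deep_iff.2 fun M => (eventually_ge_atTop (max M 0)).mono fun t ht e => ?_
  rw [Bv_smul, Pi.smul_apply, smul_eq_mul]
  have h1 := hh e
  have h2 : M ≤ t := le_trans (le_max_left _ _) ht
  have h3 : 0 ≤ t := le_trans (le_max_right _ _) ht
  nlinarith

theorem tendsto_add_smul_deep {h : Deg} (hh : Ample h) (γ : Deg) :
    Tendsto (fun t : ℤ => γ + t • h) atTop deep := by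
  simpa only [add_comm, Function.comp_def] using (tendsto_add_deep γ).comp (tendsto_smul_deep hh)

theorem tendsto_add_nsmul_deep {h : Deg} (hh : Ample h) (γ : Deg) :
    Tendsto (fun t : ℕ => γ + (t : ℤ) • h) atTop deep :=
  (tendsto_add_smul_deep hh γ).comp tendsto_natCast_atTop_atTop

instance deep_neBot : deep.NeBot := (tendsto_smul_deep ample_one).neBot

/-- Adding a principal divisor does not change deepness, uniformly. -/
theorem eventually_forall_add_rel {P : Deg → Prop} (h : ∀ᶠ γ in deep, P γ) :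
    ∀ᶠ γ in deep, ∀ ρ : Fin 5 → ℤ, P (γ + rel ρ) := by
  obtain ⟨M, hM⟩ := eventually_deep_iff.1 h
  exact eventually_deep_iff.2 ⟨M, fun γ hγ ρ => hM _ fun e => by
    rw [Bv_add, Bv_rel, add_zero]; exact hγ e⟩

/-- Adding a nef divisor does not change deepness, uniformly. -/
theorem eventually_forall_add_nef {P : Deg → Prop} (h : ∀ᶠ γ in deep, P γ) :
    ∀ᶠ γ in deep, ∀ a : Deg, Nef a → P (γ + a) := by
  obtain ⟨M, hM⟩ := eventually_deep_iff.1 h
  exact eventually_deep_iff.2 ⟨M, fun γ hγ a ha => hM _ fun e => by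
    rw [Bv_add, Pi.add_apply]; have := hγ e; have := ha e; omega⟩

end Crest.Agent.R169
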