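import Crest.Agent.R169.Comb

/-!
# rid 169, file `Comb2`: nef classes are effective, avoiding any node

Think of `y : Deg` as a multigraph on the vertices `1..5` (edge labels in `Defs`), with vertex degrees
`d1 = y0+y1+y6+y9, d2 = y5+y6+y7+y8, d3 = y2+y3+y5+y9, d4 = y0+y2+y4+y7, d5 = y1+y3+y4+y8`.
`rel ρ` are exactly the `y` with all vertex degrees zero, and `2 * Bv y (ij) = dk + dl + dm - di - dj`.
Prefix helper lemmas with `comb2_`.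
-/

set_option autoImplicit false

namespace Crest.Agent.R169

open Filter

/-- (funext; fin_cases; omega) -/
theorem eq_rel_of_deg {y : Deg} (h1 : y 0 + y 1 + y 6 + y 9 = 0) (h2 : y 5 + y 6 + y 7 + y 8 = 0)
    (h3 : y 2 + y 3 + y 5 + y 9 = 0) (h4 : y 0 + y 2 + y 4 + y 7 = 0) (h5 : y 1 + y 3 + y 4 + y 8 = 0) :
    y = rel (fun i => y (lo i)) := by
  have e5 : y 5 = y 0 + y 1 + y 4 := by omega
  have e6 : y 6 = y 2 + y 3 + y 4 := by omega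
  have e7 : y 7 = -(y 0 + y 2 + y 4) := by omega
  have e8 : y 8 = -(y 1 + y 3 + y 4) := by omega
  have e9 : y 9 = -(y 0 + y 1 + y 2 + y 3 + y 4) := by omega
  funext e
  fin_cases e
  exacts [rfl, rfl, rfl, rfl, rfl, e5, e6, e7, e8, e9]

/-- Numerically trivial classes are principal. -/
theorem eq_rel_of_Bv {y : Deg} (h : Bv y = 0) : y = rel (fun i => y (lo i)) := by
  have n0 : y 5 + y 8 + y 3 - y 0 = 0 := congrFun h 0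
  have n1 : y 5 + y 7 + y 2 - y 1 = 0 := congrFun h 1
  have n2 : y 6 + y 1 + y 8 - y 2 = 0 := congrFun h 2
  have n3 : y 6 + y 0 + y 7 - y 3 = 0 := congrFun h 3
  have n4 : y 6 + y 9 + y 5 - y 4 = 0 := congrFun h 4
  have n5 : y 0 + y 1 + y 4 - y 5 = 0 := congrFun h 5
  have n6 : y 2 + y 3 + y 4 - y 6 = 0 := congrFun h 6
  have n7 : y 9 + y 1 + y 3 - y 7 = 0 := congrFun h 7
  have n8 : y 9 + y 0 + y 2 - y 8 = 0 := congrFun h 8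
  have n9 : y 7 + y 8 + y 4 - y 9 = 0 := congrFun h 9
  exact eq_rel_of_deg (by omega) (by omega) (by omega) (by omega) (by omega)

theorem comb2_core {di dj dk dl α α' : ℤ}
    (h : 0 ≤ di ∧ 0 ≤ dj ∧ 0 ≤ dk ∧ 0 ≤ dl ∧ 0 ≤ α ∧ 0 ≤ α' ∧ α ≤ di + dj ∧
      di + dj - α = dk + dl - α') :
    ∃ mi mj mk ml ik il jk jl : ℤ, 0 ≤ mi ∧ 0 ≤ mj ∧ 0 ≤ mk ∧ 0 ≤ ml ∧ 0 ≤ ik ∧ 0 ≤ il ∧ 0 ≤ jk ∧
      0 ≤ jl ∧ mi + mj = α ∧ mk + ml = α' ∧ mi + ik + il = di ∧ mj + jk + jl = dj ∧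
      mk + ik + jk = dk ∧ ml + il + jl = dl := by
  obtain ⟨mi, h1⟩ : ∃ mi, 0 ≤ mi ∧ mi ≤ di ∧ mi ≤ α ∧ α - mi ≤ dj := ⟨min di α, by omega⟩
  obtain ⟨mk, h2⟩ : ∃ mk, 0 ≤ mk ∧ mk ≤ dk ∧ mk ≤ α' ∧ α' - mk ≤ dl := ⟨min dk α', by omega⟩
  obtain ⟨ik, h3⟩ : ∃ ik, 0 ≤ ik ∧ ik ≤ di - mi ∧ ik ≤ dk - mk ∧ (ik = di - mi ∨ ik = dk - mk) :=
    ⟨min (di - mi) (dk - mk), by omega⟩
  exact ⟨mi, α - mi, mk, α' - mk, ik, di - mi - ik, dk - mk - ik,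
    dj - (α - mi) - (dk - mk - ik), by omega⟩

theorem comb2_fin {β : Deg} {a0 a1 a2 a3 a4 a5 a6 a7 a8 a9 : ℤ} {e e' : Fin 10}
    (h0 : 0 ≤ a0 ∧ 0 ≤ a1 ∧ 0 ≤ a2 ∧ 0 ≤ a3 ∧ 0 ≤ a4 ∧ 0 ≤ a5 ∧ 0 ≤ a6 ∧ 0 ≤ a7 ∧ 0 ≤ a8 ∧ 0 ≤ a9)
    (h1 : a0 + a1 + a6 + a9 = β 0 + β 1 + β 6 + β 9 ∧ a5 + a6 + a7 + a8 = β 5 + β 6 + β 7 + β 8 ∧
      a2 + a3 + a5 + a9 = β 2 + β 3 + β 5 + β 9 ∧ a0 + a2 + a4 + a7 = β 0 + β 2 + β 4 + β 7 ∧
      a1 + a3 + a4 + a8 = β 1 + β 3 + β 4 + β 8)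
    (he : (![a0, a1, a2, a3, a4, a5, a6, a7, a8, a9] : Deg) e = 0)
    (he' : (![a0, a1, a2, a3, a4, a5, a6, a7, a8, a9] : Deg) e' = 0) :
    ∃ ρ : Fin 5 → ℤ, (β + rel ρ) e = 0 ∧ (β + rel ρ) e' = 0 ∧ 0 ≤ β + rel ρ := by
  set a : Deg := ![a0, a1, a2, a3, a4, a5, a6, a7, a8, a9] with ha
  have h2 := eq_rel_of_deg (y := a - β)
    (show a0 - β 0 + (a1 - β 1) + (a6 - β 6) + (a9 - β 9) = 0 by omega)
    (show a5 - β 5 + (a6 - β 6) + (a7 - β 7) + (a8 - β 8) = 0 by omega)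
    (show a2 - β 2 + (a3 - β 3) + (a5 - β 5) + (a9 - β 9) = 0 by omega)
    (show a0 - β 0 + (a2 - β 2) + (a4 - β 4) + (a7 - β 7) = 0 by omega)
    (show a1 - β 1 + (a3 - β 3) + (a4 - β 4) + (a8 - β 8) = 0 by omega)
  refine ⟨fun i => (a - β) (lo i), ?_⟩
  rw [← h2, add_sub_cancel]
  refine ⟨he, he', fun i => ?_⟩
  obtain ⟨b0, b1, b2, b3, b4, b5, b6, b7, b8, b9⟩ := h0
  fin_cases i
  exacts [b0, b1, b2, b3, b4, b5, b6, b7, b8, b9]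

theorem comb2_adj : ∀ e e' : Fin 10, Adj e e' → e < e' →
    (e = 0 ∧ e' = 3) ∨ (e = 0 ∧ e' = 5) ∨ (e = 0 ∧ e' = 8) ∨ (e = 1 ∧ e' = 2) ∨ (e = 1 ∧ e' =
      5) ∨ (e = 1 ∧ e' = 7) ∨ (e = 2 ∧ e' = 6) ∨ (e = 2 ∧ e' = 8) ∨ (e = 3 ∧ e' = 6) ∨ (e = 3 ∧
      e' = 7) ∨ (e = 4 ∧ e' = 5) ∨ (e = 4 ∧ e' = 6) ∨ (e = 4 ∧ e' = 9) ∨ (e = 7 ∧ e' = 9) ∨ (e =
      8 ∧ e' = 9) := by
  decide

theorem comb2_node {e e' : Fin 10} (h : Adj e e') (hlt : e < e') {β : Deg} (hβ : Nef β) :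
    ∃ ρ : Fin 5 → ℤ, (β + rel ρ) e = 0 ∧ (β + rel ρ) e' = 0 ∧ 0 ≤ β + rel ρ := by
  have n0 : 0 ≤ β 5 + β 8 + β 3 - β 0 := hβ 0
  have n1 : 0 ≤ β 5 + β 7 + β 2 - β 1 := hβ 1
  have n2 : 0 ≤ β 6 + β 1 + β 8 - β 2 := hβ 2
  have n3 : 0 ≤ β 6 + β 0 + β 7 - β 3 := hβ 3
  have n4 : 0 ≤ β 6 + β 9 + β 5 - β 4 := hβ 4
  have n5 : 0 ≤ β 0 + β 1 + β 4 - β 5 := hβ 5
  have n6 : 0 ≤ β 2 + β 3 + β 4 - β 6 := hβ 6
  have n7 : 0 ≤ β 9 + β 1 + β 3 - β 7 := hβ 7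
  have n8 : 0 ≤ β 9 + β 0 + β 2 - β 8 := hβ 8
  have n9 : 0 ≤ β 7 + β 8 + β 4 - β 9 := hβ 9
  obtain ⟨rfl, rfl⟩ | ⟨rfl, rfl⟩ | ⟨rfl, rfl⟩ | ⟨rfl, rfl⟩ | ⟨rfl, rfl⟩ | ⟨rfl, rfl⟩ | ⟨rfl, rfl⟩ |
      ⟨rfl, rfl⟩ | ⟨rfl, rfl⟩ | ⟨rfl, rfl⟩ | ⟨rfl, rfl⟩ | ⟨rfl, rfl⟩ | ⟨rfl, rfl⟩ | ⟨rfl, rfl⟩ |
      ⟨rfl, rfl⟩ := comb2_adj e e' h hlt
  · obtain ⟨mi, mj, mk, ml, ik, il, jk, jl, h⟩ := comb2_core (di := (β 0 + β 1 + β 6 + β 9))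
      (dj := (β 0 + β 2 + β 4 + β 7)) (dk := (β 2 + β 3 + β 5 + β 9)) (dl := (β 1 + β 3 + β 4 + β 8))
      (α := (β 6 + β 0 + β 7 - β 3)) (α' := (β 5 + β 8 + β 3 - β 0)) (by omega)
    exact comb2_fin (by omega) (by omega) (a0 := 0) (a1 := il) (a2 := jk) (a3 := 0) (a4 := jl)
      (a5 := mk) (a6 := mi) (a7 := mj) (a8 := ml) (a9 := ik) rfl rfl
  · obtain ⟨mi, mj, mk, ml, ik, il, jk, jl, h⟩ := comb2_core (di := (β 0 + β 1 + β 6 + β 9))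
      (dj := (β 0 + β 2 + β 4 + β 7)) (dk := (β 5 + β 6 + β 7 + β 8)) (dl := (β 2 + β 3 + β 5 + β 9))
      (α := (β 0 + β 1 + β 4 - β 5)) (α' := (β 5 + β 8 + β 3 - β 0)) (by omega)
    exact comb2_fin (by omega) (by omega) (a0 := 0) (a1 := mi) (a2 := jl) (a3 := ml) (a4 := mj)
      (a5 := 0) (a6 := ik) (a7 := jk) (a8 := mk) (a9 := il) rfl rfl
  · obtain ⟨mi, mj, mk, ml, ik, il, jk, jl, h⟩ := comb2_core (di := (β 0 + β 1 + β 6 + β 9))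
      (dj := (β 0 + β 2 + β 4 + β 7)) (dk := (β 5 + β 6 + β 7 + β 8)) (dl := (β 1 + β 3 + β 4 + β 8))
      (α := (β 9 + β 0 + β 2 - β 8)) (α' := (β 5 + β 8 + β 3 - β 0)) (by omega)
    exact comb2_fin (by omega) (by omega) (a0 := 0) (a1 := il) (a2 := mj) (a3 := ml) (a4 := jl)
      (a5 := mk) (a6 := ik) (a7 := jk) (a8 := 0) (a9 := mi) rfl rfl
  · obtain ⟨mi, mj, mk, ml, ik, il, jk, jl, h⟩ := comb2_core (di := (β 0 + β 1 + β 6 + β 9))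
      (dj := (β 1 + β 3 + β 4 + β 8)) (dk := (β 2 + β 3 + β 5 + β 9)) (dl := (β 0 + β 2 + β 4 + β 7))
      (α := (β 6 + β 1 + β 8 - β 2)) (α' := (β 5 + β 7 + β 2 - β 1)) (by omega)
    exact comb2_fin (by omega) (by omega) (a0 := il) (a1 := 0) (a2 := 0) (a3 := jk) (a4 := jl)
      (a5 := mk) (a6 := mi) (a7 := ml) (a8 := mj) (a9 := ik) rfl rfl
  · obtain ⟨mi, mj, mk, ml, ik, il, jk, jl, h⟩ := comb2_core (di := (β 0 + β 1 + β 6 + β 9))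
      (dj := (β 1 + β 3 + β 4 + β 8)) (dk := (β 5 + β 6 + β 7 + β 8)) (dl := (β 2 + β 3 + β 5 + β 9))
      (α := (β 0 + β 1 + β 4 - β 5)) (α' := (β 5 + β 7 + β 2 - β 1)) (by omega)
    exact comb2_fin (by omega) (by omega) (a0 := mi) (a1 := 0) (a2 := ml) (a3 := jl) (a4 := mj)
      (a5 := 0) (a6 := ik) (a7 := mk) (a8 := jk) (a9 := il) rfl rfl
  · obtain ⟨mi, mj, mk, ml, ik, il, jk, jl, h⟩ := comb2_core (di := (β 0 + β 1 + β 6 + β 9))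
      (dj := (β 1 + β 3 + β 4 + β 8)) (dk := (β 5 + β 6 + β 7 + β 8)) (dl := (β 0 + β 2 + β 4 + β 7))
      (α := (β 9 + β 1 + β 3 - β 7)) (α' := (β 5 + β 7 + β 2 - β 1)) (by omega)
    exact comb2_fin (by omega) (by omega) (a0 := il) (a1 := 0) (a2 := ml) (a3 := mj) (a4 := jl)
      (a5 := mk) (a6 := ik) (a7 := 0) (a8 := jk) (a9 := mi) rfl rfl
  · obtain ⟨mi, mj, mk, ml, ik, il, jk, jl, h⟩ := comb2_core (di := (β 2 + β 3 + β 5 + β 9))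
      (dj := (β 0 + β 2 + β 4 + β 7)) (dk := (β 0 + β 1 + β 6 + β 9)) (dl := (β 5 + β 6 + β 7 + β 8))
      (α := (β 2 + β 3 + β 4 - β 6)) (α' := (β 6 + β 1 + β 8 - β 2)) (by omega)
    exact comb2_fin (by omega) (by omega) (a0 := jk) (a1 := mk) (a2 := 0) (a3 := mi) (a4 := mj)
      (a5 := il) (a6 := 0) (a7 := jl) (a8 := ml) (a9 := ik) rfl rfl
  · obtain ⟨mi, mj, mk, ml, ik, il, jk, jl, h⟩ := comb2_core (di := (β 2 + β 3 + β 5 + β 9))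
      (dj := (β 0 + β 2 + β 4 + β 7)) (dk := (β 5 + β 6 + β 7 + β 8)) (dl := (β 1 + β 3 + β 4 + β 8))
      (α := (β 9 + β 0 + β 2 - β 8)) (α' := (β 6 + β 1 + β 8 - β 2)) (by omega)
    exact comb2_fin (by omega) (by omega) (a0 := mj) (a1 := ml) (a2 := 0) (a3 := il) (a4 := jl)
      (a5 := ik) (a6 := mk) (a7 := jk) (a8 := 0) (a9 := mi) rfl rfl
  · obtain ⟨mi, mj, mk, ml, ik, il, jk, jl, h⟩ := comb2_core (di := (β 2 + β 3 + β 5 + β 9))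
      (dj := (β 1 + β 3 + β 4 + β 8)) (dk := (β 0 + β 1 + β 6 + β 9)) (dl := (β 5 + β 6 + β 7 + β 8))
      (α := (β 2 + β 3 + β 4 - β 6)) (α' := (β 6 + β 0 + β 7 - β 3)) (by omega)
    exact comb2_fin (by omega) (by omega) (a0 := mk) (a1 := jk) (a2 := mi) (a3 := 0) (a4 := mj)
      (a5 := il) (a6 := 0) (a7 := ml) (a8 := jl) (a9 := ik) rfl rfl
  · obtain ⟨mi, mj, mk, ml, ik, il, jk, jl, h⟩ := comb2_core (di := (β 2 + β 3 + β 5 + β 9))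
      (dj := (β 1 + β 3 + β 4 + β 8)) (dk := (β 5 + β 6 + β 7 + β 8)) (dl := (β 0 + β 2 + β 4 + β 7))
      (α := (β 9 + β 1 + β 3 - β 7)) (α' := (β 6 + β 0 + β 7 - β 3)) (by omega)
    exact comb2_fin (by omega) (by omega) (a0 := ml) (a1 := mj) (a2 := il) (a3 := 0) (a4 := jl)
      (a5 := ik) (a6 := mk) (a7 := 0) (a8 := jk) (a9 := mi) rfl rfl
  · obtain ⟨mi, mj, mk, ml, ik, il, jk, jl, h⟩ := comb2_core (di := (β 0 + β 2 + β 4 + β 7))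
      (dj := (β 1 + β 3 + β 4 + β 8)) (dk := (β 5 + β 6 + β 7 + β 8)) (dl := (β 2 + β 3 + β 5 + β 9))
      (α := (β 0 + β 1 + β 4 - β 5)) (α' := (β 6 + β 9 + β 5 - β 4)) (by omega)
    exact comb2_fin (by omega) (by omega) (a0 := mi) (a1 := mj) (a2 := il) (a3 := jl) (a4 := 0)
      (a5 := 0) (a6 := mk) (a7 := ik) (a8 := jk) (a9 := ml) rfl rfl
  · obtain ⟨mi, mj, mk, ml, ik, il, jk, jl, h⟩ := comb2_core (di := (β 0 + β 2 + β 4 + β 7))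
      (dj := (β 1 + β 3 + β 4 + β 8)) (dk := (β 0 + β 1 + β 6 + β 9)) (dl := (β 5 + β 6 + β 7 + β 8))
      (α := (β 2 + β 3 + β 4 - β 6)) (α' := (β 6 + β 9 + β 5 - β 4)) (by omega)
    exact comb2_fin (by omega) (by omega) (a0 := ik) (a1 := jk) (a2 := mi) (a3 := mj) (a4 := 0)
      (a5 := ml) (a6 := 0) (a7 := il) (a8 := jl) (a9 := mk) rfl rfl
  · obtain ⟨mi, mj, mk, ml, ik, il, jk, jl, h⟩ := comb2_core (di := (β 0 + β 2 + β 4 + β 7))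
      (dj := (β 1 + β 3 + β 4 + β 8)) (dk := (β 0 + β 1 + β 6 + β 9)) (dl := (β 2 + β 3 + β 5 + β 9))
      (α := (β 7 + β 8 + β 4 - β 9)) (α' := (β 6 + β 9 + β 5 - β 4)) (by omega)
    exact comb2_fin (by omega) (by omega) (a0 := ik) (a1 := jk) (a2 := il) (a3 := jl) (a4 := 0)
      (a5 := ml) (a6 := mk) (a7 := mi) (a8 := mj) (a9 := 0) rfl rfl
  · obtain ⟨mi, mj, mk, ml, ik, il, jk, jl, h⟩ := comb2_core (di := (β 5 + β 6 + β 7 + β 8))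
      (dj := (β 0 + β 2 + β 4 + β 7)) (dk := (β 0 + β 1 + β 6 + β 9)) (dl := (β 2 + β 3 + β 5 + β 9))
      (α := (β 7 + β 8 + β 4 - β 9)) (α' := (β 9 + β 1 + β 3 - β 7)) (by omega)
    exact comb2_fin (by omega) (by omega) (a0 := jk) (a1 := mk) (a2 := jl) (a3 := ml) (a4 := mj)
      (a5 := il) (a6 := ik) (a7 := 0) (a8 := mi) (a9 := 0) rfl rfl
  · obtain ⟨mi, mj, mk, ml, ik, il, jk, jl, h⟩ := comb2_core (di := (β 5 + β 6 + β 7 + β 8))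
      (dj := (β 1 + β 3 + β 4 + β 8)) (dk := (β 0 + β 1 + β 6 + β 9)) (dl := (β 2 + β 3 + β 5 + β 9))
      (α := (β 7 + β 8 + β 4 - β 9)) (α' := (β 9 + β 0 + β 2 - β 8)) (by omega)
    exact comb2_fin (by omega) (by omega) (a0 := mk) (a1 := jk) (a2 := ml) (a3 := jl) (a4 := mj)
      (a5 := il) (a6 := ik) (a7 := mi) (a8 := 0) (a9 := 0) rfl rfl

/-- Proof.  Let `e = ij`, `e' = kl`, `m` the fifth vertex.  We need a multigraph `a ≥ 0` with the vertex degrees of `β`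
and no edge `ij`, `kl` (then `ρ = (a - β) ∘ lo` by `eq_rel_of_deg`).  Put `α = Bv β e' ≥ 0` edges from `m` to `{i,j}` and
`α' = Bv β e ≥ 0` edges from `m` to `{k,l}` (`α + α' = dm`, `di + dj - α = dk + dl - α' =: T ≥ 0`; all `d ≥ 0`; these follow
from nefness by omega).  `a(mi) = min di α`, `a(mj) = α - a(mi)`, `a(mk) = min dk α'`, `a(ml) = α' - a(mk)`, then fill the
2x2 table with margins `(di - a(mi), dj - a(mj))`, `(dk - a(mk), dl - a(ml))`: `a(ik) = min ..`, etc.  Suggested: one core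
lemma on five integers `di dj dk dl dm α α'` producing eight nonnegative integers, then `fin_cases`/15 cases
(use `Adj.symm` to halve the work). -/
theorem exists_rel_node {e e' : Fin 10} (h : Adj e e') {β : Deg} (hβ : Nef β) :
    ∃ ρ : Fin 5 → ℤ, (β + rel ρ) e = 0 ∧ (β + rel ρ) e' = 0 ∧ 0 ≤ β + rel ρ := by
  rcases lt_or_gt_of_ne h.ne with hlt | hlt
  · exact comb2_node h hlt hβ
  · obtain ⟨ρ, h1, h2, h3⟩ := comb2_node h.symm hlt hβ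
    exact ⟨ρ, h2, h1, h3⟩

/-- four-cycles through a line that avoid a given neighbour -/
def comb2U : Fin 10 → Fin 3 → Fin 5 → ℤ :=
  ![![![1, -1, 0, 0, 0], ![1, 0, 0, 0, 0], ![1, 0, -1, 0, 0]],
    ![![-1, 1, 0, 0, 0], ![0, 1, 0, 0, 0], ![0, 1, 0, -1, 0]],
    ![![-1, 1, 1, -1, 0], ![-1, 0, 1, 0, 0], ![0, 0, 1, 0, 0]],
    ![![1, -1, -1, 1, 0], ![0, -1, 0, 1, 0], ![0, 0, 0, 1, 0]],
    ![![0, -1, -1, 0, 1], ![0, -1, 0, 0, 1], ![-1, 0, 0, 0, 1]],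
    ![![0, 1, 0, 0, 0], ![1, 0, 0, 0, 0], ![1, 0, -1, 0, 0]],
    ![![0, -1, 0, 1, 0], ![-1, 0, 1, 0, 0], ![0, 0, 1, 0, 0]],
    ![![-1, 1, 0, 0, 0], ![-1, 0, 0, 0, 0], ![0, 0, -1, 0, 0]],
    ![![1, -1, 0, 0, 0], ![0, -1, 0, 0, 0], ![0, 0, 0, -1, 0]],
    ![![0, -1, 0, 0, 0], ![-1, 0, 0, 0, 0], ![0, 0, -1, 0, 0]]]

theorem comb2_U : ∀ (e : Fin 10) (i : Fin 3),
    rel (comb2U e i) e = 1 ∧ rel (comb2U e i) (nb e i) = 0 := by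
  decide

/-- Two adjacent coordinates of a principal divisor can be prescribed (30 or 15 cases; take `a • u + b • w` with the
vectors `u, w` listed in the header of `Chart.lean`). -/
theorem exists_rel_pair {e e' : Fin 10} (h : Adj e e') (a b : ℤ) :
    ∃ ρ : Fin 5 → ℤ, rel ρ e = a ∧ rel ρ e' = b := by
  obtain ⟨i, hi⟩ := h
  obtain ⟨j, hj⟩ := Adj.symm ⟨i, hi⟩
  obtain ⟨h1, h2⟩ := comb2_U e i
  obtain ⟨h3, h4⟩ := comb2_U e' j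
  rw [hi] at h2
  rw [hj] at h4
  refine ⟨a • comb2U e i + b • comb2U e' j, ?_⟩
  rw [rel_add, rel_smul, rel_smul]
  simp [h1, h2, h3, h4]

theorem comb2_adj05 : Adj 0 5 := by decide

theorem B_nonneg_of_nef {a H : Deg} (ha : Nef a) (hH : Nef H) : 0 ≤ B a H := by
  obtain ⟨ρ, -, -, h⟩ := exists_rel_node comb2_adj05 ha
  have := B_nonneg_of_eff h hH
  rwa [B_add_left, B_rel_left, add_zero] at this

theorem B_pos_of_ample {a H : Deg} (ha : Ample a) (hH : Ample H) : 0 < B a H := by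
  obtain ⟨ρ, h0, -, h⟩ := exists_rel_node comb2_adj05 ha.nef
  have h1 := sum_le_B h hH
  rw [B_add_left, B_rel_left, add_zero, sum_fin10] at h1
  have h2 : 1 ≤ Bv (a + rel ρ) 0 := by rw [Bv_add, Bv_rel, add_zero]; exact ha 0
  generalize a + rel ρ = y at h0 h h1 h2
  have h3 : 1 ≤ y 5 + y 8 + y 3 - y 0 := h2
  have b1 : 0 ≤ y 1 := h 1
  have b2 : 0 ≤ y 2 := h 2
  have b4 : 0 ≤ y 4 := h 4
  have b6 : 0 ≤ y 6 := h 6
  have b7 : 0 ≤ y 7 := h 7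
  have b9 : 0 ≤ y 9 := h 9
  omega

/-- From `exists_rel_node` for `β = 1`. -/
theorem exists_ample_node {e e' : Fin 10} (h : Adj e e') :
    ∃ a : Deg, 0 ≤ a ∧ a e = 0 ∧ a e' = 0 ∧ Ample a := by
  obtain ⟨ρ, h1, h2, h3⟩ := exists_rel_node h ample_one.nef
  exact ⟨_, h3, h1, h2, fun i => by rw [Bv_add, Bv_rel, add_zero]; exact ample_one i⟩

variable {n : ℕ} [NeZero n]

theorem comb2_pos : (0 : ℤ) < n := by exact_mod_cast Nat.pos_of_ne_zero (NeZero.ne n)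

theorem nonneg_iff_flr (γ : Deg) (ρ : Fin 5 → ℤ) :
    0 ≤ γ + (n : ℤ) • rel ρ ↔ 0 ≤ flr n γ + rel ρ := by
  refine forall_congr' fun e => ?_
  change 0 ≤ γ e + n * rel ρ e ↔ 0 ≤ γ e / n + rel ρ e
  rw [← Int.add_mul_ediv_left _ _ (comb2_pos (n := n)).ne', Int.le_ediv_iff_mul_le comb2_pos,
    zero_mul]

/-- `γ = n • flr γ + ε` with `0 ≤ ε < n`, so `n * Bv (flr γ) e ≥ Bv γ e - 3 n`. -/
theorem eventually_nef_flr : ∀ᶠ γ in deep, Nef (flr n γ) := by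
  refine (eventually_le_Bv (3 * n)).mono fun γ h e => ?_
  have hn := comb2_pos (n := n)
  have h1 := h e
  have h2 : ∀ i, (n : ℤ) * (γ i / n) ≤ γ i ∧ γ i < n * (γ i / n) + n := fun i =>
    ⟨Int.mul_ediv_self_le hn.ne', Int.lt_mul_ediv_self_add hn⟩
  refine le_of_mul_le_mul_left ?_ hn
  simp only [Bv, flr] at h1 ⊢
  linarith [(h2 (nb e 0)).2, (h2 (nb e 1)).2, (h2 (nb e 2)).2, (h2 e).1]

theorem eventually_exists_rel : ∀ᶠ γ in deep, ∃ ρ : Fin 5 → ℤ, 0 ≤ γ + (n : ℤ) • rel ρ := by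
  refine (eventually_nef_flr (n := n)).mono fun γ h => ?_
  obtain ⟨ρ, -, -, h3⟩ := exists_rel_node comb2_adj05 h
  exact ⟨ρ, (nonneg_iff_flr γ ρ).2 h3⟩

/-- Apply `exists_rel_node` to `flr n (γ - γ0)`. -/
theorem eventually_node_le {e e' : Fin 10} (h : Adj e e') (γ0 : Deg) :
    ∀ᶠ γ in deep, γ e ≡ γ0 e [ZMOD n] → γ e' ≡ γ0 e' [ZMOD n] →
      ∃ ρ : Fin 5 → ℤ, (γ + (n : ℤ) • rel ρ) e = γ0 e ∧ (γ + (n : ℤ) • rel ρ) e' = γ0 e' ∧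
        γ0 ≤ γ + (n : ℤ) • rel ρ := by
  refine ((tendsto_sub_deep γ0).eventually (eventually_nef_flr (n := n))).mono
    fun γ hγ he he' => ?_
  obtain ⟨ρ, h1, h2, h3⟩ := exists_rel_node h hγ
  have key : ∀ i, γ i ≡ γ0 i [ZMOD n] → (flr n (γ - γ0) + rel ρ) i = 0 →
      (γ + (n : ℤ) • rel ρ) i = γ0 i := fun i hi h0 => by
    have h4 : (γ i - γ0 i) / n + rel ρ i = 0 := h0
    have h5 := Int.mul_ediv_cancel' hi.symm.dvd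
    change γ i + n * rel ρ i = γ0 i
    rw [eq_neg_of_add_eq_zero_right h4]
    linarith
  refine ⟨ρ, key e he h1, key e' he' h2, ?_⟩
  have h4 := (nonneg_iff_flr (γ - γ0) ρ).2 h3
  rwa [sub_add_eq_add_sub, sub_nonneg] at h4

/-- A monomial of deep degree that vanishes on a given line as little as possible. -/
theorem eventually_exists_rel_lt (e : Fin 10) :
    ∀ᶠ γ in deep, ∃ ρ : Fin 5 → ℤ, 0 ≤ γ + (n : ℤ) • rel ρ ∧ (γ + (n : ℤ) • rel ρ) e < n := by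
  refine (eventually_nef_flr (n := n)).mono fun γ h => ?_
  obtain ⟨ρ, h1, -, h3⟩ := exists_rel_node (adj_nb e 0) h
  refine ⟨ρ, (nonneg_iff_flr γ ρ).2 h3, ?_⟩
  have h4 : γ e / n + rel ρ e = 0 := h1
  have h5 := Int.lt_mul_ediv_self_add (x := γ e) (comb2_pos (n := n))
  change γ e + n * rel ρ e < n
  rw [eq_neg_of_add_eq_zero_right h4]
  linarith

omit [NeZero n] in
theorem comb2_eff {H : Deg} (hH : Ample H) {b : ℤ} {a : Deg} (ha : 0 ≤ a) (hb : B a H ≤ b) :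
    a ∈ Set.Icc (0 : Deg) fun _ => b :=
  ⟨ha, fun e => ((Finset.single_le_sum (fun i _ => ha i) (Finset.mem_univ e)).trans
    (sum_le_B ha hH)).trans hb⟩

theorem comb2_inj (γ : Deg) : Function.Injective fun ρ : Fin 5 → ℤ => γ + (n : ℤ) • rel ρ :=
  fun _ _ h => rel_injective (smul_right_injective _ (comb2_pos (n := n)).ne' (add_left_cancel h))

omit [NeZero n] in
theorem comb2_B (γ H : Deg) (ρ : Fin 5 → ℤ) : B (γ + (n : ℤ) • rel ρ) H = B γ H := by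
  rw [B_add_left, B_smul_left, B_rel_left, mul_zero, add_zero]

/-- The coordinates `0..4` bound `ρ` below, the coordinate `9` bounds `∑ ρ` above. -/
theorem finite_mon (γ : Deg) : {ρ : Fin 5 → ℤ | 0 ≤ γ + (n : ℤ) • rel ρ}.Finite := by
  refine ((Set.finite_Icc (0 : Deg) fun _ => B γ 1).preimage (comb2_inj (n := n) γ).injOn).subset
    fun ρ hρ => comb2_eff ample_one hρ (comb2_B γ 1 ρ).le

/-- `ρ ↦ γ + n • rel ρ` is injective into `{a | 0 ≤ a, ∑ a ≤ b} ⊆ {0..b}^10` (`sum_le_B`, `B_rel_left`). -/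
theorem ncard_mon_le {γ H : Deg} (hH : Ample H) {b : ℕ} (hb : B γ H ≤ b) :
    {ρ : Fin 5 → ℤ | 0 ≤ γ + (n : ℤ) • rel ρ}.ncard ≤ (b + 1) ^ 10 := by
  refine (Set.ncard_le_ncard_of_injOn (t := Set.Icc (0 : Deg) fun _ => (b : ℤ)) _
    (fun ρ hρ => comb2_eff hH hρ ((comb2_B γ H ρ).trans_le hb)) (comb2_inj (n := n) γ).injOn
    (Set.finite_Icc _ _)).trans ?_
  rw [← Finset.coe_Icc, Set.ncard_coe_finset, Pi.card_Icc]
  simp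

omit [NeZero n] in
theorem finite_eff {H : Deg} (hH : Ample H) (b : ℤ) : {a : Deg | 0 ≤ a ∧ B a H ≤ b}.Finite :=
  (Set.finite_Icc (0 : Deg) fun _ => b).subset fun _ ha => comb2_eff hH ha.1 ha.2

end Crest.Agent.R169
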