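import Crest.Agent.R169.Comb2

/-!
# rid 169, file `Comb3`: the Riemann–Roch polynomial

Comparison of two quadratic polynomials on deep degrees: restrict to rays `γ0 + t • h` (`tendsto_add_smul_deep`,
`eventually_forall_add_nef`) and let `t → ∞`.  Prefix helper lemmas with `comb3_`.
-/

set_option autoImplicit false

namespace Crest.Agent.R169

open Filter

variable {n : ℕ}

theorem comb3_qq_add (x y : Fin 10 → ℚ) : qq (x + y) = qq x + B x y + qq y := by
  simp only [qq, B_add_left, B_add_right, B_comm y x]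
  ring

theorem comb3_qq_smul (t : ℚ) (x : Fin 10 → ℚ) : qq (t • x) = t ^ 2 * qq x := by
  simp only [qq, B_smul_left, B_smul_right]
  ring

theorem comb3_qq_neg (x : Fin 10 → ℚ) : qq (-x) = qq x := by
  simp only [qq, B_neg_left, B_neg_right, neg_neg]

theorem comb3_qq_toQ (x : Deg) : qq (toQ x) = ((B x x : ℤ) : ℚ) / 2 := by
  rw [qq, B_toQ]

theorem comb3_step (r : ℕ) (c : Deg) (s : ℚ) (γ a : Deg) :
    Pol n r c s (γ + a) = Pol n r c s γ + (r * B (toQ γ - kap2 n) (toQ a) + (B a c : ℤ)) +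
      r * qq (toQ a) := by
  simp only [Pol]
  rw [toQ_add, add_sub_right_comm, comb3_qq_add, B_add_left, B_toQ]
  ring

theorem comb3_lin {a b : ℚ} (h : ∀ᶠ t : ℤ in atTop, 0 ≤ a + t * b) : 0 ≤ b := by
  by_contra hb
  have hb' : 0 < -b := by linarith [not_le.1 hb]
  obtain ⟨t, h1, h2⟩ := (h.and (eventually_gt_atTop ⌈a / -b⌉)).exists
  have h3 : a / -b < t := lt_of_le_of_lt (Int.le_ceil _) (by exact_mod_cast h2)
  rw [div_lt_iff₀ hb'] at h3
  linarith

theorem comb3_quad {a b c : ℚ} (h : ∀ᶠ t : ℤ in atTop, 0 ≤ a + t * b + t ^ 2 * c) : 0 ≤ c := by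
  refine comb3_lin (a := |a| + b) ?_
  filter_upwards [h, eventually_ge_atTop 1] with t h1 h2
  have h3 : (1 : ℚ) ≤ t := by exact_mod_cast h2
  have h4 : a ≤ t * |a| := (le_abs_self a).trans (le_mul_of_one_le_left (abs_nonneg a) h3)
  have h5 : 0 ≤ (t : ℚ) * (|a| + b + t * c) := by linarith
  exact nonneg_of_mul_nonneg_right h5 (by linarith)

theorem comb3_nef_smul {a : Deg} (ha : Nef a) {t : ℤ} (ht : 0 ≤ t) : Nef (t • a) := fun e => by
  rw [Bv_smul, Pi.smul_apply, smul_eq_mul]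
  exact mul_nonneg ht (ha e)

theorem comb3_ray {P : Deg → Prop} (h : ∀ᶠ γ in deep, P γ) {a : Deg} (ha : Nef a) :
    ∃ γ, ∀ᶠ t : ℤ in atTop, P (γ + t • a) := by
  obtain ⟨γ, hγ⟩ := (eventually_forall_add_nef h).exists
  exact ⟨γ, (eventually_ge_atTop 0).mono fun t ht => hγ _ (comb3_nef_smul ha ht)⟩

theorem comb3_single (e e' : Fin 10) : |Bv (Pi.single e (1 : ℤ)) e'| ≤ 1 := by
  revert e e'
  decide

theorem comb3_toQ_single (e : Fin 10) : toQ (Pi.single e 1) = Pi.single e 1 := by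
  funext e'
  simp only [toQ, Pi.single_apply]
  split_ifs <;> simp

theorem comb3_Bv_eq {c c' : Deg} (h : Bv (toQ c' - toQ c) = 0) : Bv c = Bv c' := by
  funext e
  have h1 := congrFun h e
  rw [Bv_sub, Pi.sub_apply, Bv_toQ, Bv_toQ, Pi.zero_apply, sub_eq_zero] at h1
  exact_mod_cast h1.symm

theorem Pol_add (r r' : ℕ) (c c' : Deg) (s s' : ℚ) (γ : Deg) :
    Pol n (r + r') (c + c') (s + s') γ = Pol n r c s γ + Pol n r' c' s' γ := by
  simp only [Pol, toQ_add, B_add_right]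
  push_cast
  ring

theorem Pol_zero (γ : Deg) : Pol n 0 0 0 γ = 0 := by
  simp [Pol, toQ_zero, B_zero_right]

theorem Pol_const (r : ℕ) (c : Deg) (s s' : ℚ) (γ : Deg) :
    Pol n r c (s + s') γ = Pol n r c s γ + s' := by
  simp only [Pol]
  ring

theorem Pol_shift (r : ℕ) (c : Deg) (s : ℚ) (γ α : Deg) :
    Pol n r c s (γ + α) = Pol n r (c + (r : ℤ) • α) (s + r * qq (toQ α) + (B α c : ℤ)) γ := by
  rw [comb3_step]
  simp only [Pol, toQ_add, toQ_smul, B_add_right, B_smul_right]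
  push_cast
  ring

theorem Pol_rel (r : ℕ) (c : Deg) (s : ℚ) (γ : Deg) (ρ : Fin 5 → ℤ) :
    Pol n r c s (γ + rel ρ) = Pol n r c s γ := by
  rw [comb3_step, comb3_qq_toQ, B_rel_left, B_rel_left, toQ_rel, B_rel_right]
  simp

theorem Pol_congr (r : ℕ) {c c' : Deg} (h : Bv c = Bv c') (s : ℚ) : Pol n r c s = Pol n r c' s := by
  funext γ
  have h1 : Bv (toQ c) = Bv (toQ c') := funext fun e => by rw [Bv_toQ, Bv_toQ, h]
  simp only [Pol, B_congr_right h1]

/-- Along a ray the polynomial is quadratic. -/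
theorem Pol_ray (r : ℕ) (c : Deg) (s : ℚ) (γ a : Deg) (t : ℤ) :
    Pol n r c s (γ + t • a) = Pol n r c s γ +
      t * (r * B (toQ γ - kap2 n) (toQ a) + (B a c : ℤ)) + t ^ 2 * (r * qq (toQ a)) := by
  rw [comb3_step, toQ_smul, comb3_qq_smul, B_smul_right, B_smul_left]
  push_cast
  ring

theorem Pol_third (r : ℕ) (c : Deg) (s : ℚ) (γ a : Deg) :
    Pol n r c s (γ + (3 : ℤ) • a) - 3 * Pol n r c s (γ + (2 : ℤ) • a) + 3 * Pol n r c s (γ + a) =
      Pol n r c s γ := by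
  rw [Pol_ray, Pol_ray, comb3_step]
  push_cast
  ring

/-- Second mixed difference. -/
theorem Pol_second (γ α β : Deg) :
    Pol n 1 0 0 γ - Pol n 1 0 0 (γ - α) - Pol n 1 0 0 (γ - β) + Pol n 1 0 0 (γ - α - β) = (B α β : ℤ) := by
  simp only [sub_eq_add_neg γ, sub_eq_add_neg (γ + -α), comb3_step, B_zero_right, toQ_add, toQ_neg,
    add_sub_right_comm, B_add_left, B_neg_left, B_neg_right, B_toQ]
  push_cast
  ring

/-- Ray `t • 1`; `qq (toQ 1) = 10 > 0`. -/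
theorem Pol_le_rank {r r' : ℕ} {c c' : Deg} {s s' : ℚ}
    (h : ∀ᶠ γ in deep, Pol n r c s γ ≤ Pol n r' c' s' γ) : r ≤ r' := by
  obtain ⟨γ, hγ⟩ := comb3_ray h ample_one.nef
  have h1 : 0 ≤ (r' : ℚ) * qq (toQ 1) - r * qq (toQ 1) := by
    refine comb3_quad (a := Pol n r' c' s' γ - Pol n r c s γ)
      (b := (r' * B (toQ γ - kap2 n) (toQ 1) + (B 1 c' : ℤ)) -
        (r * B (toQ γ - kap2 n) (toQ 1) + (B 1 c : ℤ))) (hγ.mono fun t ht => ?_)
    rw [Pol_ray, Pol_ray] at ht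
    linarith
  have h2 : qq (toQ 1) = 10 := by
    rw [comb3_qq_toQ, B_one_left]
    simp
    norm_num
  rw [h2] at h1
  have h3 : (r : ℚ) ≤ r' := by linarith
  exact_mod_cast h3

/-- Rays `γ0 + t • H`. -/
theorem Pol_le_deg {r : ℕ} {c c' : Deg} {s s' : ℚ}
    (h : ∀ᶠ γ in deep, Pol n r c s γ ≤ Pol n r c' s' γ) {H : Deg} (hH : Nef H) : B c H ≤ B c' H := by
  obtain ⟨γ, hγ⟩ := comb3_ray h hH
  have h1 : 0 ≤ ((B H c' : ℤ) : ℚ) - (B H c : ℤ) := by
    refine comb3_lin (a := Pol n r c' s' γ - Pol n r c s γ) (hγ.mono fun t ht => ?_)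
    rw [Pol_ray, Pol_ray] at ht
    linarith
  rw [B_comm c, B_comm c']
  exact_mod_cast sub_nonneg.1 h1

theorem Pol_le_const {r : ℕ} {c c' : Deg} {s s' : ℚ} (hc : Bv c = Bv c')
    (h : ∀ᶠ γ in deep, Pol n r c s γ ≤ Pol n r c' s' γ) : s ≤ s' := by
  obtain ⟨γ, hγ⟩ := h.exists
  rw [Pol_congr r hc] at hγ
  simp only [Pol] at hγ
  linarith

/-- A class that is bounded below on deep degrees is `≥ 0` on every nef `a` (rays `γ0 + t • a`); `h ± single e 1` are nef. -/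
theorem Bv_eq_zero_of_deep {y : Fin 10 → ℚ} {h : Deg} (hh : Ample h) {C : ℚ}
    (hC : ∀ᶠ γ in deep, C ≤ B (toQ γ) y) (h0 : B (toQ h) y ≤ 0) : Bv y = 0 := by
  have key : ∀ a : Deg, Nef a → 0 ≤ B (toQ a) y := fun a ha => by
    obtain ⟨γ, hγ⟩ := comb3_ray hC ha
    refine comb3_lin (a := B (toQ γ) y - C) (hγ.mono fun t ht => ?_)
    rw [toQ_add, toQ_smul, B_add_left, B_smul_left] at ht
    linarith
  funext e
  have h1 := key (h + Pi.single e 1) fun e' => by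
    have := hh e'
    have := abs_le.1 (comb3_single e e')
    rw [Bv_add, Pi.add_apply]
    omega
  have h2 := key (h - Pi.single e 1) fun e' => by
    have := hh e'
    have := abs_le.1 (comb3_single e e')
    rw [Bv_sub, Pi.sub_apply]
    omega
  rw [toQ_add, B_add_left, comb3_toQ_single, B_single] at h1
  rw [toQ_sub, B_sub_left, comb3_toQ_single, B_single] at h2
  rw [Pi.zero_apply]
  linarith

theorem comb3_cls {r : ℕ} {c c' : Deg} {s s' : ℚ} {ℓ : Deg} (hℓ : Ample ℓ)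
    (h : ∀ᶠ γ in deep, Pol n r c s γ ≤ Pol n r c' s' γ) (h0 : B c' ℓ ≤ B c ℓ) : Bv c = Bv c' := by
  refine comb3_Bv_eq (Bv_eq_zero_of_deep hℓ (C := s - s' + B (kap2 n) (toQ c' - toQ c))
    (h.mono fun γ hγ => ?_) ?_)
  · simp only [Pol, B_sub_left, B_sub_right] at hγ ⊢
    linarith
  · rw [B_sub_right, B_toQ, B_toQ, B_comm ℓ, B_comm ℓ, sub_nonpos]
    exact_mod_cast h0

theorem Pol_unique {r r' : ℕ} {c c' : Deg} {s s' : ℚ}
    (h : ∀ᶠ γ in deep, Pol n r c s γ = Pol n r' c' s' γ) : r = r' ∧ Bv c = Bv c' ∧ s = s' := by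
  have h1 := h.mono fun γ e => e.le
  have h2 := h.mono fun γ e => e.ge
  obtain rfl : r = r' := le_antisymm (Pol_le_rank h1) (Pol_le_rank h2)
  have h3 := comb3_cls ample_one h1 (Pol_le_deg h2 ample_one.nef)
  exact ⟨rfl, h3, le_antisymm (Pol_le_const h3 h1) (Pol_le_const h3.symm h2)⟩

/-- Ranks: quadratic terms along the ray (`B_pos_of_ample`); then linear terms give `B ℓ (c' - c) = 0`, and
`Bv_eq_zero_of_deep`. -/
theorem Pol_unique_ray {r r' : ℕ} {c c' : Deg} {s s' : ℚ} {ℓ : Deg} (hℓ : Ample ℓ)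
    (h : ∀ᶠ γ in deep, Pol n r c s γ ≤ Pol n r' c' s' γ)
    (h' : ∀ᶠ m : ℤ in atTop, Pol n r c s (m • ℓ) = Pol n r' c' s' (m • ℓ)) :
    r = r' ∧ Bv c = Bv c' ∧ s = s' := by
  have h1 : ∀ᶠ m : ℤ in atTop, Pol n r c s (0 + m • ℓ) = Pol n r' c' s' (0 + m • ℓ) := by
    simpa only [zero_add] using h'
  have h2 : 0 ≤ (r : ℚ) * qq (toQ ℓ) - r' * qq (toQ ℓ) := by
    refine comb3_quad (a := Pol n r c s 0 - Pol n r' c' s' 0)
      (b := (r * B (toQ 0 - kap2 n) (toQ ℓ) + (B ℓ c : ℤ)) -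
        (r' * B (toQ 0 - kap2 n) (toQ ℓ) + (B ℓ c' : ℤ))) (h1.mono fun t ht => ?_)
    rw [Pol_ray, Pol_ray] at ht
    linarith
  have h3 : 0 < qq (toQ ℓ) := by
    have : (0 : ℚ) < (B ℓ ℓ : ℤ) := by exact_mod_cast B_pos_of_ample hℓ hℓ
    rw [comb3_qq_toQ]
    linarith
  have h4 : (r' : ℚ) ≤ r := le_of_mul_le_mul_right (sub_nonneg.1 h2) h3
  obtain rfl : r = r' := le_antisymm (Pol_le_rank h) (by exact_mod_cast h4)
  have h5 : 0 ≤ ((B ℓ c : ℤ) : ℚ) - (B ℓ c' : ℤ) := by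
    refine comb3_lin (a := Pol n r c s 0 - Pol n r c' s' 0) (h1.mono fun t ht => ?_)
    rw [Pol_ray, Pol_ray] at ht
    linarith
  have h6 : Bv c = Bv c' := by
    refine comb3_cls hℓ h ?_
    rw [B_comm c, B_comm c']
    exact_mod_cast sub_nonneg.1 h5
  refine ⟨rfl, h6, ?_⟩
  obtain ⟨m, hm⟩ := h'.exists
  rw [Pol_congr r h6] at hm
  simp only [Pol] at hm
  linarith

/-- The numerical class of the dualising family.  `hlow`: expand both sides, `Pol n 1 0 0 (-β - 3h) = qq (β + 3h + κ/2) - σ`,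
so `B β y` is bounded below for `y = c - 3h - 2 kap2`; `hup`: the left side is `t² B h h + t (B h c - kap n h) + const`, so
`B h y ≤ 0`.  Then `Bv_eq_zero_of_deep`. -/
theorem dual_class {c h : Deg} {s C : ℚ} (hh : Ample h)
    (hlow : ∀ᶠ β in deep, Pol n 1 0 0 (-β - (3 : ℤ) • h) ≤ Pol n 1 c s β)
    (hup : ∀ᶠ t : ℤ in atTop, Pol n 1 c s (t • h) + Pol n 1 0 0 (t • h) ≤
      (B h h : ℤ) * ((t : ℚ) ^ 2 + 3 * t) + C) (H : Deg) :
    ((B c H : ℤ) : ℚ) = kap n H + 3 * (B h H : ℤ) := by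
  have key : Bv (toQ c - (3 : ℚ) • toQ h - (2 : ℚ) • kap2 n) = 0 := by
    refine Bv_eq_zero_of_deep hh
      (C := qq ((3 : ℚ) • toQ h + kap2 n) - qq (kap2 n) + B (kap2 n) (toQ c) - s)
      (hlow.mono fun β hβ => ?_) ?_
    · have e1 : toQ (-β - (3 : ℤ) • h) - kap2 n = -(toQ β + ((3 : ℚ) • toQ h + kap2 n)) := by
        rw [toQ_sub, toQ_neg, toQ_smul]
        push_cast
        abel
      simp only [Pol] at hβ
      rw [e1, comb3_qq_neg, comb3_qq_add, toQ_zero, B_zero_right, sub_eq_add_neg (toQ β),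
        comb3_qq_add (toQ β), comb3_qq_neg] at hβ
      simp only [B_add_left, B_add_right, B_sub_right, B_neg_left, B_neg_right, B_smul_right,
        Nat.cast_one] at hβ ⊢
      linarith
    · have h1 : 0 ≤ 3 * ((B h h : ℤ) : ℚ) - (2 * B (toQ 0 - kap2 n) (toQ h) + (B h c : ℤ)) := by
        refine comb3_lin (a := C - Pol n 1 c s 0 - Pol n 1 0 0 0) (hup.mono fun t ht => ?_)
        rw [← zero_add (t • h), Pol_ray, Pol_ray, comb3_qq_toQ, B_zero_right] at ht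
        push_cast at ht
        linarith
      rw [toQ_zero, zero_sub, B_neg_left, B_comm (kap2 n)] at h1
      simp only [B_sub_right, B_smul_right, B_toQ]
      linarith
  have h2 := B_congr_right (key.trans Bv_zero.symm) (toQ H)
  simp only [B_sub_right, B_smul_right, B_toQ, B_zero_right] at h2
  rw [kap, B_comm c, B_comm h, B_comm (kap2 n)]
  linarith

end Crest.Agent.R169
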