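import Crest.Agent.R169.Data1
import Crest.Agent.R169.Val4

/-!
# rid 169, file `Data`: Riemann–Roch data and degrees

Prefix helper lemmas with `data_`.
-/

set_option autoImplicit false

namespace Crest.Agent.R169

open Filter Module

namespace Fam

variable {k : Type} [Field k] {n : ℕ} [NeZero n]
  {V : Type} [AddCommGroup V] [Module (KK k) V] [Module k V] [IsScalarTower k (KK k) V]
  {V' : Type} [AddCommGroup V'] [Module (KK k) V'] [Module k V'] [IsScalarTower k (KK k) V']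
  {N : Fam k n V}

theorem data_cube_pos : (0 : ℚ) < (n : ℚ) ^ 3 :=
  pow_pos (Nat.cast_pos.2 (Nat.pos_of_ne_zero (NeZero.ne n))) 3

theorem HasData.unique {r r' : ℕ} {c c' : Deg} {s s' : ℚ} (h : N.HasData r c s) (h' : N.HasData r' c' s') :
    r = r' ∧ Bv c = Bv c' ∧ s = s' := by
  refine Pol_unique (n := n) ?_
  filter_upwards [h, h'] with γ h1 h2
  exact mul_left_cancel₀ (data_cube_pos (n := n)).ne' (h1.symm.trans h2)

omit [NeZero n] in
theorem HasData.congr {r : ℕ} {c c' : Deg} {s : ℚ} (h : N.HasData r c s) (hc : Bv c = Bv c') :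
    N.HasData r c' s := by
  unfold HasData at h ⊢
  rwa [← Pol_congr r hc s]

omit [NeZero n] in
theorem hasData_bot : (⊥ : Fam k n V).HasData 0 0 0 := by
  refine Eventually.of_forall fun γ => ?_
  rw [cdim_bot, Pol_zero, mul_zero, Nat.cast_zero]

omit [NeZero n] in
theorem HasData.shift {r : ℕ} {c : Deg} {s : ℚ} (h : N.HasData r c s) (α : Deg) :
    (N.shift α).HasData r (c + (r : ℤ) • α) (s + r * qq (toQ α) + (B α c : ℤ)) := by
  filter_upwards [(tendsto_add_deep α).eventually h] with γ hγ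
  rw [cdim_shift, hγ, Pol_shift]

theorem HasData.add (hN : N.FG) (ψ : V →ₗ[KK k] V') {r r' : ℕ} {c c' : Deg} {s s' : ℚ}
    (h : (N.infW (LinearMap.ker ψ)).HasData r c s) (h' : (N.map ψ).HasData r' c' s') :
    N.HasData (r + r') (c + c') (s + s') := by
  filter_upwards [h, h'] with γ h1 h2
  rw [cdim_map_add hN ψ γ, Nat.cast_add, h1, h2, Pol_add, mul_add]

theorem HasData.map_iff (hN : N.FG) {ψ : V →ₗ[KK k] V'} (hψ : N.span ⊓ LinearMap.ker ψ = ⊥)
    {r : ℕ} {c : Deg} {s : ℚ} : (N.map ψ).HasData r c s ↔ N.HasData r c s := by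
  have h0 : N.infW (LinearMap.ker ψ) = ⊥ := by
    refine le_bot_iff.1 fun γ v hv => ?_
    have h1 : v ∈ N.span ⊓ LinearMap.ker ψ := ⟨mem_span_of_mem (mem_infW.1 hv).1, (mem_infW.1 hv).2⟩
    rw [hψ] at h1
    exact h1
  have h1 : ∀ γ, (N.map ψ).cdim γ = N.cdim γ := fun γ => by
    rw [cdim_map_add hN ψ γ, h0, cdim_bot, zero_add]
  unfold HasData
  simp only [h1]

/-- A nonzero finitely generated family in `K` has data of rank one, with the lower bound for its Frobenius power. -/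
theorem data_rank_one {I : Fam k n (KK k)} (hI : I.FG) (h0 : I ≠ ⊥) (p : ℕ) [ExpChar k p] :
    ∃ (α : Deg) (s : ℚ), I.HasData 1 α s ∧
      ∀ᶠ γ in deep, (n : ℚ) ^ 3 * Pol n 1 ((p : ℤ) • α) ((p : ℚ) ^ 2 * s) γ ≤ (frobK p I).cdim γ := by
  obtain ⟨𝒱⟩ := exists_valSys k n
  obtain ⟨g, α, ht⟩ := hI.exists_tight 𝒱 h0
  obtain ⟨s, hs⟩ := ht.data p
  exact ⟨α, s, hs⟩

omit [NeZero n] in
theorem data_map_ne_bot {ψ : V →ₗ[KK k] V'} {γ : Deg} {v : V} (hv : v ∈ N.sub γ) (h : ψ v ≠ 0) :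
    N.map ψ ≠ ⊥ := by
  intro h0
  have h1 : ψ v ∈ (N.map ψ).sub γ := mem_map.2 ⟨v, hv, rfl⟩
  rw [h0] at h1
  exact h h1

omit [NeZero n] in
theorem data_exists_ne_zero (h : N ≠ ⊥) : ∃ γ, ∃ v ∈ N.sub γ, v ≠ 0 := by
  by_contra hc
  push Not at hc
  exact h (le_bot_iff.1 fun γ v hv => hc γ v hv)

variable [FiniteDimensional (KK k) V]

/-- Induction on `N.rk` (generalising `N`).  If `N ≠ ⊥` pick a linear form `ψ : V → K` not vanishing on `N.span`; `N.map ψ` has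
rank one and data by `exists_valSys`, `FG.exists_tight`, `Tight.data` (with `p = ringExpChar k`); `rk_map_add`, `HasData.add`. -/
theorem FG.exists_data (hN : N.FG) : ∃ c s, N.HasData N.rk c s := by
  induction hr : N.rk generalizing N with
  | zero =>
    rw [rk_eq_zero_iff.1 hr]
    exact ⟨0, 0, hasData_bot⟩
  | succ r ih =>
    have h0 : N ≠ ⊥ := by
      rintro rfl
      rw [rk_bot] at hr
      omega
    obtain ⟨γ, v, hv, hv0⟩ := data_exists_ne_zero h0
    obtain ⟨ψ, hψ⟩ : ∃ ψ : V →ₗ[KK k] KK k, ψ v ≠ 0 := by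
      by_contra hc
      push Not at hc
      exact hv0 ((Module.forall_dual_apply_eq_zero_iff (KK k) v).1 hc)
    have h1 := data_map_ne_bot hv hψ
    obtain ⟨q, hq⟩ := ExpChar.exists k
    obtain ⟨α, s, hs, -⟩ := data_rank_one (hN.map ψ) h1 q
    have h2 := rk_map_add ψ N
    rw [rk_eq_one h1, hr] at h2
    obtain ⟨c', s', h'⟩ := ih (hN.infW (LinearMap.ker ψ)) (by omega)
    exact ⟨c' + α, s' + s, HasData.add hN ψ h' hs⟩

theorem FG.hasData_cls (hN : N.FG) : ∃ s, N.HasData N.rk N.cls s :=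
  Classical.epsilon_spec (p := fun c => ∃ s, N.HasData N.rk c s) hN.exists_data

theorem HasData.rk_eq (hN : N.FG) {r : ℕ} {c : Deg} {s : ℚ} (h : N.HasData r c s) : N.rk = r := by
  obtain ⟨s', h'⟩ := hN.hasData_cls
  exact (h'.unique h).1

theorem HasData.deg_eq (hN : N.FG) {r : ℕ} {c : Deg} {s : ℚ} (h : N.HasData r c s) (H : Deg) :
    deg H N = B c H := by
  obtain ⟨s', h'⟩ := hN.hasData_cls
  exact B_congr_left (h'.unique h).2.1 H

theorem deg_bot (H : Deg) : deg H (⊥ : Fam k n V) = 0 := by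
  rw [HasData.deg_eq fg_bot hasData_bot H, B_zero_left]

theorem deg_map_add [FiniteDimensional (KK k) V'] (hN : N.FG) (ψ : V →ₗ[KK k] V') (H : Deg) :
    deg H N = deg H (N.infW (LinearMap.ker ψ)) + deg H (N.map ψ) := by
  obtain ⟨s, h⟩ := (hN.infW (LinearMap.ker ψ)).hasData_cls
  obtain ⟨s', h'⟩ := (hN.map ψ).hasData_cls
  rw [HasData.deg_eq hN (HasData.add hN ψ h h') H, B_add_left]
  rfl

theorem deg_shift (hN : N.FG) (α H : Deg) : deg H (N.shift α) = deg H N + N.rk * B α H := by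
  obtain ⟨s, h⟩ := hN.hasData_cls
  rw [HasData.deg_eq (hN.shift α) (h.shift α) H, B_add_left, B_smul_left]
  rfl

omit [FiniteDimensional (KK k) V] in
theorem data_pol_le {A A' : Fam k n V} (hA : A'.FG) (h : A ≤ A') {r r' : ℕ} {c c' : Deg} {s s' : ℚ}
    (h1 : A.HasData r c s) (h2 : A'.HasData r' c' s') :
    ∀ᶠ γ in deep, Pol n r c s γ ≤ Pol n r' c' s' γ := by
  filter_upwards [h1, h2] with γ e1 e2
  refine le_of_mul_le_mul_left ?_ (data_cube_pos (n := n))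
  rw [← e1, ← e2]
  exact_mod_cast cdim_mono hA h γ

/-- `cdim_mono`, `Pol_le_deg`. -/
theorem deg_mono {A A' : Fam k n V} (hA : A'.FG) (h : A ≤ A') (hr : A.rk = A'.rk) {H : Deg} (hH : Nef H) :
    deg H A ≤ deg H A' := by
  obtain ⟨s, h1⟩ := (hA.of_le h).hasData_cls
  obtain ⟨s', h2⟩ := hA.hasData_cls
  rw [hr] at h1
  exact Pol_le_deg (data_pol_le hA h h1 h2) hH

theorem Tight.deg_eq {𝒱 : ValSys k n} {I : Fam k n (KK k)} (hI : I.FG) {g : KK k} {α : Deg}
    (h : Tight 𝒱 I g α) (H : Deg) : deg H I = B α H := by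
  obtain ⟨q, hq⟩ := ExpChar.exists k
  obtain ⟨s, hs, -⟩ := h.data q
  exact HasData.deg_eq hI hs H

/-- `gen {(δ, v)}` is the image of `gen {(δ, 1)}` under `toSpanSingleton`; `tight_gen_singleton`. -/
theorem deg_gen_singleton (δ : Deg) {v : V} (hv : v ≠ 0) (H : Deg) :
    (gen n {(δ, v)} : Fam k n V).rk = 1 ∧ deg H (gen n {(δ, v)} : Fam k n V) = -B δ H := by
  obtain ⟨q, hq⟩ := ExpChar.exists k
  obtain ⟨𝒱⟩ := exists_valSys k n
  obtain ⟨s, hs, -⟩ := (tight_gen_singleton 𝒱 δ (one_ne_zero (α := KK k))).data q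
  have he : (gen n {(δ, v)} : Fam k n V) =
      (gen n {(δ, (1 : KK k))} : Fam k n (KK k)).map (LinearMap.toSpanSingleton (KK k) V v) := by
    rw [map_gen, Set.image_singleton, LinearMap.toSpanSingleton_apply, one_smul]
  have hd : (gen n {(δ, v)} : Fam k n V).HasData 1 (-δ) s := by
    rw [he]
    refine (HasData.map_iff (fg_gen (Set.finite_singleton _)) ?_).2 hs
    rw [LinearMap.ker_toSpanSingleton (KK k) hv, inf_bot_eq]
  have hfg : (gen n {(δ, v)} : Fam k n V).FG := fg_gen (Set.finite_singleton _)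
  exact ⟨HasData.rk_eq hfg hd, by rw [HasData.deg_eq hfg hd H, B_neg_left]⟩

/-- Two families that agree in the degrees `m • ℓ + rel ρ` have the same data (`Pol_unique_ray`). -/
theorem hasData_iff_of_ray {A A' : Fam k n V} (hA : A'.FG) (h : A ≤ A') {ℓ : Deg} (hℓ : Ample ℓ)
    (he : ∀ (m : ℤ) (ρ : Fin 5 → ℤ), A'.sub (m • ℓ + rel ρ) ≤ A.sub (m • ℓ + rel ρ))
    {r : ℕ} {c : Deg} {s : ℚ} : A.HasData r c s ↔ A'.HasData r c s := by
  obtain ⟨s1, h1⟩ := (hA.of_le h).hasData_cls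
  obtain ⟨s2, h2⟩ := hA.hasData_cls
  have hray : ∀ᶠ m : ℤ in atTop, Pol n A.rk A.cls s1 (m • ℓ) = Pol n A'.rk A'.cls s2 (m • ℓ) := by
    filter_upwards [(tendsto_smul_deep hℓ).eventually h1, (tendsto_smul_deep hℓ).eventually h2] with m e1 e2
    refine mul_left_cancel₀ (data_cube_pos (n := n)).ne' ?_
    rw [← e1, ← e2]
    congr 1
    refine Finset.sum_congr rfl fun c _ => ?_
    unfold dim
    rw [le_antisymm (h (m • ℓ + rel (chr c))) (he m (chr c))]
  obtain ⟨er, ec, es⟩ := Pol_unique_ray hℓ (data_pol_le hA h h1 h2) hray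
  constructor
  · intro h3
    obtain ⟨a1, a2, a3⟩ := h1.unique h3
    rw [← a1, ← a3, er, es]
    exact h2.congr (ec.symm.trans a2)
  · intro h3
    obtain ⟨a1, a2, a3⟩ := h2.unique h3
    rw [← a1, ← a3, ← er, ← es]
    exact h1.congr (ec.trans a2)

theorem deg_eq_of_ray {A A' : Fam k n V} (hA : A'.FG) (h : A ≤ A') {ℓ : Deg} (hℓ : Ample ℓ)
    (he : ∀ (m : ℤ) (ρ : Fin 5 → ℤ), A'.sub (m • ℓ + rel ρ) ≤ A.sub (m • ℓ + rel ρ)) (H : Deg) :
    A.rk = A'.rk ∧ deg H A = deg H A' := by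
  obtain ⟨s, h2⟩ := hA.hasData_cls
  have h1 := (hasData_iff_of_ray hA h hℓ he).2 h2
  exact ⟨HasData.rk_eq (hA.of_le h) h1, HasData.deg_eq (hA.of_le h) h1 H⟩

omit [NeZero n] in
theorem data_frobK_map_le {ι : Type} (N : Fam k n (ι → KK k)) (p : ℕ) (i : ι) :
    frobK p (N.map (LinearMap.proj i : (ι → KK k) →ₗ[KK k] KK k)) ≤
      (frobV p N).map (LinearMap.proj i : (ι → KK k) →ₗ[KK k] KK k) := by
  unfold frobK
  rw [frob, gen_le_iff]
  intro q hq
  obtain ⟨δ, f, hf, hq⟩ := hq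
  obtain ⟨v, hv, hf⟩ := mem_map.1 hf
  have h1 : (fun j => v j ^ p) ∈ (frobV p N).sub ((p : ℤ) • δ) :=
    mem_frob p (fun (v : ι → KK k) j => v j ^ p) hv
  rw [hq, ← hf]
  exact mem_map.2 ⟨_, h1, rfl⟩

omit [NeZero n] in
theorem data_frobV_infW_le {ι : Type} (N : Fam k n (ι → KK k)) {p : ℕ} (hp : p ≠ 0) (i : ι) :
    frobV p (N.infW (LinearMap.ker (LinearMap.proj i : (ι → KK k) →ₗ[KK k] KK k))) ≤
      (frobV p N).infW (LinearMap.ker (LinearMap.proj i : (ι → KK k) →ₗ[KK k] KK k)) := by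
  rw [frobV, frob, gen_le_iff]
  intro q hq
  obtain ⟨δ, v, hv, hq⟩ := hq
  obtain ⟨hv, h0⟩ := mem_infW.1 hv
  have h1 : (fun j => v j ^ p) ∈ (frobV p N).sub ((p : ℤ) • δ) :=
    mem_frob p (fun (v : ι → KK k) j => v j ^ p) hv
  rw [LinearMap.mem_ker, LinearMap.proj_apply] at h0
  rw [hq]
  refine mem_infW.2 ⟨h1, ?_⟩
  rw [LinearMap.mem_ker, LinearMap.proj_apply]
  simp only [h0, zero_pow hp]

/-- Induction on `N.rk`.  If `N ≠ ⊥` pick a coordinate `i` not vanishing on `N`, `ψ = LinearMap.proj i`.  Then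
`(frobV p N).map ψ = frobK p (N.map ψ)` and `frobV p (N.infW (ker ψ)) ≤ (frobV p N).infW (ker ψ)` (`p > 0`); `cdim_map_add`,
`cdim_mono`, `Tight.data`, `Pol_add`, and uniqueness of data (`Pol_congr`, `Bv_smul`). -/
theorem HasData.frobV_lower {ι : Type} [Fintype ι] {N : Fam k n (ι → KK k)} (hN : N.FG) (p : ℕ) [ExpChar k p]
    {r : ℕ} {c : Deg} {s : ℚ} (h : N.HasData r c s) :
    ∀ᶠ γ in deep, (n : ℚ) ^ 3 * Pol n r ((p : ℤ) • c) ((p : ℚ) ^ 2 * s) γ ≤ (frobV p N).cdim γ := by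
  induction r generalizing N c s with
  | zero =>
    have h0 : N = ⊥ := rk_eq_zero_iff.1 (HasData.rk_eq hN h)
    subst h0
    obtain ⟨-, hc, hs⟩ := h.unique hasData_bot
    refine Eventually.of_forall fun γ => ?_
    have hc' : Bv ((p : ℤ) • c) = Bv (0 : Deg) := by
      rw [Bv_smul, hc, ← Bv_smul, smul_zero]
    rw [Pol_congr 0 hc', hs, mul_zero, Pol_zero, mul_zero]
    exact Nat.cast_nonneg _
  | succ r ih =>
    have hr := HasData.rk_eq hN h
    have h0 : N ≠ ⊥ := by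
      rintro rfl
      rw [rk_bot] at hr
      omega
    obtain ⟨γ0, v, hv, hv0⟩ := data_exists_ne_zero h0
    obtain ⟨i, hi⟩ : ∃ i, v i ≠ 0 := Function.ne_iff.1 hv0
    set ψ : (ι → KK k) →ₗ[KK k] KK k := LinearMap.proj i with hψ
    have h1 : N.map ψ ≠ ⊥ := data_map_ne_bot hv hi
    obtain ⟨α, s1, hs1, hl1⟩ := data_rank_one (hN.map ψ) h1 p
    have h2 := rk_map_add ψ N
    rw [rk_eq_one h1, hr] at h2
    obtain ⟨c', s', h'⟩ := (hN.infW (LinearMap.ker ψ)).exists_data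
    rw [show (N.infW (LinearMap.ker ψ)).rk = r by omega] at h'
    obtain ⟨-, hc, hs⟩ := h.unique (HasData.add hN ψ h' hs1)
    have hc' : Bv ((p : ℤ) • c) = Bv ((p : ℤ) • c' + (p : ℤ) • α) := by
      rw [Bv_smul, hc, ← Bv_smul, smul_add]
    have hF := hN.frobV p
    filter_upwards [ih (hN.infW (LinearMap.ker ψ)) h', hl1] with γ e1 e2
    rw [Pol_congr (r + 1) hc', hs, mul_add ((p : ℚ) ^ 2), Pol_add, mul_add, cdim_map_add hF ψ γ, Nat.cast_add]
    refine add_le_add (e1.trans ?_) (e2.trans ?_)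
    · exact_mod_cast cdim_mono (hF.infW _) (data_frobV_infW_le N (expChar_ne_zero k p) i) γ
    · exact_mod_cast cdim_mono (hF.map ψ) (data_frobK_map_le N p i) γ

end Fam

end Crest.Agent.R169
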