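import Crest.Agent.R169.Point2

/-!
# rid 169, file `Data1`: Riemann–Roch data in rank one

Prefix helper lemmas with `data1_`.
-/

set_option autoImplicit false

namespace Crest.Agent.R169

open Filter Module

namespace Fam

variable {k : Type} [Field k] {n : ℕ} [NeZero n] {𝒱 : ValSys k n} {I : Fam k n (KK k)}
  (p : ℕ) [ExpChar k p]

/-- Dévissage from `I` to `SF` with
`Q X := ∃ s, (∀ᶠ γ, cdim X γ = cdim I γ + n³ s) ∧ ∀ᶠ γ, cdim (frobK p X) γ ≤ cdim (frobK p I) γ + n³ p² s`.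
Step: the prime `X.colon δ w` contains `I` (as `w ∈ S δ`), so is bounded (`bounded_of_tight`) and `point_data` applies;
`cdim_sup_gen` for `X` and for `frobK p X` (`frobK_sup_gen`, `frobK_colon_le`, `cdim_mono`, `tendsto_sub_deep`); `frobK_SF`. -/
theorem Tight.colength (h : Tight 𝒱 I 1 0) :
    ∃ s : ℚ, (∀ᶠ γ in deep, ((SF k n).cdim γ : ℚ) = I.cdim γ + (n : ℚ) ^ 3 * s) ∧
      ∀ᶠ γ in deep, ((SF k n).cdim γ : ℚ) ≤ (frobK p I).cdim γ + (n : ℚ) ^ 3 * ((p : ℚ) ^ 2 * s) := by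
  have hle : I ≤ SF k n := fun δ f hf => by
    have := h.within δ f hf
    rwa [div_one, zero_add] at this
  have key := devissage (N := SF k n) (N' := I) fg_SF hle
    (fun X => ∃ s : ℚ, (∀ᶠ γ in deep, (X.cdim γ : ℚ) = I.cdim γ + (n : ℚ) ^ 3 * s) ∧
      ∀ᶠ γ in deep, ((frobK p X).cdim γ : ℚ) ≤
        (frobK p I).cdim γ + (n : ℚ) ^ 3 * ((p : ℚ) ^ 2 * s))
    ⟨0, Eventually.of_forall fun γ => by simp, Eventually.of_forall fun γ => by simp⟩ (by
      rintro X hIX hX ⟨s, h1, h2⟩ δ w hw hP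
      have hIP : I ≤ X.colon δ w := fun γ f hf => by
        refine mem_colon.2 ⟨hle γ hf, ?_⟩
        have := X.smul_mem hw (hIX γ hf)
        rwa [smul_eq_mul, mul_comm, add_comm, ← smul_eq_mul] at this
      obtain ⟨s', h3, h4⟩ := hP.point_data p (hP.bounded_of_tight h hIP)
      have hXfg : X.FG := fg_SF.of_le hX
      refine ⟨s + s', ?_, ?_⟩
      · filter_upwards [h1, (tendsto_sub_deep δ).eventually h3] with γ e1 e2
        have e3 : (((X ⊔ gen n {(δ, w)}).cdim γ : ℚ)) + (X.colon δ w).cdim (γ - δ) =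
            X.cdim γ + (SF k n).cdim (γ - δ) := by exact_mod_cast cdim_sup_gen hXfg δ w γ
        linarith
      · filter_upwards [h2, (tendsto_sub_deep ((p : ℤ) • δ)).eventually h4] with γ e1 e2
        rw [frobK_sup_gen]
        have e3 : ((frobK p X ⊔ gen n {((p : ℤ) • δ, w ^ p)}).cdim γ : ℚ) +
            ((frobK p X).colon ((p : ℤ) • δ) (w ^ p)).cdim (γ - (p : ℤ) • δ) =
            (frobK p X).cdim γ + (SF k n).cdim (γ - (p : ℤ) • δ) := by
          exact_mod_cast cdim_sup_gen (hXfg.frobK p) ((p : ℤ) • δ) (w ^ p) γ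
        have e4 : ((frobK p (X.colon δ w)).cdim (γ - (p : ℤ) • δ) : ℚ) ≤
            ((frobK p X).colon ((p : ℤ) • δ) (w ^ p)).cdim (γ - (p : ℤ) • δ) := by
          exact_mod_cast cdim_mono (fg_colon _ _ _) (frobK_colon_le p X δ w) _
        linarith)
  rwa [frobK_SF] at key

omit [NeZero n] in
theorem data1_cdim (I : Fam k n (KK k)) {g : KK k} (hg : g ≠ 0) (α γ : Deg) :
    ((I.map (LinearMap.mulLeft (KK k) g)).shift (-α)).cdim (γ + α) = I.cdim γ := by
  refine Finset.sum_congr rfl fun c _ => ?_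
  change finrank k ((I.sub (γ + α + rel (chr c) + -α)).map
    ((LinearMap.mulLeft (KK k) g).restrictScalars k)) = finrank k (I.sub (γ + rel (chr c)))
  rw [show γ + α + rel (chr c) + -α = γ + rel (chr c) by abel]
  exact (Submodule.equivMapOfInjective ((LinearMap.mulLeft (KK k) g).restrictScalars k)
    (mul_right_injective₀ hg) _).finrank_eq.symm

omit [NeZero n] [ExpChar k p] in
theorem data1_frob (I : Fam k n (KK k)) (g : KK k) (α : Deg) :
    frobK p ((I.map (LinearMap.mulLeft (KK k) g)).shift (-α)) =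
      ((frobK p I).map (LinearMap.mulLeft (KK k) (g ^ p))).shift (-((p : ℤ) • α)) := by
  simp only [frobK, frob]
  rw [map_gen, shift_gen, Set.image_image]
  congr 1
  ext q
  constructor
  · rintro ⟨δ, _, ⟨u, hu, rfl⟩, rfl⟩
    refine ⟨_, ⟨δ + -α, u, hu, rfl⟩, Prod.ext ?_ ?_⟩
    · simp only [smul_add, smul_neg]
      abel
    · simp [mul_pow]
  · rintro ⟨_, ⟨δ, u, hu, rfl⟩, rfl⟩
    refine ⟨δ + α, g * u, ⟨u, ?_, rfl⟩, Prod.ext ?_ ?_⟩
    · rwa [add_neg_cancel_right]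
    · simp only [smul_add]
      abel
    · simp [mul_pow]

/-- Apply `colength` to `I' = (I.map (mul by g⁻¹)).shift (-α)`, which is `Tight 𝒱 I' 1 0`, has `I'.dim (γ + α) = I.dim γ` and
`(frobK p I').dim (γ + p • α) = (frobK p I).dim γ` (multiplication by `g^p`).  With `hasData_SF` and `Pol_shift`:
`s = qq (toQ α) - s0`. -/
theorem Tight.data {g : KK k} {α : Deg} (h : Tight 𝒱 I g α) :
    ∃ s : ℚ, I.HasData 1 α s ∧
      ∀ᶠ γ in deep, (n : ℚ) ^ 3 * Pol n 1 ((p : ℤ) • α) ((p : ℚ) ^ 2 * s) γ ≤ (frobK p I).cdim γ := by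
  have hg : g⁻¹ ≠ 0 := inv_ne_zero h.ne
  have h' : Tight 𝒱 ((I.map (LinearMap.mulLeft (KK k) g⁻¹)).shift (-α)) 1 0 := by
    refine ⟨one_ne_zero, ?_, fun j => ?_⟩
    · rintro δ _ ⟨u, hu, rfl⟩
      have := h.within _ u hu
      rw [show α + (δ + -α) = 0 + δ by abel, div_eq_inv_mul] at this
      rw [div_one]
      exact this
    · obtain ⟨δ, f, hf, hf0, hw⟩ := h.att j
      refine ⟨α + δ, g⁻¹ * f, ⟨f, ?_, rfl⟩, mul_ne_zero hg hf0, ?_⟩
      · rwa [show α + δ + -α = δ by abel]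
      · rwa [zero_add, div_one, ← div_eq_inv_mul]
  obtain ⟨s, h1, h2⟩ := h'.colength p
  have hS : ∀ β : Deg, ∀ᶠ γ in deep, ((SF k n).cdim (γ + β) : ℚ) =
      (n : ℚ) ^ 3 * (Pol n 1 β 0 γ + qq (toQ β)) := by
    intro β
    filter_upwards [(tendsto_add_deep β).eventually (hasData_SF (k := k) (n := n))] with γ e
    rw [e, Pol_shift, ← Pol_const]
    simp [B_zero_right]
  refine ⟨qq (toQ α) - s, ?_, ?_⟩
  · filter_upwards [hS α, (tendsto_add_deep α).eventually h1] with γ e1 e2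
    rw [data1_cdim I hg] at e2
    have e3 := Pol_const (n := n) 1 α 0 (qq (toQ α) - s) γ
    rw [zero_add] at e3
    rw [e3]
    linarith
  · filter_upwards [hS ((p : ℤ) • α), (tendsto_add_deep ((p : ℤ) • α)).eventually h2] with γ e1 e2
    rw [data1_frob, data1_cdim _ (pow_ne_zero _ hg)] at e2
    have e3 := Pol_const (n := n) 1 ((p : ℤ) • α) 0 ((p : ℚ) ^ 2 * (qq (toQ α) - s)) γ
    rw [zero_add] at e3
    have e4 : qq (toQ ((p : ℤ) • α)) = (p : ℚ) ^ 2 * qq (toQ α) := by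
      rw [toQ_smul, qq, qq, B_smul_left, B_smul_right]
      push_cast
      ring
    rw [e3]
    rw [e4] at e1
    linarith

end Fam

end Crest.Agent.R169
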