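import Crest.Agent.R169.Lin

/-!
# rid 169, file `Defs`: the definitions

Geometry behind the names.  `Y` is the quintic del Pezzo surface, `K = k(s,t)` its function field, `E_0..E_9` its ten
lines (dual graph: the Petersen graph `nb`).  A degree `γ : Deg` is the divisor `∑ γ_e E_e / n` on the `n`-th root
stack of `Y` along the lines; `S γ ⊆ K` is its space of sections, spanned by monomials in the five linear forms
`s, t, s-1, t-1, t-s`; `rel ρ` is the divisor of the monomial `mono ρ` on `Y`.  A family (`Fam`) is a torsion-free graded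
module over the multigraded ring `⊕ S γ`, realised inside a `K`-vector space.  `cdim` sums the dimensions over the `n^5`
characters (sections on the Kummer cover).  `HasData N r c s` is Riemann–Roch: rank `r`, first Chern class `c`,
second Chern character `s`.
Labels of the lines as pairs in `{1..5}`: `0=14, 1=15, 2=34, 3=35, 4=45, 5=23, 6=12, 7=24, 8=25, 9=13`; two lines meet iff
the pairs are disjoint.
-/

set_option autoImplicit false

namespace Crest.Agent.R169

open Filter Module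

noncomputable section

/-! ### Numerical part -/

abbrev Deg : Type := Fin 10 → ℤ

/-- The three neighbours of a line. -/
def nb : Fin 10 → Fin 3 → Fin 10 :=
  ![![5,8,3], ![5,7,2], ![6,1,8], ![6,0,7], ![6,9,5], ![0,1,4], ![2,3,4], ![9,1,3], ![9,0,2], ![7,8,4]]

def Adj (e e' : Fin 10) : Prop := ∃ i, nb e i = e'

instance : DecidableRel Adj := fun e e' => inferInstanceAs (Decidable (∃ i, nb e i = e'))

/-- Intersection number of `y` with the line `e`. -/
def Bv {R : Type} [CommRing R] (y : Fin 10 → R) (e : Fin 10) : R :=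
  y (nb e 0) + y (nb e 1) + y (nb e 2) - y e

/-- The intersection form. -/
def B {R : Type} [CommRing R] (x y : Fin 10 → R) : R := ∑ e, x e * Bv y e

/-- Divisor of the monomial with exponent `ρ`. -/
def rel {R : Type} [CommRing R] (ρ : Fin 5 → R) : Fin 10 → R :=
  ![ρ 0, ρ 1, ρ 2, ρ 3, ρ 4, ρ 0 + ρ 1 + ρ 4, ρ 2 + ρ 3 + ρ 4, -(ρ 0 + ρ 2 + ρ 4), -(ρ 1 + ρ 3 + ρ 4),
    -(ρ 0 + ρ 1 + ρ 2 + ρ 3 + ρ 4)]

theorem rel_add {R : Type} [CommRing R] (ρ ρ' : Fin 5 → R) : rel (ρ + ρ') = rel ρ + rel ρ' := by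
  funext e; fin_cases e <;> simp [rel] <;> ring

theorem rel_zero {R : Type} [CommRing R] : rel (0 : Fin 5 → R) = 0 := by
  funext e; fin_cases e <;> simp [rel]

def toQ (γ : Deg) : Fin 10 → ℚ := fun e => (γ e : ℚ)

def qq (y : Fin 10 → ℚ) : ℚ := B y y / 2

/-- Half the canonical class of the root stack. -/
def kap2 (n : ℕ) : Fin 10 → ℚ := fun _ => ((n : ℚ) - 2) / 4

def sig (n : ℕ) : ℚ := ((n : ℚ) ^ 2 - 10) / 24

/-- Degree of the canonical class. -/
def kap (n : ℕ) (H : Deg) : ℚ := 2 * B (kap2 n) (toQ H)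

/-- The Riemann–Roch polynomial. -/
def Pol (n r : ℕ) (c : Deg) (s : ℚ) (γ : Deg) : ℚ :=
  r * (qq (toQ γ - kap2 n) - sig n) + B (toQ γ - kap2 n) (toQ c) + s

def Nef (H : Deg) : Prop := ∀ e, 0 ≤ Bv H e

def Ample (H : Deg) : Prop := ∀ e, 1 ≤ Bv H e

/-- The filter of degrees that are very positive on all ten lines. -/
def deep : Filter Deg := Filter.comap (fun γ : Deg => Bv γ) atTop

/-- The lift of a character. -/
def chr {n : ℕ} (c : Fin 5 → Fin n) : Fin 5 → ℤ := fun i => ((c i : ℕ) : ℤ)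

/-! ### The multigraded ring -/

abbrev Pl (k : Type) [Field k] : Type := MvPolynomial (Fin 2) k

abbrev KK (k : Type) [Field k] : Type := FractionRing (Pl k)

/-- The five linear forms, over any ring. -/
def ppP (A : Type) [CommRing A] : Fin 5 → MvPolynomial (Fin 2) A :=
  ![MvPolynomial.X 0, MvPolynomial.X 1, MvPolynomial.X 0 - 1, MvPolynomial.X 1 - 1,
    MvPolynomial.X 1 - MvPolynomial.X 0]

/-- Polynomial monomials in the five forms. -/
def pm (A : Type) [CommRing A] (a : Fin 5 → ℕ) : MvPolynomial (Fin 2) A :=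
  ∏ i, ppP A i ^ a i

section
variable (k : Type) [Field k]

def pp (i : Fin 5) : KK k := algebraMap (Pl k) (KK k) (ppP k i)

def mono (ρ : Fin 5 → ℤ) : KK k := ∏ i, pp k i ^ ρ i

theorem ppP_ne_zero (i : Fin 5) : ppP k i ≠ 0 := by
  intro h
  fin_cases i
  · exact MvPolynomial.X_ne_zero (0 : Fin 2) h
  · exact MvPolynomial.X_ne_zero (1 : Fin 2) h
  · simpa [ppP] using congrArg (MvPolynomial.eval (fun _ => (0 : k))) h
  · simpa [ppP] using congrArg (MvPolynomial.eval (fun _ => (0 : k))) h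
  · simpa [ppP] using congrArg (MvPolynomial.eval ![(0 : k), 1]) h

theorem pp_ne_zero (i : Fin 5) : pp k i ≠ 0 := by
  unfold pp
  exact (map_ne_zero_iff _ (IsFractionRing.injective (Pl k) (KK k))).2 (ppP_ne_zero k i)

theorem mono_add (ρ ρ' : Fin 5 → ℤ) : mono k (ρ + ρ') = mono k ρ * mono k ρ' := by
  unfold mono
  rw [← Finset.prod_mul_distrib]
  exact Finset.prod_congr rfl fun i _ => zpow_add₀ (pp_ne_zero k i) _ _

theorem mono_zero : mono k 0 = 1 := by simp [mono]

theorem mono_ne_zero (ρ : Fin 5 → ℤ) : mono k ρ ≠ 0 :=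
  Finset.prod_ne_zero_iff.2 fun i _ => zpow_ne_zero _ (pp_ne_zero k i)

variable (n : ℕ)

/-- Sections of degree `γ`. -/
def S (γ : Deg) : Submodule k (KK k) :=
  Submodule.span k {f | ∃ ρ : Fin 5 → ℤ, 0 ≤ γ + (n : ℤ) • rel ρ ∧ f = mono k ρ}

variable {k n}

theorem mono_mem_S {γ : Deg} {ρ : Fin 5 → ℤ} (h : 0 ≤ γ + (n : ℤ) • rel ρ) : mono k ρ ∈ S k n γ :=
  Submodule.subset_span ⟨ρ, h, rfl⟩

theorem mul_mem_S {γ δ : Deg} {f g : KK k} (hf : f ∈ S k n γ) (hg : g ∈ S k n δ) :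
    f * g ∈ S k n (γ + δ) := by
  induction hf using Submodule.span_induction with
  | mem f h =>
    obtain ⟨ρ, hρ, rfl⟩ := h
    induction hg using Submodule.span_induction with
    | mem g h =>
      obtain ⟨ρ', hρ', rfl⟩ := h
      rw [← mono_add]
      refine mono_mem_S ?_
      have := add_nonneg hρ hρ'
      rw [rel_add, smul_add]
      rwa [add_add_add_comm] at this
    | zero => simp
    | add a b _ _ ha hb => rw [mul_add]; exact add_mem ha hb
    | smul c a _ ha => rw [mul_smul_comm]; exact Submodule.smul_mem _ c ha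
  | zero => simp
  | add a b _ _ ha hb => rw [add_mul]; exact add_mem ha hb
  | smul c a _ ha => rw [smul_mul_assoc]; exact Submodule.smul_mem _ c ha

theorem one_mem_S {γ : Deg} (h : 0 ≤ γ) : (1 : KK k) ∈ S k n γ := by
  rw [← mono_zero k]
  exact mono_mem_S (by simpa [rel_zero] using h)

end

/-- The prime divisors of the root stack with their valuations. -/
structure ValSys (k : Type) [Field k] (n : ℕ) where
  J : Type
  w : J → Deg → KK k → ℤ
  bd : Fin 10 → J
  bd_inj : Function.Injective bd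
  w_mul : ∀ j γ δ f g, f ≠ 0 → g ≠ 0 → w j (γ + δ) (f * g) = w j γ f + w j δ g
  w_add : ∀ j γ f g, f ≠ 0 → g ≠ 0 → f + g ≠ 0 → min (w j γ f) (w j γ g) ≤ w j γ (f + g)
  w_smul : ∀ j γ (c : k) f, c ≠ 0 → f ≠ 0 → w j γ (c • f) = w j γ f
  mem_S : ∀ γ f, f ≠ 0 → (f ∈ S k n γ ↔ ∀ j, 0 ≤ w j γ f)
  fin : ∀ γ f, f ≠ 0 → {j | w j γ f ≠ 0}.Finite
  unif : ∀ j, ∃ γ f, f ≠ 0 ∧ w j γ f = 1 ∧ ∀ j', j' ≠ j → w j' γ f = 0
  w_bd : ∀ e γ ρ, w (bd e) γ (mono k ρ) = γ e + n * rel ρ e
  w_nbd : ∀ j, j ∉ Set.range bd → ∀ γ ρ, w j γ (mono k ρ) = 0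

/-! ### Families -/

/-- A graded `S`-module inside the `K`-vector space `V`. -/
@[ext] structure Fam (k : Type) [Field k] (n : ℕ) (V : Type) [AddCommGroup V] [Module (KK k) V]
    [Module k V] [IsScalarTower k (KK k) V] where
  sub : Deg → Submodule k V
  smul_mem : ∀ {γ δ : Deg} {f : KK k} {v : V}, f ∈ S k n γ → v ∈ sub δ → f • v ∈ sub (γ + δ)

/-- The ring itself as a family. -/
def SF (k : Type) [Field k] (n : ℕ) : Fam k n (KK k) where
  sub := S k n
  smul_mem := fun hf hv => mul_mem_S hf hv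

namespace Fam

variable {k : Type} [Field k] {n : ℕ}
  {V : Type} [AddCommGroup V] [Module (KK k) V] [Module k V] [IsScalarTower k (KK k) V]
  {V' : Type} [AddCommGroup V'] [Module (KK k) V'] [Module k V'] [IsScalarTower k (KK k) V']

instance : PartialOrder (Fam k n V) := PartialOrder.lift Fam.sub fun _ _ h => Fam.ext h

theorem le_def {A B : Fam k n V} : A ≤ B ↔ ∀ γ, A.sub γ ≤ B.sub γ := Iff.rfl

instance : Lattice (Fam k n V) where
  sup A B :=
    { sub := fun γ => A.sub γ ⊔ B.sub γ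
      smul_mem := fun hf hv => by
        obtain ⟨a, ha, b, hb, rfl⟩ := Submodule.mem_sup.1 hv
        rw [smul_add]
        exact Submodule.add_mem_sup (A.smul_mem hf ha) (B.smul_mem hf hb) }
  le_sup_left _ _ _ := le_sup_left
  le_sup_right _ _ _ := le_sup_right
  sup_le _ _ _ h h' γ := sup_le (h γ) (h' γ)
  inf A B :=
    { sub := fun γ => A.sub γ ⊓ B.sub γ
      smul_mem := fun hf hv => ⟨A.smul_mem hf hv.1, B.smul_mem hf hv.2⟩ }
  inf_le_left _ _ _ := inf_le_left
  inf_le_right _ _ _ := inf_le_right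
  le_inf _ _ _ h h' γ := le_inf (h γ) (h' γ)

instance : OrderBot (Fam k n V) where
  bot :=
    { sub := fun _ => ⊥
      smul_mem := fun _ hv => by rw [(Submodule.mem_bot k).1 hv, smul_zero]; exact zero_mem _ }
  bot_le _ _ := bot_le

@[simp] theorem sup_sub (A B : Fam k n V) (γ : Deg) : (A ⊔ B).sub γ = A.sub γ ⊔ B.sub γ := rfl
@[simp] theorem inf_sub (A B : Fam k n V) (γ : Deg) : (A ⊓ B).sub γ = A.sub γ ⊓ B.sub γ := rfl
@[simp] theorem bot_sub (γ : Deg) : (⊥ : Fam k n V).sub γ = ⊥ := rfl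

variable (n) in
/-- The family generated by a set of (degree, vector) pairs. -/
def gen (G : Set (Deg × V)) : Fam k n V where
  sub γ := Submodule.span k {x | ∃ p ∈ G, ∃ f ∈ S k n (γ - p.1), x = f • p.2}
  smul_mem := by
    intro γ δ f v hf hv
    induction hv using Submodule.span_induction with
    | mem x h =>
      obtain ⟨p, hp, g, hg, rfl⟩ := h
      refine Submodule.subset_span ⟨p, hp, f * g, ?_, by rw [mul_smul]⟩
      have := mul_mem_S hf hg
      rwa [← add_sub_assoc] at this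
    | zero => simp
    | add a b _ _ ha hb => rw [smul_add]; exact add_mem ha hb
    | smul c a _ ha => rw [smul_comm]; exact Submodule.smul_mem _ c ha

def FG (N : Fam k n V) : Prop := ∃ G : Set (Deg × V), G.Finite ∧ N = gen n G

/-- Image under a `K`-linear map. -/
def map (ψ : V →ₗ[KK k] V') (N : Fam k n V) : Fam k n V' where
  sub γ := (N.sub γ).map (ψ.restrictScalars k)
  smul_mem := by
    rintro γ δ f _ hf ⟨v, hv, rfl⟩
    exact ⟨f • v, N.smul_mem hf hv, by simp⟩

/-- Intersection with a `K`-subspace. -/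
def infW (N : Fam k n V) (W : Submodule (KK k) V) : Fam k n V where
  sub γ := N.sub γ ⊓ W.restrictScalars k
  smul_mem := fun hf hv => ⟨N.smul_mem hf hv.1, W.smul_mem _ hv.2⟩

/-- The twist `N(α)`. -/
def shift (α : Deg) (N : Fam k n V) : Fam k n V where
  sub γ := N.sub (γ + α)
  smul_mem := fun hf hv => by rw [add_assoc]; exact N.smul_mem hf hv

def span (N : Fam k n V) : Submodule (KK k) V := Submodule.span (KK k) {v | ∃ γ, v ∈ N.sub γ}

def rk (N : Fam k n V) : ℕ := finrank (KK k) N.span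

def dim (N : Fam k n V) (γ : Deg) : ℕ := finrank k (N.sub γ)

def cdim (N : Fam k n V) (γ : Deg) : ℕ := ∑ c : Fin 5 → Fin n, N.dim (γ + rel (chr c))

/-- The ideal of sections that multiply `w` (of degree `δ`) into `N`. -/
def colon (N : Fam k n V) (δ : Deg) (w : V) : Fam k n (KK k) where
  sub γ := S k n γ ⊓ (N.sub (γ + δ)).comap ((LinearMap.toSpanSingleton (KK k) V w).restrictScalars k)
  smul_mem := by
    intro γ γ' f g hf hg
    refine ⟨mul_mem_S hf hg.1, ?_⟩
    have h2 : g • w ∈ N.sub (γ' + δ) := hg.2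
    change (f • g) • w ∈ N.sub (γ + γ' + δ)
    rw [smul_assoc, add_assoc]
    exact N.smul_mem hf h2

theorem mem_colon {N : Fam k n V} {δ γ : Deg} {w : V} {f : KK k} :
    f ∈ (N.colon δ w).sub γ ↔ f ∈ S k n γ ∧ f • w ∈ N.sub (γ + δ) := Iff.rfl

/-- A homogeneous prime ideal. -/
structure IsPrime (P : Fam k n (KK k)) : Prop where
  le : P ≤ SF k n
  one_not_mem : (1 : KK k) ∉ P.sub 0
  mem_or_mem : ∀ {γ δ : Deg} {f g : KK k}, f ∈ S k n γ → g ∈ S k n δ → f * g ∈ P.sub (γ + δ) →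
    f ∈ P.sub γ ∨ g ∈ P.sub δ

/-- An irrelevant ideal. -/
def Irr (P : Fam k n (KK k)) : Prop := ∀ᶠ γ in deep, P.sub γ = S k n γ

/-- Frobenius pull-back along a map `Φ` of the ambient space. -/
def frob (p : ℕ) (Φ : V → V) (N : Fam k n V) : Fam k n V :=
  gen n {q | ∃ δ, ∃ v ∈ N.sub δ, q = ((p : ℤ) • δ, Φ v)}

/-- Frobenius power of a rank one family. -/
def frobK (p : ℕ) (I : Fam k n (KK k)) : Fam k n (KK k) := frob p (fun f => f ^ p) I

/-- Frobenius pull-back in coordinates. -/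
def frobV {ι : Type} (p : ℕ) (N : Fam k n (ι → KK k)) : Fam k n (ι → KK k) :=
  frob p (fun v i => v i ^ p) N

/-- Localisation at the chart of the node `(e, e')`: the variables of the other eight lines are inverted. -/
def loc (N : Fam k n V) (e e' : Fin 10) (i j : ℤ) : Submodule k V :=
  ⨆ γ : {γ : Deg // γ e = i ∧ γ e' = j}, N.sub γ.1

/-- Riemann–Roch data. -/
def HasData (N : Fam k n V) (r : ℕ) (c : Deg) (s : ℚ) : Prop :=
  ∀ᶠ γ in deep, (N.cdim γ : ℚ) = (n : ℚ) ^ 3 * Pol n r c s γ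

/-- A first Chern class (unique up to numerical equivalence). -/
def cls (N : Fam k n V) : Deg := Classical.epsilon fun c => ∃ s, N.HasData N.rk c s

def deg (H : Deg) (N : Fam k n V) : ℤ := B N.cls H

/-- All subsheaves have slope at most `μ`. -/
def SlopeLE (H : Deg) (N : Fam k n V) (μ : ℚ) : Prop :=
  ∀ W : Submodule (KK k) V, (deg H (N.infW W) : ℚ) ≤ μ * (N.infW W).rk

/-- All torsion-free quotients have slope at least `μ`. -/
def SlopeGE (H : Deg) (N : Fam k n V) (μ : ℚ) : Prop :=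
  ∀ W : Submodule (KK k) V, μ * ((N.rk : ℚ) - (N.infW W).rk) ≤ (deg H N : ℚ) - deg H (N.infW W)

/-- `I ⊆ g • S(α)`. -/
def Within (I : Fam k n (KK k)) (g : KK k) (α : Deg) : Prop :=
  ∀ δ, ∀ f ∈ I.sub δ, f / g ∈ S k n (α + δ)

/-- `g • S(α)` is the reflexive hull of `I`. -/
structure Tight (𝒱 : ValSys k n) (I : Fam k n (KK k)) (g : KK k) (α : Deg) : Prop where
  ne : g ≠ 0
  within : I.Within g α
  att : ∀ j, ∃ δ, ∃ f ∈ I.sub δ, f ≠ 0 ∧ 𝒱.w j (α + δ) (f / g) = 0

/-- The determinant family. -/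
def det {r : ℕ} (N : Fam k n V) (D : V [⋀^Fin r]→ₗ[KK k] KK k) : Fam k n (KK k) :=
  gen n {q | ∃ (δ : Fin r → Deg) (v : Fin r → V), (∀ i, v i ∈ N.sub (δ i)) ∧ q = (∑ i, δ i, D v)}

end Fam

/-- The family generated by polynomial vectors. -/
def genP (k : Type) [Field k] (n : ℕ) {I ι : Type} (δ : I → Deg) (v : I → ι → Pl k) :
    Fam k n (ι → KK k) :=
  Fam.gen n (Set.range fun i => (δ i, fun j => algebraMap (Pl k) (KK k) (v i j)))

/-- A Noether normalisation: three sections of the ample degree `h` without common zero, the first two coprime. -/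
structure NN (k : Type) [Field k] (n : ℕ) (h : Deg) where
  x : Fin 3 → KK k
  ample : Ample h
  mem : ∀ i, x i ∈ S k n h
  ne : ∀ i, x i ≠ 0
  cop : ∀ (γ : Deg) (f : KK k) (m : ℕ), x 0 ^ m * f ∈ S k n (γ + (m : ℤ) • h) →
    x 1 ^ m * f ∈ S k n (γ + (m : ℤ) • h) → f ∈ S k n γ
  irr : ∀ P : Fam k n (KK k), P.IsPrime → (∀ i, x i ∈ P.sub h) → P.Irr

/-- `ω` is the dualising family of the Noether normalisation `ν` (it is `ω_Y(3h)`). -/
structure IsDual {k : Type} [Field k] {n : ℕ} {h : Deg} (ν : NN k n h) (ω : Fam k n (KK k)) : Prop where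
  fg : ω.FG
  ex : ∀ (V : Type) [AddCommGroup V] [Module (KK k) V] [Module k V] [IsScalarTower k (KK k) V]
    (N : Fam k n V), N.FG → ∀ (γ : Deg) (e0 : ℤ), ∃ k0 : ℕ, ∀ κ : ℕ, k0 ≤ κ → ∀ e : ℤ, e ≤ e0 →
      N.sub (γ + (3 * (κ : ℤ) - 3 - e) • h) ≤
        sumX (fun i => ν.x i ^ κ) (N.sub (γ + (2 * (κ : ℤ) - 3 - e) • h)) ∨
      ∃ Φ : V →ₗ[KK k] KK k, (∃ δ, ∃ v ∈ N.sub δ, Φ v ≠ 0) ∧
        ∀ δ, ∀ v ∈ N.sub δ, Φ v ∈ ω.sub (δ + (e • h - γ))
  dim : ∀ (γ : Deg) (e0 : ℤ), ∃ k0 : ℕ, ∀ κ : ℕ, k0 ≤ κ → ∀ e : ℤ, e ≤ e0 →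
    finrank k (S k n (γ + (3 * (κ : ℤ) - 3 - e) • h)) ≤
      finrank k (sumX (fun i => ν.x i ^ κ) (S k n (γ + (2 * (κ : ℤ) - 3 - e) • h))) + ω.dim (e • h - γ)
  upper : ∃ C : ℚ, ∀ᶠ t : ℤ in atTop, (ω.cdim (t • h) : ℚ) + (SF k n).cdim (t • h) ≤
    (n : ℚ) ^ 3 * (B h h : ℤ) * ((t : ℚ) ^ 2 + 3 * t) + C

/-! ### The polynomial model of `S` -/

section
variable (k : Type) [Field k]
open MvPolynomial in
/-- Substitutions that turn the five remaining valuations into trailing degrees and degrees in a new variable. -/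
def th : Fin 5 → (Pl k →ₐ[k] Polynomial (Pl k)) :=
  ![aeval ![Polynomial.X * Polynomial.C (X 0), Polynomial.X * Polynomial.C (X 1)],
    aeval ![1 + Polynomial.X * Polynomial.C (X 0), 1 + Polynomial.X * Polynomial.C (X 1)],
    aeval ![Polynomial.X * Polynomial.C (X 0), Polynomial.C (X 1)],
    aeval ![Polynomial.C (X 0), Polynomial.X * Polynomial.C (X 1)],
    aeval ![Polynomial.X * Polynomial.C (X 0), Polynomial.X * Polynomial.C (X 1)]]

variable {k}

/-- The valuations of the lines `5..9` on polynomials: order at `(0,0)`, order at `(1,1)`, minus the degree in `s`, minus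
the degree in `t`, minus the total degree. -/
def ov (i : Fin 5) (P : Pl k) : ℤ :=
  if i.val < 2 then ((th k i P).natTrailingDegree : ℤ) else -((th k i P).natDegree : ℤ)

end

/-- The line `5 + i`. -/
def up (i : Fin 5) : Fin 10 := ⟨5 + i.val, by omega⟩

/-- The line `i`. -/
def lo (i : Fin 5) : Fin 10 := ⟨i.val, by omega⟩

/-- `χ(O_Y(β))`. -/
def chi (β : Deg) : ℚ := qq (toQ β) + (∑ e, (β e : ℚ)) / 2 + 1

/-- `⌊γ / n⌋`. -/
def flr (n : ℕ) (γ : Deg) : Deg := fun e => γ e / (n : ℤ)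

end

end Crest.Agent.R169
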