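import Crest.Agent.R169.Defs

/-!
# rid 169, file `Defs2`: filtrations of a module over the cone.  Definitions only.
-/

set_option autoImplicit false

namespace Crest.Agent.R169

noncomputable section

/-- The degrees `m • ℓ + rel ρ`. -/
abbrev Gam : Type := ℤ × (Fin 5 → ℤ)

def dg (ℓ : Deg) (δ : Gam) : Deg := δ.1 • ℓ + rel δ.2

/-- The step of the filtration. -/
def e1 : Gam := (1, 0)

theorem dg_add (ℓ : Deg) (δ δ' : Gam) : dg ℓ (δ + δ') = dg ℓ δ + dg ℓ δ' := by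
  simp only [dg, Prod.fst_add, Prod.snd_add, add_smul, rel_add]; abel

theorem dg_sub (ℓ : Deg) (δ δ' : Gam) : dg ℓ (δ - δ') = dg ℓ δ - dg ℓ δ' := by
  rw [eq_sub_iff_add_eq, ← dg_add, sub_add_cancel]

theorem dg_mk_zero (ℓ : Deg) (m : ℤ) : dg ℓ (m, 0) = m • ℓ := by simp [dg, rel_zero]

theorem dg_zero (ℓ : Deg) : dg ℓ 0 = 0 := by simp [dg, rel_zero]

theorem dg_e1 (ℓ : Deg) : dg ℓ e1 = ℓ := by simp [dg, e1, rel_zero]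

/-- A ring that receives the section ring of `ℓ` on the Kummer cover.  `a δ` matters only on `S (dg ℓ δ)`. -/
structure Sys (n : ℕ) (ℓ : Deg) (R : Type) [CommRing R] [Algebra ℂ R] where
  a : Gam → KK ℂ →ₗ[ℂ] R
  a_mul : ∀ δ δ' f g, f ∈ S ℂ n (dg ℓ δ) → g ∈ S ℂ n (dg ℓ δ') → a (δ + δ') (f * g) = a δ f * a δ' g
  a_unit : ∀ ρ : Fin 5 → ℤ, a (0, -((n : ℤ) • ρ)) (mono ℂ ρ) = 1

variable {n : ℕ} {ℓ : Deg} {R : Type} [CommRing R] [Algebra ℂ R]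

def Sys.map (σ : Sys n ℓ R) {R' : Type} [CommRing R'] [Algebra ℂ R'] (φ : R →ₐ[ℂ] R') : Sys n ℓ R' where
  a δ := φ.toLinearMap ∘ₗ σ.a δ
  a_mul δ δ' f g hf hg := by simp [σ.a_mul δ δ' f g hf hg]
  a_unit ρ := by rw [LinearMap.comp_apply, σ.a_unit ρ]; exact map_one φ

/-- The parameters. -/
def Sys.X (σ : Sys n ℓ R) {c : ℕ} (ν : NN ℂ n ((c : ℤ) • ℓ)) : Fin 3 → R := fun i => σ.a ((c : ℤ), 0) (ν.x i)

theorem Sys.map_X (σ : Sys n ℓ R) {R' : Type} [CommRing R'] [Algebra ℂ R'] (φ : R →ₐ[ℂ] R') {c : ℕ}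
    (ν : NN ℂ n ((c : ℤ) • ℓ)) : (σ.map φ).X ν = fun i => φ (σ.X ν i) := rfl

/-- An admissible filtration. -/
structure Filt (σ : Sys n ℓ R) (X : Fin 3 → R) (c : ℕ) (M : Type) [AddCommGroup M] [Module R M] [Module ℂ M] where
  F : Gam → Submodule ℂ M
  anti : ∀ δ, F (δ + e1) ≤ F δ
  smul_mem : ∀ δ δ' f v, f ∈ S ℂ n (dg ℓ δ') → v ∈ F δ → σ.a δ' f • v ∈ F (δ' + δ)
  sat : ∀ δ δ' f v, f ∈ S ℂ n (dg ℓ δ') → f ≠ 0 → v ∈ F δ → σ.a δ' f • v ∈ F (δ' + δ + e1) → v ∈ F (δ + e1)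
  sand : ∃ b : ℕ, ∀ (j : ℕ) (ρ : Fin 5 → ℤ), (∀ v ∈ ipow M X j, v ∈ F ((c : ℤ) * j - b, ρ)) ∧
    ∀ v ∈ F ((c : ℤ) * j + b, ρ), v ∈ ipow M X j

variable {σ : Sys n ℓ R} {X : Fin 3 → R} {c : ℕ} {M : Type} [AddCommGroup M] [Module R M] [Module ℂ M]

/-- A realisation of the associated graded module in a `K`-vector space.  `ι δ` matters only on `F δ`. -/
structure Real (Φ : Filt σ X c M) (V : Type) [AddCommGroup V] [Module (KK ℂ) V] [Module ℂ V] where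
  ι : Gam → M →ₗ[ℂ] V
  ker : ∀ δ, ∀ v ∈ Φ.F δ, (ι δ v = 0 ↔ v ∈ Φ.F (δ + e1))
  smul : ∀ δ δ' f v, f ∈ S ℂ n (dg ℓ δ') → v ∈ Φ.F δ → ι (δ' + δ) (σ.a δ' f • v) = f • ι δ v

/-- The family generated by the associated graded module. -/
def Real.fam {Φ : Filt σ X c M} {V : Type} [AddCommGroup V] [Module (KK ℂ) V] [Module ℂ V]
    [IsScalarTower ℂ (KK ℂ) V] (ϱ : Real Φ V) : Fam ℂ n V :=
  Fam.gen n {p | ∃ δ, ∃ v ∈ Φ.F δ, p = (dg ℓ δ, ϱ.ι δ v)}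

end

end Crest.Agent.R169
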