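import Crest.Agent.R169.Basic1

/-!
# rid 169, file `Der`: the partial derivatives on `K = k(s,t)` and Cartier descent

Prefix helper lemmas with `der_`.
-/

set_option autoImplicit false

namespace Crest.Agent.R169

variable (k : Type) [Field k]

theorem der_ext {k A K : Type} [Field k] [CommRing A] [Field K] [Algebra k A] [Algebra A K]
    [Algebra k K] [IsScalarTower k A K] [IsFractionRing A K] (d : Derivation k A A) :
    ∃ D : Derivation k K K, ∀ P : A, D (algebraMap A K P) = algebraMap A K (d P) := by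
  let φ : A →ₐ[k] TrivSqZeroExt K K :=
    { toFun := fun P => TrivSqZeroExt.inl (algebraMap A K P) +
        TrivSqZeroExt.inr (algebraMap A K (d P))
      map_one' := by ext <;> simp
      map_mul' := fun P Q => by ext <;> simp [mul_comm, Algebra.smul_def, TrivSqZeroExt.algebraMap_eq_inl]
      map_zero' := by ext <;> simp
      map_add' := fun P Q => by ext <;> simp [Algebra.smul_def]
      commutes' := fun c => by
        ext <;> simp [TrivSqZeroExt.algebraMap_eq_inl', IsScalarTower.algebraMap_apply k A K] }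
  have hφ : ∀ y : nonZeroDivisors A, IsUnit (φ y) := fun y => by
    rw [TrivSqZeroExt.isUnit_iff_isUnit_fst]
    simpa [φ] using IsLocalization.map_units K y
  let Φ : K →ₐ[k] TrivSqZeroExt K K := IsLocalization.liftAlgHom hφ
  have hΦ : ∀ P : A, Φ (algebraMap A K P) = φ P := fun P => IsLocalization.lift_eq hφ P
  have h1 : ∀ x, (Φ x).fst = x := fun x => by
    have : (TrivSqZeroExt.fstHom k K K).toRingHom.comp Φ.toRingHom = RingHom.id _ := by
      refine IsLocalization.ringHom_ext (nonZeroDivisors A) (RingHom.ext fun P => ?_)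
      simp [hΦ, φ]
    exact RingHom.congr_fun this x
  let L : K →ₗ[k] K :=
    { toFun := fun x => (Φ x).snd
      map_add' := fun x y => by rw [map_add, TrivSqZeroExt.snd_add]
      map_smul' := fun c x => by rw [map_smul, TrivSqZeroExt.snd_smul]; rfl }
  refine ⟨Derivation.mk' L fun a b => ?_, fun P => ?_⟩
  · simp [L, h1, mul_comm]
  · simp [L, hΦ, φ, Algebra.smul_def, TrivSqZeroExt.algebraMap_eq_inl]

/-- Construction: the ring map `Pl k → TrivSqZeroExt K K`, `P ↦ inl P + inr (pderiv i P)` sends nonzero `P` to units, so extends to `K`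
(`IsLocalization.lift`); its first component is the identity and its second component is the derivation.  (Any other route is fine.) -/
theorem exists_der_ext (i : Fin 2) : ∃ D : Derivation k (KK k) (KK k),
    ∀ P : Pl k, D (algebraMap (Pl k) (KK k) P) = algebraMap (Pl k) (KK k) (MvPolynomial.pderiv i P) :=
  der_ext (MvPolynomial.pderiv i)

theorem der_pderiv (i : Fin 2) (j : Fin 5) :
    ∃ ε : k, MvPolynomial.pderiv i (ppP k j) = MvPolynomial.C ε := by
  have h : ∀ l : Fin 2, ∃ ε : k, MvPolynomial.pderiv i (MvPolynomial.X l : Pl k) = MvPolynomial.C ε :=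
    fun l => by
      by_cases hl : l = i
      · exact ⟨1, by simp [hl]⟩
      · exact ⟨0, by simp [MvPolynomial.pderiv_X, Pi.single_eq_of_ne hl]⟩
  obtain ⟨a, ha⟩ := h 0
  obtain ⟨b, hb⟩ := h 1
  fin_cases j
  · exact ⟨a, ha⟩
  · exact ⟨b, hb⟩
  · exact ⟨a, by change MvPolynomial.pderiv i (MvPolynomial.X 0 - 1) = _; rw [map_sub, ha]; simp⟩
  · exact ⟨b, by change MvPolynomial.pderiv i (MvPolynomial.X 1 - 1) = _; rw [map_sub, hb]; simp⟩
  · exact ⟨b - a, by
      change MvPolynomial.pderiv i (MvPolynomial.X 1 - MvPolynomial.X 0) = _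
      rw [map_sub, ha, hb, map_sub]⟩

theorem der_inv_mem (n : ℕ) (j : Fin 5) : (pp k j)⁻¹ ∈ S k n ((n : ℤ) • (1 : Deg)) := by
  rw [← mono_single, ← mono_neg]
  refine mono_mem_S ?_
  rw [← smul_add]
  refine smul_nonneg (Int.natCast_nonneg n) ?_
  intro e
  revert j e
  decide

theorem der_prod {k K T : Type} [Field k] [Field K] [Algebra k K] (D : Derivation k K K)
    (s : Finset T) (f : T → K) (hf : ∀ j ∈ s, f j ≠ 0) :
    D (∏ j ∈ s, f j) = (∏ j ∈ s, f j) * ∑ j ∈ s, D (f j) / f j := by
  classical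
  induction s using Finset.induction_on with
  | empty => simp
  | insert a s ha ih =>
    have h1 := hf a (Finset.mem_insert_self a s)
    rw [Finset.prod_insert ha, Finset.sum_insert ha, Derivation.leibniz,
      ih fun j hj => hf j (Finset.mem_insert_of_mem hj), smul_eq_mul, smul_eq_mul]
    field_simp
    ring

theorem der_pow {k : Type} [Field k] (p : ℕ) [Fact p.Prime] [CharP k p] [PerfectField k] (c : Pl k)
    (h : ∀ i, MvPolynomial.pderiv i c = 0) : ∃ g, c = g ^ p := by
  have h1 : ∀ d ∈ c.support, ∃ g : Pl k, MvPolynomial.monomial d (c.coeff d) = g ^ p := by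
    intro d hd
    have h2 : ∀ i, p ∣ d i := fun i => by
      rcases Nat.eq_zero_or_pos (d i) with h0 | h0
      · rw [h0]; exact dvd_zero p
      have h3 : d - Finsupp.single i 1 + Finsupp.single i 1 = d :=
        tsub_add_cancel_of_le (Finsupp.single_le_iff.2 h0)
      have h4 := MvPolynomial.coeff_pderiv (i := i) c (d - Finsupp.single i 1)
      rw [h i, MvPolynomial.coeff_zero, h3] at h4
      have h5 := (mul_eq_zero.1 h4.symm).resolve_left (MvPolynomial.mem_support_iff.1 hd)
      rw [← Nat.cast_succ, CharP.cast_eq_zero_iff k p] at h5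
      have h6 : ((d - Finsupp.single i 1 : Fin 2 →₀ ℕ) i).succ = d i := by
        simp only [Finsupp.coe_tsub, Pi.sub_apply, Finsupp.single_eq_same]
        omega
      rwa [h6] at h5
    choose e he using h2
    obtain ⟨a, ha⟩ := surjective_frobenius k p (c.coeff d)
    refine ⟨MvPolynomial.monomial (Finsupp.equivFunOnFinite.symm e) a, ?_⟩
    rw [MvPolynomial.monomial_pow, ← ha, frobenius_def]
    congr 2
    ext i
    simp [he i]
  choose! g hg using h1
  refine ⟨∑ d ∈ c.support, g d, ?_⟩
  rw [sum_pow_char, ← Finset.sum_congr rfl hg]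
  exact c.as_sum

/-- First property: `D (mono ρ) = ∑ j, (ρ j * ε j) • mono (ρ - single j 1)` with `D (pp j) = ε j ∈ {0, 1, -1}` (`Derivation.leibniz_zpow`,
`leibniz_prod` or induction), and `rel (single j 1) ≤ 1`.
Second: `f = a / b = (a * b^(p-1)) / b^p`; `D (b^p) = 0`, so both `pderiv i (a * b^(p-1)) = 0`; a polynomial killed by both partial
derivatives has all exponents divisible by `p` (`MvPolynomial.coeff_pderiv`), so is a `p`-th power as `k` is perfect. -/
theorem exists_der : ∃ D : Fin 2 → Derivation k (KK k) (KK k),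
    (∀ (i : Fin 2) (n : ℕ) (γ : Deg) (f : KK k), f ∈ S k n γ → D i f ∈ S k n (γ + (n : ℤ) • (1 : Deg))) ∧
    ∀ (p : ℕ) [Fact p.Prime] [CharP k p] [PerfectField k] (f : KK k), (∀ i, D i f = 0) → ∃ g, f = g ^ p := by
  choose D hD using exists_der_ext k
  refine ⟨D, fun i n γ f hf => ?_, fun p _ _ _ f hf => ?_⟩
  · have hε : ∀ j, ∃ ε : k, D i (pp k j) = algebraMap k (KK k) ε := fun j => by
      obtain ⟨ε, hε⟩ := der_pderiv k i j
      exact ⟨ε, by rw [pp, hD, hε, IsScalarTower.algebraMap_apply k (Pl k) (KK k)]; rfl⟩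
    choose ε hε using hε
    induction hf using Submodule.span_induction with
    | mem f h =>
      obtain ⟨ρ, hρ, rfl⟩ := h
      have h1 := der_prod (D i) Finset.univ (fun j => pp k j ^ ρ j)
        fun j _ => zpow_ne_zero _ (pp_ne_zero k j)
      rw [mono, h1, Finset.mul_sum]
      refine Submodule.sum_mem _ fun j _ => ?_
      have h2 : (∏ j, pp k j ^ ρ j) * (D i (pp k j ^ ρ j) / pp k j ^ ρ j) =
          ((ρ j : k) * ε j) • (mono k ρ * (pp k j)⁻¹) := by
        have h3 := pp_ne_zero k j
        have h4 := zpow_ne_zero (ρ j) h3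
        rw [Derivation.leibniz_zpow, hε, zpow_sub_one₀ h3, Algebra.smul_def ((ρ j : k) * ε j),
          map_mul, map_intCast, mono, zsmul_eq_mul, smul_eq_mul]
        field_simp
      rw [h2]
      exact Submodule.smul_mem _ _ (mul_mem_S (mono_mem_S hρ) (der_inv_mem k n j))
    | zero => simp
    | add a b _ _ ha hb => rw [map_add]; exact add_mem ha hb
    | smul c a _ ha => rw [Derivation.map_smul]; exact Submodule.smul_mem _ c ha
  · have : CharP (KK k) p := charP_of_injective_algebraMap (algebraMap k (KK k)).injective p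
    have hp : 0 < p := (Fact.out : p.Prime).pos
    obtain ⟨a, b, hb, rfl⟩ := IsFractionRing.div_surjective (A := Pl k) f
    have hb0 : algebraMap (Pl k) (KK k) b ≠ 0 :=
      (map_ne_zero_iff _ (IsFractionRing.injective (Pl k) (KK k))).2 (nonZeroDivisors.ne_zero hb)
    have e : algebraMap (Pl k) (KK k) (a * b ^ (p - 1)) =
        algebraMap (Pl k) (KK k) a / algebraMap (Pl k) (KK k) b * algebraMap (Pl k) (KK k) b ^ p := by
      rw [map_mul, map_pow, ← mul_pow_sub_one hp.ne' (algebraMap (Pl k) (KK k) b)]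
      field_simp
    obtain ⟨g, hg⟩ := der_pow p (a * b ^ (p - 1)) fun i => by
      refine IsFractionRing.injective (Pl k) (KK k) ?_
      rw [← hD, e, Derivation.leibniz, hf i, Derivation.leibniz_pow, nsmul_eq_mul,
        CharP.cast_eq_zero]
      simp
    refine ⟨algebraMap (Pl k) (KK k) g / algebraMap (Pl k) (KK k) b, ?_⟩
    rw [div_pow, eq_div_iff (pow_ne_zero _ hb0), ← e, hg, map_pow]

variable {k}

/-- Cartier descent.  The coordinate forms restricted to `U` span the dual of `U`; choose `J ⊆ ι` indexing a basis among them and the dual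
basis `u j ∈ U` (`u j j' = δ j j'` for `j, j' ∈ J`; an element of `U` vanishing on `J` is zero).  `D i (u j) ∈ U` vanishes on `J`, so is zero, so
`u j = (v j)^p` coordinatewise.  `ψ' x = x - ∑ j ∈ J, x j • u j`, `ψ x = x - ∑ j ∈ J, x j • v j`. -/
theorem cartier {ι : Type} [Fintype ι] (p : ℕ) [Fact p.Prime] [CharP k p] (D : Fin 2 → Derivation k (KK k) (KK k))
    (hD : ∀ f : KK k, (∀ i, D i f = 0) → ∃ g, f = g ^ p) (U : Submodule (KK k) (ι → KK k))
    (hU : ∀ i, ∀ u ∈ U, (fun a => D i (u a)) ∈ U) :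
    ∃ ψ ψ' : (ι → KK k) →ₗ[KK k] (ι → KK k), LinearMap.ker ψ' = U ∧
      ∀ x : ι → KK k, ψ' (fun a => x a ^ p) = fun a => ψ x a ^ p := by
  classical
  have : CharP (KK k) p := charP_of_injective_algebraMap (algebraMap k (KK k)).injective p
  obtain ⟨J, hJ, hmin⟩ := (wellFounded_lt (α := Finset ι)).has_min
    {J | ∀ x ∈ U, (∀ j ∈ J, x j = 0) → x = 0}
    ⟨Finset.univ, fun x _ hx => funext fun j => hx j (Finset.mem_univ j)⟩
  have h1 : ∀ j ∈ J, ∃ u ∈ U, ∀ j' ∈ J, u j' = if j = j' then 1 else 0 := fun j hj => by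
    have h2 : ¬∀ x ∈ U, (∀ j' ∈ J.erase j, x j' = 0) → x = 0 := fun h =>
      hmin _ h (Finset.erase_ssubset hj)
    simp only [not_forall] at h2
    obtain ⟨x, hx, h3, h4⟩ := h2
    have h5 : x j ≠ 0 := fun h5 => h4 (hJ x hx fun j' hj' => by
      by_cases h6 : j' = j
      · rw [h6, h5]
      · exact h3 j' (Finset.mem_erase.2 ⟨h6, hj'⟩))
    refine ⟨(x j)⁻¹ • x, U.smul_mem _ hx, fun j' hj' => ?_⟩
    split_ifs with h6
    · simp [← h6, h5]
    · simp [h3 j' (Finset.mem_erase.2 ⟨Ne.symm h6, hj'⟩)]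
  choose! u hu hu' using h1
  have h2 : ∀ j ∈ J, ∀ a, ∃ g, u j a = g ^ p := fun j hj a => hD _ fun i =>
    congrFun (hJ _ (hU i _ (hu j hj)) fun j' hj' => by
      rw [hu' j hj j' hj']
      split_ifs <;> simp) a
  choose! v hv using h2
  let Ψ : (ι → ι → KK k) → (ι → KK k) →ₗ[KK k] (ι → KK k) := fun w =>
    LinearMap.id - ∑ j ∈ J, (LinearMap.proj j : (ι → KK k) →ₗ[KK k] KK k).smulRight (w j)
  have hΨ : ∀ w x, Ψ w x = x - ∑ j ∈ J, x j • w j := fun w x => by
    simp [Ψ, LinearMap.sum_apply]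
  have hs : ∀ x : ι → KK k, ∑ j ∈ J, x j • u j ∈ U := fun x =>
    U.sum_mem fun j hj => U.smul_mem _ (hu j hj)
  refine ⟨Ψ v, Ψ u, Submodule.ext fun x => ?_, fun x => funext fun a => ?_⟩
  · rw [LinearMap.mem_ker, hΨ]
    refine ⟨fun h => ?_, fun h => hJ _ (U.sub_mem h (hs x)) fun j' hj' => ?_⟩
    · rw [sub_eq_zero.1 h]
      exact hs x
    · rw [Pi.sub_apply, Finset.sum_apply,
        Finset.sum_congr rfl fun j hj => by rw [Pi.smul_apply, hu' j hj j' hj']]
      simp [hj']
  · simp only [hΨ, Pi.sub_apply, Finset.sum_apply, Pi.smul_apply, smul_eq_mul]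
    rw [sub_pow_char, sum_pow_char]
    congr 1
    exact Finset.sum_congr rfl fun j hj => by rw [hv j hj a, mul_pow]

end Crest.Agent.R169
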