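import Crest.Agent.R169.Lin

/-!
# rid 169, file `DimInt`: Krull dimension of integral extensions; the graded ring and its vertex

Prefix helper lemmas with `dimint_`.
-/

set_option autoImplicit false

namespace Crest.Agent.R169

/-- `≤`: `PrimeSpectrum.comap` is strictly monotone (`Ideal.IsIntegral.comap_lt_comap`), `Order.krullDim_le_of_strictMono`.
`≥`: lying over (`Ideal.exists_ideal_over_prime_of_isIntegral`) for the bottom of a chain and going up
(`Ideal.exists_ltSeries_of_hasGoingUp`, instance `Algebra.HasGoingUp.of_isIntegral`). -/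
theorem ringKrullDim_eq_of_isIntegral {A B : Type} [CommRing A] [CommRing B] [Algebra A B]
    [Algebra.IsIntegral A B] (hinj : Function.Injective (algebraMap A B)) :
    ringKrullDim B = ringKrullDim A := by
  refine le_antisymm ?_ ?_
  · exact Order.krullDim_le_of_strictMono (PrimeSpectrum.comap (algebraMap A B))
      fun P Q h => Ideal.IsIntegral.comap_lt_comap (R := A) (I := P.asIdeal) (J := Q.asIdeal) h
  · refine iSup_le fun l => ?_
    obtain ⟨Q, -, hQ, hQ'⟩ := Ideal.exists_ideal_over_prime_of_isIntegral l.head.asIdeal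
      (⊥ : Ideal B) (by
        rw [← RingHom.ker_eq_comap_bot, (RingHom.injective_iff_ker_eq_bot _).1 hinj]
        exact bot_le)
    have : Q.LiesOver l.head.asIdeal := ⟨hQ'.symm⟩
    obtain ⟨L, hL, -, -⟩ := Ideal.exists_ltSeries_of_hasGoingUp l Q
    rw [← hL]
    exact Order.LTSeries.length_le_krullDim L

theorem dimint_quot {T : Type} [CommRing T] [Algebra ℂ T] (X : Fin 3 → T)
    (a : MvPolynomial (Fin 3) ℂ) : Ideal.Quotient.mk (idl X) (MvPolynomial.aeval X a) =
      algebraMap ℂ (T ⧸ idl X) (MvPolynomial.constantCoeff a) := by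
  have h : (Ideal.Quotient.mkₐ ℂ (idl X)).comp (MvPolynomial.aeval X) =
      MvPolynomial.aeval (0 : Fin 3 → T ⧸ idl X) := by
    refine MvPolynomial.algHom_ext fun i => ?_
    simp only [AlgHom.comp_apply, MvPolynomial.aeval_X, Ideal.Quotient.mkₐ_eq_mk, Pi.zero_apply]
    exact Ideal.Quotient.eq_zero_iff_mem.2 (Ideal.subset_span ⟨i, rfl⟩)
  rw [← MvPolynomial.aeval_zero, ← h]
  rfl

/-- substitution of `0` for the first `k` variables -/
noncomputable def dimintS (k : ℕ) : MvPolynomial (Fin 3) ℂ →ₐ[ℂ] MvPolynomial (Fin 3) ℂ :=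
  MvPolynomial.aeval fun i => if i.val < k then 0 else MvPolynomial.X i

/-- the prime ideal generated by the first `k` variables -/
noncomputable def dimintP (k : ℕ) : Ideal (MvPolynomial (Fin 3) ℂ) := RingHom.ker (dimintS k)

instance dimintP_isPrime (k : ℕ) : (dimintP k).IsPrime := RingHom.ker_isPrime _

theorem dimintP_X {k : ℕ} {i : Fin 3} : MvPolynomial.X i ∈ dimintP k ↔ i.val < k := by
  rw [dimintP, RingHom.mem_ker, dimintS, MvPolynomial.aeval_X]
  split_ifs with h
  · simp [h]
  · simp [h]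

theorem dimintP_lt (i : Fin 3) : dimintP i.val < dimintP (i.val + 1) := by
  have h : (dimintS (i.val + 1)).comp (dimintS i.val) = dimintS (i.val + 1) := by
    refine MvPolynomial.algHom_ext fun j => ?_
    simp only [AlgHom.comp_apply, dimintS, MvPolynomial.aeval_X]
    by_cases hj : j.val < i.val
    · rw [if_pos hj, if_pos (by omega), map_zero]
    · rw [if_neg hj, MvPolynomial.aeval_X]
  refine lt_of_le_of_ne (fun a ha => ?_) fun e => ?_
  · rw [dimintP, RingHom.mem_ker] at ha ⊢
    rw [← h, AlgHom.comp_apply, ha, map_zero]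
  · have h2 : MvPolynomial.X i ∈ dimintP i.val := e ▸ dimintP_X.2 (Nat.lt_succ_self _)
    exact lt_irrefl _ (dimintP_X.1 h2)

/-- Everything `S0257` needs about a graded domain that is finite over a polynomial ring in three homogeneous
elements of positive degree.

Proof.  Let `𝔪` be the irrelevant ideal (`t ∈ 𝔪 ↔ GradedRing.proj 𝒜 0 t = 0`), `A = MvPolynomial (Fin 3) ℂ`, `T` an
`A`-algebra through `aeval X` (`RingHom.toAlgebra`), finite, injective.  `t - proj 0 t ∈ 𝔪` and `proj 0 t = algebraMap z`, so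
`ℂ → T/𝔪` is surjective; it is injective as `1 ∉ 𝔪`; so `T/𝔪` is a field and `𝔪` is maximal.  Finite type: finite over
finite type.  `ringKrullDim T = ringKrullDim A = 3` (`MvPolynomial.ringKrullDim_of_isNoetherianRing`).
`J = idl X ≤ 𝔪` is a homogeneous ideal (`Ideal.homogeneous_span`) and `T / J` is finite-dimensional over `ℂ` (generators of
`T` over `A` span it: `a = C (constantCoeff a) + (element of span X)`).  A homogeneous `t` of positive degree is nilpotent
mod `J`: `t^1, …, t^N` (`N > dim`) are dependent mod `J`, and the terms have distinct degrees, so one `t^i ∈ J`.  Hence every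
prime containing `J` contains `𝔪` (an element of `𝔪` is the sum of its components of positive degree), so equals `𝔪`.
Height of `𝔪`: the chain `0 < (x0) < (x0,x1) < (x0,x1,x2)` in `A` (kernels of substitution maps; or use that the maximal
ideal `(x0,x1,x2)` has height 3 by any Mathlib route) lifts by lying over and going up to a chain of `T` ending at a prime over
`(x0,x1,x2)`, which contains `J`, so is `𝔪`.  So `height 𝔪 = 3` and `IsLocalization.AtPrime.ringKrullDim_eq_height`.
Finally `T / J → R / J R` is surjective (`R` the localisation): for `s ∉ 𝔪`, `(s) + J = ⊤` because the only maximal ideal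
containing `J` is `𝔪`. -/
theorem graded_pack (T : Type) [CommRing T] [IsDomain T] [Algebra ℂ T] (𝒜 : ℕ → Submodule ℂ T)
    [GradedAlgebra 𝒜] (h0 : ∀ t ∈ 𝒜 0, ∃ z : ℂ, t = algebraMap ℂ T z) (c : ℕ) (hc : 0 < c)
    (X : Fin 3 → T) (hX : ∀ i, X i ∈ 𝒜 c)
    (hinj : Function.Injective (MvPolynomial.aeval X : MvPolynomial (Fin 3) ℂ →ₐ[ℂ] T))
    (hfin : (MvPolynomial.aeval X : MvPolynomial (Fin 3) ℂ →ₐ[ℂ] T).toRingHom.Finite) :
    ∃ _ : (HomogeneousIdeal.irrelevant 𝒜).toIdeal.IsMaximal,
      Algebra.FiniteType ℂ T ∧ ringKrullDim T = 3 ∧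
      Function.Bijective (algebraMap ℂ (T ⧸ (HomogeneousIdeal.irrelevant 𝒜).toIdeal)) ∧
      ringKrullDim (Localization.AtPrime (HomogeneousIdeal.irrelevant 𝒜).toIdeal) = 3 ∧
      (∀ i, algebraMap T (Localization.AtPrime (HomogeneousIdeal.irrelevant 𝒜).toIdeal) (X i) ∈
        IsLocalRing.maximalIdeal (Localization.AtPrime (HomogeneousIdeal.irrelevant 𝒜).toIdeal)) ∧
      FiniteDimensional ℂ (Localization.AtPrime (HomogeneousIdeal.irrelevant 𝒜).toIdeal ⧸
        idl (fun i => algebraMap T (Localization.AtPrime (HomogeneousIdeal.irrelevant 𝒜).toIdeal) (X i))) := by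
  classical
  letI : Algebra (MvPolynomial (Fin 3) ℂ) T := (MvPolynomial.aeval X).toRingHom.toAlgebra
  have halg : ∀ a, algebraMap (MvPolynomial (Fin 3) ℂ) T a = MvPolynomial.aeval X a :=
    fun _ => rfl
  have hF : Module.Finite (MvPolynomial (Fin 3) ℂ) T := hfin
  have hT : IsScalarTower ℂ (MvPolynomial (Fin 3) ℂ) T :=
    IsScalarTower.of_algebraMap_eq fun z => by rw [halg, AlgHom.commutes]
  set 𝔪 := (HomogeneousIdeal.irrelevant 𝒜).toIdeal with h𝔪
  have hmem : ∀ t, t ∈ 𝔪 ↔ (DirectSum.decompose 𝒜 t 0 : T) = 0 := fun t =>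
    HomogeneousIdeal.mem_irrelevant_iff 𝒜 t
  have h1 : (1 : T) ∉ 𝔪 := by
    rw [hmem, DirectSum.decompose_of_mem_same 𝒜 (SetLike.one_mem_graded 𝒜)]
    exact one_ne_zero
  have hnt : Nontrivial (T ⧸ 𝔪) :=
    Ideal.Quotient.nontrivial_iff.2 ((Ideal.ne_top_iff_one _).2 h1)
  have hbij : Function.Bijective (algebraMap ℂ (T ⧸ 𝔪)) := by
    refine ⟨RingHom.injective _, fun x => ?_⟩
    obtain ⟨t, rfl⟩ := Ideal.Quotient.mk_surjective x
    obtain ⟨z, hz⟩ := h0 _ (DirectSum.decompose 𝒜 t 0).2
    refine ⟨z, Ideal.Quotient.eq.2 ?_⟩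
    rw [hmem, ← hz, DirectSum.decompose_sub, DirectSum.sub_apply, Submodule.coe_sub,
      DirectSum.decompose_of_mem_same 𝒜 (DirectSum.decompose 𝒜 t 0).2, sub_self]
  have hmax : 𝔪.IsMaximal := Ideal.Quotient.maximal_of_isField _
    ((RingEquiv.ofBijective _ hbij).symm.toMulEquiv.isField (Field.toIsField ℂ))
  have hXm : ∀ i, X i ∈ 𝔪 := fun i => HomogeneousIdeal.mem_irrelevant_of_mem 𝒜 hc (hX i)
  have hJ : (idl X).IsHomogeneous 𝒜 :=
    Ideal.homogeneous_span 𝒜 _ (by rintro _ ⟨i, rfl⟩; exact ⟨c, hX i⟩)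
  have hprime : ∀ P : Ideal T, P.IsPrime → idl X ≤ P → P = 𝔪 := by
    intro P hP hle
    refine (hmax.eq_of_le hP.ne_top ?_).symm
    rw [h𝔪, HomogeneousIdeal.irrelevant_eq_span, Ideal.span_le]
    intro t ht
    simp only [Set.mem_iUnion] at ht
    obtain ⟨d, hd, ht⟩ := ht
    obtain ⟨p, hp, hpt⟩ : IsIntegral (MvPolynomial (Fin 3) ℂ) t :=
      Algebra.IsIntegral.isIntegral t
    rw [Polynomial.eval₂_eq_sum_range] at hpt
    have h2 : ∑ i ∈ Finset.range (p.natDegree + 1),
        MvPolynomial.constantCoeff (p.coeff i) • t ^ i ∈ idl X := by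
      rw [← Ideal.Quotient.eq_zero_iff_mem, ← map_zero (Ideal.Quotient.mk (idl X)), ← hpt,
        map_sum, map_sum]
      refine Finset.sum_congr rfl fun i _ => ?_
      rw [Algebra.smul_def, map_mul, map_mul, halg, dimint_quot]
      rfl
    have h3 := hJ (p.natDegree • d) h2
    rw [DirectSum.decompose_sum, DFinsupp.finsetSum_apply, Submodule.coe_sum,
      Finset.sum_eq_single p.natDegree] at h3
    · rw [DirectSum.decompose_of_mem_same 𝒜
        (Submodule.smul_mem _ _ (SetLike.pow_mem_graded _ ht)), hp.coeff_natDegree, map_one,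
        one_smul] at h3
      exact hP.mem_of_pow_mem _ (hle h3)
    · intro i _ hi
      refine DirectSum.decompose_of_mem_ne 𝒜
        (Submodule.smul_mem _ _ (SetLike.pow_mem_graded _ ht)) fun h => hi ?_
      exact Nat.eq_of_mul_eq_mul_right hd h
    · intro h
      exact absurd (Finset.self_mem_range_succ _) h
  have hdim : ringKrullDim T = 3 := by
    rw [ringKrullDim_eq_of_isIntegral (A := MvPolynomial (Fin 3) ℂ) hinj,
      MvPolynomial.ringKrullDim_of_isNoetherianRing, ringKrullDim_eq_zero_of_field]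
    simp
  refine ⟨hmax, Algebra.FiniteType.trans (S := MvPolynomial (Fin 3) ℂ) inferInstance inferInstance,
    hdim, hbij, ?_, fun i => ?_, ?_⟩
  · rw [IsLocalization.AtPrime.ringKrullDim_eq_height 𝔪]
    refine le_antisymm (hdim ▸ Ideal.height_le_ringKrullDim_of_isPrime) ?_
    obtain ⟨Q0, -, hQ0, e0⟩ := Ideal.exists_ideal_over_prime_of_isIntegral (dimintP 0)
      (⊥ : Ideal T) (by
        rw [← RingHom.ker_eq_comap_bot, (RingHom.injective_iff_ker_eq_bot
          (algebraMap (MvPolynomial (Fin 3) ℂ) T)).1 hinj]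
        exact bot_le)
    have l0 : Q0.LiesOver (dimintP 0) := ⟨e0.symm⟩
    obtain ⟨Q1, lt1, hQ1, l1⟩ := Ideal.exists_ideal_gt_liesOver_of_lt
      (p := dimintP 0) (q := dimintP 1) Q0 (dimintP_lt 0)
    obtain ⟨Q2, lt2, hQ2, l2⟩ := Ideal.exists_ideal_gt_liesOver_of_lt
      (p := dimintP 1) (q := dimintP 2) Q1 (dimintP_lt 1)
    obtain ⟨Q3, lt3, hQ3, l3⟩ := Ideal.exists_ideal_gt_liesOver_of_lt
      (p := dimintP 2) (q := dimintP 3) Q2 (dimintP_lt 2)
    have e3 : Q3 = 𝔪 := by
      refine hprime Q3 hQ3 (Ideal.span_le.2 ?_)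
      rintro _ ⟨i, rfl⟩
      have h2 : MvPolynomial.X i ∈ Q3.under (MvPolynomial (Fin 3) ℂ) :=
        l3.over ▸ dimintP_X.2 i.2
      rw [Ideal.under, Ideal.mem_comap, halg, MvPolynomial.aeval_X] at h2
      exact h2
    have a1 := Order.height_add_one_le (a := (⟨Q0, hQ0⟩ : PrimeSpectrum T)) (b := ⟨Q1, hQ1⟩) lt1
    have a2 := Order.height_add_one_le (a := (⟨Q1, hQ1⟩ : PrimeSpectrum T)) (b := ⟨Q2, hQ2⟩) lt2
    have a3 := Order.height_add_one_le (a := (⟨Q2, hQ2⟩ : PrimeSpectrum T)) (b := ⟨Q3, hQ3⟩) lt3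
    have a4 : (3 : ℕ∞) ≤ Order.height (⟨Q3, hQ3⟩ : PrimeSpectrum T) := by
      refine le_trans ?_ a3
      refine le_trans ?_ (add_le_add_left a2 1)
      refine le_trans ?_ (add_le_add_left (add_le_add_left a1 1) 1)
      refine le_trans ?_ (add_le_add_left (add_le_add_left (add_le_add_left zero_le 1) 1) 1)
      norm_num
    rw [← PrimeSpectrum.height_eq_orderHeight] at a4
    rw [← e3]
    exact WithBot.coe_le_coe.2 a4
  · exact (IsLocalization.AtPrime.to_map_mem_maximal_iff _ 𝔪 _).2 (hXm i)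
  · set R := Localization.AtPrime 𝔪
    set J := idl fun i => algebraMap T R (X i) with hJ'
    have hJm : ∀ t ∈ idl X, algebraMap T R t ∈ J := by
      intro t ht
      have : (idl X).map (algebraMap T R) = J := by
        rw [Ideal.map_span, ← Set.range_comp]
        rfl
      exact this ▸ Ideal.mem_map_of_mem _ ht
    have hsurj : Function.Surjective ((Ideal.Quotient.mk J).comp (algebraMap T R)) := by
      intro x
      obtain ⟨r, rfl⟩ := Ideal.Quotient.mk_surjective x
      obtain ⟨⟨a, s⟩, hr⟩ := IsLocalization.surj 𝔪.primeCompl r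
      have htop : Ideal.span {s.1} ⊔ idl X = ⊤ := by
        by_contra hne
        obtain ⟨M, hM, hle⟩ := Ideal.exists_le_maximal _ hne
        have h2 := hprime M hM.isPrime (le_sup_right.trans hle)
        exact s.2 (h2.le (hle (Ideal.mem_sup_left (Ideal.mem_span_singleton_self _))))
      obtain ⟨u, j, hj, e⟩ := Ideal.mem_span_singleton_sup.1 ((Ideal.eq_top_iff_one _).1 htop)
      refine ⟨a * u, Ideal.Quotient.eq.2 ?_⟩
      have h2 : algebraMap T R (a * u) - r = - r * algebraMap T R j := by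
        have h3 := congrArg (algebraMap T R) e
        simp only [map_add, map_mul, map_one] at h3 hr ⊢
        linear_combination r * h3 - algebraMap T R u * hr
      rw [h2]
      exact J.mul_mem_left _ (hJm j hj)
    have h2 := (RingHom.Finite.of_surjective _ hsurj).comp hfin
    have h3 : ((Ideal.Quotient.mk J).comp (algebraMap T R)).comp
        (MvPolynomial.aeval X : MvPolynomial (Fin 3) ℂ →ₐ[ℂ] T).toRingHom =
        (algebraMap ℂ (R ⧸ J)).comp MvPolynomial.constantCoeff := by
      refine RingHom.ext fun a => ?_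
      refine Ideal.Quotient.eq.2 ?_
      rw [IsScalarTower.algebraMap_apply ℂ T R, ← map_sub]
      exact hJm _ (Ideal.Quotient.eq.1 (dimint_quot X a))
    rw [h3] at h2
    exact RingHom.finite_algebraMap.1 h2.of_comp_finite

end Crest.Agent.R169
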