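import Crest.Agent.R169.Prime
import Crest.Agent.R169.AN

/-!
# rid 169, file `NN2`: families as graded modules over `k[x,y,z]`

Prefix helper lemmas with `nn2_`.
-/

set_option autoImplicit false

namespace Crest.Agent.R169

open Filter Module

namespace NN

variable {k : Type} [Field k] {n : ℕ} {h : Deg} (ν : NN k n h)
  {V : Type} [AddCommGroup V] [Module (KK k) V] [Module k V] [IsScalarTower k (KK k) V]

/-- Affine coordinates of the plane. -/
noncomputable def xi : Fin 2 → KK k := ![ν.x 0 / ν.x 2, ν.x 1 / ν.x 2]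

theorem TT_xi (i : Fin 3) : TT ν.xi i = ν.x i / ν.x 2 := by
  fin_cases i
  · rfl
  · rfl
  · exact (div_self (ν.ne 2)).symm

/-- The dehomogenised piece `(x 2)^(-d) • N(γ + d h)`. -/
noncomputable def Dm (N : Fam k n V) (γ : Deg) (d : ℤ) : Submodule k V :=
  (N.sub (γ + d • h)).map ((LinearMap.lsmul (KK k) V (ν.x 2 ^ (-d))).restrictScalars k)

theorem mem_Dm {N : Fam k n V} {γ : Deg} {d : ℤ} {v : V} :
    v ∈ ν.Dm N γ d ↔ ν.x 2 ^ d • v ∈ N.sub (γ + d • h) := by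
  have h0 := zpow_ne_zero d (ν.ne 2)
  refine ⟨?_, fun hv => ⟨_, hv, ?_⟩⟩
  · rintro ⟨u, hu, rfl⟩
    change ν.x 2 ^ d • ν.x 2 ^ (-d) • u ∈ _
    rwa [zpow_neg, smul_inv_smul₀ h0]
  · change ν.x 2 ^ (-d) • ν.x 2 ^ d • v = v
    rw [zpow_neg, inv_smul_smul₀ h0]

theorem nn2_finrank {c : KK k} (hc : c ≠ 0) {A A' : Submodule k V} (H : ∀ v, v ∈ A ↔ c • v ∈ A') :
    finrank k A = finrank k A' := by
  have e : A' = A.map ((LinearMap.lsmul (KK k) V c).restrictScalars k) := by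
    ext v
    refine ⟨fun hv => ⟨c⁻¹ • v, (H _).2 (by rwa [smul_inv_smul₀ hc]), smul_inv_smul₀ hc v⟩, ?_⟩
    rintro ⟨u, hu, rfl⟩
    exact (H u).1 hu
  rw [e]
  exact (Submodule.equivMapOfInjective _ (smul_right_injective V hc) A).finrank_eq

theorem finrank_Dm (N : Fam k n V) (γ : Deg) (d : ℤ) : finrank k (ν.Dm N γ d) = N.dim (γ + d • h) := by
  exact nn2_finrank (zpow_ne_zero d (ν.ne 2)) fun _ => ν.mem_Dm

omit [Module k V] [IsScalarTower k (KK k) V] in
theorem nn2_smul (κ : ℕ) (d : ℤ) (i : Fin 3) (v : V) :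
    ν.x 2 ^ (d + κ) • TT ν.xi i ^ κ • v = ν.x i ^ κ • ν.x 2 ^ d • v := by
  have := ν.ne 2
  rw [smul_smul, smul_smul, TT_xi, zpow_add₀ this, zpow_natCast, div_pow]
  congr 1
  field_simp

theorem mem_sumX_Dm {N : Fam k n V} {γ : Deg} {d : ℤ} (κ : ℕ) {v : V} :
    v ∈ sumX (fun i => TT ν.xi i ^ κ) (ν.Dm N γ d) ↔
      ν.x 2 ^ (d + κ) • v ∈ sumX (fun i => ν.x i ^ κ) (N.sub (γ + d • h)) := by
  have h0 := fun d : ℤ => zpow_ne_zero d (ν.ne 2)
  constructor
  · rintro ⟨u, hu, rfl⟩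
    exact ⟨fun i => ν.x 2 ^ d • u i, fun i => ν.mem_Dm.1 (hu i), by
      simp only [Finset.smul_sum, nn2_smul]⟩
  · rintro ⟨u, hu, e⟩
    refine ⟨fun i => (ν.x 2 ^ d)⁻¹ • u i, fun i => ν.mem_Dm.2 (by simpa only [smul_inv_smul₀ (h0 d)] using hu i),
      smul_right_injective V (h0 (d + κ)) ?_⟩
    simp only [e, Finset.smul_sum, nn2_smul, smul_inv_smul₀ (h0 d)]

theorem finrank_sumX_Dm (N : Fam k n V) (γ : Deg) (d : ℤ) (κ : ℕ) :
    finrank k (sumX (fun i => TT ν.xi i ^ κ) (ν.Dm N γ d)) =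
      finrank k (sumX (fun i => ν.x i ^ κ) (N.sub (γ + d • h))) := by
  exact nn2_finrank (zpow_ne_zero _ (ν.ne 2)) fun _ => ν.mem_sumX_Dm κ

theorem aeval_mem {E : MvPolynomial (Fin 3) k} {j : ℕ} (hE : E.IsHomogeneous j) :
    MvPolynomial.aeval ν.x E ∈ S k n ((j : ℤ) • h) := by
  have H : AFam ν.x fun d => S k n (d • h) := fun i d v hv => by
    simp only [add_smul, one_smul, add_comm _ h]
    exact mul_mem_S (ν.mem i) hv
  simpa using H.aeval_smul_mem hE (d := 0) (v := 1) (one_mem_S (by simp))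

theorem pow_smul_mem {N : Fam k n V} (i : Fin 3) (κ : ℕ) {γ : Deg} {v : V} (hv : v ∈ N.sub γ) :
    ν.x i ^ κ • v ∈ N.sub (γ + (κ : ℤ) • h) := by
  rw [add_comm]
  exact N.smul_mem (pow_mem_S (ν.mem i) κ) hv

/-- `ν.cop`. -/
theorem hull_S_le (γ : Deg) (κ : ℕ) :
    hull (fun i => ν.x i ^ κ) (S k n (γ + (κ : ℤ) • h)) ≤ S k n γ := by
  exact fun f hf => ν.cop γ f κ (hf 0) (hf 1)

variable [NeZero n]

/-- `γ ↦ sumX ν.x (N.sub (γ - h))` is a family `N' ≤ N`; every colon ideal `X.colon δ w`, `X ≥ N'`, contains the `x i` in degree `h`;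
`eventually_eq_of_irr`, `ν.irr`, `tendsto_add_deep`. -/
theorem surj {N : Fam k n V} (hN : N.FG) : ∀ᶠ γ in deep, N.sub (γ + h) ≤ sumX ν.x (N.sub γ) := by
  let N' : Fam k n V :=
    { sub := fun γ => sumX ν.x (N.sub (γ - h))
      smul_mem := by
        rintro γ δ f _ hf ⟨u, hu, rfl⟩
        refine ⟨fun i => f • u i, fun i => ?_, by simp only [Finset.smul_sum, smul_comm f]⟩
        rw [add_sub_assoc]
        exact N.smul_mem hf (hu i) }
  have hle : N' ≤ N := fun γ => sumX_le fun i v hv => by simpa using N.smul_mem (ν.mem i) hv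
  have H := Fam.eventually_eq_of_irr hN hle fun X hX δ w hw hP => ν.irr _ hP fun i =>
    Fam.mem_colon.2 ⟨ν.mem i, hX _ (smul_mem_sumX ν.x i (by simpa using hw))⟩
  filter_upwards [(tendsto_add_deep h).eventually H] with γ hγ
  rw [← hγ]
  simp [N']

/-- `low`: `S (γ + d • h - δ i) = ⊥` for `d ≪ 0` (`S_eq_bot_of_neg`, `B_pos_of_ample`); `gen`: `surj`. -/
theorem afg {N : Fam k n V} (hN : N.FG) (γ : Deg) : AFG (TT ν.xi) (ν.Dm N γ) := by
  refine ⟨fun i d v hv => ?_, fun d => ?_, ?_, ?_⟩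
  · have h1 := ν.nn2_smul 1 d i v
    have h2 := ν.pow_smul_mem i 1 (ν.mem_Dm.1 hv)
    rw [← h1, add_assoc, ← add_smul, pow_one] at h2
    exact ν.mem_Dm.2 h2
  · have := hN.finite (γ + d • h)
    unfold Dm
    infer_instance
  · obtain ⟨l, δ, u, rfl⟩ := hN.exists_fin
    refine ⟨-∑ i, |B (γ - δ i) h| - 1, fun d hd => eq_bot_iff.2 fun v hv => ?_⟩
    obtain ⟨f, hf, e⟩ := Fam.mem_gen_range.1 (ν.mem_Dm.1 hv)
    have h1 : ∀ i, f i = 0 := fun i => by
      have h2 := Finset.single_le_sum (f := fun i => |B (γ - δ i) h|) (fun _ _ => abs_nonneg _)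
        (Finset.mem_univ i)
      have h3 := B_pos_of_ample ν.ample ν.ample
      have h4 := le_abs_self (B (γ - δ i) h)
      have h5 := abs_nonneg (B (γ - δ i) h)
      have h6 : B (γ + d • h - δ i) h < 0 := by
        rw [add_sub_right_comm, B_add_left, B_smul_left]
        nlinarith
      exact (Submodule.mem_bot k).1 (S_eq_bot_of_neg (k := k) (n := n) ν.ample.nef h6 ▸ hf i)
    simpa [h1, zpow_ne_zero d (ν.ne 2)] using e
  · obtain ⟨d1, h1⟩ := eventually_atTop.1 ((tendsto_add_smul_deep ν.ample γ).eventually (ν.surj hN))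
    refine ⟨d1, fun d hd v hv => ?_⟩
    have h2 := ν.mem_Dm.1 hv
    rw [add_smul, one_smul, ← add_assoc] at h2
    simpa using (ν.mem_sumX_Dm 1).2 (by simpa using h1 d hd h2)

omit [NeZero n] in
theorem nn2_aeval {E : MvPolynomial (Fin 3) k} {j : ℕ} (hE : E.IsHomogeneous j) :
    MvPolynomial.aeval (TT ν.xi) E = MvPolynomial.aeval ν.x E / ν.x 2 ^ j := by
  rw [E.as_sum, map_sum, map_sum, Finset.sum_div]
  refine Finset.sum_congr rfl fun s hs => ?_
  have h1 : j = s.degree := hE.degree_eq_sum_deg_support hs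
  rw [h1, Finsupp.degree_eq_sum, MvPolynomial.aeval_monomial, MvPolynomial.aeval_monomial,
    Finsupp.prod_fintype _ _ (by simp), Finsupp.prod_fintype _ _ (by simp), mul_div_assoc,
    ← Finset.prod_pow_eq_pow_sum, ← Finset.prod_div_distrib]
  simp only [TT_xi, div_pow]

/-- Otherwise `aeval (TT xi) E = 0` and `AFG.finrank_le_of_rel` for the `n^5` modules `Dm SF (rel (chr c))` makes
`cdim SF (d • h)` grow linearly, but it is `n³ Pol 1 0 0 (d • h)` with `qq (toQ h) > 0` (`hasData_SF`, `Pol_ray`). -/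
theorem aeval_ne_zero {E : MvPolynomial (Fin 3) k} {j : ℕ} (hE : E.IsHomogeneous j) (h0 : E ≠ 0) :
    MvPolynomial.aeval ν.x E ≠ 0 := by
  intro H
  have h1 : MvPolynomial.aeval (TT ν.xi) E = 0 := by rw [ν.nn2_aeval hE, H, zero_div]
  choose C hC using fun c : Fin 5 → Fin n =>
    (ν.afg Fam.fg_SF (rel (chr c))).finrank_le_of_rel hE h0 h1
  have h2 : ∀ d : ℕ, (SF k n).cdim (0 + (d : ℤ) • h) ≤ (∑ c, C c) * (d + 1) := fun d => by
    rw [Finset.sum_mul, zero_add]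
    refine Finset.sum_le_sum fun c _ => le_trans (le_of_eq ?_) (hC c d)
    rw [finrank_Dm, add_comm]
  have h3 : 0 ≤ -((n : ℚ) ^ 3 * qq (toQ h)) := by
    refine comb3_quad (a := (∑ c, C c : ℕ) - (n : ℚ) ^ 3 * Pol n 1 0 0 0)
      (b := (∑ c, C c : ℕ) - (n : ℚ) ^ 3 * (B (toQ 0 - kap2 n) (toQ h) + (B h 0 : ℤ))) ?_
    filter_upwards [(tendsto_add_smul_deep ν.ample 0).eventually (hasData_SF (k := k) (n := n)),
      eventually_ge_atTop 0] with t ht h0
    obtain ⟨d, rfl⟩ := Int.eq_ofNat_of_zero_le h0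
    have h4 : ((SF k n).cdim (0 + (d : ℤ) • h) : ℚ) ≤ (∑ c, C c : ℕ) * (d + 1) := by
      exact_mod_cast h2 d
    rw [ht, Pol_ray] at h4
    push_cast at h4 ⊢
    linarith
  have h4 : (0 : ℚ) < (B h h : ℤ) := by exact_mod_cast B_pos_of_ample ν.ample ν.ample
  have h5 : (0 : ℚ) < n := by exact_mod_cast NeZero.pos n
  rw [comb3_qq_toQ] at h3
  linarith [mul_pos (pow_pos h5 3) h4]

open MvPolynomial in
theorem nn2_homog (P : MvPolynomial (Fin 2) k) : ∃ (j : ℕ) (E : MvPolynomial (Fin 3) k),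
    E.IsHomogeneous j ∧ aeval ![X 0, X 1, 1] E = P := by
  induction P using MvPolynomial.induction_on with
  | C a => exact ⟨0, C a, isHomogeneous_C _ _, by simp⟩
  | add P Q hP hQ =>
    obtain ⟨j, E, hE, rfl⟩ := hP
    obtain ⟨j', E', hE', rfl⟩ := hQ
    exact ⟨j + j', E * X 2 ^ j' + X 2 ^ j * E',
      (hE.mul (isHomogeneous_X_pow _ _)).add ((isHomogeneous_X_pow _ _).mul hE'), by simp⟩
  | mul_X P i hP =>
    obtain ⟨j, E, hE, rfl⟩ := hP
    exact ⟨j + 1, E * X i.castSucc, hE.mul (isHomogeneous_X _ _), by fin_cases i <;> simp⟩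

/-- Homogenise a relation: `P ↦ ∑ m ∈ support, monomial (m 0, m 1, D - m 0 - m 1) (coeff m P)`. -/
theorem ind : AlgebraicIndependent k ν.xi := by
  refine algebraicIndependent_iff.2 fun P hP => ?_
  obtain ⟨j, E, hE, rfl⟩ := nn2_homog P
  by_contra h0
  refine ν.aeval_ne_zero hE (fun h1 => h0 (by rw [h1, map_zero])) ?_
  have h1 : MvPolynomial.aeval (TT ν.xi) E = 0 := by
    rw [← hP, ← AlgHom.comp_apply, MvPolynomial.comp_aeval]
    congr 2
    funext i
    fin_cases i <;> simp [TT]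
  rw [ν.nn2_aeval hE] at h1
  exact (div_eq_zero_iff.1 h1).resolve_right (pow_ne_zero _ (ν.ne 2))

/-- The forms of degree `i` give a subspace of `S (i • h)` of dimension `(i+1)(i+2)/2` (`finrank_homogeneousSubmodule`,
`aeval_ne_zero`), while `f * S (i • h - δ)` has codimension `O(i)`: by `dim_add_cdim_le` for `gen {(δ, f)} ≤ SF` it is at most
`cdim SF (i h) - cdim SF (i h - δ)`, linear in `i` (`hasData_SF`, `Pol_ray`).  So they meet. -/
theorem exists_form_dvd {δ : Deg} {f : KK k} (hf : f ∈ S k n δ) (h0 : f ≠ 0) :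
    ∃ (i : ℕ) (E : MvPolynomial (Fin 3) k) (g : KK k), E.IsHomogeneous i ∧ E ≠ 0 ∧
      g ∈ S k n ((i : ℤ) • h - δ) ∧ f * g = MvPolynomial.aeval ν.x E := by
  by_contra H
  have hle : (Fam.gen n {(δ, f)} : Fam k n (KK k)) ≤ SF k n :=
    Fam.gen_le_iff.2 fun p hp => by rwa [Set.mem_singleton_iff.1 hp]
  have h1 : ∀ i : ℕ, (i + 1) * (i + 2) + 2 * (SF k n).cdim (-δ + (i : ℤ) • h) ≤
      2 * (SF k n).cdim (0 + (i : ℤ) • h) := fun i => by
    obtain ⟨a1, a2⟩ := finrank_homogeneousSubmodule k i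
    have a3 := Fam.dim_add_cdim_le Fam.fg_SF hle ((i : ℤ) • h)
    rw [Fam.prime_cdim_gen _ _ h0] at a3
    let φ : (MvPolynomial.homogeneousSubmodule (Fin 3) k i ×
        (Fam.gen n {(δ, f)} : Fam k n (KK k)).sub ((i : ℤ) • h)) →ₗ[k] S k n ((i : ℤ) • h) :=
      LinearMap.codRestrict _ (LinearMap.coprod
        ((MvPolynomial.aeval ν.x).toLinearMap ∘ₗ Submodule.subtype _) (-Submodule.subtype _))
        fun p => add_mem (ν.aeval_mem p.1.2) (neg_mem (hle _ p.2.2))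
    have a4 : Function.Injective φ := by
      rw [injective_iff_map_eq_zero]
      rintro ⟨⟨E, hE⟩, w, hw⟩ e
      have e' : MvPolynomial.aeval ν.x E = w := add_neg_eq_zero.1 (congrArg Subtype.val e)
      obtain ⟨g, hg, rfl⟩ := Fam.mem_gen_singleton.1 hw
      by_cases hE0 : E = 0
      · subst hE0
        exact Prod.ext rfl (Subtype.ext (by simpa using e'.symm))
      · exact absurd ⟨i, E, g, hE, hE0, hg, by rw [e', smul_eq_mul, mul_comm]⟩ H
    have := (Fam.fg_gen (k := k) (n := n) (Set.finite_singleton (δ, f))).finite ((i : ℤ) • h)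
    have a5 := LinearMap.finrank_le_finrank_of_injective a4
    rw [finrank_prod] at a5
    change finrank k (S k n _) + _ ≤ finrank k _ + _ at a3
    rw [zero_add, neg_add_eq_sub]
    omega
  have hD := hasData_SF (k := k) (n := n)
  have h2 : (0 : ℚ) ≤ -1 := by
    refine comb3_quad (a := 2 * (n : ℚ) ^ 3 * (Pol n 1 0 0 0 - Pol n 1 0 0 (-δ)) - 2)
      (b := 2 * (n : ℚ) ^ 3 * (B (toQ 0 - kap2 n) (toQ h) - B (toQ (-δ) - kap2 n) (toQ h)) - 3) ?_
    filter_upwards [(tendsto_add_smul_deep ν.ample 0).eventually hD,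
      (tendsto_add_smul_deep ν.ample (-δ)).eventually hD, eventually_ge_atTop 0] with t ht ht' h0
    obtain ⟨d, rfl⟩ := Int.eq_ofNat_of_zero_le h0
    have h4 : ((d : ℚ) + 1) * (d + 2) + 2 * (SF k n).cdim (-δ + (d : ℤ) • h) ≤
      2 * (SF k n).cdim (0 + (d : ℤ) • h) := by exact_mod_cast h1 d
    rw [ht, ht', Pol_ray, Pol_ray] at h4
    push_cast at h4 ⊢
    linarith
  linarith

end NN

end Crest.Agent.R169
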