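import Crest.Agent.R169.Defs2
import Crest.Agent.R169.NN2

/-!
# rid 169, file `Filt1`: admissible filtrations exist; basic properties

Prefix helper lemmas with `filt1_`.
-/

set_option autoImplicit false

namespace Crest.Agent.R169

open Filter Module

variable {n : ℕ} {ℓ : Deg} {R : Type} [CommRing R] [Algebra ℂ R] {c : ℕ}
  {M : Type} [AddCommGroup M] [Module R M] [Module ℂ M] [IsScalarTower ℂ R M]

theorem Sys.a_one (σ : Sys n ℓ R) : σ.a 0 1 = 1 := by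
  simpa only [smul_zero, neg_zero, mono_zero, Prod.mk_zero_zero] using σ.a_unit 0

/-- `a_unit` for `-ρ`, with the membership needed to use it. -/
theorem Sys.a_unit' (σ : Sys n ℓ R) (ρ : Fin 5 → ℤ) :
    mono ℂ (-ρ) ∈ S ℂ n (dg ℓ (0, (n : ℤ) • ρ)) ∧ σ.a (0, (n : ℤ) • ρ) (mono ℂ (-ρ)) = 1 := by
  refine ⟨mono_mem_S ?_, by simpa only [smul_neg, neg_neg] using σ.a_unit (-ρ)⟩
  rw [dg, zero_smul, zero_add, rel_smul, rel_neg, smul_neg, add_neg_cancel]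

theorem filt1_one (δ : Gam) (h : δ = 0 := by simp) : (1 : KK ℂ) ∈ S ℂ n (dg ℓ δ) :=
  one_mem_S (by rw [h, dg_zero])

theorem filt1_mul {δ δ' : Gam} {f g : KK ℂ} (hf : f ∈ S ℂ n (dg ℓ δ)) (hg : g ∈ S ℂ n (dg ℓ δ')) :
    f * g ∈ S ℂ n (dg ℓ (δ + δ')) := dg_add ℓ δ δ' ▸ mul_mem_S hf hg

theorem filt1_x (ν : NN ℂ n ((c : ℤ) • ℓ)) (i : Fin 3) : ν.x i ∈ S ℂ n (dg ℓ ((c : ℤ), 0)) :=
  (dg_mk_zero ℓ c).symm ▸ ν.mem i

theorem filt1_aeval (ν : NN ℂ n ((c : ℤ) • ℓ)) {E : MvPolynomial (Fin 3) ℂ} {j : ℕ}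
    (hE : E.IsHomogeneous j) : MvPolynomial.aeval ν.x E ∈ S ℂ n (dg ℓ ((j : ℤ) * c, 0)) := by
  rw [dg_mk_zero, mul_smul]
  exact ν.aeval_mem hE

theorem filt1_a_aeval (σ : Sys n ℓ R) (ν : NN ℂ n ((c : ℤ) • ℓ)) {E : MvPolynomial (Fin 3) ℂ} {j : ℕ}
    (hE : E.IsHomogeneous j) :
    σ.a ((j : ℤ) * c, 0) (MvPolynomial.aeval ν.x E) = MvPolynomial.aeval (σ.X ν) E := by
  induction j generalizing E with
  | zero =>
    obtain ⟨r, rfl⟩ : E ∈ (1 : Submodule ℂ _) := by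
      rw [← MvPolynomial.homogeneousSubmodule_zero]; exact hE
    simp [Prod.mk_zero_zero, σ.a_one]
  | succ j ih =>
    obtain ⟨b, hb, rfl⟩ := an_split hE
    have e : ((((j + 1 : ℕ) : ℤ) * c, 0) : Gam) = ((c : ℤ), 0) + ((j : ℤ) * c, 0) :=
      Prod.ext (by push_cast; simp only [Prod.fst_add]; ring) (add_zero _).symm
    simp only [map_sum, map_mul, MvPolynomial.aeval_X, e]
    exact Finset.sum_congr rfl fun i _ => by
      rw [σ.a_mul _ _ _ _ (filt1_x ν i) (filt1_aeval ν (hb i)), ih (hb i), Sys.X]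

theorem Sys.a_pow (σ : Sys n ℓ R) (ν : NN ℂ n ((c : ℤ) • ℓ)) (i : Fin 3) (κ : ℕ) :
    ν.x i ^ κ ∈ S ℂ n (dg ℓ ((κ : ℤ) * c, 0)) ∧ σ.a ((κ : ℤ) * c, 0) (ν.x i ^ κ) = σ.X ν i ^ κ := by
  have h := MvPolynomial.isHomogeneous_X_pow (R := ℂ) i κ
  simpa only [map_pow, MvPolynomial.aeval_X] using And.intro (filt1_aeval ν h) (filt1_a_aeval σ ν h)

/-- Linear in `E`; on monomials induct with `a_mul`. -/
theorem Sys.a_aeval (σ : Sys n ℓ R) (ν : NN ℂ n ((c : ℤ) • ℓ)) {E : MvPolynomial (Fin 3) ℂ} {j : ℕ}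
    (hE : E.IsHomogeneous j) :
    σ.a ((j : ℤ) * c, 0) (MvPolynomial.aeval ν.x E) = MvPolynomial.aeval (σ.X ν) E := by
  exact filt1_a_aeval σ ν hE

theorem filt1_smul_le (Y : Fin 3 → R) (N : Submodule R M) {v : M} (hv : v ∈ idl Y • N) :
    v ∈ sumX Y (N.restrictScalars ℂ) := by
  refine Submodule.smul_induction_on hv (fun r hr u hu => ?_) fun _ _ => add_mem
  obtain ⟨a, rfl⟩ := (Submodule.mem_span_range_iff_exists_fun R).1 hr
  refine ⟨fun i => a i • u, fun i => N.smul_mem _ hu, ?_⟩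
  simp only [Finset.sum_smul, smul_eq_mul, mul_comm (a _), mul_smul]

omit [Module ℂ M] [IsScalarTower ℂ R M] [Algebra ℂ R] in
theorem filt1_zero (X : Fin 3 → R) (v : M) : v ∈ ipow M X 0 := by simp [ipow]

omit [Module ℂ M] [IsScalarTower ℂ R M] [Algebra ℂ R] in
theorem filt1_ipow_add (X : Fin 3 → R) (i j : ℕ) : ipow M X (i + j) = idl X ^ i • ipow M X j := by
  rw [ipow, pow_add, Submodule.mul_smul]

/-- `(idl X)^(3κ) ≤ idl (X^κ)` (pigeonhole; `Ideal.sup_pow_add_le_pow_sup_pow` or radical-free induction). -/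
theorem ipow_le_sumX (X : Fin 3 → R) (κ j : ℕ) :
    (ipow M X (3 * κ + j)).restrictScalars ℂ ≤ sumX (fun i => X i ^ κ) ((ipow M X j).restrictScalars ℂ) := by
  intro v hv
  rw [Submodule.restrictScalars_mem, filt1_ipow_add] at hv
  refine filt1_smul_le _ _ (Submodule.smul_mono_left ?_ hv)
  have h : ∀ Y : Fin 3 → R, idl Y = Ideal.span {Y 0} ⊔ Ideal.span {Y 1} ⊔ Ideal.span {Y 2} :=
    fun Y => by
      rw [← Ideal.span_union, ← Ideal.span_union]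
      exact congrArg _ (Set.ext fun y => by simp [Fin.exists_fin_succ, eq_comm]; tauto)
  rw [h, h, show 3 * κ = κ + κ + κ by ring]
  simp only [← Ideal.span_singleton_pow]
  exact Ideal.sup_pow_add_le_pow_sup_pow.trans
    (sup_le_sup_right Ideal.sup_pow_add_le_pow_sup_pow _)

/-- Elements of `I^d M`. -/
theorem mem_ipow_iff (X : Fin 3 → R) (d : ℕ) (v : M) :
    v ∈ ipow M X d ↔ v ∈ Submodule.span ℂ {u | ∃ (E : MvPolynomial (Fin 3) ℂ) (m : M),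
      E.IsHomogeneous d ∧ u = MvPolynomial.aeval X E • m} := by
  constructor
  · intro hv
    induction d generalizing v with
    | zero => exact Submodule.subset_span ⟨1, v, MvPolynomial.isHomogeneous_one _ _, by simp⟩
    | succ d ih =>
      rw [add_comm, filt1_ipow_add, pow_one] at hv
      refine sumX_le (fun i u hu => ?_) (filt1_smul_le X _ hv)
      replace hu := ih u hu
      induction hu using Submodule.span_induction with
      | mem x h =>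
        obtain ⟨E, m, hE, rfl⟩ := h
        exact Submodule.subset_span ⟨E * MvPolynomial.X i, m,
          hE.mul (MvPolynomial.isHomogeneous_X _ i), by
            rw [map_mul, MvPolynomial.aeval_X, mul_comm, mul_smul]⟩
      | zero => rw [smul_zero]; exact zero_mem _
      | add a b _ _ ha hb => rw [smul_add]; exact add_mem ha hb
      | smul r a _ ha => rw [smul_comm]; exact Submodule.smul_mem _ r ha
  · refine fun hv => (Submodule.span_le (p := (ipow M X d).restrictScalars ℂ)).2 ?_ hv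
    rintro _ ⟨E, m, hE, rfl⟩
    have H : AFam X fun e => (ipow M X e.toNat).restrictScalars ℂ := fun i e u hu => by
      dsimp only
      rcases lt_or_ge e 0 with h | h
      · rw [show (e + 1).toNat = 0 by omega]
        exact filt1_zero X _
      · rw [show (e + 1).toNat = 1 + e.toNat by omega, filt1_ipow_add, pow_one,
          Submodule.restrictScalars_mem]
        exact Submodule.smul_mem_smul (Ideal.subset_span ⟨i, rfl⟩) hu
    simpa using H.aeval_smul_mem hE (d := 0) (v := m) (filt1_zero X m)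

namespace Filt

variable {σ : Sys n ℓ R} {X : Fin 3 → R} (Φ : Filt σ X c M)

omit [IsScalarTower ℂ R M] in
theorem anti_le {m m' : ℤ} (h : m ≤ m') (ρ : Fin 5 → ℤ) : Φ.F (m', ρ) ≤ Φ.F (m, ρ) := by
  induction m', h using Int.leInduction with
  | base => exact le_rfl
  | succ m' _ ih => exact le_trans (by simpa [e1] using Φ.anti (m', ρ)) ih

omit [IsScalarTower ℂ R M] in
theorem periodic (m : ℤ) (ρ ρ' : Fin 5 → ℤ) : Φ.F (m, ρ + (n : ℤ) • ρ') = Φ.F (m, ρ) := by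
  have key : ∀ ρ ρ' : Fin 5 → ℤ, Φ.F (m, ρ) ≤ Φ.F (m, ρ + (n : ℤ) • ρ') := fun ρ ρ' v hv => by
    have := Φ.smul_mem _ _ _ v (σ.a_unit' ρ').1 hv
    rwa [(σ.a_unit' ρ').2, one_smul, Prod.mk_add_mk, zero_add, add_comm] at this
  exact le_antisymm (by simpa using key (ρ + (n : ℤ) • ρ') (-ρ')) (key ρ ρ')

omit [IsScalarTower ℂ R M] in
theorem exists_eq_top : ∃ b : ℕ, ∀ (m : ℤ) (ρ : Fin 5 → ℤ), m ≤ -b → Φ.F (m, ρ) = ⊤ := by
  obtain ⟨b, hb⟩ := Φ.sand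
  exact ⟨b, fun m ρ h => eq_top_iff.2 fun v _ =>
    Φ.anti_le (by simpa using h) ρ ((hb 0 ρ).1 v (filt1_zero X v))⟩

theorem finite (hM : Good ℂ M X) (hc : 0 < c) (δ : Gam) : FiniteDimensional ℂ (M ⧸ Φ.F δ) := by
  obtain ⟨b, hb⟩ := Φ.sand
  have := hM.fin (δ.1 + b).toNat
  have h : (ipow M X (δ.1 + b).toNat).restrictScalars ℂ ≤ Φ.F δ := fun v hv =>
    Φ.anti_le (m := δ.1) (by
      have := Int.self_le_toNat (δ.1 + b)
      nlinarith [Int.natCast_nonneg (δ.1 + b).toNat]) δ.2 ((hb _ δ.2).1 v hv)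
  exact Module.Finite.of_surjective _ (Submodule.factor_surjective h)

end Filt

variable [NeZero n]

/-- `exists_denom` along the ray `m • ℓ`. -/
theorem exists_denom_gam (hℓ : Ample ℓ) {T : Type} [Finite T] (κ : T → KK ℂ) (ε : T → Gam) :
    ∃ (δ : Gam) (g : KK ℂ), g ≠ 0 ∧ g ∈ S ℂ n (dg ℓ δ) ∧ ∀ t, g * κ t ∈ S ℂ n (dg ℓ (δ + ε t)) := by
  obtain ⟨m, g, h1, h2, h3⟩ :=
    ((tendsto_smul_deep hℓ).eventually (exists_denom (n := n) κ fun t => dg ℓ (ε t))).exists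
  exact ⟨(m, 0), g, h1, by rwa [dg_mk_zero], fun t => by rw [dg_add, dg_mk_zero]; exact h3 t⟩

/-- the unsaturated filtration -/
noncomputable def filt1F (σ : Sys n ℓ R) (M : Type) [AddCommGroup M] [Module R M] [Module ℂ M]
    (m : ℤ) : Submodule ℂ M :=
  Submodule.span ℂ {u | ∃ δ f, ∃ v : M, m ≤ δ.1 ∧ f ∈ S ℂ n (dg ℓ δ) ∧ u = σ.a δ f • v}

omit [NeZero n] in
theorem filt1_F_mul (σ : Sys n ℓ R) {δ : Gam} {g : KK ℂ} (hg : g ∈ S ℂ n (dg ℓ δ)) {m m' : ℤ} {u : M}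
    (hu : u ∈ filt1F σ M m) (h : m' ≤ δ.1 + m) : σ.a δ g • u ∈ filt1F σ M m' := by
  induction hu using Submodule.span_induction with
  | mem x hx =>
    obtain ⟨δ', f, v, h1, h2, rfl⟩ := hx
    exact Submodule.subset_span ⟨δ + δ', g * f, v, h.trans (add_le_add_right h1 _),
      filt1_mul hg h2, by rw [σ.a_mul _ _ _ _ hg h2, mul_smul]⟩
  | zero => rw [smul_zero]; exact zero_mem _
  | add a b _ _ ha hb => rw [smul_add]; exact add_mem ha hb
  | smul r a _ ha => rw [smul_comm]; exact Submodule.smul_mem _ r ha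

omit [NeZero n] in
theorem filt1_F_anti (σ : Sys n ℓ R) {m m' : ℤ} {u : M} (hu : u ∈ filt1F σ M m) (h : m' ≤ m) :
    u ∈ filt1F σ M m' := by
  simpa only [σ.a_one, one_smul] using filt1_F_mul σ (filt1_one 0) hu (h.trans_eq (zero_add m).symm)

theorem filt1_F_le (σ : Sys n ℓ R) (hℓ : Ample ℓ) (ν : NN ℂ n ((c : ℤ) • ℓ)) :
    ∃ b : ℕ, ∀ j : ℕ, ∀ u ∈ filt1F σ M ((c : ℤ) * j + b), u ∈ ipow M (σ.X ν) j := by
  obtain ⟨m0, h0⟩ := eventually_atTop.1 ((tendsto_smul_deep hℓ).eventually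
    (eventually_forall_add_rel (ν.surj Fam.fg_SF)))
  have key : ∀ (j : ℕ) (δ : Gam) (f : KK ℂ), (c : ℤ) * j + m0.toNat ≤ δ.1 → f ∈ S ℂ n (dg ℓ δ) →
      σ.a δ f ∈ idl (σ.X ν) ^ j := by
    intro j
    induction j with
    | zero => simp
    | succ j ih =>
      intro δ f hδ hf
      obtain ⟨δ, rfl⟩ : ∃ δ', δ = ((c : ℤ), 0) + δ' := ⟨δ - ((c : ℤ), 0), by abel⟩
      have h1 : (c : ℤ) * j + m0.toNat ≤ δ.1 := by
        rw [Prod.fst_add] at hδ; push_cast at hδ; linarith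
      rw [dg_add, dg_mk_zero, add_comm] at hf
      obtain ⟨u, hu, rfl⟩ := h0 δ.1 ((Int.self_le_toNat m0).trans
        ((le_add_of_nonneg_left (by positivity)).trans h1)) δ.2 hf
      rw [map_sum, pow_succ']
      refine Submodule.sum_mem _ fun i _ => ?_
      rw [smul_eq_mul, σ.a_mul _ _ _ _ (filt1_x ν i) (hu i)]
      exact Ideal.mul_mem_mul (Ideal.subset_span ⟨i, rfl⟩) (ih _ _ h1 (hu i))
  refine ⟨m0.toNat, fun j u hu =>
    (Submodule.span_le (p := (ipow M (σ.X ν) j).restrictScalars ℂ)).2 ?_ hu⟩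
  rintro _ ⟨δ, f, v, h1, h2, rfl⟩
  rw [SetLike.mem_coe, Submodule.restrictScalars_mem]
  exact Submodule.smul_mem_smul (key j δ f h1 h2) Submodule.mem_top

/-- the saturated filtration -/
noncomputable def filt1G (σ : Sys n ℓ R) (M : Type) [AddCommGroup M] [Module R M] [Module ℂ M]
    [IsScalarTower ℂ R M] (m : ℤ) : Submodule ℂ M where
  carrier := {v | ∃ δ f, f ∈ S ℂ n (dg ℓ δ) ∧ f ≠ 0 ∧ σ.a δ f • v ∈ filt1F σ M (δ.1 + m)}
  zero_mem' := ⟨0, 1, filt1_one 0, one_ne_zero, by rw [smul_zero]; exact zero_mem _⟩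
  add_mem' := by
    rintro v w ⟨δ, f, h1, h2, h3⟩ ⟨δ', g, k1, k2, k3⟩
    refine ⟨δ + δ', f * g, filt1_mul h1 k1, mul_ne_zero h2 k2, ?_⟩
    rw [σ.a_mul _ _ _ _ h1 k1, smul_add, mul_smul, mul_smul, smul_comm, Prod.fst_add]
    exact add_mem (filt1_F_mul σ k1 h3 (by linarith)) (filt1_F_mul σ h1 k3 (by linarith))
  smul_mem' := by
    rintro r v ⟨δ, f, h1, h2, h3⟩
    exact ⟨δ, f, h1, h2, by rw [smul_comm]; exact Submodule.smul_mem _ r h3⟩

/-- `F1 m = span ℂ {σ.a δ f • v | m ≤ δ.1, f ∈ S (dg ℓ δ)}` is antitone, `σ.a δ' g • F1 m ⊆ F1 (δ'.1 + m)` (`a_mul`).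
`I^j M ⊆ F1 (c j)` (`mem_ipow_iff`, `a_aeval`, `aeval_mem`).  Choose `b : ℕ` such that `ν.surj` (for `SF`) holds at all `dg ℓ (m, ρ)`, `m ≥ b`
(`eventually_forall_add_rel`, `tendsto_smul_deep`); by induction on `j`, `σ.a δ f ∈ I^j` when `δ.1 ≥ c j + b`, so `F1 (c j + b) ⊆ I^j M`.
Saturate: `F δ = {v | ∃ δ' f, f ∈ S (dg ℓ δ'), f ≠ 0, σ.a δ' f • v ∈ F1 (δ'.1 + δ.1)}` (a subspace: use the product of two `f`).  For the upper
half of `sand` take `(i, E, g)` from `exists_form_dvd`: `aeval X E • v = σ.a _ g • σ.a δ' f • v ∈ F1 (c (j + i) + b) ⊆ I^(j+i) M`, and `hM.qreg`. -/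
theorem exists_filt (σ : Sys n ℓ R) (hℓ : Ample ℓ) (ν : NN ℂ n ((c : ℤ) • ℓ)) (hM : Good ℂ M (σ.X ν)) :
    Nonempty (Filt σ (σ.X ν) c M) := by
  obtain ⟨b, hb⟩ := filt1_F_le (M := M) σ hℓ ν
  refine ⟨⟨fun δ => filt1G σ M δ.1, ?_, ?_, ?_, b, fun j ρ => ⟨fun v hv => ?_, ?_⟩⟩⟩
  · rintro δ v ⟨δ', f, h1, h2, h3⟩
    exact ⟨δ', f, h1, h2, filt1_F_anti σ h3 (by simp [e1])⟩
  · rintro δ δ' f v hf ⟨δ1, g, h1, h2, h3⟩
    refine ⟨δ1, g, h1, h2, ?_⟩
    rw [smul_comm, Prod.fst_add]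
    exact filt1_F_mul σ hf h3 (by linarith)
  · rintro δ δ' f v hf h0 - ⟨δ1, g, h1, h2, h3⟩
    refine ⟨δ1 + δ', g * f, filt1_mul h1 hf, mul_ne_zero h2 h0, ?_⟩
    rw [σ.a_mul _ _ _ _ h1 hf, mul_smul]
    exact filt1_F_anti σ h3 (by simp only [Prod.fst_add]; linarith)
  · refine ⟨0, 1, filt1_one 0, one_ne_zero, ?_⟩
    rw [σ.a_one, one_smul]
    refine Submodule.span_mono ?_ ((mem_ipow_iff _ j v).1 hv)
    rintro _ ⟨E, m, hE, rfl⟩
    exact ⟨_, _, m, by simp [mul_comm], filt1_aeval ν hE, by rw [σ.a_aeval ν hE]⟩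
  · rintro v ⟨δ, f, h1, h2, h3⟩
    obtain ⟨i, E, g, hE, hE0, hg, e⟩ := ν.exists_form_dvd h1 h2
    rw [← mul_smul, ← dg_mk_zero, ← dg_sub] at hg
    refine hM.qreg E i hE hE0 j v (hb _ _ ?_)
    rw [← σ.a_aeval ν hE, ← e, mul_comm f, ← sub_add_cancel (((i : ℤ) * c, 0) : Gam) δ,
      σ.a_mul _ _ _ _ hg h1, mul_smul]
    exact filt1_F_mul σ hg h3 (by simp only [Prod.fst_sub]; push_cast; linarith)

namespace Real

variable {σ : Sys n ℓ R} {X : Fin 3 → R} {Φ : Filt σ X c M}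
  {V : Type} [AddCommGroup V] [Module (KK ℂ) V] [Module ℂ V] [IsScalarTower ℂ (KK ℂ) V] (ϱ : Real Φ V)

omit [IsScalarTower ℂ R M] [NeZero n] in
/-- In the degrees `dg ℓ δ` the family is the graded piece (span induction, `dg_sub`, `smul`). -/
theorem mem_fam {δ : Gam} {x : V} : x ∈ ϱ.fam.sub (dg ℓ δ) ↔ ∃ v ∈ Φ.F δ, x = ϱ.ι δ v := by
  refine ⟨fun hx => ?_, fun ⟨v, hv, e⟩ => e ▸ Fam.subset_gen (p := (_, _)) ⟨δ, v, hv, rfl⟩⟩
  induction hx using Submodule.span_induction with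
  | mem x h =>
    obtain ⟨_, ⟨δ0, v, hv, rfl⟩, f, hf, rfl⟩ := h
    rw [← dg_sub] at hf
    have h1 := Φ.smul_mem _ _ f v hf hv
    have h2 := ϱ.smul _ _ f v hf hv
    rw [sub_add_cancel] at h1 h2
    exact ⟨_, h1, h2.symm⟩
  | zero => exact ⟨0, zero_mem _, (map_zero _).symm⟩
  | add a b _ _ ha hb =>
    obtain ⟨v, hv, rfl⟩ := ha
    obtain ⟨w, hw, rfl⟩ := hb
    exact ⟨v + w, add_mem hv hw, (map_add _ _ _).symm⟩
  | smul r a _ ha =>
    obtain ⟨v, hv, rfl⟩ := ha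
    exact ⟨r • v, Submodule.smul_mem _ r hv, (map_smul _ _ _).symm⟩

omit [NeZero n] in
theorem codim_succ (hM : Good ℂ M X) (hc : 0 < c) (δ : Gam) :
    codim (Φ.F (δ + e1)) = codim (Φ.F δ) + ϱ.fam.dim (dg ℓ δ) := by
  have := Φ.finite hM hc (δ + e1)
  have h1 : ϱ.fam.sub (dg ℓ δ) = LinearMap.range ((ϱ.ι δ).domRestrict (Φ.F δ)) := by
    ext x
    rw [ϱ.mem_fam, LinearMap.range_domRestrict]
    exact exists_congr fun v => and_congr_right fun _ => eq_comm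
  have h2 : LinearMap.ker ((ϱ.ι δ).domRestrict (Φ.F δ)) =
      LinearMap.ker ((Φ.F (δ + e1)).mkQ.domRestrict (Φ.F δ)) := by
    ext v
    exact (ϱ.ker δ v v.2).trans (Submodule.Quotient.mk_eq_zero _).symm
  rw [Fam.dim, h1, ← (LinearMap.quotKerEquivRange _).finrank_eq, h2,
    (LinearMap.quotKerEquivRange _).finrank_eq, LinearMap.range_domRestrict, codim, codim,
    ← (Submodule.quotientQuotientEquivQuotient _ _ (Φ.anti δ)).finrank_eq,
    Submodule.finrank_quotient_add_finrank]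

omit [NeZero n] in
/-- Otherwise `F δ ≤ F (δ + e1)` for all `δ`, so `⊤ = F (-b, 0) ≤ F (c + b, 0) ⊆ I M`. -/
theorem fam_ne_bot (hM : Good ℂ M X) : ϱ.fam ≠ ⊥ := by
  intro h
  have key : ∀ (m m' : ℤ), m ≤ m' → Φ.F (m, 0) ≤ Φ.F (m', 0) := fun m m' hm => by
    induction m', hm using Int.leInduction with
    | base => exact le_rfl
    | succ m' _ ih =>
      refine ih.trans fun v hv => ?_
      have h1 := ϱ.mem_fam.2 ⟨v, hv, rfl⟩
      rw [h] at h1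
      simpa [e1] using (ϱ.ker _ v hv).1 h1
  obtain ⟨b, hb⟩ := Φ.sand
  exact hM.ne_top (eq_top_iff.2 fun v _ => (hb 1 0).2 v
    (key _ _ (by push_cast; omega) ((hb 0 0).1 v (filt1_zero X v))))

omit [IsScalarTower ℂ R M] [NeZero n] in
/-- `F' δ = F (δ - (j, 0))`, `ι' δ = ι (δ - (j, 0))`, `b' = b + j`. -/
theorem exists_shift (j : ℕ) : ∃ (Φ' : Filt σ X c M) (ϱ' : Real Φ' V), ϱ'.fam = ϱ.fam.shift (-((j : ℤ) • ℓ)) := by
  obtain ⟨b, hb⟩ := Φ.sand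
  refine ⟨⟨fun δ => Φ.F (δ - ((j : ℤ), 0)), fun δ => ?_, fun δ δ' f v hf hv => ?_,
    fun δ δ' f v hf h0 hv h => ?_, b + j, fun i ρ => ⟨fun v hv => ?_, fun v hv => ?_⟩⟩,
    ⟨fun δ => ϱ.ι (δ - ((j : ℤ), 0)), fun δ v hv => ?_, fun δ δ' f v hf hv => ?_⟩, ?_⟩
  · rw [add_sub_right_comm]
    exact Φ.anti _
  · rw [add_sub_assoc]
    exact Φ.smul_mem _ _ f v hf hv
  · rw [add_sub_right_comm, add_sub_assoc] at h
    rw [add_sub_right_comm]
    exact Φ.sat _ _ f v hf h0 hv h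
  · rw [Prod.mk_sub_mk, sub_zero]
    exact Φ.anti_le (by push_cast; omega) ρ ((hb i ρ).1 v hv)
  · rw [Prod.mk_sub_mk, sub_zero] at hv
    exact (hb i ρ).2 v (Φ.anti_le (by push_cast; omega) ρ hv)
  · dsimp only
    rw [add_sub_right_comm]
    exact ϱ.ker _ v hv
  · rw [add_sub_assoc]
    exact ϱ.smul _ _ f v hf hv
  · rw [fam, fam, Fam.shift_gen]
    refine congrArg _ (Set.ext fun p => ⟨?_, ?_⟩)
    · rintro ⟨δ, v, hv, rfl⟩
      exact ⟨_, ⟨_, v, hv, rfl⟩, by simp only [dg_sub, dg_mk_zero, sub_neg_eq_add, sub_add_cancel]⟩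
    · rintro ⟨_, ⟨δ, v, hv, rfl⟩, rfl⟩
      refine ⟨δ + ((j : ℤ), 0), v, ?_, ?_⟩ <;>
        simp only [add_sub_cancel_right, hv, dg_add, dg_mk_zero, sub_neg_eq_add]

end Real

end Crest.Agent.R169
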