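import Crest.Agent.R169.Filt1

/-!
# rid 169, file `Filt2`: the associated graded module is finitely generated and torsion-free

Prefix helper lemmas with `filt2_`.
-/

set_option autoImplicit false

namespace Crest.Agent.R169

open Filter Module

variable {n : ℕ} [NeZero n] {ℓ : Deg} {R : Type} [CommRing R] [Algebra ℂ R] {c : ℕ}
  {M : Type} [AddCommGroup M] [Module R M] [Module ℂ M] [IsScalarTower ℂ R M]
  {σ : Sys n ℓ R} {ν : NN ℂ n ((c : ℤ) • ℓ)} (Φ : Filt σ (σ.X ν) c M)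

section Aux

theorem filt2_chr (n : ℕ) [NeZero n] (ρ : Fin 5 → ℤ) :
    ∃ (ρ0 : Fin 5 → Fin n) (ρ' : Fin 5 → ℤ), ρ = chr ρ0 + (n : ℤ) • ρ' := by
  have hn : (0 : ℤ) < n := Int.natCast_pos.2 (Nat.pos_of_ne_zero (NeZero.ne n))
  refine ⟨fun i => ⟨(ρ i % n).toNat, ?_⟩, fun i => ρ i / n, funext fun i => ?_⟩
  · have h1 := Int.emod_lt_of_pos (ρ i) hn
    have h2 := Int.emod_nonneg (ρ i) hn.ne'
    omega
  · have h2 := Int.emod_nonneg (ρ i) hn.ne'
    simp only [chr, Pi.add_apply, Pi.smul_apply, smul_eq_mul, Int.toNat_of_nonneg h2,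
      Int.emod_add_mul_ediv]

theorem filt2_span {k V : Type} [Field k] [AddCommGroup V] [Module k V] (U W : Submodule k V)
    [FiniteDimensional k (V ⧸ W)] :
    ∃ s : Finset V, (∀ x ∈ s, x ∈ U) ∧ U ≤ Submodule.span k (s : Set V) ⊔ W := by
  classical
  obtain ⟨t, ht⟩ : (U.map W.mkQ).FG := Submodule.FG.of_finite
  have h1 : (t : Set (V ⧸ W)) ⊆ W.mkQ '' U := fun x hx => by
    have : x ∈ U.map W.mkQ := ht ▸ Submodule.subset_span hx
    exact this
  obtain ⟨s, hs, rfl⟩ := Finset.subset_set_image_iff.1 h1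
  refine ⟨s, fun x hx => hs hx, ?_⟩
  have h2 : U.map W.mkQ ≤ (Submodule.span k (s : Set V)).map W.mkQ := by
    rw [Submodule.map_span, ← ht, Finset.coe_image]
  rwa [LinearMap.map_le_map_iff, Submodule.ker_mkQ] at h2

theorem filt2_factor {k N V V' : Type} [Field k] [AddCommGroup N] [Module k N] [AddCommGroup V]
    [Module k V] [AddCommGroup V'] [Module k V'] (a : N →ₗ[k] V) (b : N →ₗ[k] V')
    (h : LinearMap.ker a ≤ LinearMap.ker b) : ∃ θ : V →ₗ[k] V', ∀ x, θ (a x) = b x := by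
  obtain ⟨θ, hθ⟩ := LinearMap.exists_extend
    (((LinearMap.ker a).liftQ b h) ∘ₗ a.quotKerEquivRange.symm.toLinearMap)
  refine ⟨θ, fun x => ?_⟩
  have := LinearMap.congr_fun hθ ⟨a x, LinearMap.mem_range_self a x⟩
  simp only [LinearMap.comp_apply, Submodule.subtype_apply, LinearEquiv.coe_coe] at this
  rw [this, LinearMap.quotKerEquivRange_symm_apply_image, Submodule.mkQ_apply,
    Submodule.liftQ_apply]

theorem filt2_aeval_mem (X : Fin 3 → R) {E : MvPolynomial (Fin 3) ℂ} {j : ℕ}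
    (hE : E.IsHomogeneous j) : MvPolynomial.aeval X E ∈ idl X ^ j := by
  induction j generalizing E with
  | zero => simp
  | succ j ih =>
    obtain ⟨b, hb, rfl⟩ := an_split hE
    rw [map_sum]
    refine Submodule.sum_mem _ fun i _ => ?_
    rw [map_mul, MvPolynomial.aeval_X, pow_succ']
    exact Ideal.mul_mem_mul (Ideal.subset_span ⟨i, rfl⟩) (ih (hb i))

/-- Artin–Rees type statement: a graded family squeezed between powers of `I` is eventually
generated, modulo a deep power. -/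
theorem filt2_abs {X : Fin 3 → R} (B : ℕ)
    [FiniteDimensional ℂ (M ⧸ (ipow M X B).restrictScalars ℂ)]
    (G : ℤ → Submodule ℂ M) (hG : AFam X G)
    (h1 : ∀ d : ℕ, ∀ v ∈ G d, v ∈ ipow M X d) (h2 : ∀ d : ℕ, ∀ v ∈ ipow M X (d + B), v ∈ G d) :
    ∃ d1 : ℕ, ∀ d : ℕ, d1 ≤ d →
      G (d + 1) ≤ sumX X (G d) ⊔ (ipow M X (d + 1 + B)).restrictScalars ℂ := by
  classical
  obtain ⟨s, -, hs⟩ := filt2_span (⊤ : Submodule ℂ M) ((ipow M X B).restrictScalars ℂ)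
  let e : s → M := fun t => t.1
  have key : ∀ d : ℕ, ∀ v ∈ ipow M X d, ∃ E : s → MvPolynomial (Fin 3) ℂ,
      (∀ t, (E t).IsHomogeneous d) ∧ v - anV X e E ∈ ipow M X (d + B) := by
    intro d v hv
    rw [mem_ipow_iff] at hv
    induction hv using Submodule.span_induction with
    | mem x h =>
      obtain ⟨E, m, hE, rfl⟩ := h
      obtain ⟨y, hy, w, hw, rfl⟩ := Submodule.mem_sup.1 (hs (Submodule.mem_top (x := m)))
      obtain ⟨z, rfl⟩ := Submodule.mem_span_finset'.1 hy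
      refine ⟨fun t => z t • E, fun t => ?_, ?_⟩
      · exact (MvPolynomial.homogeneousSubmodule (Fin 3) ℂ d).smul_mem _ hE
      · have : MvPolynomial.aeval X E • (∑ a : s, z a • (a : M) + w) -
            anV X e (fun t => z t • E) = MvPolynomial.aeval X E • w := by
          rw [anV_apply, smul_add, Finset.smul_sum, add_sub_right_comm, ← Finset.sum_sub_distrib,
            Finset.sum_eq_zero, zero_add]
          intro t _
          rw [map_smul, smul_assoc, smul_comm, sub_self]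
        rw [this, ipow, pow_add, mul_smul]
        exact Submodule.smul_mem_smul (filt2_aeval_mem X hE) hw
    | zero => exact ⟨0, fun _ => MvPolynomial.isHomogeneous_zero _ _ _, by simp⟩
    | add a b _ _ ha hb =>
      obtain ⟨E, hE, h⟩ := ha
      obtain ⟨E', hE', h'⟩ := hb
      refine ⟨E + E', fun t => (hE t).add (hE' t), ?_⟩
      rw [map_add, add_sub_add_comm]
      exact add_mem h h'
    | smul z a _ ha =>
      obtain ⟨E, hE, h⟩ := ha
      refine ⟨z • E, fun t => (MvPolynomial.homogeneousSubmodule (Fin 3) ℂ d).smul_mem _ (hE t), ?_⟩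
      rw [map_smul, ← smul_sub]
      exact Submodule.smul_of_tower_mem _ z h
  have hfree := AFG.free ℂ s
  have hD := hfree.of_le (D' := fun d : ℤ => (if 0 ≤ d then Submodule.pi Set.univ
      (fun _ => MvPolynomial.homogeneousSubmodule (Fin 3) ℂ d.toNat) else ⊥) ⊓
        (G d).comap (anV X e))
    (fun i d v hv => ⟨hfree.fam i d v hv.1, by
      have := hG i d _ hv.2
      show anV X e (_ • v) ∈ G (d + 1)
      rw [anV_smul, MvPolynomial.aeval_X]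
      exact this⟩) (fun d => inf_le_left)
  obtain ⟨d1, hd1⟩ := hD.gen
  refine ⟨d1.toNat, fun d hd v hv => ?_⟩
  have hv' : v ∈ G ((d + 1 : ℕ) : ℤ) := by simpa using hv
  obtain ⟨E, hE, h⟩ := key (d + 1) v (h1 _ v hv')
  have h3 : anV X e E ∈ G (d + 1) := by
    have h4 := sub_mem hv' (h2 _ _ h)
    simpa using h4
  obtain ⟨E', hE', he⟩ := hd1 d (by omega) (show E ∈ _ from ⟨by
    rw [if_pos (by omega)]
    exact fun t _ => by simpa using hE t, h3⟩)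
  refine Submodule.mem_sup.2 ⟨anV X e E, ⟨fun i => anV X e (E' i), fun i => (hE' i).2, ?_⟩,
    v - anV X e E, h, by abel⟩
  rw [he, map_sum]
  exact Finset.sum_congr rfl fun i _ => by rw [anV_smul, MvPolynomial.aeval_X]

variable {L : Type} [Fintype L]

/-- combination of the generators with coefficients of total degree `δ` -/
noncomputable def filt2_psi (σ : Sys n ℓ R) (d : L → Gam) (u : L → M) (δ : Gam) :
    (L → KK ℂ) →ₗ[ℂ] M where
  toFun f := ∑ t, σ.a (δ - d t) (f t) • u t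
  map_add' f g := by simp [add_smul, Finset.sum_add_distrib]
  map_smul' z f := by simp [Finset.smul_sum]

omit [NeZero n] in
theorem filt2_psi_apply (σ : Sys n ℓ R) (d : L → Gam) (u : L → M) (δ : Gam) (f : L → KK ℂ) :
    filt2_psi σ d u δ f = ∑ t, σ.a (δ - d t) (f t) • u t := rfl

/-- coefficient vectors of total degree `δ` -/
noncomputable def filt2_T (n : ℕ) (ℓ : Deg) (d : L → Gam) (δ : Gam) : Submodule ℂ (L → KK ℂ) :=
  Submodule.pi Set.univ fun t => S ℂ n (dg ℓ (δ - d t))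

omit [NeZero n] [Fintype L] in
theorem filt2_memT {d : L → Gam} {δ : Gam} {f : L → KK ℂ} :
    f ∈ filt2_T n ℓ d δ ↔ ∀ t, f t ∈ S ℂ n (dg ℓ (δ - d t)) := by simp [filt2_T]

omit [NeZero n] [Fintype L] in
theorem filt2_T_smul {d : L → Gam} {δ δ' : Gam} {f : L → KK ℂ} {g : KK ℂ}
    (hg : g ∈ S ℂ n (dg ℓ δ')) (hf : f ∈ filt2_T n ℓ d δ) : g • f ∈ filt2_T n ℓ d (δ' + δ) :=
  filt2_memT.2 fun t => by
    have := mul_mem_S hg (filt2_memT.1 hf t)
    rwa [← dg_add, ← add_sub_assoc] at this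

omit [NeZero n] in
theorem filt2_psi_smul (σ : Sys n ℓ R) {d : L → Gam} (u : L → M) {δ δ' : Gam} {f : L → KK ℂ}
    {g : KK ℂ} (hg : g ∈ S ℂ n (dg ℓ δ')) (hf : f ∈ filt2_T n ℓ d δ) :
    filt2_psi σ d u (δ' + δ) (g • f) = σ.a δ' g • filt2_psi σ d u δ f := by
  rw [filt2_psi_apply, filt2_psi_apply, Finset.smul_sum]
  refine Finset.sum_congr rfl fun t _ => ?_
  rw [Pi.smul_apply, smul_eq_mul, add_sub_assoc, σ.a_mul _ _ _ _ hg (filt2_memT.1 hf t), mul_smul]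

omit [NeZero n] in
theorem filt2_psi_single [DecidableEq L] (σ : Sys n ℓ R) (d : L → Gam) (u : L → M) (δ : Gam) (t : L)
    (g : KK ℂ) : filt2_psi σ d u δ (Pi.single t g) = σ.a (δ - d t) g • u t := by
  rw [filt2_psi_apply, Finset.sum_eq_single t] <;> simp +contextual [Pi.single_eq_of_ne]

omit [NeZero n] [Fintype L] in
theorem filt2_single_mem [DecidableEq L] {d : L → Gam} {δ : Gam} {t : L} {g : KK ℂ}
    (hg : g ∈ S ℂ n (dg ℓ (δ - d t))) : Pi.single t g ∈ filt2_T n ℓ d δ :=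
  filt2_memT.2 fun s => by
    by_cases h : s = t
    · subst h; simpa using hg
    · simp [Pi.single_eq_of_ne h]

omit [NeZero n] in
theorem filt2_psi_mem {X : Fin 3 → R} (Φ : Filt σ X c M) {d : L → Gam} {u : L → M}
    (hu : ∀ t, u t ∈ Φ.F (d t)) {δ : Gam} {f : L → KK ℂ} (hf : f ∈ filt2_T n ℓ d δ) :
    filt2_psi σ d u δ f ∈ Φ.F δ :=
  Submodule.sum_mem _ fun t _ => by
    have := Φ.smul_mem _ _ _ _ (filt2_memT.1 hf t) (hu t)
    rwa [sub_add_cancel] at this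

omit [NeZero n] in
theorem filt2_x_mem (ν : NN ℂ n ((c : ℤ) • ℓ)) (i : Fin 3) :
    ν.x i ∈ S ℂ n (dg ℓ ((c : ℤ), 0)) := by
  rw [dg_mk_zero]; exact ν.mem i

omit [NeZero n] [IsScalarTower ℂ R M] in
theorem filt2_X_smul (i : Fin 3) {m : ℤ} {ρ : Fin 5 → ℤ} {v : M} (hv : v ∈ Φ.F (m, ρ)) :
    σ.X ν i • v ∈ Φ.F (m + c, ρ) := by
  have := Φ.smul_mem _ _ _ _ (filt2_x_mem ν i) hv
  rwa [Prod.mk_add_mk, zero_add, add_comm] at this

theorem filt2_e1 (m : ℤ) (ρ : Fin 5 → ℤ) : ((m, ρ) : Gam) + e1 = (m + 1, ρ) := by simp [e1]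

end Aux

namespace Filt

/-- By `periodic` only the finitely many `ρ = chr _` matter, and `m = c d + b + m0` with `m0 < c`.  Fix `(m0, ρ)`.  Let `B0 = 2 b + c + 1` and
`e t` (`t : Fin l`) span `M` over `ℂ` modulo `I^B0 M` (`hM.fin`).  Then `I^d M = {∑ aeval X (E t) • e t, E t forms of degree d} + I^(d + B0) M`
(`mem_ipow_iff`), `F (c d + b + m0) ⊆ I^d M`, `I^(d+B0) M ⊆ F (c d + b + m0 + 1)`.  The tuples of forms `E` of degree `d` with
`∑ aeval X (E t) • e t ∈ F (c d + b + m0, ρ)` form an `AFam` inside `AFG.free`; `AFG.of_le` and `gen`. -/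
theorem eventually_gen (hM : Good ℂ M (σ.X ν)) (hc : 0 < c) :
    ∃ m1 : ℤ, ∀ m, m1 ≤ m → ∀ ρ, Φ.F (m + c, ρ) ≤ sumX (σ.X ν) (Φ.F (m, ρ)) ⊔ Φ.F (m + c + 1, ρ) := by
  obtain ⟨b, hb⟩ := Φ.sand
  have hc' : (1 : ℤ) ≤ c := by exact_mod_cast hc
  have hdeep : ∀ (m0 : Fin c) (ρ : Fin 5 → ℤ) (d : ℕ), ∀ v ∈ ipow M (σ.X ν) (d + (2 * b + c + 1)),
      v ∈ Φ.F ((c : ℤ) * d + b + (m0 : ℕ) + 1, ρ) := by
    intro m0 ρ d v hv
    refine Φ.anti_le ?_ ρ ((hb _ ρ).1 v hv)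
    have h1 : ((m0 : ℕ) : ℤ) < c := by exact_mod_cast m0.2
    have h2 : (0 : ℤ) ≤ b := Int.natCast_nonneg b
    push_cast
    nlinarith
  have key : ∀ p : Fin c × (Fin 5 → Fin n), ∃ d1 : ℕ, ∀ d : ℕ, d1 ≤ d →
      Φ.F ((c : ℤ) * d + b + (p.1 : ℕ) + c, chr p.2) ≤
        sumX (σ.X ν) (Φ.F ((c : ℤ) * d + b + (p.1 : ℕ), chr p.2)) ⊔
          Φ.F ((c : ℤ) * d + b + (p.1 : ℕ) + c + 1, chr p.2) := by
    rintro ⟨m0, ρ0⟩
    have := hM.fin (2 * b + c + 1)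
    obtain ⟨d1, hd1⟩ := filt2_abs (X := σ.X ν) (2 * b + c + 1)
      (fun d : ℤ => Φ.F ((c : ℤ) * d + b + (m0 : ℕ), chr ρ0))
      (fun i d v hv => by
        have := filt2_X_smul Φ i hv
        rwa [show (c : ℤ) * d + b + (m0 : ℕ) + c = c * (d + 1) + b + (m0 : ℕ) by ring] at this)
      (fun d v hv => (hb d _).2 v (Φ.anti_le (by omega) _ hv))
      (fun d v hv => Φ.anti_le (by omega) _ (hdeep m0 _ d v hv))
    refine ⟨d1, fun d hd => ?_⟩
    have h1 := hd1 d hd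
    simp only at h1 ⊢
    rw [show (c : ℤ) * (d + 1) + b + (m0 : ℕ) = c * d + b + (m0 : ℕ) + c by ring] at h1
    refine h1.trans (sup_le_sup_left (fun v hv => ?_) _)
    have h2 := hdeep m0 (chr ρ0) (d + 1) v hv
    rwa [show (c : ℤ) * ((d + 1 : ℕ) : ℤ) + b + (m0 : ℕ) + 1 = c * d + b + (m0 : ℕ) + c + 1 by
      push_cast; ring] at h2
  choose d1 hd1 using key
  obtain ⟨D, hD⟩ := Finite.exists_le d1
  refine ⟨c * D + b, fun m hm ρ => ?_⟩
  obtain ⟨ρ0, ρ', rfl⟩ := filt2_chr n ρ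
  obtain ⟨j, hj⟩ : ∃ j : ℕ, m = j + b := ⟨(m - b).toNat, by
    have : (0 : ℤ) ≤ c * D := by positivity
    omega⟩
  have h1 : D ≤ j / c := by
    rw [Nat.le_div_iff_mul_le hc]
    have : (c : ℤ) * D ≤ j := by omega
    rw [mul_comm]; exact_mod_cast this
  have h2 := hd1 (⟨j % c, Nat.mod_lt _ hc⟩, ρ0) (j / c) ((hD _).trans h1)
  have h3 : (c : ℤ) * ((j / c : ℕ) : ℤ) + b + ((j % c : ℕ) : ℤ) = m := by
    have := Nat.div_add_mod j c
    rw [hj]
    have h4 : ((c * (j / c) + j % c : ℕ) : ℤ) = j := by rw [this]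
    rw [Nat.cast_add, Nat.cast_mul] at h4
    linarith
  simp only at h2
  rw [h3] at h2
  simpa only [Φ.periodic] using h2

/-- Generators: for `-b ≤ m < m1 + c` and each character `ρ0`, finitely many vectors spanning `F (m, chr ρ0)` modulo `F (m + 1, chr ρ0)` (`finite`).
For `m < -b` take `f = 0`; for `m < m1 + c` write `ρ = chr ρ0 + n • ρ'` and use `a_unit'`; then induct on `m` in steps of `c`. -/
theorem exists_gens (hM : Good ℂ M (σ.X ν)) (hc : 0 < c) :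
    ∃ (l : ℕ) (d : Fin l → Gam) (u : Fin l → M), (∀ t, u t ∈ Φ.F (d t)) ∧ ∀ δ, ∀ v ∈ Φ.F δ,
      ∃ f : Fin l → KK ℂ, (∀ t, f t ∈ S ℂ n (dg ℓ (δ - d t))) ∧
        v - ∑ t, σ.a (δ - d t) (f t) • u t ∈ Φ.F (δ + e1) := by
  classical
  obtain ⟨m1, hm1⟩ := Φ.eventually_gen hM hc
  obtain ⟨b, hb⟩ := Φ.exists_eq_top
  have hc' : (1 : ℤ) ≤ c := by exact_mod_cast hc
  choose s hs1 hs2 using fun δ : Gam =>
    @filt2_span ℂ M _ _ _ (Φ.F δ) (Φ.F (δ + e1)) (Φ.finite hM hc _)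
  obtain ⟨l, g, -, hg⟩ := ((Finset.Icc (-b : ℤ) (m1 + c) ×ˢ
    (Finset.univ : Finset (Fin 5 → Fin n))).biUnion fun p =>
      (s (p.1, chr p.2)).image (Prod.mk ((p.1, chr p.2) : Gam))).finite_toSet.fin_param
  let d : Fin l → Gam := fun t => (g t).1
  let u : Fin l → M := fun t => (g t).2
  have hu : ∀ t, u t ∈ Φ.F (d t) := fun t => by
    have : g t ∈ Set.range g := ⟨t, rfl⟩
    rw [hg] at this
    obtain ⟨p, -, hp⟩ := Finset.mem_biUnion.1 this
    obtain ⟨x, hx, e⟩ := Finset.mem_image.1 hp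
    show (g t).2 ∈ Φ.F (g t).1
    rw [← e]
    exact hs1 _ x hx
  have key : ∀ j : ℕ, ∀ m : ℤ, m ≤ m1 + c + j → ∀ ρ, Φ.F (m, ρ) ≤
      (filt2_T n ℓ d (m, ρ)).map (filt2_psi σ d u (m, ρ)) ⊔ Φ.F (m + 1, ρ) := by
    have base : ∀ m : ℤ, m ≤ m1 + c → ∀ ρ, Φ.F (m, ρ) ≤
        (filt2_T n ℓ d (m, ρ)).map (filt2_psi σ d u (m, ρ)) ⊔ Φ.F (m + 1, ρ) := by
      intro m hm ρ
      rcases lt_or_ge m (-b) with h | h
      · rw [hb (m + 1) ρ (by omega)]
        simp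
      obtain ⟨ρ0, ρ', rfl⟩ := filt2_chr n ρ
      rw [Φ.periodic, Φ.periodic]
      refine (hs2 _).trans (sup_le_sup (Submodule.span_le.2 fun x hx => ?_) (by rw [filt2_e1]))
      obtain ⟨t, ht⟩ : (((m, chr ρ0) : Gam), x) ∈ Set.range g := by
        rw [hg]
        exact Finset.mem_biUnion.2 ⟨(m, ρ0), Finset.mem_product.2
          ⟨Finset.mem_Icc.2 ⟨h, hm⟩, Finset.mem_univ _⟩, Finset.mem_image_of_mem _ hx⟩
      have h1 : ((m, chr ρ0 + (n : ℤ) • ρ') : Gam) - d t = (0, (n : ℤ) • ρ') := by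
        simp [d, ht]
      refine ⟨Pi.single t (mono ℂ (-ρ')), filt2_single_mem (by rw [h1]; exact (σ.a_unit' ρ').1), ?_⟩
      rw [filt2_psi_single, h1, (σ.a_unit' ρ').2, one_smul]
      simp [u, ht]
    intro j
    induction j with
    | zero => exact fun m hm => base m (by simpa using hm)
    | succ j ih =>
      intro m hm ρ
      rcases le_or_gt m (m1 + c) with h | h
      · exact base m h ρ
      obtain ⟨m', rfl⟩ : ∃ m', m = m' + c := ⟨m - c, by ring⟩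
      refine (hm1 m' (by omega) ρ).trans (sup_le (sumX_le fun i v hv => ?_) le_sup_right)
      obtain ⟨_, ⟨f, hf, rfl⟩, w, hw, rfl⟩ :=
        Submodule.mem_sup.1 (ih m' (by push_cast at hm; omega) ρ hv)
      have h1 : (((c : ℤ), 0) : Gam) + (m', ρ) = (m' + c, ρ) := by
        rw [Prod.mk_add_mk, zero_add, add_comm]
      rw [smul_add]
      refine Submodule.add_mem_sup ⟨ν.x i • f, ?_, ?_⟩ ?_
      · rw [← h1]; exact filt2_T_smul (filt2_x_mem ν i) hf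
      · rw [← h1]; exact filt2_psi_smul σ u (filt2_x_mem ν i) hf
      · have := filt2_X_smul Φ i hw
        rwa [add_right_comm] at this
  refine ⟨l, d, u, hu, ?_⟩
  rintro ⟨m, ρ⟩ v hv
  obtain ⟨_, ⟨f, hf, rfl⟩, w, hw, rfl⟩ :=
    Submodule.mem_sup.1 (key (m - (m1 + c)).toNat m (by omega) ρ hv)
  refine ⟨f, filt2_memT.1 hf, ?_⟩
  rw [← filt2_psi_apply, add_sub_cancel_left, filt2_e1]
  exact hw

/-- Let `Rel` be the `K`-span in `Fin l → K` of the `f` with `f t ∈ S (dg (δ - d t))` and `∑ σ.a (δ - d t) (f t) • u t ∈ F (δ + e1)` for some `δ`.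
Key: if `f t ∈ S (dg (δ - d t))` and `f ∈ Rel` then `∑ σ.a _ (f t) • u t ∈ F (δ + e1)`: write `f = ∑ κ s • f^s` (`f^s` of degree `δ s`), take `(δ', g)` from
`exists_denom_gam` for `ε s = δ - δ s`; then `σ.a δ' g • ∑ .. = ∑ s, σ.a _ (g κ s) • ∑ t, σ.a _ (f^s t) • u t ∈ F (δ' + δ + e1)` (`a_mul`, linearity) and use
`sat`.  `V0 = (Fin l → K) ⧸ Rel`; `ι δ v = [f]` for `v ∈ F δ` (well defined, linear; e.g. choose with `Classical.choose`, prove independence of the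
choice, then `LinearMap.exists_extend` from `F δ` to `M`).  The family is generated by the `(dg ℓ (d t), ι (d t) (u t) = [Pi.single t 1])`.
Transport along `V0 ≃ (Fin r → K)`. -/
theorem exists_real (hℓ : Ample ℓ) (hM : Good ℂ M (σ.X ν)) (hc : 0 < c) :
    ∃ (r : ℕ) (ϱ : Real Φ (Fin r → KK ℂ)), ϱ.fam.FG := by
  classical
  obtain ⟨l, d, u, hu, hgen⟩ := Φ.exists_gens hM hc
  let Rel : Submodule (KK ℂ) (Fin l → KK ℂ) := Submodule.span (KK ℂ)
    {f | ∃ δ, f ∈ filt2_T n ℓ d δ ∧ filt2_psi σ d u δ f ∈ Φ.F (δ + e1)}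
  have key : ∀ δ, ∀ f ∈ filt2_T n ℓ d δ, f ∈ Rel ↔ filt2_psi σ d u δ f ∈ Φ.F (δ + e1) := by
    intro δ f hf
    refine ⟨fun h => ?_, fun h => Submodule.subset_span ⟨δ, hf, h⟩⟩
    obtain ⟨N, κ, g, he⟩ := Submodule.mem_span_set'.1 h
    choose ds h1 h2 using fun i => (g i).2
    obtain ⟨δ', g0, hg0, hg1, hg2⟩ := exists_denom_gam (n := n) hℓ κ fun i => δ - ds i
    refine Φ.sat δ δ' g0 _ hg1 hg0 (filt2_psi_mem Φ hu hf) ?_
    rw [← filt2_psi_smul σ u hg1 hf, ← he, Finset.smul_sum, map_sum]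
    refine Submodule.sum_mem _ fun i _ => ?_
    have e1' : δ' + δ = δ' + (δ - ds i) + ds i := by abel
    rw [smul_smul, e1', filt2_psi_smul σ u (hg2 i) (h1 i), add_assoc _ (ds i)]
    exact Φ.smul_mem _ _ _ _ (hg2 i) (h2 i)
  let π : (Fin l → KK ℂ) →ₗ[KK ℂ] (Fin (finrank (KK ℂ) ((Fin l → KK ℂ) ⧸ Rel)) → KK ℂ) :=
    (Module.finBasis (KK ℂ) ((Fin l → KK ℂ) ⧸ Rel)).equivFun.toLinearMap ∘ₗ Rel.mkQ
  have hπ : ∀ f, π f = 0 ↔ f ∈ Rel := fun f => by
    simp [π]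
  have hι : ∀ δ, ∃ ι : M →ₗ[ℂ] (Fin (finrank (KK ℂ) ((Fin l → KK ℂ) ⧸ Rel)) → KK ℂ),
      ∀ f ∈ filt2_T n ℓ d δ, ∀ w ∈ Φ.F (δ + e1), ι (filt2_psi σ d u δ f + w) = π f := by
    intro δ
    obtain ⟨θ, hθ⟩ := filt2_factor (N := filt2_T n ℓ d δ × Φ.F (δ + e1))
      (LinearMap.coprod (filt2_psi σ d u δ ∘ₗ Submodule.subtype _) (Submodule.subtype _))
      ((π.restrictScalars ℂ ∘ₗ Submodule.subtype _) ∘ₗ LinearMap.fst _ _ _) (by
        rintro ⟨⟨f, hf⟩, ⟨w, hw⟩⟩ h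
        have h1 : filt2_psi σ d u δ f + w = 0 := h
        show π f = 0
        rw [hπ, key δ f hf, eq_neg_of_add_eq_zero_left h1]
        exact neg_mem hw)
    exact ⟨θ, fun f hf w hw => hθ (⟨f, hf⟩, ⟨w, hw⟩)⟩
  choose ι hι using hι
  have hrep : ∀ δ, ∀ v ∈ Φ.F δ, ∃ f ∈ filt2_T n ℓ d δ, ∃ w ∈ Φ.F (δ + e1),
      v = filt2_psi σ d u δ f + w := fun δ v hv => by
    obtain ⟨f, hf, h⟩ := hgen δ v hv
    exact ⟨f, filt2_memT.2 hf, _, h, by rw [filt2_psi_apply]; abel⟩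
  refine ⟨_, ⟨ι, fun δ v hv => ?_, fun δ δ' g v hg hv => ?_⟩,
    Set.range fun t => (dg ℓ (d t), π (Pi.single t 1)), Set.finite_range _, le_antisymm ?_ ?_⟩
  · obtain ⟨f, hf, w, hw, rfl⟩ := hrep δ v hv
    rw [hι δ f hf w hw, hπ, key δ f hf, Submodule.add_mem_iff_left _ hw]
  · obtain ⟨f, hf, w, hw, rfl⟩ := hrep δ v hv
    rw [hι δ f hf w hw, smul_add, ← filt2_psi_smul σ u hg hf, hι _ _ (filt2_T_smul hg hf) _ (by
      rw [add_assoc]; exact Φ.smul_mem _ _ _ _ hg hw), map_smul]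
  · refine Fam.gen_le_iff.2 ?_
    rintro _ ⟨δ, v, hv, rfl⟩
    obtain ⟨f, hf, w, hw, rfl⟩ := hrep δ v hv
    refine Fam.mem_gen_range.2 ⟨f, fun t => by rw [← dg_sub]; exact filt2_memT.1 hf t, ?_⟩
    show ι δ _ = _
    rw [hι δ f hf w hw]
    conv_lhs => rw [pi_eq_sum_univ' f]
    rw [map_sum]
    exact Finset.sum_congr rfl fun t _ => map_smul _ _ _
  · refine Fam.gen_mono ?_
    rintro _ ⟨t, rfl⟩
    refine ⟨d t, u t, hu t, Prod.ext rfl ?_⟩
    have h1 := hι (d t) (Pi.single t 1) (filt2_single_mem (by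
      rw [sub_self, dg_zero]; exact one_mem_S le_rfl)) 0 (zero_mem _)
    rw [filt2_psi_single, sub_self, σ.a_one, one_smul, add_zero] at h1
    exact h1.symm

end Filt

end Crest.Agent.R169
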