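import Crest.Agent.R169.Slope1

/-!
# rid 169, file `Slope2`: maximal and minimal slopes

Prefix helper lemmas with `slope2_`.
-/

set_option autoImplicit false

namespace Crest.Agent.R169

open Filter Module

/-- A bounded family of fractions with bounded denominators has a largest member. -/
theorem slope2_max {ι : Type} (f : ι → ℤ) (r : ι → ℕ) (R : ℕ) (hr : ∀ i, r i ≤ R) (μ0 : ℚ)
    (hb : ∀ i, (f i : ℚ) ≤ μ0 * r i) (i0 : ι) (h0 : 1 ≤ r i0) :
    ∃ (i : ι) (μ : ℚ), 1 ≤ r i ∧ (f i : ℚ) = μ * r i ∧ ∀ j, (f j : ℚ) ≤ μ * r j := by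
  have hF : (0 : ℚ) < (R.factorial : ℚ) := Nat.cast_pos.2 R.factorial_pos
  have hex : ∀ i, 1 ≤ r i → ∃ z : ℤ, (z : ℚ) = R.factorial * (f i / r i) := fun i hi => by
    obtain ⟨m, hm⟩ := Nat.dvd_factorial hi (hr i)
    have hri : (r i : ℚ) ≠ 0 := Nat.cast_ne_zero.2 (by omega)
    refine ⟨m * f i, ?_⟩
    rw [hm]
    push_cast
    field_simp
  obtain ⟨z, ⟨i, hi, hz⟩, hmax⟩ := Int.exists_greatest_of_bdd
    (P := fun z : ℤ => ∃ i, 1 ≤ r i ∧ (z : ℚ) = R.factorial * (f i / r i))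
    ⟨⌈(R.factorial : ℚ) * μ0⌉, fun z ⟨i, hi, hz⟩ => by
      have hri : (0 : ℚ) < r i := Nat.cast_pos.2 hi
      have h1 : (f i : ℚ) / r i ≤ μ0 := (div_le_iff₀ hri).2 (hb i)
      have h2 : (z : ℚ) ≤ (⌈(R.factorial : ℚ) * μ0⌉ : ℤ) :=
        hz ▸ (mul_le_mul_of_nonneg_left h1 hF.le).trans (Int.le_ceil _)
      exact_mod_cast h2⟩
    (let ⟨z, hz⟩ := hex i0 h0; ⟨z, i0, h0, hz⟩)
  have hri : (0 : ℚ) < r i := Nat.cast_pos.2 hi
  refine ⟨i, f i / r i, hi, (div_mul_cancel₀ _ hri.ne').symm, fun j => ?_⟩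
  rcases Nat.eq_zero_or_pos (r j) with hj | hj
  · have := hb j
    rw [hj] at this ⊢
    simpa using this
  · obtain ⟨z', hz'⟩ := hex j hj
    have h1 : (z' : ℚ) ≤ z := Int.cast_le.2 (hmax z' ⟨j, hj, hz'⟩)
    rw [hz, hz'] at h1
    exact (div_le_iff₀ (Nat.cast_pos.2 hj)).1 (le_of_mul_le_mul_left h1 hF)

namespace Fam

variable {k : Type} [Field k] {n : ℕ} [NeZero n]
  {V : Type} [AddCommGroup V] [Module (KK k) V] [Module k V] [IsScalarTower k (KK k) V]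
  [FiniteDimensional (KK k) V] {N : Fam k n V} {H : Deg} {μ : ℚ}

/-- A linear form that splits off a rank one quotient. -/
theorem slope2_split {r : ℕ} (hr : N.rk = r + 1) : ∃ ψ : V →ₗ[KK k] KK k,
    (N.infW (LinearMap.ker ψ)).rk = r ∧ (N.map ψ).rk = 1 := by
  have h0 : N ≠ ⊥ := by
    rintro rfl
    rw [rk_bot] at hr
    omega
  obtain ⟨γ, v, hv, hv0⟩ := data_exists_ne_zero h0
  obtain ⟨ψ, hψ⟩ : ∃ ψ : V →ₗ[KK k] KK k, ψ v ≠ 0 := by
    by_contra hc
    push Not at hc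
    exact hv0 ((Module.forall_dual_apply_eq_zero_iff (KK k) v).1 hc)
  have h1 := rk_eq_one (data_map_ne_bot hv hψ)
  have h2 := rk_map_add ψ N
  exact ⟨ψ, by omega, h1⟩

/-- Induction on `N.rk` with a linear form not vanishing on `N.span`; `SlopeLE.extension`, `slopeLE_of_rk_eq_one`. -/
theorem FG.exists_slopeLE (hN : N.FG) (hH : Nef H) : ∃ μ, SlopeLE H N μ := by
  induction hr : N.rk generalizing N with
  | zero =>
    rw [rk_eq_zero_iff.1 hr]
    exact ⟨0, slopeLE_bot H 0⟩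
  | succ r ih =>
    obtain ⟨ψ, h1, h2⟩ := slope2_split hr
    obtain ⟨μ1, hμ1⟩ := ih (hN.infW (LinearMap.ker ψ)) h1
    exact ⟨max μ1 (deg H (N.map ψ)), SlopeLE.extension hN hH ψ (hμ1.mono_slope (le_max_left _ _))
      ((slopeLE_of_rk_eq_one h2 H).mono_slope (le_max_right _ _))⟩

theorem FG.exists_slopeGE (hN : N.FG) (hH : Nef H) : ∃ μ, SlopeGE H N μ := by
  induction hr : N.rk generalizing N with
  | zero =>
    rw [rk_eq_zero_iff.1 hr]
    exact ⟨0, slopeGE_bot H 0⟩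
  | succ r ih =>
    obtain ⟨ψ, h1, h2⟩ := slope2_split hr
    obtain ⟨μ1, hμ1⟩ := ih (hN.infW (LinearMap.ker ψ)) h1
    have h3 : SlopeGE H (N.map ψ) (deg H (N.map ψ)) :=
      (slopeLE_iff_slopeGE (by rw [h2]; simp)).1 (slopeLE_of_rk_eq_one h2 H)
    exact ⟨min μ1 (deg H (N.map ψ)), SlopeGE.extension hN hH ψ (hμ1.mono_slope (min_le_left _ _))
      (h3.mono_slope (min_le_right _ _))⟩

/-- The slopes `deg / rk` of the nonzero `N.infW W` are bounded above with denominators in `1..N.rk`, so there is a largest (e.g.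
`(N.rk)! * slope` is an integer: `Int.exists_greatest_of_bdd`). -/
theorem FG.exists_max_slope (hN : N.FG) (hH : Nef H) (h0 : N ≠ ⊥) :
    ∃ (W : Submodule (KK k) V) (μ : ℚ), 1 ≤ (N.infW W).rk ∧
      (deg H (N.infW W) : ℚ) = μ * (N.infW W).rk ∧ SlopeLE H N μ := by
  obtain ⟨μ0, hμ0⟩ := hN.exists_slopeLE hH
  exact slope2_max (fun W : Submodule (KK k) V => deg H (N.infW W)) (fun W => (N.infW W).rk) N.rk
    (fun W => rk_mono (infW_le N W)) μ0 hμ0 ⊤
    (by rw [infW_top]; exact Nat.pos_of_ne_zero (mt rk_eq_zero_iff.1 h0))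

theorem FG.exists_min_slope (hN : N.FG) (hH : Nef H) (h0 : N ≠ ⊥) :
    ∃ (W : Submodule (KK k) V) (μ : ℚ), 1 ≤ (N.map W.mkQ).rk ∧
      (deg H (N.map W.mkQ) : ℚ) = μ * (N.map W.mkQ).rk ∧ SlopeGE H N μ := by
  obtain ⟨μ0, hμ0⟩ := hN.exists_slopeGE hH
  obtain ⟨W, μ, h1, h2, h3⟩ := slope2_max (fun W : Submodule (KK k) V => -deg H (N.map W.mkQ))
    (fun W => (N.map W.mkQ).rk) N.rk (fun W => by have := rk_map_add W.mkQ N; omega) (-μ0)
    (fun W => by
      have := hμ0.le_deg_map hN W.mkQ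
      push_cast
      linarith) ⊥
    (by
      have h1 := rk_map_add (⊥ : Submodule (KK k) V).mkQ N
      rw [Submodule.ker_mkQ, infW_bot, rk_bot] at h1
      have h2 := Nat.pos_of_ne_zero (mt rk_eq_zero_iff.1 h0)
      omega)
  refine ⟨W, -μ, h1, ?_, slopeGE_of_mkQ hN fun W' => ?_⟩
  · push_cast at h2
    linarith
  · have := h3 W'
    push_cast at this
    linarith

/-- The quotient by a subsheaf of maximal slope.  `(N.map W.mkQ).infW W' = (N.infW (W'.comap W.mkQ)).map W.mkQ`. -/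
theorem SlopeLE.quotient (h : SlopeLE H N μ) (hN : N.FG) {W : Submodule (KK k) V}
    (hW : (deg H (N.infW W) : ℚ) = μ * (N.infW W).rk) : SlopeLE H (N.map W.mkQ) μ := by
  intro W'
  have h1 := h (W'.comap W.mkQ)
  have h2 : (N.infW (W'.comap W.mkQ)).infW (LinearMap.ker W.mkQ) = N.infW W := by
    rw [infW_infW, inf_eq_right.2 (LinearMap.ker_le_comap W.mkQ), Submodule.ker_mkQ]
  rw [slope1_deg_map (hN.infW _) W.mkQ H, slope1_rk_map (N.infW _) W.mkQ, h2, map_infW_comap,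
    mul_add] at h1
  linarith

end Fam

end Crest.Agent.R169
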