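import Crest.Agent.R169.Der
import Crest.Agent.R169.Det
import Crest.Agent.R169.Slope2

/-!
# rid 169, file `FrobSlope`: the instability of a Frobenius pull-back is bounded

Prefix helper lemmas with `frobslope_`.
-/

set_option autoImplicit false

namespace Crest.Agent.R169

open Filter Module

/-- A derivation acting coordinatewise. -/
noncomputable def frobslope_dv {k : Type} [Field k] {ι : Type} (D : Derivation k (KK k) (KK k)) :
    (ι → KK k) →ₗ[k] (ι → KK k) where
  toFun v := fun a => D (v a)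
  map_add' u v := by funext a; simp only [Pi.add_apply, map_add]
  map_smul' c v := by funext a; simp only [Pi.smul_apply, Derivation.map_smul, RingHom.id_apply]

theorem frobslope_dv_apply {k : Type} [Field k] {ι : Type} (D : Derivation k (KK k) (KK k)) (v : ι → KK k) :
    frobslope_dv D v = fun a => D (v a) := rfl

theorem frobslope_dv_smul {k : Type} [Field k] {ι : Type} (D : Derivation k (KK k) (KK k)) (f : KK k)
    (v : ι → KK k) : frobslope_dv D (f • v) = f • frobslope_dv D v + D f • v := by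
  funext a
  simp only [frobslope_dv_apply, Pi.add_apply, Pi.smul_apply, smul_eq_mul, Derivation.leibniz]
  ring

theorem frobslope_dv_pow {k : Type} [Field k] {ι : Type} (D : Derivation k (KK k) (KK k)) (p : ℕ) [CharP k p]
    (v : ι → KK k) : frobslope_dv D (fun a => v a ^ p) = 0 := by
  funext a
  have h : (p : KK k) = 0 := by
    rw [← map_natCast (algebraMap k (KK k)) p, CharP.cast_eq_zero, map_zero]
  rw [frobslope_dv_apply]
  beta_reduce
  rw [Derivation.leibniz_pow, nsmul_eq_mul, h, zero_mul, Pi.zero_apply]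

/-- The second fundamental form of a subspace. -/
theorem frobslope_exists_form {k : Type} [Field k] {ι : Type} (D : Derivation k (KK k) (KK k))
    (U : Submodule (KK k) (ι → KK k)) :
    ∃ δ : (ι → KK k) →ₗ[KK k] ((ι → KK k) ⧸ U), ∀ u ∈ U, δ u = U.mkQ (frobslope_dv D u) := by
  let φ : U →ₗ[KK k] ((ι → KK k) ⧸ U) :=
    { toFun := fun u => U.mkQ (frobslope_dv D u)
      map_add' := fun u v => by rw [Submodule.coe_add, map_add, map_add]
      map_smul' := fun f u => by
        have h0 : U.mkQ (u : ι → KK k) = 0 := (Submodule.Quotient.mk_eq_zero U).2 u.2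
        rw [Submodule.coe_smul, frobslope_dv_smul, map_add, map_smul, map_smul, h0, smul_zero, add_zero,
          RingHom.id_apply] }
  obtain ⟨δ, hδ⟩ := LinearMap.exists_extend φ
  exact ⟨δ, fun u hu => LinearMap.congr_fun hδ ⟨u, hu⟩⟩

namespace Fam

variable {k : Type} [Field k] {n : ℕ} [NeZero n] {ι : Type} [Fintype ι] {N : Fam k n (ι → KK k)}
  {H : Deg} {μ : ℚ} (p : ℕ) [Fact p.Prime] [CharP k p]

theorem deg_frobV (hN : N.FG) (H : Deg) : (frobV p N).rk = N.rk ∧ deg H (frobV p N) = p * deg H N := by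
  obtain ⟨s, h⟩ := hN.hasData_cls
  obtain ⟨s', h', -⟩ := h.frob_data hN p
  refine ⟨h'.rk_eq (hN.frobV p), ?_⟩
  rw [h'.deg_eq (hN.frobV p) H, B_smul_left]
  rfl

omit [NeZero n] [Fintype ι] [Fact p.Prime] [CharP k p] in
theorem frobslope_map {ψ ψ' : (ι → KK k) →ₗ[KK k] (ι → KK k)}
    (h : ∀ x : ι → KK k, ψ' (fun a => x a ^ p) = fun a => ψ x a ^ p) :
    (frobV p N).map ψ' = frobV p (N.map ψ) := by
  rw [frobV, frobV, frob, frob, map_gen]
  congr 1
  ext q
  constructor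
  · intro hq
    obtain ⟨q', hq', hq⟩ := hq
    obtain ⟨δ, v, hv, hq'⟩ := hq'
    refine ⟨δ, ψ v, mem_map.2 ⟨v, hv, rfl⟩, ?_⟩
    rw [← hq, hq']
    beta_reduce
    rw [h]
  · intro hq
    obtain ⟨δ, w, hw, hq⟩ := hq
    obtain ⟨v, hv, hw⟩ := mem_map.1 hw
    refine ⟨((p : ℤ) • δ, fun a => v a ^ p), ⟨δ, v, hv, rfl⟩, ?_⟩
    rw [hq, ← hw]
    beta_reduce
    rw [h]

/-- A subspace stable under the derivations descends: with `ψ, ψ'` from `cartier`, `(frobV p N).map ψ' = frobV p (N.map ψ)`, and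
additivity of `deg`, `rk` gives `deg ((frobV p N).infW U) = p * deg (N.infW (ker ψ))` with equal ranks. -/
theorem SlopeLE.deg_stable_le (hN : N.FG) (hμ : SlopeLE H N μ) (D : Fin 2 → Derivation k (KK k) (KK k))
    (hD : ∀ f : KK k, (∀ i, D i f = 0) → ∃ g, f = g ^ p) (U : Submodule (KK k) (ι → KK k))
    (hU : ∀ i, ∀ u ∈ U, (fun a => D i (u a)) ∈ U) :
    (deg H ((frobV p N).infW U) : ℚ) ≤ p * μ * ((frobV p N).infW U).rk := by
  obtain ⟨ψ, ψ', hker, hψ⟩ := cartier p D hD U hU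
  have e1 := deg_map_add (hN.frobV p) ψ' H
  have e2 := rk_map_add ψ' (frobV p N)
  rw [hker, frobslope_map p hψ] at e1 e2
  have e3 := deg_map_add hN ψ H
  have e4 := rk_map_add ψ N
  obtain ⟨a1, a2⟩ := deg_frobV p hN H
  obtain ⟨b1, b2⟩ := deg_frobV p (hN.map ψ) H
  have r1 : ((frobV p N).infW U).rk = (N.infW (LinearMap.ker ψ)).rk := by omega
  have d1 : deg H ((frobV p N).infW U) = p * deg H (N.infW (LinearMap.ker ψ)) := by
    rw [a2, b2, e3] at e1
    linear_combination -e1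
  rw [r1, d1, mul_assoc]
  push_cast
  exact mul_le_mul_of_nonneg_left (hμ _) (Nat.cast_nonneg p)

omit [NeZero n] [Fintype ι] in
theorem frobslope_span_stable {N' : Fam k n (ι → KK k)} (D : Derivation k (KK k) (KK k)) (ε : Deg)
    (hD : ∀ γ, ∀ v ∈ N'.sub γ, (fun a => D (v a)) ∈ N'.sub (γ + ε)) {v : ι → KK k} (hv : v ∈ N'.span) :
    frobslope_dv D v ∈ N'.span := by
  induction hv using Submodule.span_induction with
  | mem x hx =>
    obtain ⟨γ, hx⟩ := hx
    exact mem_span_of_mem (hD γ x hx)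
  | zero => rw [map_zero]; exact zero_mem _
  | add x y _ _ hx hy => rw [map_add]; exact add_mem hx hy
  | smul f x h hx =>
    rw [frobslope_dv_smul]
    exact add_mem (Submodule.smul_mem _ _ hx) (Submodule.smul_mem _ _ h)

omit [NeZero n] in
theorem frobslope_C_nonneg (hH : Nef H) : (0 : ℚ) ≤ n * (B 1 H : ℤ) :=
  mul_nonneg (Nat.cast_nonneg n) (Int.cast_nonneg (B_nonneg_of_eff zero_le_one hH))

/-- One step of the chain, for a family `N'` with a connection.  Let `U' = U ⊔ span (D 0 '' U) ⊔ span (D 1 '' U)` (coordinatewise `D`).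
`u ↦ U.mkQ (D i u)` is `K`-linear on `↥U`; extend it to `δ i : V → V ⧸ U` (`LinearMap.exists_extend`).
`A i = ((N'.infW U).map (δ i)).shift (-(n • 1))` has `SlopeGE (m - C)` (`image`, `twist`), `A 0 ⊔ A 1 ≤ (N'.infW U').map U.mkQ` with the same
span (`(N'.infW U).span = U`, `span_infW`; `N'.span` is stable under `D i`).  `sum`, `of_le_of_rk`, and `extension` along `U.mkQ`
(`C = n * B 1 H ≥ 0`). -/
theorem SlopeGE.step {N' : Fam k n (ι → KK k)} (hN : N'.FG) (hH : Nef H) (D : Fin 2 → Derivation k (KK k) (KK k))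
    (hD : ∀ i γ, ∀ v ∈ N'.sub γ, (fun a => D i (v a)) ∈ N'.sub (γ + (n : ℤ) • (1 : Deg)))
    {U : Submodule (KK k) (ι → KK k)} (hU : U ≤ N'.span) {m : ℚ} (hm : SlopeGE H (N'.infW U) m) :
    ∃ U' : Submodule (KK k) (ι → KK k), U ≤ U' ∧ U' ≤ N'.span ∧ (∀ i, ∀ u ∈ U, (fun a => D i (u a)) ∈ U') ∧
      SlopeGE H (N'.infW U') (m - n * (B 1 H : ℤ)) := by
  choose δ hδ using fun i => frobslope_exists_form (D i) U
  let T : Fin 2 → Submodule (KK k) (ι → KK k) := fun i =>
    Submodule.span (KK k) (frobslope_dv (D i) '' (U : Set (ι → KK k)))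
  have hT : ∀ i, T i ≤ N'.span := fun i => Submodule.span_le.2 (by
    intro w hw
    obtain ⟨u, hu, hw⟩ := hw
    rw [← hw]
    exact frobslope_span_stable (D i) _ (hD i) (hU hu))
  have hT' : ∀ i, T i ≤ U ⊔ (T 0 ⊔ T 1) := fun i => by
    refine le_trans ?_ le_sup_right
    fin_cases i
    · exact le_sup_left
    · exact le_sup_right
  have hU' : U ⊔ (T 0 ⊔ T 1) ≤ N'.span := sup_le hU (sup_le (hT 0) (hT 1))
  have hst : ∀ i, ∀ u ∈ U, frobslope_dv (D i) u ∈ U ⊔ (T 0 ⊔ T 1) := fun i u hu =>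
    hT' i (Submodule.subset_span ⟨u, hu, rfl⟩)
  have hTδ : ∀ i, (T i).map U.mkQ ≤ U.map (δ i) := fun i => by
    rw [Submodule.map_le_iff_le_comap]
    refine Submodule.span_le.2 ?_
    intro w hw
    obtain ⟨u, hu, hw⟩ := hw
    rw [← hw]
    exact ⟨u, hu, hδ i u hu⟩
  have hsp : (U ⊔ (T 0 ⊔ T 1)).map U.mkQ ≤ U.map (δ 0) ⊔ U.map (δ 1) := by
    rw [Submodule.map_sup, Submodule.map_sup, Submodule.mkQ_map_self, bot_sup_eq]
    exact sup_le_sup (hTδ 0) (hTδ 1)
  refine ⟨U ⊔ (T 0 ⊔ T 1), le_sup_left, hU', hst, ?_⟩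
  have hUU : U ≤ U ⊔ (T 0 ⊔ T 1) := le_sup_left
  generalize U ⊔ (T 0 ⊔ T 1) = U' at hU' hst hsp hUU
  have hA : ∀ i, SlopeGE H (((N'.infW U).map (δ i)).shift (-((n : ℤ) • (1 : Deg))))
      (m - n * (B 1 H : ℤ)) := fun i => by
    have h1 := (hm.image (hN.infW U) (δ i)).twist ((hN.infW U).map (δ i)) (-((n : ℤ) • (1 : Deg)))
    rw [B_neg_left, B_smul_left] at h1
    push_cast at h1
    rwa [sub_eq_add_neg]
  have hF : ∀ i, (((N'.infW U).map (δ i)).shift (-((n : ℤ) • (1 : Deg)))).FG := fun i =>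
    ((hN.infW U).map (δ i)).shift _
  have hle : ∀ i, ((N'.infW U).map (δ i)).shift (-((n : ℤ) • (1 : Deg))) ≤ (N'.infW U').map U.mkQ := by
    intro i γ v hv
    rw [shift_sub] at hv
    obtain ⟨u, hu, hv⟩ := mem_map.1 hv
    obtain ⟨hu1, hu2⟩ := mem_infW.1 hu
    have h1 := hD i _ u hu1
    rw [neg_add_cancel_right] at h1
    exact mem_map.2 ⟨frobslope_dv (D i) u, mem_infW.2 ⟨h1, hst i u hu2⟩, by rw [← hv, hδ i u hu2]⟩
  refine SlopeGE.extension (hN.infW U') hH U.mkQ ?_ ?_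
  · rw [Submodule.ker_mkQ, infW_infW, inf_eq_right.2 hUU]
    exact hm.mono_slope (sub_le_self _ (frobslope_C_nonneg hH))
  · refine (SlopeGE.sum (hF 0) (hF 1) hH (hA 0) (hA 1)).of_le_of_rk ((hN.infW U').map _) hH
      (sup_le (hle 0) (hle 1)) (le_antisymm (rk_mono (sup_le (hle 0) (hle 1))) ?_)
    refine Submodule.finrank_mono ?_
    rw [span_sup, span_shift, span_shift, span_map, span_map, span_map, span_infW, span_infW,
      inf_eq_right.2 hU, inf_eq_right.2 hU']
    exact hsp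

/-- Iterating `SlopeGE.step` until the subspace is stable. -/
theorem frobslope_chain {N' : Fam k n (ι → KK k)} (hN : N'.FG) (hH : Nef H)
    (D : Fin 2 → Derivation k (KK k) (KK k))
    (hD : ∀ i γ, ∀ v ∈ N'.sub γ, (fun a => D i (v a)) ∈ N'.sub (γ + (n : ℤ) • (1 : Deg))) (d : ℕ)
    {U : Submodule (KK k) (ι → KK k)} (hU : U ≤ N'.span) (hd : N'.rk ≤ finrank (KK k) U + d) {m : ℚ}
    (hm : SlopeGE H (N'.infW U) m) :
    ∃ U' : Submodule (KK k) (ι → KK k), U ≤ U' ∧ (∀ i, ∀ u ∈ U', (fun a => D i (u a)) ∈ U') ∧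
      SlopeGE H (N'.infW U') (m - d * (n * (B 1 H : ℤ))) := by
  induction d generalizing U m with
  | zero =>
    have h1 : U = N'.span := Submodule.eq_of_le_of_finrank_le hU hd
    refine ⟨U, le_rfl, fun i u hu => ?_, by simpa using hm⟩
    rw [h1] at hu ⊢
    exact frobslope_span_stable (D i) _ (hD i) hu
  | succ d ih =>
    obtain ⟨U1, h1, h2, h3, h4⟩ := hm.step hN hH D hD hU
    rcases h1.eq_or_lt with h5 | h5
    · refine ⟨U, le_rfl, fun i u hu => ?_, hm.mono_slope (sub_le_self _ ?_)⟩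
      · have := h3 i u hu
        rwa [← h5] at this
      · exact mul_nonneg (Nat.cast_nonneg _) (frobslope_C_nonneg hH)
    · have h6 := Submodule.finrank_lt_finrank_of_lt h5
      obtain ⟨U2, g1, g2, g3⟩ := ih h2 (by omega) h4
      refine ⟨U2, h1.trans g1, g2, ?_⟩
      convert g3 using 1
      push_cast
      ring

omit [NeZero n] [Fintype ι] [Fact p.Prime] in
/-- The canonical connection of a Frobenius pull-back. -/
theorem frobslope_conn (D : Derivation k (KK k) (KK k)) (ε : Deg)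
    (hD : ∀ (γ : Deg) (f : KK k), f ∈ S k n γ → D f ∈ S k n (γ + ε)) (γ : Deg) (v : ι → KK k)
    (hv : v ∈ (frobV p N).sub γ) : frobslope_dv D v ∈ (frobV p N).sub (γ + ε) := by
  induction hv using Submodule.span_induction with
  | mem x hx =>
    obtain ⟨q, hq, f, hf, hx⟩ := hx
    obtain ⟨δ, w, hw, hq⟩ := hq
    have h1 : (fun a => w a ^ p) ∈ (frobV p N).sub ((p : ℤ) • δ) :=
      mem_frob p (fun (v : ι → KK k) j => v j ^ p) hw
    rw [hq] at hf hx
    have h2 := (frobV p N).smul_mem (hD _ f hf) h1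
    rw [add_right_comm, sub_add_cancel] at h2
    rw [hx, frobslope_dv_smul, frobslope_dv_pow, smul_zero, zero_add]
    exact h2
  | zero => rw [map_zero]; exact zero_mem _
  | add x y _ _ hx hy => rw [map_add]; exact add_mem hx hy
  | smul c x _ hx => rw [map_smul]; exact Submodule.smul_mem _ c hx

/-- Let `N' = frobV p N ≠ ⊥`, `(W, μ')` from `exists_max_slope`, `U0 = (N'.infW W).span`; `N'.infW U0 = N'.infW W` has `SlopeGE μ'`
(`of_le`, `slopeLE_iff_slopeGE`).  `N'` satisfies the hypothesis of `step` (`D (f * v^p) = D f * v^p`).  Iterate `step`: by induction on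
`N'.rk - finrank U`, from `U ≠ ⊥` with `SlopeGE m` we reach a stable `U ≠ ⊥` with `SlopeGE (m - (N'.rk - finrank U) C)`.  Then
`le_deg` and `deg_stable_le` give `μ' - r C ≤ p μ`. -/
theorem SlopeLE.frob [PerfectField k] (hN : N.FG) (hH : Nef H) (hμ : SlopeLE H N μ) :
    SlopeLE H (Fam.frobV p N) (p * μ + N.rk * (n * (B 1 H : ℤ))) := by
  by_cases h0 : Fam.frobV p N = ⊥
  · rw [h0]
    exact slopeLE_bot H _
  have hF := hN.frobV p
  obtain ⟨W, μ', hW1, hW2, hW3⟩ := hF.exists_max_slope hH h0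
  refine hW3.mono_slope ?_
  obtain ⟨D, hD1, hD2⟩ := exists_der k
  have e0 : (Fam.frobV p N).infW ((Fam.frobV p N).infW W).span = (Fam.frobV p N).infW W :=
    le_antisymm (infW_mono_right _ (span_le_iff.2 fun γ v hv => (mem_infW.1 hv).2))
      (le_infW (infW_le _ _) le_rfl)
  have h1 : SlopeGE H ((Fam.frobV p N).infW ((Fam.frobV p N).infW W).span) μ' := by
    rw [e0]
    exact (slopeLE_iff_slopeGE hW2).1 (hW3.of_le hF hH (infW_le _ _))
  obtain ⟨U, g1, g2, g3⟩ := frobslope_chain hF hH D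
    (fun i γ v hv => frobslope_conn p (D i) _ (hD1 i n) γ v hv) N.rk (span_mono (infW_le _ _))
    (by rw [(deg_frobV p hN H).1]; omega) h1
  have g4 : 1 ≤ ((Fam.frobV p N).infW U).rk := by
    refine hW1.trans (rk_mono ?_)
    rw [← e0]
    exact infW_mono_right _ g1
  have g5 := g3.le_deg.trans (hμ.deg_stable_le p hN D (hD2 p) U g2)
  have g6 := le_of_mul_le_mul_right g5 (Nat.cast_pos.2 g4)
  linarith

/-- For `W` with `ρ = rk (infW W) < r`: `deg - deg (infW W) ≥ p μ r - (p μ + r C) ρ ≥ (p μ - r² C)(r - ρ)`; for `ρ = r` the intersection is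
everything (`span_eq_of_rk_eq`, `infW_eq_self`). -/
theorem SlopeLE.frob_ge [PerfectField k] (hN : N.FG) (hH : Nef H) (hμ : SlopeLE H N μ)
    (hd : (deg H N : ℚ) = μ * N.rk) :
    SlopeGE H (Fam.frobV p N) (p * μ - (N.rk : ℚ) ^ 2 * (n * (B 1 H : ℤ))) := by
  intro W
  obtain ⟨e1, e2⟩ := deg_frobV p hN H
  have h1 : ((Fam.frobV p N).infW W).rk ≤ (Fam.frobV p N).rk := rk_mono (infW_le _ W)
  rcases h1.eq_or_lt with h2 | h2
  · have h3 := span_eq_of_rk_eq (infW_le (Fam.frobV p N) W) h2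
    have h4 : (Fam.frobV p N).span ≤ W := by
      rw [← h3]
      exact span_le_iff.2 fun γ v hv => (mem_infW.1 hv).2
    rw [infW_eq_self h4, sub_self, sub_self, mul_zero]
  · have h3 := hμ.frob p hN hH W
    have hC := frobslope_C_nonneg (n := n) hH
    rw [e1] at h2 ⊢
    rw [e2, Int.cast_mul, Int.cast_natCast, hd]
    generalize ((Fam.frobV p N).infW W).rk = ρ at h2 h3 ⊢
    generalize (n : ℚ) * (B 1 H : ℤ) = C at hC h3 ⊢
    have h4 : (ρ : ℚ) + 1 ≤ N.rk := by exact_mod_cast h2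
    have h5 : (0 : ℚ) ≤ ρ := Nat.cast_nonneg ρ
    generalize (N.rk : ℚ) = r at h3 h4 ⊢
    have h6 : 0 ≤ r * C * (r * (r - ρ) - ρ) :=
      mul_nonneg (mul_nonneg (by linarith) hC) (by nlinarith)
    linarith

end Fam

end Crest.Agent.R169
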