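import Crest.Agent.R169.AN

/-!
# rid 169, file `GM1`: graded local duality on the projective plane, in the form we need

`F = k(ξ 0, ξ 1)`, `V` an `F`-vector space, `D` a finitely generated graded `k[x,y,z]`-module inside `V`
(`x, y, z` act as `ξ 0, ξ 1, 1`).  Prefix helper lemmas with `gm1_`.
-/

set_option autoImplicit false

namespace Crest.Agent.R169

open Module

variable {k F V : Type} [Field k] [Field F] [Algebra k F] [AddCommGroup V] [Module F V]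
  [Module k V] [IsScalarTower k F V] {ξ : Fin 2 → F}

theorem PiF_mono (ξ : Fin 2 → F) {j j' : ℤ} (h : j ≤ j') : PiF k ξ j ≤ PiF k ξ j' :=
  Submodule.span_mono fun _ ⟨a, b, hab, e⟩ => ⟨a, b, hab.trans h, e⟩

theorem gm1_mon_mem {j : ℤ} {a b : ℕ} (h : (a : ℤ) + b ≤ j) : ξ 0 ^ a * ξ 1 ^ b ∈ PiF k ξ j :=
  Submodule.subset_span ⟨a, b, h, rfl⟩

theorem mul_mem_PiF {j j' : ℤ} {f g : F} (hf : f ∈ PiF k ξ j) (hg : g ∈ PiF k ξ j') :
    f * g ∈ PiF k ξ (j + j') := by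
  have h := Submodule.mul_mem_mul hf hg
  unfold PiF at h
  rw [Submodule.span_mul_span] at h
  refine Submodule.span_le.2 ?_ h
  rintro _ ⟨_, ⟨a, b, hab, rfl⟩, _, ⟨a', b', hab', rfl⟩, rfl⟩
  have e : ξ 0 ^ a * ξ 1 ^ b * (ξ 0 ^ a' * ξ 1 ^ b') = ξ 0 ^ (a + a') * ξ 1 ^ (b + b') := by ring
  change ξ 0 ^ a * ξ 1 ^ b * (ξ 0 ^ a' * ξ 1 ^ b') ∈ PiF k ξ (j + j')
  rw [e]
  exact gm1_mon_mem (by push_cast; omega)

/-- the exponent vector `(a, b)` -/
noncomputable def gm1_ex (a b : ℕ) : Fin 2 →₀ ℕ := Finsupp.single 0 a + Finsupp.single 1 b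

@[simp] theorem gm1_ex_zero (a b : ℕ) : gm1_ex a b 0 = a := by simp [gm1_ex]
@[simp] theorem gm1_ex_one (a b : ℕ) : gm1_ex a b 1 = b := by simp [gm1_ex]

theorem gm1_ex_inj {a b a' b' : ℕ} : gm1_ex a b = gm1_ex a' b' ↔ a = a' ∧ b = b' := by
  refine ⟨fun h => ⟨?_, ?_⟩, fun ⟨h, h'⟩ => by rw [h, h']⟩
  · simpa using DFunLike.congr_fun h 0
  · simpa using DFunLike.congr_fun h 1

theorem gm1_aeval_mon (s : Fin 2 →₀ ℕ) (c : k) :
    MvPolynomial.aeval ξ (MvPolynomial.monomial s c) = c • (ξ 0 ^ s 0 * ξ 1 ^ s 1) := by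
  rw [MvPolynomial.aeval_monomial, Finsupp.prod_fintype _ _ (by simp), Fin.prod_univ_two,
    Algebra.smul_def]

theorem gm1_aeval_ex (a b : ℕ) :
    MvPolynomial.aeval ξ (MvPolynomial.monomial (gm1_ex a b) (1 : k)) = ξ 0 ^ a * ξ 1 ^ b := by
  rw [gm1_aeval_mon]; simp

theorem gm1_aeval_mem (P : MvPolynomial (Fin 2) k) {j : ℤ} (h : (P.totalDegree : ℤ) ≤ j) :
    MvPolynomial.aeval ξ P ∈ PiF k ξ j := by
  rw [P.as_sum, map_sum]
  refine Submodule.sum_mem _ fun s hs => ?_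
  rw [gm1_aeval_mon]
  refine Submodule.smul_mem _ _ (gm1_mon_mem ?_)
  have h1 := MvPolynomial.le_totalDegree hs
  rw [Finsupp.sum_fintype _ _ (by simp), Fin.sum_univ_two] at h1
  omega

/-- `PiF j` is the image of the polynomials of total degree `≤ j`. -/
theorem mem_PiF_iff {j : ℤ} {f : F} :
    f ∈ PiF k ξ j ↔ ∃ P : MvPolynomial (Fin 2) k, (P = 0 ∨ (P.totalDegree : ℤ) ≤ j) ∧
      f = MvPolynomial.aeval ξ P := by
  constructor
  · intro hf
    induction hf using Submodule.span_induction with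
    | mem f hf =>
      obtain ⟨a, b, hab, rfl⟩ := hf
      refine ⟨MvPolynomial.monomial (gm1_ex a b) 1, Or.inr ?_, (gm1_aeval_ex a b).symm⟩
      have h1 := MvPolynomial.totalDegree_monomial_le (gm1_ex a b) (1 : k)
      rw [Finsupp.sum_fintype _ _ (by simp), Fin.sum_univ_two] at h1
      simp only [gm1_ex_zero, gm1_ex_one, id] at h1
      omega
    | zero => exact ⟨0, Or.inl rfl, by simp⟩
    | add f g _ _ hf hg =>
      obtain ⟨P, hP, rfl⟩ := hf
      obtain ⟨Q, hQ, rfl⟩ := hg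
      refine ⟨P + Q, ?_, by simp⟩
      rcases hP with rfl | hP
      · simpa using hQ
      · rcases hQ with rfl | hQ
        · right; simpa using hP
        · right
          have := MvPolynomial.totalDegree_add P Q
          omega
    | smul c f _ hf =>
      obtain ⟨P, hP, rfl⟩ := hf
      refine ⟨c • P, ?_, by simp⟩
      rcases hP with rfl | hP
      · left; simp
      · right
        have := MvPolynomial.totalDegree_smul_le c P
        omega
  · rintro ⟨P, rfl | hP, rfl⟩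
    · simp
    · exact gm1_aeval_mem P hP

/-- A form of degree `j` in `(ξ 0, ξ 1, 1)` lies in `PiF j`, and conversely. -/
theorem mem_PiF_iff_homog {j : ℕ} {f : F} :
    f ∈ PiF k ξ j ↔ ∃ E : MvPolynomial (Fin 3) k, E.IsHomogeneous j ∧
      f = MvPolynomial.aeval (TT ξ) E := by
  constructor
  · intro hf
    induction hf using Submodule.span_induction with
    | mem f hf =>
      obtain ⟨a, b, hab, rfl⟩ := hf
      refine ⟨MvPolynomial.X 0 ^ a * MvPolynomial.X 1 ^ b * MvPolynomial.X 2 ^ (j - a - b), ?_,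
        by simp [TT]⟩
      have h := ((MvPolynomial.isHomogeneous_X_pow (R := k) (0 : Fin 3) a).mul
        (MvPolynomial.isHomogeneous_X_pow (R := k) (1 : Fin 3) b)).mul
        (MvPolynomial.isHomogeneous_X_pow (R := k) (2 : Fin 3) (j - a - b))
      rwa [show a + b + (j - a - b) = j by omega] at h
    | zero => exact ⟨0, MvPolynomial.isHomogeneous_zero _ _ _, by simp⟩
    | add f g _ _ hf hg =>
      obtain ⟨P, hP, rfl⟩ := hf
      obtain ⟨Q, hQ, rfl⟩ := hg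
      exact ⟨P + Q, hP.add hQ, by simp⟩
    | smul c f _ hf =>
      obtain ⟨P, hP, rfl⟩ := hf
      exact ⟨c • P, (MvPolynomial.homogeneousSubmodule (Fin 3) k j).smul_mem c hP, by simp⟩
  · rintro ⟨E, hE, rfl⟩
    rw [E.as_sum, map_sum]
    refine Submodule.sum_mem _ fun s hs => ?_
    have h1 : j = s.degree := hE.degree_eq_sum_deg_support hs
    rw [Finsupp.degree_eq_sum, Fin.sum_univ_three] at h1
    rw [MvPolynomial.aeval_monomial, Finsupp.prod_fintype _ _ (by simp), Fin.prod_univ_three,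
      ← Algebra.smul_def]
    refine Submodule.smul_mem _ _ ?_
    have e : TT ξ 0 ^ s 0 * TT ξ 1 ^ s 1 * TT ξ 2 ^ s 2 = ξ 0 ^ s 0 * ξ 1 ^ s 1 := by simp [TT]
    rw [e]
    exact gm1_mon_mem (by omega)

theorem gm1_card (n : ℕ) : 2 * ∑ a ∈ Finset.range n, (n - a) = n * (n + 1) := by
  induction n with
  | zero => simp
  | succ n ih =>
    rw [Finset.sum_range_succ']
    simp only [Nat.add_sub_add_right, Nat.sub_zero]
    rw [mul_add, ih]; ring

theorem finrank_PiF (h : Coord k ξ) (j : ℕ) :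
    FiniteDimensional k (PiF k ξ j) ∧ 2 * finrank k (PiF k ξ j) = (j + 1) * (j + 2) := by
  let S : Finset (Σ _ : ℕ, ℕ) := (Finset.range (j + 1)).sigma fun a => Finset.range (j + 1 - a)
  let v : S → F := fun p => ξ 0 ^ p.1.1 * ξ 1 ^ p.1.2
  have hv : LinearIndependent k v := by
    have h1 := ((MvPolynomial.basisMonomials (Fin 2) k).linearIndependent.map'
      (MvPolynomial.aeval ξ : MvPolynomial (Fin 2) k →ₐ[k] F).toLinearMap
      (LinearMap.ker_eq_bot.2 h.ind)).comp (fun p : S => gm1_ex p.1.1 p.1.2) (by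
        rintro ⟨⟨a, b⟩, _⟩ ⟨⟨a', b'⟩, _⟩ e
        obtain ⟨rfl, rfl⟩ := gm1_ex_inj.1 e
        rfl)
    have e : v = ((MvPolynomial.aeval ξ : MvPolynomial (Fin 2) k →ₐ[k] F).toLinearMap ∘
        (MvPolynomial.basisMonomials (Fin 2) k)) ∘ fun p : S => gm1_ex p.1.1 p.1.2 := by
      funext p
      simp only [v, Function.comp_apply, MvPolynomial.coe_basisMonomials, AlgHom.toLinearMap_apply]
      exact (gm1_aeval_ex _ _).symm
    rw [e]
    exact h1
  have e : PiF k ξ j = Submodule.span k (Set.range v) := by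
    unfold PiF
    congr 1
    ext f
    constructor
    · rintro ⟨a, b, hab, rfl⟩
      exact ⟨⟨⟨a, b⟩, by simp only [S, Finset.mem_sigma, Finset.mem_range]; omega⟩, rfl⟩
    · rintro ⟨⟨⟨a, b⟩, hp⟩, rfl⟩
      simp only [S, Finset.mem_sigma, Finset.mem_range] at hp
      exact ⟨a, b, by omega, rfl⟩
  rw [e]
  refine ⟨FiniteDimensional.span_of_finite k (Set.finite_range v), ?_⟩
  rw [finrank_span_eq_card hv, Fintype.card_coe, Finset.card_sigma]
  simp only [Finset.card_range]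
  exact gm1_card (j + 1)

theorem PiF_neg (ξ : Fin 2 → F) {j : ℤ} (h : j < 0) : PiF k ξ j = ⊥ := by
  unfold PiF
  rw [Submodule.span_eq_bot]
  rintro _ ⟨a, b, hab, -⟩
  omega

theorem gm1_fin (hξ : Coord k ξ) (j : ℤ) : FiniteDimensional k (PiF k ξ j) := by
  rcases lt_or_ge j 0 with h | h
  · rw [PiF_neg ξ h]; infer_instance
  · obtain ⟨n, rfl⟩ := Int.eq_ofNat_of_zero_le h
    exact (finrank_PiF hξ n).1

theorem gm1_TT_mem (i : Fin 3) : TT ξ i ∈ PiF k ξ 1 := by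
  fin_cases i
  · simpa [TT] using gm1_mon_mem (k := k) (ξ := ξ) (a := 1) (b := 0) (j := 1) (by simp)
  · simpa [TT] using gm1_mon_mem (k := k) (ξ := ξ) (a := 0) (b := 1) (j := 1) (by simp)
  · simpa [TT] using gm1_mon_mem (k := k) (ξ := ξ) (a := 0) (b := 0) (j := 1) (by simp)

theorem gm1_TT_pow_mem (i : Fin 3) (n : ℕ) : TT ξ i ^ n ∈ PiF k ξ n := by
  fin_cases i
  · simpa [TT] using gm1_mon_mem (k := k) (ξ := ξ) (a := n) (b := 0) (j := n) (by simp)
  · simpa [TT] using gm1_mon_mem (k := k) (ξ := ξ) (a := 0) (b := n) (j := n) (by simp)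
  · simpa [TT] using gm1_mon_mem (k := k) (ξ := ξ) (a := 0) (b := 0) (j := n) (by simp)

theorem gm1_smul_mem {D : ℤ → Submodule k V} (hD : AFam (TT ξ) D) {j d : ℤ} {a : F} {v : V}
    (ha : a ∈ PiF k ξ j) (hv : v ∈ D d) : a • v ∈ D (d + j) := by
  rcases lt_or_ge j 0 with h | h
  · rw [PiF_neg ξ h, Submodule.mem_bot] at ha
    rw [ha, zero_smul]; exact Submodule.zero_mem _
  · obtain ⟨n, rfl⟩ := Int.eq_ofNat_of_zero_le h
    obtain ⟨E, hE, rfl⟩ := mem_PiF_iff_homog.1 ha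
    exact hD.aeval_smul_mem hE hv

theorem gm1_mon_smul {D : ℤ → Submodule k V} (hD : AFam (TT ξ) D) {d d' : ℤ} {a b : ℕ} {v : V}
    (hv : v ∈ D d) (h : d + a + b ≤ d') : (ξ 0 ^ a * ξ 1 ^ b) • v ∈ D d' := by
  have := gm1_smul_mem hD (gm1_mon_mem (k := k) (ξ := ξ) (a := a) (b := b) (j := d' - d)
    (by omega)) hv
  rwa [add_sub_cancel] at this

/-- generators, with coefficients in `PiF` -/
theorem gm1_gens {D : ℤ → Submodule k V} (hD : AFG (TT ξ) D) :
    ∃ (l : ℕ) (dg : Fin l → ℤ) (u : Fin l → V), (∀ t, u t ∈ D (dg t)) ∧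
      ∀ d, ∀ v ∈ D d, ∃ a : Fin l → F, (∀ t, a t ∈ PiF k ξ (d - dg t)) ∧ v = ∑ t, a t • u t := by
  obtain ⟨l, dg, u, hu, hg⟩ := hD.exists_gens
  refine ⟨l, dg, u, hu, fun d v hv => ?_⟩
  obtain ⟨E, h1, h2, h3⟩ := hg d v hv
  refine ⟨fun t => MvPolynomial.aeval (TT ξ) (E t), fun t => ?_, h3⟩
  rcases lt_or_ge d (dg t) with h | h
  · simp only [h2 t h, map_zero]; exact Submodule.zero_mem _
  · have := (mem_PiF_iff_homog (ξ := ξ)).2 ⟨E t, h1 t, rfl⟩
    rwa [Int.toNat_of_nonneg (by omega)] at this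

/-- The dual pieces are finite-dimensional: `φ ↦ (φ (u t))_t ∈ ∏ PiF (dg t + e)` is injective for generators `u t`. -/
theorem DualA_finite (hξ : Coord k ξ) {D : ℤ → Submodule k V} (hD : AFG (TT ξ) D)
    (hsp : Spans F D) (e : ℤ) : FiniteDimensional k (DualA ξ D e) := by
  obtain ⟨l, dg, u, hu, hg⟩ := gm1_gens hD
  have := gm1_fin hξ
  let L : DualA ξ D e →ₗ[k] ∀ t, PiF k ξ (dg t + e) :=
    { toFun := fun φ t => ⟨φ.1 (u t), φ.2 _ _ (hu t)⟩
      map_add' := fun _ _ => rfl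
      map_smul' := fun _ _ => rfl }
  refine FiniteDimensional.of_injective L fun φ φ' hφ => ?_
  have h1 : ∀ t, φ.1 (u t) = φ'.1 (u t) := fun t => congrArg Subtype.val (congrFun hφ t)
  refine Subtype.ext (LinearMap.ext_on hsp ?_)
  rintro v ⟨d, hv⟩
  obtain ⟨a, -, rfl⟩ := hg d v hv
  simp [h1]

/-- the coefficient functional -/
theorem gm1_cf (hξ : Coord k ξ) (n : ℕ) : ∃ cf : F →ₗ[k] k, ∀ a b : ℕ,
    cf (ξ 0 ^ a * ξ 1 ^ b) = if a = n ∧ b = n then 1 else 0 := by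
  classical
  obtain ⟨g, hg⟩ := LinearMap.exists_leftInverse_of_injective
    (MvPolynomial.aeval ξ : MvPolynomial (Fin 2) k →ₐ[k] F).toLinearMap
    (LinearMap.ker_eq_bot.2 hξ.ind)
  refine ⟨MvPolynomial.lcoeff k (gm1_ex n n) ∘ₗ g, fun a b => ?_⟩
  have h := LinearMap.congr_fun hg (MvPolynomial.monomial (gm1_ex a b) 1)
  simp only [LinearMap.comp_apply, AlgHom.toLinearMap_apply, LinearMap.id_apply,
    gm1_aeval_ex] at h
  rw [LinearMap.comp_apply, h, MvPolynomial.lcoeff_apply, MvPolynomial.coeff_monomial]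
  simp only [gm1_ex_inj]

variable (ξ) in
/-- the candidate on elements of low degree -/
noncomputable def gm1_phi (κ : ℕ) (ψ : V →ₗ[k] k) : V →ₗ[k] F where
  toFun u := ∑ a ∈ Finset.range κ, ∑ b ∈ Finset.range κ,
    ψ ((ξ 0 ^ (κ - 1 - a) * ξ 1 ^ (κ - 1 - b)) • u) • (ξ 0 ^ a * ξ 1 ^ b)
  map_add' u v := by simp only [smul_add, map_add, add_smul, Finset.sum_add_distrib]
  map_smul' c u := by
    simp only [RingHom.id_apply, Finset.smul_sum]
    refine Finset.sum_congr rfl fun a _ => Finset.sum_congr rfl fun b _ => ?_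
    rw [smul_comm _ c u, map_smul, smul_assoc]

theorem gm1_phi_apply (κ : ℕ) (ψ : V →ₗ[k] k) (u : V) : gm1_phi ξ κ ψ u =
    ∑ a ∈ Finset.range κ, ∑ b ∈ Finset.range κ,
      ψ ((ξ 0 ^ (κ - 1 - a) * ξ 1 ^ (κ - 1 - b)) • u) • (ξ 0 ^ a * ξ 1 ^ b) := rfl

section phi

variable {D : ℤ → Submodule k V} (hD : AFam (TT ξ) D) {κ : ℕ} {e : ℤ} {ψ : V →ₗ[k] k}
  (hψ : ∀ v ∈ sumX (fun i => TT ξ i ^ κ) (D (2 * κ - 3 - e)), ψ v = 0)
include hD hψ

theorem gm1_low {j : ℤ} {u : V} (hu : u ∈ D j) {a b : ℕ} (h : j + a + b ≤ 2 * κ - 3 - e) :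
    ψ ((ξ 0 ^ a * ξ 1 ^ b) • u) = 0 := by
  have := hψ _ (smul_mem_sumX (fun i => TT ξ i ^ κ) 2 (gm1_mon_smul hD hu h))
  simpa [TT] using this

theorem gm1_high0 {j : ℤ} {u : V} (hu : u ∈ D j) {a b : ℕ} (ha : κ ≤ a)
    (h : j + a + b ≤ 3 * κ - 3 - e) : ψ ((ξ 0 ^ a * ξ 1 ^ b) • u) = 0 := by
  obtain ⟨c, rfl⟩ := Nat.exists_eq_add_of_le ha
  have := hψ _ (smul_mem_sumX (fun i => TT ξ i ^ κ) 0
    (gm1_mon_smul hD hu (a := c) (b := b) (by push_cast at h; omega)))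
  rw [smul_smul] at this
  rw [← this, pow_add, mul_assoc]
  rfl

theorem gm1_high1 {j : ℤ} {u : V} (hu : u ∈ D j) {a b : ℕ} (hb : κ ≤ b)
    (h : j + a + b ≤ 3 * κ - 3 - e) : ψ ((ξ 0 ^ a * ξ 1 ^ b) • u) = 0 := by
  obtain ⟨c, rfl⟩ := Nat.exists_eq_add_of_le hb
  have := hψ _ (smul_mem_sumX (fun i => TT ξ i ^ κ) 1
    (gm1_mon_smul hD hu (a := a) (b := c) (by push_cast at h; omega)))
  rw [smul_smul] at this
  rw [← this, pow_add, mul_left_comm]
  rfl

theorem gm1_phi_mem {j : ℤ} {u : V} (hu : u ∈ D j) : gm1_phi ξ κ ψ u ∈ PiF k ξ (j + e) := by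
  rw [gm1_phi_apply]
  refine Submodule.sum_mem _ fun a ha => Submodule.sum_mem _ fun b hb => ?_
  rw [Finset.mem_range] at ha hb
  by_cases h : (a : ℤ) + b ≤ j + e
  · exact Submodule.smul_mem _ _ (gm1_mon_mem h)
  · rw [gm1_low hD hψ hu (by omega), zero_smul]
    exact Submodule.zero_mem _

theorem gm1_phi_x {j : ℤ} {u : V} (hu : u ∈ D j) (h : j + 1 + e ≤ κ - 1) :
    gm1_phi ξ κ ψ (ξ 0 • u) = ξ 0 * gm1_phi ξ κ ψ u := by
  rw [gm1_phi_apply, gm1_phi_apply, Finset.sum_comm, Finset.sum_comm (s := Finset.range κ)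
    (f := fun a b => ψ ((ξ 0 ^ (κ - 1 - a) * ξ 1 ^ (κ - 1 - b)) • u) • (ξ 0 ^ a * ξ 1 ^ b)),
    Finset.mul_sum]
  refine Finset.sum_congr rfl fun b hb => ?_
  rw [Finset.mem_range] at hb
  obtain ⟨n, rfl⟩ : ∃ n, κ = n + 1 := ⟨κ - 1, by omega⟩
  rw [Finset.sum_range_succ', Finset.sum_range_succ, mul_add, Finset.mul_sum]
  congr 1
  · refine Finset.sum_congr rfl fun a ha => ?_
    rw [Finset.mem_range] at ha
    rw [smul_smul, mul_smul_comm]
    have e1 : n + 1 - 1 - a = n + 1 - 1 - (a + 1) + 1 := by omega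
    rw [e1]
    congr 1
    · congr 2; ring
    · ring
  · have e1 : ξ 0 ^ (n + 1 - 1 - 0) * ξ 1 ^ (n + 1 - 1 - b) * ξ 0 =
        ξ 0 ^ (n + 1) * ξ 1 ^ (n + 1 - 1 - b) := by
      simp only [Nat.add_sub_cancel, Nat.sub_zero]; ring
    rw [smul_smul, e1, gm1_high0 hD hψ hu le_rfl (by omega), gm1_low hD hψ hu (by omega)]
    simp

theorem gm1_phi_y {j : ℤ} {u : V} (hu : u ∈ D j) (h : j + 1 + e ≤ κ - 1) :
    gm1_phi ξ κ ψ (ξ 1 • u) = ξ 1 * gm1_phi ξ κ ψ u := by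
  rw [gm1_phi_apply, gm1_phi_apply, Finset.mul_sum]
  refine Finset.sum_congr rfl fun a ha => ?_
  rw [Finset.mem_range] at ha
  obtain ⟨n, rfl⟩ : ∃ n, κ = n + 1 := ⟨κ - 1, by omega⟩
  rw [Finset.sum_range_succ', Finset.sum_range_succ, mul_add, Finset.mul_sum]
  congr 1
  · refine Finset.sum_congr rfl fun b hb => ?_
    rw [Finset.mem_range] at hb
    rw [smul_smul, mul_smul_comm]
    have e1 : n + 1 - 1 - b = n + 1 - 1 - (b + 1) + 1 := by omega
    rw [e1]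
    congr 1
    · congr 2; ring
    · ring
  · have e1 : ξ 0 ^ (n + 1 - 1 - a) * ξ 1 ^ (n + 1 - 1 - 0) * ξ 1 =
        ξ 0 ^ (n + 1 - 1 - a) * ξ 1 ^ (n + 1) := by
      simp only [Nat.add_sub_cancel, Nat.sub_zero]; ring
    rw [smul_smul, e1, gm1_high1 hD hψ hu le_rfl (by omega), gm1_low hD hψ hu (by omega)]
    simp

theorem gm1_phi_mon (a b : ℕ) {j : ℤ} {u : V} (hu : u ∈ D j) (h : j + a + b + e ≤ κ - 1) :
    gm1_phi ξ κ ψ ((ξ 0 ^ a * ξ 1 ^ b) • u) = ξ 0 ^ a * ξ 1 ^ b * gm1_phi ξ κ ψ u := by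
  induction a with
  | zero =>
    induction b with
    | zero => simp
    | succ b ih =>
      push_cast at h ih
      have e1 : ∀ x : F, ξ 0 ^ 0 * ξ 1 ^ (b + 1) * x = ξ 1 * (ξ 0 ^ 0 * ξ 1 ^ b * x) :=
        fun x => by ring
      have e2 : (ξ 0 ^ 0 * ξ 1 ^ (b + 1)) • u = ξ 1 • (ξ 0 ^ 0 * ξ 1 ^ b) • u := by
        rw [smul_smul]; congr 1; ring
      rw [e1, e2, gm1_phi_y hD hψ (gm1_mon_smul hD hu le_rfl) (by omega), ih (by omega)]
  | succ a ih =>
    push_cast at h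
    have e1 : ∀ x : F, ξ 0 ^ (a + 1) * ξ 1 ^ b * x = ξ 0 * (ξ 0 ^ a * ξ 1 ^ b * x) :=
      fun x => by ring
    have e2 : (ξ 0 ^ (a + 1) * ξ 1 ^ b) • u = ξ 0 • (ξ 0 ^ a * ξ 1 ^ b) • u := by
      rw [smul_smul]; congr 1; ring
    rw [e1, e2, gm1_phi_x hD hψ (gm1_mon_smul hD hu le_rfl) (by omega), ih (by omega)]

theorem gm1_phi_smul {i j : ℤ} {u : V} (hu : u ∈ D j) (h : j + i + e ≤ κ - 1) {c : F}
    (hc : c ∈ PiF k ξ i) : gm1_phi ξ κ ψ (c • u) = c * gm1_phi ξ κ ψ u := by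
  induction hc using Submodule.span_induction with
  | mem f hf =>
    obtain ⟨a, b, hab, rfl⟩ := hf
    exact gm1_phi_mon hD hψ a b hu (by omega)
  | zero => simp
  | add f g _ _ hf hg => rw [add_smul, map_add, hf, hg, add_mul]
  | smul c f _ hf => rw [smul_assoc, map_smul, hf, smul_mul_assoc]

theorem gm1_cf_phi {cf : F →ₗ[k] k}
    (hcf : ∀ a b : ℕ, cf (ξ 0 ^ a * ξ 1 ^ b) = if a = κ - 1 ∧ b = κ - 1 then 1 else 0)
    {j : ℤ} {u : V} (hu : u ∈ D j) {c : F} (hc : c ∈ PiF k ξ (3 * κ - 3 - e - j)) :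
    ψ (c • u) = cf (c * gm1_phi ξ κ ψ u) := by
  induction hc using Submodule.span_induction with
  | mem f hf =>
    obtain ⟨α, β, hab, rfl⟩ := hf
    have e1 : ∀ a b : ℕ, ξ 0 ^ α * ξ 1 ^ β * (ξ 0 ^ a * ξ 1 ^ b) = ξ 0 ^ (α + a) * ξ 1 ^ (β + b) :=
      fun a b => by ring
    simp only [gm1_phi_apply, Finset.mul_sum, map_sum, mul_smul_comm, map_smul, e1, hcf,
      smul_eq_mul]
    by_cases hα : κ ≤ α
    · rw [gm1_high0 hD hψ hu hα (by omega)]
      refine (Finset.sum_eq_zero fun a ha => Finset.sum_eq_zero fun b hb => ?_).symm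
      rw [Finset.mem_range] at ha hb
      beta_reduce
      rw [if_neg (by omega), mul_zero]
    by_cases hβ : κ ≤ β
    · rw [gm1_high1 hD hψ hu hβ (by omega)]
      refine (Finset.sum_eq_zero fun a ha => Finset.sum_eq_zero fun b hb => ?_).symm
      rw [Finset.mem_range] at ha hb
      beta_reduce
      rw [if_neg (by omega), mul_zero]
    rw [Finset.sum_eq_single (κ - 1 - α), Finset.sum_eq_single (κ - 1 - β), if_pos (by omega),
      mul_one, show κ - 1 - (κ - 1 - α) = α by omega, show κ - 1 - (κ - 1 - β) = β by omega]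
    · intro b _ hb
      rw [if_neg (by omega), mul_zero]
    · intro h
      exact absurd (Finset.mem_range.2 (by omega)) h
    · intro a _ ha
      refine Finset.sum_eq_zero fun b _ => ?_
      rw [if_neg (by omega), mul_zero]
    · intro h
      exact absurd (Finset.mem_range.2 (by omega)) h
  | zero => simp
  | add f g _ _ hf hg => rw [add_smul, map_add, hf, hg, add_mul, map_add]
  | smul c f _ hf => rw [smul_assoc, map_smul, hf, smul_mul_assoc, map_smul]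

end phi

variable (k ξ) in
/-- the free module on generators of degrees `dg t` -/
def gm1_free {l : ℕ} (dg : Fin l → ℤ) (j : ℤ) : Submodule k (Fin l → F) :=
  Submodule.pi Set.univ fun t => PiF k ξ (j - dg t)

theorem gm1_mem_free {l : ℕ} {dg : Fin l → ℤ} {j : ℤ} {a : Fin l → F} :
    a ∈ gm1_free k ξ dg j ↔ ∀ t, a t ∈ PiF k ξ (j - dg t) := by
  simp [gm1_free, Submodule.mem_pi]

theorem gm1_free_fam {l : ℕ} (dg : Fin l → ℤ) : AFam (TT ξ) (gm1_free k ξ dg) := by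
  intro i d v hv
  rw [gm1_mem_free] at hv ⊢
  intro t
  have := mul_mem_PiF (gm1_TT_mem i) (hv t)
  rwa [show 1 + (d - dg t) = d + 1 - dg t by ring] at this

theorem gm1_free_fg {l : ℕ} (dg : Fin l → ℤ) : AFG (TT ξ) (gm1_free k ξ dg) := by
  refine AFG.of_gens (gm1_free_fam dg) dg (fun t => Pi.single t 1) (fun t => ?_) fun d v hv => ?_
  · rw [gm1_mem_free]
    intro s
    by_cases h : s = t
    · subst h
      simpa using gm1_mon_mem (k := k) (ξ := ξ) (a := 0) (b := 0) (j := 0) (by simp)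
    · rw [Pi.single_eq_of_ne h]; exact Submodule.zero_mem _
  · rw [gm1_mem_free] at hv
    have h : ∀ t, ∃ E : MvPolynomial (Fin 3) k, E.IsHomogeneous (d - dg t).toNat ∧
        (d < dg t → E = 0) ∧ v t = MvPolynomial.aeval (TT ξ) E := by
      intro t
      have h1 := hv t
      rcases lt_or_ge d (dg t) with h | h
      · rw [PiF_neg ξ (by omega), Submodule.mem_bot] at h1
        exact ⟨0, MvPolynomial.isHomogeneous_zero _ _ _, fun _ => rfl, by simp [h1]⟩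
      · rw [← Int.toNat_of_nonneg (show 0 ≤ d - dg t by omega)] at h1
        obtain ⟨E, hE, e⟩ := mem_PiF_iff_homog.1 h1
        exact ⟨E, hE, fun h' => absurd h' (not_lt.2 h), e⟩
    choose E h1 h2 h3 using h
    refine ⟨E, h1, h2, ?_⟩
    simp only [← h3]
    funext s
    simp [Finset.sum_apply, Pi.single_apply]

/-- clearing denominators -/
theorem gm1_clear (hξ : Coord k ξ) {l : ℕ} (dg : Fin l → ℤ) (a : Fin l → F) :
    ∃ g : F, g ≠ 0 ∧ ∃ j, g • a ∈ gm1_free k ξ dg j := by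
  choose p q hq hpq using fun t => hξ.gen (a t)
  refine ⟨∏ t, MvPolynomial.aeval ξ (q t), Finset.prod_ne_zero_iff.2 fun t _ => hq t, ?_⟩
  let P : Fin l → MvPolynomial (Fin 2) k := fun t => p t * ∏ s ∈ Finset.univ.erase t, q s
  obtain ⟨j, hj⟩ := (Set.finite_range fun t => ((P t).totalDegree : ℤ) + dg t).bddAbove
  refine ⟨j, gm1_mem_free.2 fun t => ?_⟩
  have h1 : ((P t).totalDegree : ℤ) + dg t ≤ j := hj ⟨t, rfl⟩
  have h2 := gm1_aeval_mem (ξ := ξ) (P t) (j := j - dg t) (by omega)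
  have e : ((∏ t, MvPolynomial.aeval ξ (q t)) • a) t = MvPolynomial.aeval ξ (P t) := by
    simp only [P, map_mul, map_prod, ← hpq t, Pi.smul_apply, smul_eq_mul]
    rw [← Finset.mul_prod_erase _ _ (Finset.mem_univ t)]
    ring
  rwa [e]

/-- Core statement.  Let `cf` be a `k`-linear functional on `F` that is the coefficient of `ξ0^(κ-1) ξ1^(κ-1)` on
polynomials (extend from the range of `aeval ξ`, injective by `hξ.ind`).

Proof.  Take generators `u t ∈ D (dg t)` (`AFG.exists_gens`).  The relations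
`Rel j = {a : Fin l → F | a t ∈ PiF (j - dg t), ∑ a t • u t = 0}` form an `AFam` inside the `AFG` family
`j ↦ ∏ PiF (j - dg t)` (in the `F`-module `Fin l → F`; `AFG.of_gens`), so by `AFG.of_le`,
`Rel (j+1) ≤ sumX (TT ξ) (Rel j)` for `j ≥ d2`.  Choose `k0` with `dg t + e0 < k0` and `d2 + e0 < k0`, `k0 ≥ 1`.
Put `d = 3κ - 3 - e`.  For `j + e ≤ κ - 1` and `u ∈ D j` let
`φ_j u = ∑_{a + b ≤ j + e} ψ (ξ0^(κ-1-a) ξ1^(κ-1-b) • u) • ξ0^a ξ1^b ∈ PiF (j+e)`.
If `j + 1 + e ≤ κ - 1`: `φ_{j+1} (ξ0 • u) = ξ0 φ_j u` (the terms `a = 0` vanish since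
`ξ1^(κ-1-b) • u ∈ D (2κ-3-e)` and `ψ` kills `ξ0^κ • D (2κ-3-e)`), likewise for `ξ1`, and `φ_{j+1} u = φ_j u` (the terms
`a + b = j+1+e` vanish since the argument lies in `D (2κ-3-e)`, killed by `ψ` as `1^κ = 1`).  (Use that `D` is
monotone.)  Hence `φ_j (∑ a t • u t) = ∑ a t * φ_{dg t} (u t)` for `a t ∈ PiF (j - dg t)`, `j + e ≤ κ - 1`.  So the
`F`-linear `Φ : (Fin l → F) → F`, `e_t ↦ φ_{dg t} (u t)` kills `Rel j` for `j ≤ d2`, then all `Rel j`, then the whole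
kernel of `a ↦ ∑ a t • u t` (clear denominators with `hξ.gen`: a nonzero polynomial multiple of a relation lies in
some `Rel j`).  So `Φ = φ ∘ (a ↦ ∑ a t • u t)` for an `F`-linear `φ : V → F` (factor through the range, extend:
`LinearMap.exists_extend`, or `LinearMap.exists_comp_eq_of_ker_le`-type lemma).  `φ ∈ DualA ξ D e` since
`D j = ∑ PiF (j - dg t) • u t`.  Finally `ψ v = cf (φ v)` on `v = ξ0^α ξ1^β • u t`, `α + β ≤ d - dg t`: if
`α, β ≤ κ-1` and `(κ-1-α) + (κ-1-β) ≤ dg t + e` both sides are `ψ v` by definition; otherwise the coefficient is `0` and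
`ψ v = 0` because `α ≥ κ`, or `β ≥ κ`, or `v ∈ D (2κ-3-e)`. -/
theorem gm1_core (hξ : Coord k ξ) {D : ℤ → Submodule k V} (hD : AFG (TT ξ) D) (e0 : ℤ) :
    ∃ k0 : ℕ, ∀ κ : ℕ, k0 ≤ κ → ∀ e : ℤ, e ≤ e0 → ∃ cf : F →ₗ[k] k, ∀ ψ : V →ₗ[k] k,
      (∀ v ∈ sumX (fun i => TT ξ i ^ κ) (D (2 * κ - 3 - e)), ψ v = 0) →
      ∃ φ ∈ DualA ξ D e, ∀ v ∈ D (3 * κ - 3 - e), ψ v = cf (φ v) := by
  obtain ⟨l, dg, u, hu, hg⟩ := gm1_gens hD
  let π : (Fin l → F) →ₗ[F] V := Fintype.linearCombination F u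
  have hπ : ∀ a, π a = ∑ t, a t • u t := fun a => Fintype.linearCombination_apply F u a
  let Rel : ℤ → Submodule k (Fin l → F) := fun j =>
    gm1_free k ξ dg j ⊓ (LinearMap.ker π).restrictScalars k
  have hRel : AFG (TT ξ) Rel :=
    (gm1_free_fg dg).of_le (fun i d v hv => ⟨gm1_free_fam dg i d v hv.1,
      (LinearMap.ker π).smul_mem _ hv.2⟩) fun _ => inf_le_left
  obtain ⟨d2, hd2⟩ := hRel.gen
  refine ⟨(d2 + e0 + 1).toNat, fun κ hκ e he => ?_⟩
  obtain ⟨cf, hcf⟩ := gm1_cf hξ (κ - 1)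
  refine ⟨cf, fun ψ hψ => ?_⟩
  let Φ : (Fin l → F) →ₗ[F] F := Fintype.linearCombination F fun t => gm1_phi ξ κ ψ (u t)
  have hΦ : ∀ a, Φ a = ∑ t, a t * gm1_phi ξ κ ψ (u t) := fun a =>
    Fintype.linearCombination_apply F _ a
  have h1 : ∀ j ≤ d2, ∀ a ∈ Rel j, Φ a = 0 := by
    intro j hj a ha
    have h2 : π a = 0 := ha.2
    have h3 := gm1_mem_free.1 ha.1
    have h4 : gm1_phi ξ κ ψ (π a) = Φ a := by
      rw [hπ, hΦ, map_sum]
      exact Finset.sum_congr rfl fun t _ =>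
        gm1_phi_smul hD.fam hψ (hu t) (by omega) (h3 t)
    rw [← h4, h2, map_zero]
  have h2 : ∀ j, ∀ a ∈ Rel j, Φ a = 0 := by
    intro j
    rcases le_total j d2 with h | h
    · exact h1 j h
    · induction j, h using Int.leInduction with
      | base => exact h1 d2 le_rfl
      | succ j hj ih =>
        intro a ha
        obtain ⟨w, hw, rfl⟩ := hd2 j hj ha
        rw [map_sum]
        exact Finset.sum_eq_zero fun i _ => by rw [map_smul, ih _ (hw i), smul_zero]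
  have h3 : Φ ∈ (LinearMap.ker π).dualAnnihilator := by
    rw [Submodule.mem_dualAnnihilator]
    intro a ha
    obtain ⟨g, hg0, j, hj⟩ := gm1_clear hξ dg a
    have := h2 j _ ⟨hj, (LinearMap.ker π).smul_mem g ha⟩
    rw [map_smul, smul_eq_mul] at this
    exact (mul_eq_zero.1 this).resolve_left hg0
  rw [← LinearMap.range_dualMap_eq_dualAnnihilator_ker] at h3
  obtain ⟨φ, hφ⟩ := h3
  have h4 : ∀ a : Fin l → F, φ (∑ t, a t • u t) = ∑ t, a t * gm1_phi ξ κ ψ (u t) := fun a => by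
    rw [← hπ, ← hΦ, ← hφ]; rfl
  refine ⟨φ, fun d v hv => ?_, fun v hv => ?_⟩
  · obtain ⟨a, ha, rfl⟩ := hg d v hv
    rw [h4]
    refine Submodule.sum_mem _ fun t _ => ?_
    have := mul_mem_PiF (ha t) (gm1_phi_mem hD.fam hψ (hu t))
    rwa [show d - dg t + (dg t + e) = d + e by ring] at this
  · obtain ⟨a, ha, rfl⟩ := hg _ v hv
    rw [h4, map_sum, map_sum]
    exact Finset.sum_congr rfl fun t _ => gm1_cf_phi hD.fam hψ hcf (hu t) (ha t)

/-- Existence form: separate a vector outside `sumX ..` by a functional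
(`Submodule.exists_dual_map_eq_bot_of_notMem` or similar) and apply `gm1_core`. -/
theorem gm1_exists (hξ : Coord k ξ) {D : ℤ → Submodule k V} (hD : AFG (TT ξ) D) (e0 : ℤ) :
    ∃ k0 : ℕ, ∀ κ : ℕ, k0 ≤ κ → ∀ e : ℤ, e ≤ e0 →
      D (3 * κ - 3 - e) ≤ sumX (fun i => TT ξ i ^ κ) (D (2 * κ - 3 - e)) ∨
      ∃ φ ∈ DualA ξ D e, ∃ d, ∃ v ∈ D d, φ v ≠ 0 := by
  obtain ⟨k0, h⟩ := gm1_core hξ hD e0
  refine ⟨k0, fun κ hκ e he => ?_⟩
  obtain ⟨cf, hcf⟩ := h κ hκ e he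
  rw [or_iff_not_imp_left]
  intro hn
  obtain ⟨v, hv, hv'⟩ := SetLike.not_le_iff_exists.1 hn
  obtain ⟨ψ, h1, h2⟩ := Submodule.exists_dual_map_eq_bot_of_notMem hv' inferInstance
  obtain ⟨φ, hφ, h3⟩ := hcf ψ fun w hw => by
    have : ψ w ∈ (⊥ : Submodule k k) := h2 ▸ Submodule.mem_map_of_mem hw
    simpa using this
  refine ⟨φ, hφ, _, v, hv, fun h0 => h1 ?_⟩
  rw [h3 v hv, h0, map_zero]

/-- Dimension form: the range of the linear map `DualA ξ D e → Dual (D d)`, `φ ↦ cf ∘ φ`, contains the annihilator of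
`sumX .. ⊓ D d` (extend functionals from `D d` to `V`; note `sumX .. ≤ D d`), whose dimension is the codimension. -/
theorem gm1_dim (hξ : Coord k ξ) {D : ℤ → Submodule k V} (hD : AFG (TT ξ) D) (hsp : Spans F D)
    (e0 : ℤ) :
    ∃ k0 : ℕ, ∀ κ : ℕ, k0 ≤ κ → ∀ e : ℤ, e ≤ e0 →
      finrank k (D (3 * κ - 3 - e)) ≤
        finrank k (sumX (fun i => TT ξ i ^ κ) (D (2 * κ - 3 - e))) + finrank k (DualA ξ D e) := by
  obtain ⟨k0, h⟩ := gm1_core hξ hD e0
  refine ⟨k0, fun κ hκ e he => ?_⟩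
  obtain ⟨cf, hcf⟩ := h κ hκ e he
  have := hD.fin (3 * κ - 3 - e)
  have := DualA_finite hξ hD hsp e
  have hle : sumX (fun i => TT ξ i ^ κ) (D (2 * κ - 3 - e)) ≤ D (3 * κ - 3 - e) := by
    refine sumX_le fun i v hv => ?_
    have := gm1_smul_mem hD.fam (gm1_TT_pow_mem i κ) hv
    rwa [show 2 * (κ : ℤ) - 3 - e + κ = 3 * κ - 3 - e by ring] at this
  set U := sumX (fun i => TT ξ i ^ κ) (D (2 * κ - 3 - e)) with hU
  set W := D (3 * κ - 3 - e) with hW
  let L : DualA ξ D e →ₗ[k] Dual k W :=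
    { toFun := fun φ => cf ∘ₗ (φ.1.restrictScalars k) ∘ₗ W.subtype
      map_add' := fun φ φ' => by ext w; simp
      map_smul' := fun c φ => by ext w; simp }
  have h1 : (U.comap W.subtype).dualAnnihilator ≤ LinearMap.range L := by
    intro ψ' hψ'
    rw [Submodule.mem_dualAnnihilator] at hψ'
    obtain ⟨ψ, hψ⟩ := LinearMap.exists_extend ψ'
    have h2 : ∀ w : W, ψ w = ψ' w := fun w => LinearMap.congr_fun hψ w
    obtain ⟨φ, hφ, h3⟩ := hcf ψ fun v hv => (h2 ⟨v, hle hv⟩).trans (hψ' _ hv)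
    refine ⟨⟨φ, hφ⟩, LinearMap.ext fun w => ?_⟩
    rw [← h2, h3 _ w.2]
    rfl
  have h2 := Subspace.finrank_add_finrank_dualAnnihilator_eq (U.comap W.subtype)
  have h3 := (Submodule.comapSubtypeEquivOfLe hle).finrank_eq
  have h4 := Submodule.finrank_mono h1
  have h5 := LinearMap.finrank_range_le L
  omega

end Crest.Agent.R169
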