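import Crest.Agent.R169.GM1

/-!
# rid 169, file `GM2`: the first Chern classes of a module and its dual cancel

Same setting as `GM1`.  Prefix helper lemmas with `gm2_`.
-/

set_option autoImplicit false

namespace Crest.Agent.R169

open Module Filter

variable {k F : Type} [Field k] [Field F] [Algebra k F] {ξ : Fin 2 → F}

section Aux
variable {V : Type} [AddCommGroup V] [Module F V] [Module k V] [IsScalarTower k F V]
  {D : ℤ → Submodule k V}

theorem gm2_smul_mem (hD : AFam (TT ξ) D) {j d : ℤ} {f : F} (hf : f ∈ PiF k ξ j) {v : V}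
    (hv : v ∈ D d) : f • v ∈ D (d + j) := by
  rcases lt_or_ge j 0 with h | h
  · rw [PiF_neg ξ h, Submodule.mem_bot] at hf
    simp [hf]
  · obtain ⟨n, rfl⟩ := Int.eq_ofNat_of_zero_le h
    obtain ⟨E, hE, rfl⟩ := mem_PiF_iff_homog.1 hf
    exact hD.aeval_smul_mem hE hv

theorem gm2_one_mem {j : ℤ} (hj : 0 ≤ j) : (1 : F) ∈ PiF k ξ j :=
  Submodule.subset_span ⟨0, 0, by simpa using hj, by simp⟩

theorem gm2_mono (hD : AFam (TT ξ) D) {d d' : ℤ} (h : d ≤ d') : D d ≤ D d' := by
  intro v hv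
  have := gm2_smul_mem hD (gm2_one_mem (k := k) (ξ := ξ) (sub_nonneg.2 h)) hv
  simpa using this

theorem gm2_aeval_mem (P : MvPolynomial (Fin 2) k) :
    MvPolynomial.aeval ξ P ∈ PiF k ξ P.totalDegree :=
  mem_PiF_iff.2 ⟨P, Or.inr le_rfl, rfl⟩

theorem gm2_gens (hD : AFG (TT ξ) D) :
    ∃ (l : ℕ) (dg : Fin l → ℤ) (u : Fin l → V), (∀ t, u t ∈ D (dg t)) ∧
      ∀ d, ∀ v ∈ D d, ∃ a : Fin l → F, (∀ t, a t ∈ PiF k ξ (d - dg t)) ∧ v = ∑ t, a t • u t := by
  obtain ⟨l, dg, u, hu, H⟩ := hD.exists_gens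
  refine ⟨l, dg, u, hu, fun d v hv => ?_⟩
  obtain ⟨E, h1, h2, h3⟩ := H d v hv
  refine ⟨fun t => MvPolynomial.aeval (TT ξ) (E t), fun t => ?_, h3⟩
  rcases lt_or_ge d (dg t) with h | h
  · simp [h2 t h]
  · have : d - dg t = ((d - dg t).toNat : ℤ) := by omega
    rw [this]
    exact mem_PiF_iff_homog.2 ⟨E t, h1 t, rfl⟩

theorem gm2_PiF_fin (hξ : Coord k ξ) (j : ℤ) : FiniteDimensional k (PiF k ξ j) := by
  rcases lt_or_ge j 0 with h | h
  · rw [PiF_neg ξ h]; infer_instance
  · obtain ⟨n, rfl⟩ := Int.eq_ofNat_of_zero_le h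
    exact (finrank_PiF hξ n).1

theorem gm2_PiF_rank (hξ : Coord k ξ) {j : ℤ} (h : 0 ≤ j) :
    2 * (finrank k (PiF k ξ j) : ℤ) = (j + 1) * (j + 2) := by
  obtain ⟨n, rfl⟩ := Int.eq_ofNat_of_zero_le h
  exact_mod_cast (finrank_PiF hξ n).2

/-- clearing denominators -/
theorem gm2_clear (hξ : Coord k ξ) (hD : AFam (TT ξ) D) (hsp : Spans F D) (v : V) :
    ∃ c : F, c ≠ 0 ∧ ∃ d, c • v ∈ D d := by
  have hv : v ∈ Submodule.span F {v | ∃ d, v ∈ D d} := by rw [hsp]; trivial
  suffices h : ∃ j, ∃ c ∈ PiF k ξ j, c ≠ 0 ∧ ∃ d, c • v ∈ D d by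
    obtain ⟨_, c, _, h⟩ := h
    exact ⟨c, h⟩
  induction hv using Submodule.span_induction with
  | mem x hx =>
    obtain ⟨d, hd⟩ := hx
    exact ⟨0, 1, gm2_one_mem le_rfl, one_ne_zero, d, by simpa using hd⟩
  | zero => exact ⟨0, 1, gm2_one_mem le_rfl, one_ne_zero, 0, by simp⟩
  | add x y _ _ hx hy =>
    obtain ⟨j, c, hc, hc0, d, hd⟩ := hx
    obtain ⟨j', c', hc', hc0', d', hd'⟩ := hy
    refine ⟨j + j', c * c', mul_mem_PiF hc hc', mul_ne_zero hc0 hc0', max (d + j') (d' + j), ?_⟩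
    rw [smul_add]
    refine Submodule.add_mem _ ?_ ?_
    · rw [mul_comm, mul_smul]
      exact gm2_mono hD (le_max_left _ _) (gm2_smul_mem hD hc' hd)
    · rw [mul_smul]
      exact gm2_mono hD (le_max_right _ _) (gm2_smul_mem hD hc hd')
  | smul f x _ hx =>
    obtain ⟨j, c, hc, hc0, d, hd⟩ := hx
    obtain ⟨a, b, hb, hab⟩ := hξ.gen f
    refine ⟨_, c * MvPolynomial.aeval ξ b, mul_mem_PiF hc (gm2_aeval_mem b), mul_ne_zero hc0 hb,
      d + a.totalDegree, ?_⟩
    have := gm2_smul_mem hD (gm2_aeval_mem a) hd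
    rw [← hab] at this
    convert this using 1
    simp only [smul_smul]
    congr 1
    ring

end Aux

theorem gm2_finrank_le_add {U X Y : Type} [AddCommGroup U] [Module k U] [AddCommGroup X]
    [Module k X] [AddCommGroup Y] [Module k Y] (A : Submodule k U) [FiniteDimensional k A]
    (f : U →ₗ[k] X) (B : Submodule k X) [FiniteDimensional k B] (hf : ∀ x ∈ A, f x ∈ B)
    (g : Y →ₗ[k] U) (C : Submodule k Y) [FiniteDimensional k C]
    (hg : ∀ x ∈ A, f x = 0 → ∃ y ∈ C, g y = x) :
    finrank k A ≤ finrank k B + finrank k C := by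
  have h1 := LinearMap.finrank_range_add_finrank_ker (f.domRestrict A)
  have h2 : finrank k (LinearMap.range (f.domRestrict A)) ≤ finrank k B := by
    refine Submodule.finrank_mono ?_
    rintro _ ⟨x, rfl⟩
    exact hf x.1 x.2
  have h3 : finrank k (LinearMap.ker (f.domRestrict A)) ≤ finrank k C := by
    rw [← Submodule.finrank_map_subtype_eq]
    refine le_trans (Submodule.finrank_mono (t := C.map g) ?_) (Submodule.finrank_map_le g C)
    rintro _ ⟨x, hx, rfl⟩
    exact hg x.1 x.2 hx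
  omega

theorem gm2_finrank_le {U X : Type} [AddCommGroup U] [Module k U] [AddCommGroup X]
    [Module k X] (A : Submodule k U)
    (f : U →ₗ[k] X) (B : Submodule k X) [FiniteDimensional k B] (hf : ∀ x ∈ A, f x ∈ B)
    (hg : ∀ x ∈ A, f x = 0 → x = 0) : finrank k A ≤ finrank k B := by
  refine LinearMap.finrank_le_finrank_of_injective (f := f.restrict hf) ?_
  rw [injective_iff_map_eq_zero]
  intro x hx
  exact Subtype.ext (hg x.1 x.2 (congrArg Subtype.val hx))

/-- a finite family in `F`, not all zero, is `g` times a family of coprime polynomials -/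
theorem gm2_coprime (hξ : Coord k ξ) {l : ℕ} (u : Fin l → F) (t0 : Fin l) (h0 : u t0 ≠ 0) :
    ∃ (g : F) (p : Fin l → MvPolynomial (Fin 2) k), g ≠ 0 ∧
      (∀ t, u t = g * MvPolynomial.aeval ξ (p t)) ∧ ∀ B, (∀ t, B ∣ p t) → IsUnit B := by
  classical
  choose a b hb hab using hξ.gen
  obtain ⟨inst⟩ : Nonempty (NormalizedGCDMonoid (MvPolynomial (Fin 2) k)) := inferInstance
  obtain ⟨p, hp, hgcd⟩ := Finset.extract_gcd (s := Finset.univ)
    (fun t => a (u t) * ∏ s ∈ Finset.univ.erase t, b (u s)) ⟨t0, Finset.mem_univ _⟩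
  set G := Finset.univ.gcd (fun t => a (u t) * ∏ s ∈ Finset.univ.erase t, b (u s)) with hG
  have hB : MvPolynomial.aeval ξ (∏ s, b (u s)) ≠ 0 := by
    rw [map_prod]
    exact Finset.prod_ne_zero_iff.2 fun s _ => hb _
  have key : ∀ t, u t = MvPolynomial.aeval ξ G / MvPolynomial.aeval ξ (∏ s, b (u s)) *
      MvPolynomial.aeval ξ (p t) := by
    intro t
    rw [div_mul_eq_mul_div, eq_div_iff hB, ← map_mul, ← hp t (Finset.mem_univ _),
      ← Finset.mul_prod_erase _ _ (Finset.mem_univ t), map_mul, map_mul, ← mul_assoc, hab]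
  refine ⟨_, p, fun h => h0 ?_, key, fun B hB => ?_⟩
  · rw [key t0, h, zero_mul]
  · exact isUnit_of_dvd_one (hgcd ▸ Finset.dvd_gcd fun t _ => hB t)

/-- Rank one.  Proof: generators `u t ∈ D (dg t)` (`AFG.exists_gens`, `mem_PiF_iff_homog`); with a common
denominator and the gcd in the UFD `MvPolynomial (Fin 2) k` write `u t = g * aeval ξ (p t)`, `g ≠ 0`, the `p t`
without common non-unit factor (not all zero by `hsp`).  Let `a = max (totalDegree (p t) - dg t)` over `p t ≠ 0`.  Then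
`D d ≤ g • PiF (d + a)`.  For `φ ∈ DualA ξ D e`, `f = φ 1`: `f * g * aeval (p t) ∈ PiF (dg t + e)` for all `t`; write
`f * g = A / B` in lowest terms; `B ∣ p t` for all `t`, so `B` is a unit and `f * g = aeval A'`; if `A' ≠ 0`, additivity
of the total degree (`MvPolynomial.totalDegree_mul_of_isDomain`) at the `t` realising the maximum gives
`totalDegree A' ≤ e - a`.  So `φ ↦ φ 1 * g` injects `DualA ξ D e` in `PiF (e - a)`.  Finally
`dim PiF (t+a) + dim PiF (t-a) = t² + 3t + 2 + a²` for `t ≥ |a|` (`finrank_PiF`). -/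
theorem gm2_one (hξ : Coord k ξ) {D : ℤ → Submodule k F} (hD : AFG (TT ξ) D) (hsp : Spans F D) :
    ∃ C : ℤ, ∀ᶠ t : ℤ in atTop,
      (finrank k (D t) : ℤ) + finrank k (DualA ξ D t) ≤ t ^ 2 + 3 * t + C := by
  classical
  obtain ⟨l, dg, u, hu, H⟩ := gm2_gens hD
  have hne : ∃ t, u t ≠ 0 := by
    by_contra h
    push Not at h
    obtain ⟨c, hc, d, hd⟩ := gm2_clear hξ hD.fam hsp (1 : F)
    obtain ⟨a, _, ha⟩ := H d _ hd
    simp [h, hc] at ha
  obtain ⟨t1, ht1⟩ := hne
  obtain ⟨g, p, hg, hp, hcop⟩ := gm2_coprime hξ u t1 ht1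
  have hp1 : p t1 ≠ 0 := fun h => ht1 (by rw [hp t1, h, map_zero, mul_zero])
  obtain ⟨t0, ht0, hmax⟩ := Finset.exists_max_image (Finset.univ.filter fun t => p t ≠ 0)
    (fun t => ((p t).totalDegree : ℤ) - dg t) ⟨t1, by simpa using hp1⟩
  have hp0 : p t0 ≠ 0 := by simpa using ht0
  set a : ℤ := ((p t0).totalDegree : ℤ) - dg t0 with ha
  have hpa : ∀ t, MvPolynomial.aeval ξ (p t) ∈ PiF k ξ (dg t + a) := by
    intro t
    refine mem_PiF_iff.2 ⟨p t, ?_, rfl⟩
    by_cases h : p t = 0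
    · exact Or.inl h
    · have := hmax t (by simpa using h)
      exact Or.inr (by omega)
  have h1 : ∀ d, finrank k (D d) ≤ finrank k (PiF k ξ (d + a)) := by
    intro d
    have := gm2_PiF_fin hξ (d + a)
    refine gm2_finrank_le _ (LinearMap.mulLeft k g⁻¹) _ (fun v hv => ?_) (fun v _ hv => ?_)
    · obtain ⟨c, hc, rfl⟩ := H d v hv
      rw [map_sum]
      refine Submodule.sum_mem _ fun t _ => ?_
      have h2 := mul_mem_PiF (hc t) (hpa t)
      rw [show d - dg t + (dg t + a) = d + a by ring] at h2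
      convert h2 using 1
      rw [LinearMap.mulLeft_apply, hp t, smul_eq_mul]
      field_simp
    · simpa [hg] using hv
  have h2 : ∀ e, finrank k (DualA ξ D e) ≤ finrank k (PiF k ξ (e - a)) := by
    intro e
    have := gm2_PiF_fin hξ (e - a)
    let L : (F →ₗ[F] F) →ₗ[k] F :=
      { toFun := fun φ => φ 1 * g
        map_add' := fun φ ψ => by simp [add_mul]
        map_smul' := fun c φ => by simp }
    refine gm2_finrank_le _ L _ (fun φ hφ => ?_) (fun φ _ hφ => ?_)
    · show φ 1 * g ∈ _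
      have h3 : ∀ t, ∃ r : MvPolynomial (Fin 2) k, (r = 0 ∨ (r.totalDegree : ℤ) ≤ dg t + e) ∧
          φ 1 * g * MvPolynomial.aeval ξ (p t) = MvPolynomial.aeval ξ r := by
        intro t
        obtain ⟨r, hr, hr'⟩ := mem_PiF_iff.1 (hφ _ _ (hu t))
        refine ⟨r, hr, ?_⟩
        rw [← hr', mul_assoc, ← hp t, mul_comm, ← smul_eq_mul, ← map_smul, smul_eq_mul, mul_one]
      choose r hr hr' using h3
      obtain ⟨A0, B0, hB0, hAB⟩ := hξ.gen (φ 1 * g)
      have hB0' : B0 ≠ 0 := fun h => hB0 (by rw [h, map_zero])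
      obtain ⟨A, B, c, hrel, rfl, rfl⟩ :=
        UniqueFactorizationMonoid.exists_reduced_factors' A0 B0 hB0'
      rw [map_mul] at hB0
      have hc : MvPolynomial.aeval ξ c ≠ 0 := left_ne_zero_of_mul hB0
      have hAB' : φ 1 * g * MvPolynomial.aeval ξ B = MvPolynomial.aeval ξ A := by
        apply mul_left_cancel₀ hc
        rw [map_mul, map_mul] at hAB
        rw [← hAB]; ring
      have hinj : Function.Injective (MvPolynomial.aeval ξ : MvPolynomial (Fin 2) k →ₐ[k] F) :=
        hξ.ind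
      have h4 : ∀ t, A * p t = B * r t := by
        intro t
        apply hinj
        rw [map_mul, map_mul, ← hAB', ← hr' t]; ring
      obtain ⟨B', hB'⟩ := (hcop B fun t =>
        hrel.symm.dvd_of_dvd_mul_left ⟨r t, h4 t⟩).exists_right_inv
      have h5 : φ 1 * g = MvPolynomial.aeval ξ (A * B') := by
        rw [map_mul, ← hAB', mul_assoc _ _ (MvPolynomial.aeval ξ B'), ← map_mul, hB',
          map_one (MvPolynomial.aeval ξ), mul_one]
      refine mem_PiF_iff.2 ⟨A * B', ?_, h5⟩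
      by_cases h6 : A * B' = 0
      · exact Or.inl h6
      · right
        have h7 : A * B' * p t0 = r t0 := by
          apply hinj
          rw [map_mul, ← h5, hr' t0]
        have h8 := MvPolynomial.totalDegree_mul_of_isDomain h6 hp0
        rw [h7] at h8
        rcases hr t0 with h9 | h9
        · exact absurd (h7.trans h9) (mul_ne_zero h6 hp0)
        · omega
    · have h3 : φ 1 = 0 := (mul_eq_zero.1 hφ).resolve_right hg
      exact LinearMap.ext_ring (by simpa using h3)
  refine ⟨a ^ 2 + 2, ?_⟩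
  filter_upwards [eventually_ge_atTop |a|] with t ht
  have h3 := gm2_PiF_rank hξ (j := t + a) (by have := neg_abs_le a; omega)
  have h4 := gm2_PiF_rank hξ (j := t - a) (by have := le_abs_self a; omega)
  have h5 : (finrank k (D t) : ℤ) ≤ finrank k (PiF k ξ (t + a)) := by exact_mod_cast h1 t
  have h6 : (finrank k (DualA ξ D t) : ℤ) ≤ finrank k (PiF k ξ (t - a)) := by exact_mod_cast h2 t
  nlinarith

theorem gm2_upper_aux (hξ : Coord k ξ) (n : ℕ) : ∀ (V : Type) [AddCommGroup V] [Module F V]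
    [Module k V] [IsScalarTower k F V] [FiniteDimensional F V] (D : ℤ → Submodule k V),
    finrank F V = n → AFG (TT ξ) D → Spans F D →
    ∃ C : ℤ, ∀ᶠ t : ℤ in atTop,
      (finrank k (D t) : ℤ) + finrank k (DualA ξ D t) ≤ n * (t ^ 2 + 3 * t) + C := by
  induction n with
  | zero =>
    intro V _ _ _ _ _ D hn _ _
    have : Subsingleton V := Module.finrank_zero_iff.1 hn
    refine ⟨0, Eventually.of_forall fun t => ?_⟩
    rw [Module.finrank_zero_of_subsingleton, Module.finrank_zero_of_subsingleton]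
    simp
  | succ n ih =>
    intro V _ _ _ _ _ D hn hD hsp
    let b := Module.finBasisOfFinrankEq F V hn
    let ψ : V →ₗ[F] F := b.coord 0
    have hψ : ψ (b 0) = 1 := by simp [ψ]
    have hsurj : Function.Surjective ψ := fun f => ⟨f • b 0, by rw [map_smul, hψ]; simp⟩
    let W : Submodule F V := LinearMap.ker ψ
    have hW : finrank F W = n := by
      have h1 := LinearMap.finrank_range_add_finrank_ker ψ
      rw [LinearMap.range_eq_top.2 hsurj, finrank_top, Module.finrank_self, hn] at h1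
      show finrank F (LinearMap.ker ψ) = n
      omega
    let ι : W →ₗ[k] V := W.subtype.restrictScalars k
    let D1 : ℤ → Submodule k W := fun d => (D d).comap ι
    let D2 : ℤ → Submodule k F := fun d => (D d).map (ψ.restrictScalars k)
    have hD0 : AFG (TT ξ) (fun d => D d ⊓ W.restrictScalars k) :=
      hD.of_le (fun i d v hv => ⟨hD.fam i d v hv.1, W.smul_mem _ hv.2⟩) fun d => inf_le_left
    have hD1 : AFG (TT ξ) D1 := by
      refine ⟨fun i d v hv => hD.fam i d v.1 hv, fun d => ?_, ?_, ?_⟩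
      · have := hD.fin d
        refine FiniteDimensional.of_injective (ι.restrict (p := D1 d) (q := D d) fun x hx => hx) ?_
        intro x y hxy
        have h0 := congrArg Subtype.val hxy
        have h1 : ι x.1 = ι y.1 := h0
        exact Subtype.ext (Subtype.ext h1)
      · obtain ⟨d0, h0⟩ := hD.low
        refine ⟨d0, fun d hd => eq_bot_iff.2 fun v hv => ?_⟩
        have h1 : v.1 ∈ D d := hv
        rw [h0 d hd] at h1
        exact Subtype.ext h1
      · obtain ⟨d1, h1⟩ := hD0.gen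
        refine ⟨d1, fun d hd v hv => ?_⟩
        obtain ⟨u, hu, hv'⟩ := h1 d hd (show v.1 ∈ D (d + 1) ⊓ W.restrictScalars k from ⟨hv, v.2⟩)
        refine ⟨fun i => ⟨u i, (hu i).2⟩, fun i => (hu i).1, Subtype.ext ?_⟩
        rw [hv']
        simp
    have hD2 : AFG (TT ξ) D2 := by
      refine ⟨?_, fun d => ?_, ?_, ?_⟩
      · rintro i d _ ⟨v, hv, rfl⟩
        exact ⟨TT ξ i • v, hD.fam i d v hv, by simp⟩
      · have := hD.fin d
        exact Module.Finite.map _ _
      · obtain ⟨d0, h0⟩ := hD.low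
        exact ⟨d0, fun d hd => by simp [D2, h0 d hd]⟩
      · obtain ⟨d1, h1⟩ := hD.gen
        refine ⟨d1, fun d hd => ?_⟩
        rintro _ ⟨v, hv, rfl⟩
        obtain ⟨u, hu, rfl⟩ := h1 d hd hv
        exact ⟨fun i => ψ (u i), fun i => ⟨u i, hu i, rfl⟩, by simp⟩
    have hs1 : Spans F D1 := by
      refine eq_top_iff.2 fun w _ => ?_
      obtain ⟨c, hc, d, hd⟩ := gm2_clear hξ hD.fam hsp w.1
      rw [← inv_smul_smul₀ hc w]
      exact Submodule.smul_mem _ _ (Submodule.subset_span ⟨d, hd⟩)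
    have hs2 : Spans F D2 := by
      refine eq_top_iff.2 fun f _ => ?_
      obtain ⟨v, rfl⟩ := hsurj f
      obtain ⟨c, hc, d, hd⟩ := gm2_clear hξ hD.fam hsp v
      rw [← inv_smul_smul₀ hc v, map_smul]
      exact Submodule.smul_mem _ _ (Submodule.subset_span ⟨d, _, hd, rfl⟩)
    obtain ⟨C1, h1⟩ := ih W D1 hW hD1 hs1
    obtain ⟨C2, h2⟩ := gm2_one hξ hD2 hs2
    refine ⟨C1 + C2, ?_⟩
    filter_upwards [h1, h2] with t h1 h2
    have h3 : finrank k (D t) ≤ finrank k (D2 t) + finrank k (D1 t) := by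
      have := hD.fin t
      have := hD1.fin t
      have := hD2.fin t
      exact gm2_finrank_le_add (D t) (ψ.restrictScalars k) (D2 t) (fun x hx => ⟨x, hx, rfl⟩) ι
        (D1 t) fun x hx hx' => ⟨⟨x, hx'⟩, hx, rfl⟩
    have h4 : finrank k (DualA ξ D t) ≤ finrank k (DualA ξ D1 t) + finrank k (DualA ξ D2 t) := by
      have := DualA_finite hξ hD hsp t
      have := DualA_finite hξ hD1 hs1 t
      have := DualA_finite hξ hD2 hs2 t
      let r : (V →ₗ[F] F) →ₗ[k] (W →ₗ[F] F) :=
        { toFun := fun φ => φ ∘ₗ W.subtype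
          map_add' := fun _ _ => rfl
          map_smul' := fun _ _ => rfl }
      let s : (F →ₗ[F] F) →ₗ[k] (V →ₗ[F] F) :=
        { toFun := fun φ => φ ∘ₗ ψ
          map_add' := fun _ _ => rfl
          map_smul' := fun _ _ => rfl }
      refine gm2_finrank_le_add (DualA ξ D t) r (DualA ξ D1 t) (fun φ hφ d v hv => hφ d v.1 hv) s
        (DualA ξ D2 t) fun φ hφ hφ' => ?_
      have h5 : ∀ v, φ v = ψ v * φ (b 0) := by
        intro v
        have h6 : v - ψ v • b 0 ∈ W := by
          show ψ _ = 0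
          rw [map_sub, map_smul, hψ]; simp
        have h7 : φ (v - ψ v • b 0) = 0 := LinearMap.congr_fun hφ' ⟨_, h6⟩
        rw [map_sub, map_smul, sub_eq_zero] at h7
        exact h7
      refine ⟨LinearMap.mulRight F (φ (b 0)), ?_, LinearMap.ext fun v => (h5 v).symm⟩
      rintro d _ ⟨v, hv, rfl⟩
      have := hφ d v hv
      rw [h5] at this
      exact this
    have h3' : (finrank k (D t) : ℤ) ≤ finrank k (D2 t) + finrank k (D1 t) := by exact_mod_cast h3
    have h4' : (finrank k (DualA ξ D t) : ℤ) ≤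
        finrank k (DualA ξ D1 t) + finrank k (DualA ξ D2 t) := by exact_mod_cast h4
    push_cast
    linarith

/-- Induction on `finrank F V` (generalising `V`).  For `V ≠ 0` take a nonzero `F`-linear `ψ : V → F`, `W = ker ψ`,
`D' d = (D d).comap W.subtype` (a family in `↥W`; `AFG` by `AFG.of_le` applied to `D d ⊓ W`, transported),
`D'' d = (D d).map ψ`.  `D'` spans `W` (for `w ∈ W`, some nonzero polynomial multiple of `w` lies in some `D d`, by
`hξ.gen` and monotonicity of `D`), `D''` spans `F`.  `dim D t = dim D' t + dim D'' t`, and restriction to `W` maps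
`DualA ξ D t` to `DualA ξ D' t` with kernel the `φ = φ'' ∘ ψ`, `φ'' ∈ DualA ξ D'' t`; all are finite-dimensional
(`DualA_finite`). -/
theorem gm2_upper (hξ : Coord k ξ) {V : Type} [AddCommGroup V] [Module F V] [Module k V]
    [IsScalarTower k F V] [FiniteDimensional F V] {D : ℤ → Submodule k V} (hD : AFG (TT ξ) D)
    (hsp : Spans F D) :
    ∃ C : ℤ, ∀ᶠ t : ℤ in atTop,
      (finrank k (D t) : ℤ) + finrank k (DualA ξ D t) ≤ finrank F V * (t ^ 2 + 3 * t) + C := by
  exact gm2_upper_aux hξ _ V D rfl hD hsp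

/-- Lower bound: a basis `b i` of `V` chosen in `⋃ D d` lies in one `D a`; `(f i) ↦ ∑ f i • b i` injects
`(PiF (t - a))^R` in `D t`. -/
theorem gm2_lower (hξ : Coord k ξ) {V : Type} [AddCommGroup V] [Module F V] [Module k V]
    [IsScalarTower k F V] [FiniteDimensional F V] {D : ℤ → Submodule k V} (hD : AFG (TT ξ) D)
    (hsp : Spans F D) :
    ∃ a : ℤ, ∀ᶠ t : ℤ in atTop, (finrank F V : ℤ) * (t - a) ^ 2 ≤ 2 * finrank k (D t) := by
  let b := Module.finBasis F V
  choose c hc d hd using fun i => gm2_clear hξ hD.fam hsp (b i)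
  obtain ⟨a, ha⟩ := (Set.finite_range d).bddAbove
  have hw : ∀ i, c i • b i ∈ D a := fun i => gm2_mono hD.fam (ha ⟨i, rfl⟩) (hd i)
  refine ⟨a, ?_⟩
  filter_upwards [eventually_ge_atTop a] with t ht
  have := hD.fin t
  have := gm2_PiF_fin hξ (t - a)
  let L : (Fin (finrank F V) → PiF k ξ (t - a)) →ₗ[k] V :=
    { toFun := fun f => ∑ i, (f i : F) • c i • b i
      map_add' := fun f g => by simp [add_smul, Finset.sum_add_distrib]
      map_smul' := fun x f => by simp [Finset.smul_sum] }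
  have hL : ∀ f, L f = ∑ i, (f i : F) • c i • b i := fun _ => rfl
  have h1 := gm2_finrank_le ⊤ L (D t) (fun f _ => by
    rw [hL]
    refine Submodule.sum_mem _ fun i _ => ?_
    have := gm2_smul_mem hD.fam (f i).2 (hw i)
    rwa [add_sub_cancel] at this) (fun f _ hf => by
    have h2 : ∑ i, ((f i : F) * c i) • b i = 0 := by
      simpa only [mul_smul, hL] using hf
    have h3 := Fintype.linearIndependent_iff.1 b.linearIndependent _ h2
    funext i
    exact Subtype.ext ((mul_eq_zero.1 (h3 i)).resolve_right (hc i)))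
  rw [finrank_top, Module.finrank_pi_fintype, Finset.sum_const, Finset.card_univ,
    Fintype.card_fin, smul_eq_mul] at h1
  have h2 := gm2_PiF_rank hξ (sub_nonneg.2 ht)
  have h3 : (finrank F V : ℤ) * finrank k (PiF k ξ (t - a)) ≤ finrank k (D t) := by
    exact_mod_cast h1
  have h4 : (t - a) ^ 2 ≤ 2 * (finrank k (PiF k ξ (t - a)) : ℤ) := by
    rw [h2]; nlinarith [sub_nonneg.2 ht]
  have h5 : (0 : ℤ) ≤ finrank F V := by positivity
  nlinarith [mul_le_mul_of_nonneg_left h4 h5]

/-- An `AFG` family spans a finite-dimensional `F`-space (the generators span). -/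
theorem AFG.finiteDimensional_of_spans {V : Type} [AddCommGroup V] [Module F V] [Module k V]
    [IsScalarTower k F V] {D : ℤ → Submodule k V} (hD : AFG (TT ξ) D) (hsp : Spans F D) :
    FiniteDimensional F V := by
  obtain ⟨l, dg, u, _, H⟩ := gm2_gens hD
  refine ⟨Submodule.fg_def.2 ⟨Set.range u, Set.finite_range u, ?_⟩⟩
  refine eq_top_iff.2 (hsp.ge.trans (Submodule.span_le.2 ?_))
  rintro v ⟨d, hv⟩
  obtain ⟨a, _, rfl⟩ := H d v hv
  exact Submodule.sum_mem _ fun t _ => Submodule.smul_mem _ _ (Submodule.subset_span ⟨t, rfl⟩)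

end Crest.Agent.R169
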