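import Crest.Agent.R169.Lin

/-!
# rid 169, file `Gen`: reduction modulo a generic prime

Prefix helper lemmas with `gen_`.
-/

set_option autoImplicit false

namespace Crest.Agent.R169

open MvPolynomial

variable {I ι : Type} {v : I → ι → MvPolynomial (Fin 2) ℂ}
  {P Q : (k : Type) → [Field k] → (I → ι → MvPolynomial (Fin 2) k) → Prop}

theorem Generic.mono (h : Generic v P) (hPQ : ∀ (k : Type) [Field k] w, P k w → Q k w) :
    Generic v Q := by
  obtain ⟨X, hX⟩ := h
  exact ⟨X, fun Λ hΛ v' hv k _ θ => hPQ k _ (hX Λ hΛ v' hv k θ)⟩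

theorem Generic.and (h : Generic v P) (h' : Generic v Q) :
    Generic v (fun k _ w => P k w ∧ Q k w) := by
  classical
  obtain ⟨X, hX⟩ := h
  obtain ⟨X', hX'⟩ := h'
  exact ⟨X ∪ X', fun Λ hΛ v' hv k _ θ =>
    ⟨hX Λ (fun x hx => hΛ x (Finset.mem_union_left _ hx)) v' hv k θ,
      hX' Λ (fun x hx => hΛ x (Finset.mem_union_right _ hx)) v' hv k θ⟩⟩

theorem Generic.forall_finite {T : Type} [Finite T]
    {P : T → (k : Type) → [Field k] → (I → ι → MvPolynomial (Fin 2) k) → Prop}
    (h : ∀ t, Generic v (P t)) : Generic v (fun k _ w => ∀ t, P t k w) := by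
  classical
  have := Fintype.ofFinite T
  choose X hX using h
  exact ⟨Finset.univ.biUnion X, fun Λ hΛ v' hv k _ θ t =>
    hX t Λ (fun x hx => hΛ x (Finset.mem_biUnion.2 ⟨t, Finset.mem_univ _, hx⟩)) v' hv k θ⟩

/-- A polynomial whose coefficients lie in the subring lifts (`MvPolynomial.mem_range_map_iff_coeffs_subset`). -/
theorem exists_lift_subring {σ : Type} (Λ : Subring ℂ) (f : MvPolynomial σ ℂ)
    (h : ∀ m, f.coeff m ∈ Λ) : ∃ f' : MvPolynomial σ Λ, map Λ.subtype f' = f := by
  classical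
  refine ⟨∑ m ∈ f.support, monomial m ⟨f.coeff m, h m⟩, ?_⟩
  rw [map_sum]
  simp only [map_monomial, Subring.subtype_apply]
  exact (as_sum f).symm

theorem gen_jacobson_int : IsJacobsonRing ℤ := by
  refine isJacobsonRing_iff_prime_eq.2 fun P hP => ?_
  by_cases h : P = ⊥
  · subst h
    refine le_antisymm (fun x hx => ?_) Ideal.le_jacobson
    have h1 := Ideal.mem_jacobson_bot.1 hx x
    rw [Ideal.mem_bot]
    rcases Int.isUnit_iff.1 h1 with h2 | h2 <;> nlinarith [mul_self_nonneg x]
  · have := hP.isMaximal h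
    exact Ideal.jacobson_eq_self_of_isMaximal

/-- a field of finite type over `ℤ` is finite -/
theorem gen_finite (k : Type) [Field k] {S : Type} [Finite S] (f : MvPolynomial S ℤ →+* k)
    (hs : Function.Surjective f) : Finite k ∧ ∃ p : ℕ, p.Prime ∧ CharP k p := by
  have := gen_jacobson_int
  let g : MvPolynomial S ℤ →ₐ[ℤ] k := { f with commutes' := fun n => by simp }
  have hft : Algebra.FiniteType ℤ k := .of_surjective g hs
  have hf : Module.Finite ℤ k := finite_of_finite_type_of_isJacobsonRing ℤ k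
  obtain ⟨p, hp⟩ := CharP.exists k
  rcases CharP.char_is_prime_or_zero k p with h | h
  · refine ⟨Module.finite_of_fg_torsion k fun x => ?_, p, h, hp⟩
    refine ⟨⟨(p : ℤ), mem_nonZeroDivisors_of_ne_zero (by exact_mod_cast h.ne_zero)⟩, ?_⟩
    simp [Submonoid.smul_def]
  · subst h
    have := CharP.charP_to_charZero k
    exact absurd (isField_of_isIntegral_of_isField (R := ℤ) (S := k)
      (fun a b hab => by simpa using hab) (Field.toIsField k)) Int.not_isField

/-- A generic property holds over a finite field of arbitrarily large characteristic.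
Proof: let `Λ = Subring.closure (X ∪ coefficients of v ∪ {(M!)⁻¹})`, a finitely generated `ℤ`-algebra, nontrivial; take
a maximal ideal `𝔪` and `k = Λ / 𝔪` (`Ideal.Quotient.field`).  `k` is of finite type over the Jacobson ring `ℤ`, so finite
over `ℤ` (`finite_of_finite_type_of_isJacobsonRing`); a field that is a finite `ℤ`-module has characteristic `p ≠ 0`
(else `ℤ → k` is injective and integral, making `ℤ` a field) and is then finite (`Module.finite_of_finite` over
`ZMod p`, or a finitely generated torsion abelian group).  `M!` is invertible in `k`, so `p ∤ M!`, so `p > M`. -/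
theorem Generic.exists_char [Finite I] [Finite ι] (h : Generic v P) (M : ℕ) :
    ∃ (k : Type) (_ : Field k) (_ : Finite k) (p : ℕ) (_ : Fact p.Prime) (_ : CharP k p)
      (w : I → ι → MvPolynomial (Fin 2) k), M < p ∧ P k w := by
  classical
  have := Fintype.ofFinite I
  have := Fintype.ofFinite ι
  obtain ⟨X, hX⟩ := h
  let S : Finset ℂ := insert ((M.factorial : ℂ)⁻¹)
    (X ∪ Finset.univ.biUnion fun i => Finset.univ.biUnion fun j => (v i j).coeffs)
  let φ : MvPolynomial S ℤ →+* ℂ := eval₂Hom (Int.castRingHom ℂ) Subtype.val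
  let Λ : Subring ℂ := φ.range
  have hS : ∀ x ∈ S, x ∈ Λ := fun x hx => ⟨MvPolynomial.X ⟨x, hx⟩, by simp [φ]⟩
  have hv : ∀ i j, ∃ f' : MvPolynomial (Fin 2) Λ, map Λ.subtype f' = v i j := fun i j =>
    exists_lift_subring Λ _ fun m => by
      by_cases hm : (v i j).coeff m = 0
      · rw [hm]; exact Λ.zero_mem
      · refine hS _ (Finset.mem_insert_of_mem (Finset.mem_union_right _ ?_))
        exact Finset.mem_biUnion.2 ⟨i, Finset.mem_univ _, Finset.mem_biUnion.2
          ⟨j, Finset.mem_univ _, coeff_mem_coeffs m hm⟩⟩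
  choose v' hv' using hv
  obtain ⟨m, hm⟩ := Ideal.exists_maximal Λ
  let _ : Field (Λ ⧸ m) := Ideal.Quotient.field m
  obtain ⟨hfin, p, hp, hc⟩ := gen_finite (Λ ⧸ m) ((Ideal.Quotient.mk m).comp φ.rangeRestrict)
    (Ideal.Quotient.mk_surjective.comp φ.rangeRestrict_surjective)
  refine ⟨Λ ⧸ m, inferInstance, hfin, p, ⟨hp⟩, hc, _, ?_,
    hX Λ (fun x hx => hS x (Finset.mem_insert_of_mem (Finset.mem_union_left _ hx))) v' hv' _
      (Ideal.Quotient.mk m)⟩
  by_contra hM
  have h1 : p ∣ M.factorial := (hp.dvd_factorial).2 (by omega)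
  have h2 : ((M.factorial : ℕ) : Λ ⧸ m) = 0 := (CharP.cast_eq_zero_iff _ p _).2 h1
  have h3 : ((M.factorial : ℕ) : Λ) * ⟨(M.factorial : ℂ)⁻¹, hS _ (Finset.mem_insert_self _ _)⟩ = 1 := by
    ext
    have : (M.factorial : ℂ) ≠ 0 := by exact_mod_cast M.factorial_ne_zero
    simp [this]
  have h4 := congrArg (Ideal.Quotient.mk m) h3
  rw [map_mul, map_natCast, h2, zero_mul, map_one] at h4
  exact zero_ne_one h4

/-- `nullst` for one polynomial -/
theorem gen_nullst {σ T : Type} [Finite σ] (e : T → MvPolynomial σ ℂ) (y : MvPolynomial σ ℂ)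
    (h : ∀ a : σ → ℂ, (∀ t, eval a (e t) = 0) → eval a y = 0) :
    ∃ X : Finset ℂ, ∀ Λ : Subring ℂ, (∀ x ∈ X, x ∈ Λ) →
      ∀ (e' : T → MvPolynomial σ Λ) (y' : MvPolynomial σ Λ),
        (∀ t, map Λ.subtype (e' t) = e t) → map Λ.subtype y' = y →
        ∀ (k : Type) [Field k] (θ : Λ →+* k) (a : σ → k),
          (∀ t, eval₂Hom θ a (e' t) = 0) → eval₂Hom θ a y' = 0 := by
  classical
  have h1 : y ∈ (Ideal.span (Set.range e)).radical := by
    rw [← vanishingIdeal_zeroLocus_eq_radical (K := ℂ), mem_vanishingIdeal_iff]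
    intro a ha
    have := h a fun t => by
      simpa [aeval_eq_eval] using ha (e t) (Ideal.subset_span ⟨t, rfl⟩)
    simpa [aeval_eq_eval] using this
  obtain ⟨N, hN⟩ := h1
  obtain ⟨n, c, g, hg⟩ := Submodule.mem_span_set'.1 hN
  choose t ht using fun i => (g i).2
  refine ⟨Finset.univ.biUnion fun i => (c i).coeffs, fun Λ hΛ e' y' he hy k _ θ a ha => ?_⟩
  have hc : ∀ i, ∃ f' : MvPolynomial σ Λ, map Λ.subtype f' = c i := fun i =>
    exists_lift_subring Λ _ fun m => by
      by_cases hm : (c i).coeff m = 0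
      · rw [hm]; exact Λ.zero_mem
      · exact hΛ _ (Finset.mem_biUnion.2 ⟨i, Finset.mem_univ _, coeff_mem_coeffs m hm⟩)
  choose c' hc' using hc
  have h2 : ∑ i, c' i * e' (t i) = y' ^ N := by
    refine map_injective Λ.subtype Subtype.val_injective ?_
    rw [map_sum, map_pow, hy, ← hg]
    exact Finset.sum_congr rfl fun i _ => by rw [map_mul, hc', he, ht, smul_eq_mul]
  have h3 := congrArg (eval₂Hom θ a) h2
  rw [map_sum, map_pow, Finset.sum_eq_zero fun i _ => by rw [map_mul, ha, mul_zero]] at h3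
  exact eq_zero_of_pow_eq_zero h3.symm

/-- Nullstellensatz, spread out.  `σ` are the unknowns; each `E j` is a polynomial in the variables `τ` all of whose
coefficients are required to vanish.
Proof: let `𝔞` be the ideal of `MvPolynomial σ ℂ` spanned by the coefficients of the `E j`.  Each of the finitely many
nonzero coefficients `y = coeff μ Y` vanishes on the zero locus of `𝔞`, so `y ^ N = ∑ a_i * e_i` with `e_i` coefficients
of the `E j` (`MvPolynomial.vanishingIdeal_zeroLocus_eq_radical`, `Submodule.mem_span_set'`/`mem_span_finite..`).  Let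
`X` contain the coefficients of all `a_i`.  Over `Λ` the identity lifts (`exists_lift_subring`, injectivity of
`map Λ.subtype`), and is then mapped by `eval₂Hom θ a`; `k` is reduced. -/
theorem nullst {σ τ J : Type} [Finite σ] [Finite J] (E : J → MvPolynomial τ (MvPolynomial σ ℂ))
    (Y : MvPolynomial τ (MvPolynomial σ ℂ))
    (h : ∀ a : σ → ℂ, (∀ j, map (eval a) (E j) = 0) → map (eval a) Y = 0) :
    ∃ X : Finset ℂ, ∀ Λ : Subring ℂ, (∀ x ∈ X, x ∈ Λ) →
      ∀ (E' : J → MvPolynomial τ (MvPolynomial σ Λ)) (Y' : MvPolynomial τ (MvPolynomial σ Λ)),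
        (∀ j, map (map Λ.subtype) (E' j) = E j) → map (map Λ.subtype) Y' = Y →
        ∀ (k : Type) [Field k] (θ : Λ →+* k) (a : σ → k),
          (∀ j, map (eval₂Hom θ a) (E' j) = 0) → map (eval₂Hom θ a) Y' = 0 := by
  classical
  have h1 : ∀ μ : τ →₀ ℕ, _ := fun μ =>
    gen_nullst (fun t : J × (τ →₀ ℕ) => (E t.1).coeff t.2) (Y.coeff μ) fun a ha => by
      have := h a fun j => by
        ext m
        rw [coeff_map, coeff_zero]
        exact ha (j, m)
      rw [← coeff_map, this, coeff_zero]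
  choose X hX using h1
  refine ⟨Y.support.biUnion X, fun Λ hΛ E' Y' hE hY k _ θ a ha => ?_⟩
  ext μ
  rw [coeff_map, coeff_zero]
  have h2 : map Λ.subtype (Y'.coeff μ) = Y.coeff μ := by rw [← hY, coeff_map]
  by_cases hμ : μ ∈ Y.support
  · refine hX μ Λ (fun x hx => hΛ x (Finset.mem_biUnion.2 ⟨μ, hμ, hx⟩))
      (fun t => (E' t.1).coeff t.2) _ (fun t => by rw [← hE, coeff_map]) h2 k θ a fun t => ?_
    rw [← coeff_map, ha, coeff_zero]
  · rw [notMem_support_iff.1 hμ] at h2
    have h3 : Y'.coeff μ = 0 :=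
      map_injective Λ.subtype Subtype.val_injective (by rw [h2, map_zero])
    rw [h3, map_zero]

end Crest.Agent.R169
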