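import Crest.Agent.R169.Lin

/-!
# rid 169, file `HatA`: the power series ring `ℂ⟦x,y,z⟧`

Prefix helper lemmas with `hata_`.
-/

set_option autoImplicit false

namespace Crest.Agent.R169

/-- The power series ring in three variables. -/
abbrev AH : Type := MvPowerSeries (Fin 3) ℂ

/-- Completely integrally closed, without fractions. -/
def CIC (A : Type) [CommRing A] : Prop :=
  ∀ a b d : A, b ≠ 0 → d ≠ 0 → (∀ m : ℕ, b ^ m ∣ d * a ^ m) → b ∣ a

theorem hata_sub {R : Type} [CommRing R] {a b d : R} (h : ∀ m : ℕ, b ^ m ∣ d * a ^ m) (q : R)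
    (m : ℕ) : b ^ m ∣ d * (a - q * b) ^ m := by
  have key : ∀ m k : ℕ, b ^ (m + k) ∣ d * a ^ k * (a - q * b) ^ m := by
    intro m
    induction m with
    | zero => simpa using h
    | succ m ih =>
      intro k
      have e : d * a ^ k * (a - q * b) ^ (m + 1) =
          d * a ^ (k + 1) * (a - q * b) ^ m - q * (d * a ^ k * (a - q * b) ^ m * b) := by ring
      rw [e]
      refine dvd_sub (by rw [add_right_comm, add_assoc]; exact ih (k + 1)) (Dvd.dvd.mul_left ?_ q)
      rw [add_right_comm, pow_succ]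
      exact mul_dvd_mul_right (ih k) b
  simpa using key m 0

theorem hata_cancel {R : Type} [CommRing R] [IsDomain R] {p b y : R} (hp : Prime p) (hb : ¬ p ∣ b)
    (n : ℕ) (h : b ∣ p ^ n * y) : b ∣ y := by
  obtain ⟨e, he⟩ := h
  obtain ⟨e', rfl⟩ := hp.pow_dvd_of_dvd_mul_left n hb ⟨y, he.symm⟩
  refine ⟨e', mul_left_cancel₀ (pow_ne_zero n hp.ne_zero) ?_⟩
  rw [he]
  ring

open PowerSeries in
theorem hata_eq_zero {A : Type} [CommRing A] {f : A⟦X⟧} (h : ∀ n : ℕ, (X : A⟦X⟧) ^ n ∣ f) :
    f = 0 := by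
  ext n
  exact X_pow_dvd_iff.1 (h (n + 1)) n (Nat.lt_succ_self n)

open PowerSeries in
theorem hata_step {A : Type} [CommRing A] [IsDomain A] (h : CIC A) {b d : A⟦X⟧}
    (hb : constantCoeff b ≠ 0) (hd : d ≠ 0) (a : A⟦X⟧) (ha : ∀ m : ℕ, b ^ m ∣ d * a ^ m) :
    ∃ (c : A) (a' : A⟦X⟧), (∀ m : ℕ, b ^ m ∣ d * a' ^ m) ∧ a = C c * b + X * a' := by
  have hb' : ∀ m : ℕ, ¬ (X : A⟦X⟧) ∣ b ^ m := fun m hm =>
    hb (X_dvd_iff.1 (X_prime.dvd_of_dvd_pow hm))
  obtain ⟨c, hc⟩ := h (constantCoeff a) (constantCoeff b) (constantCoeff (divXPowOrder d)) hb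
    (fun h0 => hd (constantCoeff_divXPowOrder_eq_zero_iff.1 h0)) fun m => by
      have h1 := ha m
      rw [← X_pow_order_mul_divXPowOrder (f := d), mul_assoc] at h1
      have h2 := map_dvd (constantCoeff (R := A)) (hata_cancel X_prime (hb' m) _ h1)
      rwa [map_pow, map_mul, map_pow] at h2
  obtain ⟨a', ha'⟩ : (X : A⟦X⟧) ∣ a - C c * b := X_dvd_iff.2 (by simp [hc, mul_comm])
  refine ⟨c, a', fun m => ?_, by rw [← ha']; ring⟩
  have h1 := hata_sub ha (C c) m
  rw [ha', mul_pow, mul_left_comm] at h1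
  exact hata_cancel X_prime (hb' m) _ h1

open PowerSeries in
theorem hata_dvd {A : Type} [CommRing A] [IsDomain A] (h : CIC A) {b d : A⟦X⟧}
    (hb : constantCoeff b ≠ 0) (hd : d ≠ 0) (a : A⟦X⟧) (ha : ∀ m : ℕ, b ^ m ∣ d * a ^ m) :
    b ∣ a := by
  choose c nx h1 h2 using hata_step h hb hd
  let T := {a : A⟦X⟧ // ∀ m : ℕ, b ^ m ∣ d * a ^ m}
  let N : T → T := fun a => ⟨nx a.1 a.2, h1 a.1 a.2⟩
  let Q : T → A⟦X⟧ := fun a => mk fun n => c (N^[n] a).1 (N^[n] a).2
  have hQ : ∀ a : T, Q a = C (c a.1 a.2) + X * Q (N a) := fun a => by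
    ext n
    cases n with
    | zero => simp [Q]
    | succ n => simp [Q, coeff_succ_X_mul]
  have key : ∀ (n : ℕ) (a : T), (X : A⟦X⟧) ^ n ∣ a.1 - b * Q a := by
    intro n
    induction n with
    | zero => simp
    | succ n ih =>
      intro a
      have e : a.1 - b * Q a = X * ((N a).1 - b * Q (N a)) := by
        have h3 := h2 a.1 a.2
        rw [hQ a]
        change a.1 - _ = X * (nx a.1 a.2 - _)
        linear_combination h3
      rw [e, pow_succ']
      exact mul_dvd_mul_left X (ih _)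
  exact ⟨Q ⟨a, ha⟩, sub_eq_zero.1 (hata_eq_zero fun n => key n ⟨a, ha⟩)⟩

/-- Proof: `a` (any power series with the property) is `0` or has order `α` with `m β ≤ δ + m α` for all `m`
(`β, δ` the orders of `b, d`; `PowerSeries.order_mul`), so `α ≥ β`; the lowest coefficients satisfy
`d0 * a0^m = b0^m * (e m)0`, so `b0 ∣ a0` by `CIC A`; then `a - C (a0/b0) * X^(α-β) * b` has larger order and the same
property (binomial expansion: `b^m ∣ d (a - q b)^m`).  So by induction on `N` there is `q N` with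
`X^(β+N) ∣ a - q N * b`; these are compatible (`X^N ∣ q (N+1) - q N`, since `X^(β+N) ∣ (q (N+1) - q N) * b` and orders add),
so `q = mk fun i => coeff i (q (i+1))` has `a = q * b` (compare coefficients: `X^N ∣ q - q N`). -/
theorem CIC.powerSeries {A : Type} [CommRing A] [IsDomain A] (h : CIC A) : CIC (PowerSeries A) := by
  intro a b d hb hd ha
  have hb' : PowerSeries.constantCoeff (PowerSeries.divXPowOrder b) ≠ 0 := fun h0 =>
    hb (PowerSeries.constantCoeff_divXPowOrder_eq_zero_iff.1 h0)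
  rw [← PowerSeries.X_pow_order_mul_divXPowOrder (f := b)] at ha ⊢
  generalize b.order.toNat = β at ha ⊢
  induction β generalizing a with
  | zero =>
    rw [pow_zero, one_mul] at ha ⊢
    exact hata_dvd h hb' hd a ha
  | succ β ih =>
    obtain ⟨a, rfl⟩ : (PowerSeries.X : PowerSeries A) ∣ a := by
      by_contra h1
      refine hd (hata_eq_zero fun m => PowerSeries.X_prime.pow_dvd_of_dvd_mul_right m
        (fun h2 => h1 (PowerSeries.X_prime.dvd_of_dvd_pow h2)) (Dvd.dvd.trans ?_ (ha m)))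
      exact pow_dvd_pow_of_dvd (Dvd.dvd.mul_right (dvd_pow_self _ (Nat.succ_ne_zero β)) _) m
    rw [pow_succ', mul_assoc]
    refine mul_dvd_mul_left _ (ih a fun m => ?_)
    have h1 := ha m
    rw [pow_succ', mul_assoc, mul_pow, mul_pow PowerSeries.X a, mul_left_comm] at h1
    exact (mul_dvd_mul_iff_left (pow_ne_zero m PowerSeries.X_ne_zero)).1 h1

/-- Proof: if `x = a/b` is integral of degree `N+1` over `A`, then every power `x^m` lies in the `A`-span of
`1, …, x^N`, so `b^N * a^m ∈ b^m A`. (`isIntegrallyClosed_iff (FractionRing A)`.) -/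
theorem CIC.isIntegrallyClosed {A : Type} [CommRing A] [IsDomain A] (h : CIC A) :
    IsIntegrallyClosed A := by
  refine (isIntegrallyClosed_iff (FractionRing A)).2 fun {x} hx => ?_
  obtain ⟨d, hd, h1⟩ := hx.isAlmostIntegral
  obtain ⟨a, b, hb, rfl⟩ := IsFractionRing.div_surjective (A := A) x
  have hb0 : b ≠ 0 := nonZeroDivisors.ne_zero hb
  have hb1 : algebraMap A (FractionRing A) b ≠ 0 :=
    (map_ne_zero_iff _ (IsFractionRing.injective A _)).2 hb0
  obtain ⟨c, rfl⟩ := h a b d hb0 (nonZeroDivisors.ne_zero hd) fun m => by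
    obtain ⟨e, he⟩ := h1 m
    refine ⟨e, IsFractionRing.injective A (FractionRing A) ?_⟩
    rw [map_mul, map_mul, map_pow, map_pow, he, Algebra.smul_def, div_pow]
    field_simp
  exact ⟨c, by rw [map_mul, mul_div_cancel_left₀ _ hb1]⟩

theorem hata_cic_equiv {A B : Type} [CommRing A] [CommRing B] (e : A ≃+* B) (h : CIC B) :
    CIC A := by
  intro a b d hb hd ha
  have := h (e a) (e b) (e d) (by simpa using hb) (by simpa using hd) fun m => by
    have := map_dvd e (ha m)
    rwa [map_pow, map_mul, map_pow] at this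
  exact (map_dvd_iff e).1 this

theorem hata_isDomain (n : ℕ) : IsDomain (MvPowerSeries (Fin n) ℂ) :=
  NoZeroDivisors.to_isDomain _

theorem hata_cic (n : ℕ) : CIC (MvPowerSeries (Fin n) ℂ) := by
  induction n with
  | zero =>
    exact hata_cic_equiv (MvPowerSeries.isEmptyEquiv (Fin 0) ℂ).toRingEquiv
      fun a b _ hb _ _ => (Ne.isUnit hb).dvd
  | succ n ih =>
    have := hata_isDomain n
    exact hata_cic_equiv (MvPowerSeries.finSuccEquiv ℂ n).toRingEquiv ih.powerSeries

/-- Induct on the number of variables with `MvPowerSeries.finSuccEquiv`, `MvPowerSeries.isEmptyEquiv`; a field is `CIC`. -/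
theorem AH_normal : IsIntegrallyClosed AH := by
  have := hata_isDomain 3
  exact (hata_cic 3).isIntegrallyClosed

theorem hata_mem_span (n : ℕ) (f : MvPowerSeries (Fin n) ℂ) (hf : MvPowerSeries.constantCoeff f = 0) :
    ∃ g : Fin n → MvPowerSeries (Fin n) ℂ, ∑ i, g i * MvPowerSeries.X i = f := by
  induction n with
  | zero =>
    refine ⟨0, (MvPowerSeries.isEmptyEquiv (Fin 0) ℂ).injective ?_⟩
    rw [Finset.univ_eq_empty, Finset.sum_empty, map_zero]
    exact hf.symm
  | succ n ih =>
    let e := MvPowerSeries.finSuccEquiv ℂ n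
    obtain ⟨g, hg⟩ := ih (PowerSeries.constantCoeff (e f)) (by
      rw [← PowerSeries.coeff_zero_eq_constantCoeff_apply,
        ← MvPowerSeries.coeff_zero_eq_constantCoeff_apply, MvPowerSeries.coeff_coeff_finSuccEquiv,
        Finsupp.cons_zero_zero, MvPowerSeries.coeff_zero_eq_constantCoeff_apply, hf])
    refine ⟨Fin.cons (e.symm (PowerSeries.mk fun p => PowerSeries.coeff (p + 1) (e f)))
      fun i => e.symm (PowerSeries.C (g i)), e.injective ?_⟩
    refine Eq.trans ?_ (PowerSeries.eq_X_mul_shift_add_const (e f)).symm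
    rw [Fin.sum_univ_succ, map_add, map_sum, ← hg, map_sum]
    simp only [Fin.cons_zero, Fin.cons_succ, map_mul, AlgEquiv.apply_symm_apply, e,
      MvPowerSeries.finSuccEquiv_X_zero, MvPowerSeries.finSuccEquiv_X_succ]
    rw [mul_comm]

theorem hata_mem_max (f : AH) :
    f ∈ IsLocalRing.maximalIdeal AH ↔ MvPowerSeries.constantCoeff f = 0 := by
  rw [IsLocalRing.mem_maximalIdeal, mem_nonunits_iff, MvPowerSeries.isUnit_iff_constantCoeff,
    isUnit_iff_ne_zero, not_not]

/-- A series with zero constant term is `∑ X i * g i` (`MvPowerSeries.X_dvd_iff`, peel off the variables one at a time), and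
a series with nonzero constant term is a unit. -/
theorem AH_max : IsLocalRing.maximalIdeal AH = idl (MvPowerSeries.X : Fin 3 → AH) := by
  refine le_antisymm (fun f hf => ?_) (Ideal.span_le.2 ?_)
  · exact Ideal.mem_span_range_iff_exists_fun.2 (hata_mem_span 3 f ((hata_mem_max f).1 hf))
  · rintro _ ⟨i, rfl⟩
    exact (hata_mem_max _).2 (MvPowerSeries.constantCoeff_X i)

theorem AH_residue (a : AH) : ∃ z : ℂ, a - algebraMap ℂ AH z ∈ IsLocalRing.maximalIdeal AH := by
  refine ⟨MvPowerSeries.constantCoeff a, (hata_mem_max _).2 ?_⟩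
  rw [map_sub, MvPowerSeries.algebraMap_apply, MvPowerSeries.constantCoeff_C]
  simp

/-- From the Mathlib instance for `Ideal.span (Set.range X)` and `AH_max`. -/
theorem AH_complete : IsAdicComplete (IsLocalRing.maximalIdeal AH) AH := by
  rw [AH_max]
  infer_instance

theorem hata_dim_ge (n : ℕ) : (n : WithBot ℕ∞) ≤ ringKrullDim (MvPowerSeries (Fin n) ℂ) := by
  induction n with
  | zero => exact ringKrullDim_nonneg_of_nontrivial
  | succ n ih =>
    rw [ringKrullDim_eq_of_ringEquiv (MvPowerSeries.finSuccEquiv ℂ n).toRingEquiv]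
    refine le_trans ?_ ringKrullDim_succ_le_ringKrullDim_powerseries
    push_cast
    gcongr

/-- `≥`: `ringKrullDim_succ_le_ringKrullDim_powerseries` three times through `finSuccEquiv`;
`≤`: `ringKrullDim_le_spanFinrank_maximalIdeal` (three generators). -/
theorem AH_dim : ringKrullDim AH = 3 := by
  refine le_antisymm ((ringKrullDim_le_spanFinrank_maximalIdeal AH).trans ?_) (hata_dim_ge 3)
  rw [AH_max]
  have h1 := Submodule.spanFinrank_span_le_ncard_of_finite (R := AH)
    (Set.finite_range (MvPowerSeries.X : Fin 3 → AH))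
  have h2 : (Set.range (MvPowerSeries.X : Fin 3 → AH)).ncard ≤ 3 := by
    rw [← Set.image_univ]
    exact (Set.ncard_image_le Set.finite_univ).trans (by simp)
  exact_mod_cast h1.trans h2

end Crest.Agent.R169
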