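import Crest.Agent.R169.Lin

/-!
# rid 169, file `HatB`: finite domains over a complete local ring

Prefix helper lemmas with `hatb_`.
-/

set_option autoImplicit false

namespace Crest.Agent.R169

open IsLocalRing

variable {A R : Type} [CommRing A] [IsLocalRing A] [IsNoetherianRing A]
  [IsAdicComplete (maximalIdeal A) A] [CommRing R] [Algebra A R] [Module.Finite A R]

/-- A finite module over a complete Noetherian local ring is complete.  Hausdorff: Krull intersection (instance in
`Mathlib/RingTheory/AdicCompletion/Noetherian.lean`).  Precomplete: `R` is a quotient of `A^l`; lift the successive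
differences of a Cauchy sequence (`f (n+1) - f n ∈ m^n • ⊤` is the image of an element of `m^n • ⊤` in `A^l`), take the limit
coordinatewise; or use `AdicCompletion.of_surjective_iff` and `AdicCompletion.map_surjective`.  Then
`IsAdicComplete.map_algebraMap_iff`. -/
theorem isAdicComplete_map_of_finite :
    IsAdicComplete ((maximalIdeal A).map (algebraMap A R)) R := by
  rw [IsAdicComplete.map_algebraMap_iff]
  have h : IsPrecomplete (maximalIdeal A) R := by
    rw [← AdicCompletion.of_surjective_iff]
    intro y
    obtain ⟨t, rfl⟩ := AdicCompletion.ofTensorProduct_surjective_of_finite (maximalIdeal A) R y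
    induction t using TensorProduct.induction_on with
    | zero => exact ⟨0, by simp⟩
    | tmul a x =>
      obtain ⟨a, rfl⟩ := AdicCompletion.of_surjective (maximalIdeal A) A a
      refine ⟨a • x, ?_⟩
      rw [AdicCompletion.ofTensorProduct_tmul, map_smul]
      have : AdicCompletion.of (maximalIdeal A) A a =
          algebraMap A (AdicCompletion (maximalIdeal A) A) a := rfl
      rw [this, algebraMap_smul]
    | add x y hx hy =>
      obtain ⟨x', hx'⟩ := hx
      obtain ⟨y', hy'⟩ := hy
      exact ⟨x' + y', by rw [map_add, map_add, hx', hy']⟩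
  exact {}

omit [IsNoetherianRing A] [IsAdicComplete (maximalIdeal A) A] in
theorem hatb_artinian : IsArtinianRing (R ⧸ (maximalIdeal A).map (algebraMap A R)) := by
  have h2 : Module.Finite (A ⧸ maximalIdeal A) (R ⧸ (maximalIdeal A).map (algebraMap A R)) :=
    Module.Finite.of_restrictScalars_finite A _ _
  have h3 : IsArtinianRing (A ⧸ maximalIdeal A) :=
    inferInstanceAs (IsArtinianRing (ResidueField A))
  exact IsArtinianRing.of_finite (A ⧸ maximalIdeal A) _

include A in
/-- Proof: every maximal ideal of `R` lies over `maximalIdeal A` (integral extension), so contains `J = m_A R`; `R / J` is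
a finite algebra over the residue field, so Artinian.  If it had two maximal ideals it would have an idempotent `e ≠ 0, 1`
(finitely many maximal ideals, nilpotent Jacobson radical, Chinese remainder: `IsArtinianRing.equivPi`, or: for maximal
`P ≠ Q` the chain `P^N` stabilises, `P^N` is an idempotent finitely generated ideal, generated by an idempotent `e`
(`Ideal.isIdempotentElem_iff_of_fg`), `e ≠ 1` as `P ≠ ⊤`, `e ≠ 0` since else `P ≤ Q`).  Lift `e` with `HenselianRing R J`
(instance `IsAdicComplete.henselianRing`) applied to `X^2 - X`, whose derivative `2e - 1` has square `1`.  In a domain the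
lift is `0` or `1`.  Use `IsLocalRing.of_unique_max_ideal`. -/
theorem isLocalRing_of_finite [IsDomain R] : IsLocalRing R := by
  have hc : IsAdicComplete ((maximalIdeal A).map (algebraMap A R)) R :=
    isAdicComplete_map_of_finite
  have hart := hatb_artinian (A := A) (R := R)
  set J := (maximalIdeal A).map (algebraMap A R)
  have hH : HenselianRing R J := inferInstance
  have hloc := isLocalHom_of_le_jacobson_bot J hH.jac
  refine IsLocalRing.of_isUnit_or_isUnit_one_sub_self fun a => ?_
  obtain ⟨n, y, hy⟩ := IsArtinian.exists_pow_succ_smul_dvd (Ideal.Quotient.mk J a) (1 : R ⧸ J)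
  set b := Ideal.Quotient.mk J a with hb
  simp only [smul_eq_mul, mul_one, Nat.succ_eq_add_one] at hy
  have h1 : ∀ k, b ^ n * (b * y) ^ k = b ^ n := by
    intro k
    induction k with
    | zero => simp
    | succ k ih =>
      calc b ^ n * (b * y) ^ (k + 1) = b ^ (n + 1) * y * (b * y) ^ k := by ring
        _ = b ^ n := by rw [hy, ih]
  have h2 : (b * y) ^ (n + 1) * (b * y) ^ (n + 1) = (b * y) ^ (n + 1) := by
    calc (b * y) ^ (n + 1) * (b * y) ^ (n + 1)
        = b * y ^ (n + 1) * (b ^ n * (b * y) ^ (n + 1)) := by ring
      _ = (b * y) ^ (n + 1) := by rw [h1]; ring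
  obtain ⟨e, he⟩ := Ideal.Quotient.mk_surjective ((b * y) ^ (n + 1))
  obtain ⟨e', h3, h4⟩ := hH.is_henselian (Polynomial.X ^ 2 - Polynomial.X)
    (Polynomial.monic_X_pow_sub (by rw [Polynomial.degree_X]; norm_num)) e
    (by
      rw [← Ideal.Quotient.eq_zero_iff_mem]
      simp only [Polynomial.eval_sub, Polynomial.eval_pow, Polynomial.eval_X, map_sub, map_pow]
      rw [he, sq, h2, sub_self])
    (by
      refine IsUnit.of_mul_eq_one (2 * (b * y) ^ (n + 1) - 1) ?_
      have : Ideal.Quotient.mk J (Polynomial.eval e (Polynomial.derivative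
          (Polynomial.X ^ 2 - Polynomial.X : Polynomial R))) = 2 * (b * y) ^ (n + 1) - 1 := by
        rw [← he]
        simp [one_add_one_eq_two, map_ofNat]
      rw [this]
      linear_combination 4 * h2)
  have h5 : Ideal.Quotient.mk J e' = (b * y) ^ (n + 1) := by
    rw [← he]
    exact Ideal.Quotient.eq.2 h4
  have h6 : e' * (e' - 1) = 0 := by
    have := h3.eq_zero
    simp only [Polynomial.eval_sub, Polynomial.eval_pow, Polynomial.eval_X] at this
    linear_combination this
  rcases mul_eq_zero.1 h6 with h7 | h7
  · right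
    rw [h7, map_zero] at h5
    have h8 : IsNilpotent b := ⟨n, by rw [← h1 (n + 1), ← h5, mul_zero]⟩
    refine isUnit_of_map_unit (Ideal.Quotient.mk J) _ ?_
    rw [map_sub, map_one]
    exact h8.isUnit_one_sub
  · left
    rw [sub_eq_zero.1 h7, map_one] at h5
    refine isUnit_of_map_unit (Ideal.Quotient.mk J) _ ?_
    refine IsUnit.of_mul_eq_one (y * (b * y) ^ n) ?_
    rw [h5]
    ring

theorem map_maximalIdeal_le_of_finite [IsLocalRing R] :
    (maximalIdeal A).map (algebraMap A R) ≤ maximalIdeal R := by
  rw [Ideal.map_le_iff_le_comap]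
  have := Ideal.isMaximal_comap_of_isIntegral_of_isMaximal (R := A) (maximalIdeal R)
  exact (eq_maximalIdeal this).ge

include A in
/-- `m_R ^ N ≤ J ≤ m_R` (the image of `m_R` in the Artinian local ring `R / J` is nilpotent), so the two adic
filtrations are cofinal. -/
theorem isAdicComplete_of_finite [IsLocalRing R] : IsAdicComplete (maximalIdeal R) R := by
  have hc : IsAdicComplete ((maximalIdeal A).map (algebraMap A R)) R :=
    isAdicComplete_map_of_finite
  have hart := hatb_artinian (A := A) (R := R)
  have hle : (maximalIdeal A).map (algebraMap A R) ≤ maximalIdeal R :=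
    map_maximalIdeal_le_of_finite
  set J := (maximalIdeal A).map (algebraMap A R)
  have hN : IsNoetherianRing R := IsNoetherianRing.of_finite A R
  obtain ⟨N, hN⟩ := exists_maximalIdeal_pow_le_of_isArtinianRing_quotient J
  have h1 : ∀ n, maximalIdeal R ^ ((N + 1) * n) ≤ J ^ n := fun n => by
    rw [pow_mul]
    exact Ideal.pow_right_mono ((Ideal.pow_le_pow_right (Nat.le_succ N)).trans hN) n
  have h : IsPrecomplete (maximalIdeal R) R := by
    refine ⟨fun f hf => ?_⟩
    obtain ⟨L, hL⟩ := hc.toIsPrecomplete.prec (f := fun n => f ((N + 1) * n)) fun {m n} hmn =>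
      (hf (Nat.mul_le_mul_left _ hmn)).mono (Submodule.smul_mono_left (h1 m))
    refine ⟨L, fun n => (hf (Nat.le_mul_of_pos_left n (Nat.succ_pos N))).trans ?_⟩
    exact (hL n).mono (Submodule.smul_mono_left (Ideal.pow_right_mono hle n))
  exact {}

/-- `R / J` is spanned over `ℂ` by the images of generators of `R` over `A`. -/
theorem finiteDimensional_quot_of_finite [Algebra ℂ A] [Algebra ℂ R] [IsScalarTower ℂ A R]
    (hres : ∀ a : A, ∃ z : ℂ, a - algebraMap ℂ A z ∈ maximalIdeal A) :
    FiniteDimensional ℂ (R ⧸ (maximalIdeal A).map (algebraMap A R)) := by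
  have h1 : Module.Finite ℂ (A ⧸ maximalIdeal A) := by
    refine Module.Finite.of_surjective (Algebra.linearMap ℂ (A ⧸ maximalIdeal A)) fun x => ?_
    obtain ⟨a, rfl⟩ := Ideal.Quotient.mk_surjective x
    obtain ⟨z, hz⟩ := hres a
    exact ⟨z, (Ideal.Quotient.eq.2 hz).symm⟩
  have h2 : Module.Finite (A ⧸ maximalIdeal A) (R ⧸ (maximalIdeal A).map (algebraMap A R)) :=
    Module.Finite.of_restrictScalars_finite A _ _
  have h3 : IsScalarTower ℂ (A ⧸ maximalIdeal A) (R ⧸ (maximalIdeal A).map (algebraMap A R)) :=
    IsScalarTower.of_algebraMap_eq fun z =>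
      congrArg (Ideal.Quotient.mk _) (IsScalarTower.algebraMap_apply ℂ A R z)
  exact Module.Finite.trans (A ⧸ maximalIdeal A) _

/-- The residue field is a quotient of `R / J`, so finite over `ℂ`; `IsAlgClosed.algebraMap_bijective_of_isIntegral`. -/
theorem residue_bijective_of_finite [IsLocalRing R] [Algebra ℂ A] [Algebra ℂ R] [IsScalarTower ℂ A R]
    (hres : ∀ a : A, ∃ z : ℂ, a - algebraMap ℂ A z ∈ maximalIdeal A) :
    Function.Bijective (algebraMap ℂ (ResidueField R)) := by
  have h1 := finiteDimensional_quot_of_finite (R := R) hres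
  have h2 : Module.Finite ℂ (ResidueField R) :=
    Module.Finite.of_surjective
      (Ideal.Quotient.factorₐ ℂ (map_maximalIdeal_le_of_finite (A := A) (R := R))).toLinearMap
      (Ideal.Quotient.factor_surjective map_maximalIdeal_le_of_finite)
  exact IsAlgClosed.algebraMap_bijective_of_isIntegral

end Crest.Agent.R169
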