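import Crest.Agent.R169.HatA
import Crest.Agent.R169.HatB
import Crest.Agent.R169.DimInt

/-!
# rid 169, file `HatC`: the complete normal local domain

Prefix helper lemmas with `hatc_`.
-/

set_option autoImplicit false

namespace Crest.Agent.R169

theorem hatc_lift (T : Type) [CommRing T] [IsDomain T] [Algebra ℂ T] (X : Fin 3 → T)
    (hinj : Function.Injective (MvPolynomial.aeval X : MvPolynomial (Fin 3) ℂ →ₐ[ℂ] T))
    (hfin : (MvPolynomial.aeval X : MvPolynomial (Fin 3) ℂ →ₐ[ℂ] T).toRingHom.Finite)
    (A L : Type) [CommRing A] [Algebra ℂ A] [Field L] [IsAlgClosed L] [Algebra ℂ L] [Algebra A L]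
    [IsScalarTower ℂ A L] (hAL : Function.Injective (algebraMap A L)) (Y : Fin 3 → A)
    (hY : Function.Injective (MvPolynomial.aeval Y : MvPolynomial (Fin 3) ℂ →ₐ[ℂ] A)) :
    ∃ j : T →ₐ[ℂ] L, (∀ i, j (X i) = algebraMap A L (Y i)) ∧ (∀ t, IsIntegral A (j t)) ∧
      ∃ s : Finset T, ∀ t, j t ∈ Submodule.span A (j '' s) := by
  let : Algebra (MvPolynomial (Fin 3) ℂ) T :=
    (MvPolynomial.aeval X : MvPolynomial (Fin 3) ℂ →ₐ[ℂ] T).toRingHom.toAlgebra
  let : Algebra (MvPolynomial (Fin 3) ℂ) A :=
    (MvPolynomial.aeval Y : MvPolynomial (Fin 3) ℂ →ₐ[ℂ] A).toRingHom.toAlgebra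
  let : Algebra (MvPolynomial (Fin 3) ℂ) L :=
    ((algebraMap A L).comp (algebraMap (MvPolynomial (Fin 3) ℂ) A)).toAlgebra
  have : IsScalarTower (MvPolynomial (Fin 3) ℂ) A L := IsScalarTower.of_algebraMap_eq fun _ => rfl
  have : Module.Finite (MvPolynomial (Fin 3) ℂ) T := hfin
  have : FaithfulSMul (MvPolynomial (Fin 3) ℂ) T :=
    (faithfulSMul_iff_algebraMap_injective _ _).2 hinj
  have : FaithfulSMul (MvPolynomial (Fin 3) ℂ) L :=
    (faithfulSMul_iff_algebraMap_injective _ _).2 (hAL.comp hY)
  let j0 : T →ₐ[MvPolynomial (Fin 3) ℂ] L := IsAlgClosed.lift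
  have hT : ∀ p, algebraMap (MvPolynomial (Fin 3) ℂ) T p = MvPolynomial.aeval X p := fun _ => rfl
  have hL : ∀ p, algebraMap (MvPolynomial (Fin 3) ℂ) L p =
      algebraMap A L (MvPolynomial.aeval Y p) := fun _ => rfl
  let j : T →ₐ[ℂ] L :=
    { j0.toRingHom with
      commutes' := fun z => by
        have h := j0.commutes (MvPolynomial.C z)
        rw [hT, hL, MvPolynomial.aeval_C, MvPolynomial.aeval_C,
          ← IsScalarTower.algebraMap_apply] at h
        exact h }
  refine ⟨j, fun i => ?_, fun t => ?_, ?_⟩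
  · have h := j0.commutes (MvPolynomial.X i)
    rw [hT, hL, MvPolynomial.aeval_X, MvPolynomial.aeval_X] at h
    exact h
  · have h : IsIntegral (MvPolynomial (Fin 3) ℂ) (j0 t) :=
      (Algebra.IsIntegral.isIntegral t).map j0
    exact h.tower_top
  · obtain ⟨s, hs⟩ := Module.Finite.fg_top (R := MvPolynomial (Fin 3) ℂ) (M := T)
    refine ⟨s, fun t => ?_⟩
    have ht : t ∈ Submodule.span (MvPolynomial (Fin 3) ℂ) (s : Set T) := by rw [hs]; trivial
    have h1 : j0 t ∈ Submodule.span (MvPolynomial (Fin 3) ℂ) (j0.toLinearMap '' s) :=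
      Submodule.apply_mem_span_image_of_mem_span j0.toLinearMap ht
    exact Submodule.span_subset_span (MvPolynomial (Fin 3) ℂ) A _ h1

theorem hatc_abs (T : Type) [CommRing T] [IsDomain T] [Algebra ℂ T] (X : Fin 3 → T)
    (hinj : Function.Injective (MvPolynomial.aeval X : MvPolynomial (Fin 3) ℂ →ₐ[ℂ] T))
    (hfin : (MvPolynomial.aeval X : MvPolynomial (Fin 3) ℂ →ₐ[ℂ] T).toRingHom.Finite)
    (A : Type) [CommRing A] [IsDomain A] [IsLocalRing A] [IsNoetherianRing A] [IsIntegrallyClosed A]
    [IsAdicComplete (IsLocalRing.maximalIdeal A) A] [Algebra ℂ A]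
    (hres : ∀ a : A, ∃ z : ℂ, a - algebraMap ℂ A z ∈ IsLocalRing.maximalIdeal A) (Y : Fin 3 → A)
    (hY : Function.Injective (MvPolynomial.aeval Y : MvPolynomial (Fin 3) ℂ →ₐ[ℂ] A))
    (hmax : IsLocalRing.maximalIdeal A = idl Y) (hdim : ringKrullDim A = 3) :
    ∃ (R : Type) (_ : CommRing R) (_ : IsLocalRing R) (_ : Algebra ℂ R) (φ : T →ₐ[ℂ] R),
      IsDomain R ∧ IsNoetherianRing R ∧ IsIntegrallyClosed R ∧
      IsAdicComplete (IsLocalRing.maximalIdeal R) R ∧ ringKrullDim R = 3 ∧
      Function.Bijective (algebraMap ℂ (IsLocalRing.ResidueField R)) ∧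
      (∀ i, φ (X i) ∈ IsLocalRing.maximalIdeal R) ∧
      FiniteDimensional ℂ (R ⧸ idl (fun i => φ (X i))) := by
  let F := FractionRing A
  let L := AlgebraicClosure F
  have hAL : Function.Injective (algebraMap A L) := by
    rw [IsScalarTower.algebraMap_eq A F L]
    exact (algebraMap F L).injective.comp (IsFractionRing.injective A F)
  obtain ⟨j, hjX, hji, s, hs⟩ := hatc_lift T X hinj hfin A L hAL Y hY
  let K : IntermediateField F L := IntermediateField.adjoin F (j '' s)
  have : Finite (j '' s) := (s.finite_toSet.image j).to_subtype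
  have : FiniteDimensional F K :=
    IntermediateField.finiteDimensional_adjoin fun x _ => Algebra.IsIntegral.isIntegral x
  have : CharZero F := (RingHom.charZero_iff (algebraMap ℂ F).injective).1 inferInstance
  have hjK : ∀ t, j t ∈ K := by
    intro t
    have h1 : Submodule.span A (j '' s) ≤ (K.toSubalgebra.toSubmodule).restrictScalars A :=
      Submodule.span_le.2 (IntermediateField.subset_adjoin F _)
    exact h1 (hs t)
  let R := integralClosure A K
  have : Module.Finite A R := IsIntegralClosure.finite A F K R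
  have : IsLocalRing R := isLocalRing_of_finite (A := A)
  let : Algebra ℂ R := ((algebraMap A R).comp (algebraMap ℂ A)).toAlgebra
  have : IsScalarTower ℂ A R := IsScalarTower.of_algebraMap_eq fun _ => rfl
  have hAR : Function.Injective (algebraMap A R) := by
    intro a b h
    apply hAL
    have h1 := congrArg (fun r : R => ((r : K) : L)) h
    exact h1
  have hint : ∀ t, (⟨j t, hjK t⟩ : K) ∈ R := fun t =>
    (isIntegral_algHom_iff (K.val.restrictScalars A) Subtype.val_injective).1 (hji t)
  let φ : T →ₐ[ℂ] R :=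
    { toFun := fun t => ⟨⟨j t, hjK t⟩, hint t⟩
      map_one' := Subtype.ext (Subtype.ext (map_one j))
      map_mul' := fun a b => Subtype.ext (Subtype.ext (map_mul j a b))
      map_zero' := Subtype.ext (Subtype.ext (map_zero j))
      map_add' := fun a b => Subtype.ext (Subtype.ext (map_add j a b))
      commutes' := fun z => Subtype.ext (Subtype.ext
        ((j.commutes z).trans (IsScalarTower.algebraMap_apply ℂ A L z))) }
  have hφ : ∀ i, φ (X i) = algebraMap A R (Y i) := fun i => Subtype.ext (Subtype.ext (hjX i))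
  have hidl : idl (fun i => φ (X i)) = (IsLocalRing.maximalIdeal A).map (algebraMap A R) := by
    rw [hmax, Ideal.map_span, ← Set.range_comp]
    simp only [hφ]
    rfl
  refine ⟨R, inferInstance, inferInstance, inferInstance, φ, inferInstance,
    IsIntegralClosure.isNoetherianRing A F K R,
    integralClosure.isIntegrallyClosedOfFiniteExtension F, isAdicComplete_of_finite (A := A),
    (ringKrullDim_eq_of_isIntegral hAR).trans hdim, residue_bijective_of_finite (A := A) hres,
    fun i => ?_, ?_⟩
  · refine map_maximalIdeal_le_of_finite (A := A) ?_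
    rw [← hidl]
    exact Ideal.subset_span ⟨i, rfl⟩
  · rw [hidl]
    exact finiteDimensional_quot_of_finite (A := A) hres

/-- Proof.  Let `A = MvPolynomial (Fin 3) ℂ`, `F = FractionRing AH`, `L = AlgebraicClosure F`.  Make `T` an `A`-algebra by
`aeval X` and `L` an `A`-algebra by `A → AH → F → L` (`MvPolynomial.coeToMvPowerSeries.algHom` / `coe_injective`); both
structure maps are injective and `T` is algebraic over `A`, so `IsAlgClosed.lift : T →ₐ[A] L`; call it `j`.  Let `s` be a finite
generating set of `T` as an `A`-module, `K' = IntermediateField.adjoin F (j '' s)`, finite over `F`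
(`IntermediateField.finiteDimensional_adjoin`), separable (characteristic zero), and `R = integralClosure AH K'`.
`R` is a domain, finite over `AH` (`IsIntegralClosure.finite`, needs `AH_normal`), Noetherian
(`IsIntegralClosure.isNoetherianRing` or finite over Noetherian), integrally closed (`integralClosure.isIntegrallyClosed..`;
`IsIntegralClosure.isFractionRing_of_finite_extension`), local, complete, with residue field `ℂ` (file `HatB`), of dimension
`3` (`ringKrullDim_eq_of_isIntegral`, `AH_dim`).  `j t ∈ K'` and it is integral over `AH` (over `A` already), giving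
`φ : T →ₐ[ℂ] R` with `φ (X i) = algebraMap AH R (X i)`; so `idl (φ ∘ X) = (maximalIdeal AH).map _` by `AH_max`. -/
theorem exists_hat (T : Type) [CommRing T] [IsDomain T] [Algebra ℂ T] (X : Fin 3 → T)
    (hinj : Function.Injective (MvPolynomial.aeval X : MvPolynomial (Fin 3) ℂ →ₐ[ℂ] T))
    (hfin : (MvPolynomial.aeval X : MvPolynomial (Fin 3) ℂ →ₐ[ℂ] T).toRingHom.Finite) :
    ∃ (R : Type) (_ : CommRing R) (_ : IsLocalRing R) (_ : Algebra ℂ R) (φ : T →ₐ[ℂ] R),
      IsDomain R ∧ IsNoetherianRing R ∧ IsIntegrallyClosed R ∧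
      IsAdicComplete (IsLocalRing.maximalIdeal R) R ∧ ringKrullDim R = 3 ∧
      Function.Bijective (algebraMap ℂ (IsLocalRing.ResidueField R)) ∧
      (∀ i, φ (X i) ∈ IsLocalRing.maximalIdeal R) ∧
      FiniteDimensional ℂ (R ⧸ idl (fun i => φ (X i))) := by
  have := AH_normal
  have := AH_complete
  have : IsDomain AH := NoZeroDivisors.to_isDomain _
  refine hatc_abs T X hinj hfin AH AH_residue MvPowerSeries.X ?_ AH_max AH_dim
  have h : (MvPolynomial.aeval MvPowerSeries.X : MvPolynomial (Fin 3) ℂ →ₐ[ℂ] AH) =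
      MvPolynomial.coeToMvPowerSeries.algHom ℂ := by
    ext1 i
    simp
  rw [h]
  intro a b hab
  apply MvPolynomial.coe_injective
  simpa using hab

end Crest.Agent.R169
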