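import Crest.Agent.R169.Filt2
import Crest.Agent.R169.Slope2

/-!
# rid 169, file `Langton`: a filtration whose graded module has slopes in `[-ℓ·H, 0]`

Prefix helper lemmas with `langton_`.
-/

set_option autoImplicit false

namespace Crest.Agent.R169

open Filter Module

variable {n : ℕ} [NeZero n] {ℓ : Deg}

/-- Extension of a graded map to the ambient spaces.  Let `Γ` be the `K`-span of `⋃ G δ` in `V × V'`.  Every `z ∈ Γ` has a multiple `g • z ∈ G δ`,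
`g ≠ 0` (`exists_denom_gam` with `ε s = -δ s`), so `(0, v') ∈ Γ → v' = 0`, and `Γ` is the graph of a `LinearPMap` (`Submodule.toLinearPMap`), which
extends (`LinearMap.exists_extend`). -/
theorem exists_extend_gam (hℓ : Ample ℓ) {V V' : Type} [AddCommGroup V] [Module (KK ℂ) V] [Module ℂ V]
    [IsScalarTower ℂ (KK ℂ) V] [AddCommGroup V'] [Module (KK ℂ) V'] [Module ℂ V'] [IsScalarTower ℂ (KK ℂ) V']
    (G : Gam → Submodule ℂ (V × V'))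
    (hG : ∀ δ δ' f z, f ∈ S ℂ n (dg ℓ δ') → z ∈ G δ → f • z ∈ G (δ' + δ))
    (h0 : ∀ δ v', (0, v') ∈ G δ → v' = 0) :
    ∃ θ : V →ₗ[KK ℂ] V', ∀ δ, ∀ z ∈ G δ, θ z.1 = z.2 := by
  classical
  let Γ : Submodule (KK ℂ) (V × V') := Submodule.span (KK ℂ) {z | ∃ δ, z ∈ G δ}
  have key : ∀ z ∈ Γ, ∃ g : KK ℂ, g ≠ 0 ∧ ∃ δ, g • z ∈ G δ := by
    intro z hz
    obtain ⟨m, κ, y, rfl⟩ := Submodule.mem_span_set'.1 hz
    choose d hd using fun i => (y i).2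
    obtain ⟨δ, g, hg0, -, hg⟩ := exists_denom_gam (n := n) hℓ κ (fun i => -d i)
    refine ⟨g, hg0, δ, ?_⟩
    rw [Finset.smul_sum]
    refine Submodule.sum_mem _ fun i _ => ?_
    have := hG _ _ _ _ (hg i) (hd i)
    rwa [neg_add_cancel_right, mul_smul] at this
  have hΓ : ∀ x : V × V', x ∈ Γ → x.1 = 0 → x.2 = 0 := by
    intro x hx h1
    obtain ⟨g, hg, δ, hδ⟩ := key x hx
    have h2 : g • x = (0, g • x.2) := by ext <;> simp [h1]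
    rw [h2] at hδ
    exact (smul_eq_zero.1 (h0 _ _ hδ)).resolve_left hg
  obtain ⟨θ, hθ⟩ := Γ.toLinearPMap.toFun.exists_extend
  refine ⟨θ, fun δ z hz => ?_⟩
  have hz' : z ∈ Γ.toLinearPMap.graph := by
    rw [Submodule.toLinearPMap_graph_eq Γ hΓ]; exact Submodule.subset_span ⟨δ, hz⟩
  obtain ⟨y, hy1, hy2⟩ := (LinearPMap.mem_graph_iff _).1 hz'
  rw [← hy1, ← hy2]
  exact LinearMap.congr_fun hθ y

variable {R : Type} [CommRing R] [Algebra ℂ R] {c : ℕ}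
  {M : Type} [AddCommGroup M] [Module R M] [Module ℂ M] [IsScalarTower ℂ R M]
  {σ : Sys n ℓ R} {ν : NN ℂ n ((c : ℤ) • ℓ)}

omit [NeZero n] [IsScalarTower ℂ R M] in
/-- The modified filtration. -/
noncomputable def Real.modF {X : Fin 3 → R} {Φ : Filt σ X c M} {V : Type} [AddCommGroup V] [Module (KK ℂ) V] [Module ℂ V]
    [IsScalarTower ℂ (KK ℂ) V] (ϱ : Real Φ V) (W : Submodule (KK ℂ) V) : Filt σ X c M where
  F δ := Φ.F δ ⊓ (W.restrictScalars ℂ).comap (ϱ.ι δ)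
  anti δ v hv := by
    refine ⟨Φ.anti δ hv.1, ?_⟩
    change ϱ.ι δ v ∈ W
    rw [(ϱ.ker δ v (Φ.anti δ hv.1)).2 hv.1]; exact W.zero_mem
  smul_mem δ δ' f v hf hv := by
    refine ⟨Φ.smul_mem δ δ' f v hf hv.1, ?_⟩
    change ϱ.ι _ _ ∈ W
    rw [ϱ.smul δ δ' f v hf hv.1]; exact W.smul_mem f hv.2
  sat δ δ' f v hf hf0 hv h := by
    have h1 := Φ.sat δ δ' f v hf hf0 hv.1 h.1
    refine ⟨h1, ?_⟩
    have h2 : ϱ.ι (δ' + δ + e1) (σ.a δ' f • v) ∈ W := h.2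
    rw [add_assoc, ϱ.smul _ δ' f v hf h1] at h2
    exact (W.smul_mem_iff hf0).1 h2
  sand := by
    obtain ⟨b, hb⟩ := Φ.sand
    refine ⟨b + 1, fun j ρ => ⟨fun v hv => ?_, fun v hv => ?_⟩⟩
    · have h1 : v ∈ Φ.F ((((c : ℤ) * j - ((b + 1 : ℕ) : ℤ), ρ) : Gam) + e1) := by
        have : ((((c : ℤ) * j - ((b + 1 : ℕ) : ℤ), ρ) : Gam) + e1) = ((c : ℤ) * j - b, ρ) := by
          ext <;> simp [e1]; ring
        rw [this]; exact (hb j ρ).1 v hv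
      refine ⟨Φ.anti _ h1, ?_⟩
      change ϱ.ι _ v ∈ W
      rw [(ϱ.ker _ v (Φ.anti _ h1)).2 h1]; exact W.zero_mem
    · exact (hb j ρ).2 v (Φ.anti_le (by push_cast; omega) ρ hv.1)

omit [NeZero n] [IsScalarTower ℂ R M] in
theorem langton_mem_modF {X : Fin 3 → R} {Φ : Filt σ X c M} {V : Type} [AddCommGroup V] [Module (KK ℂ) V]
    [Module ℂ V] [IsScalarTower ℂ (KK ℂ) V] (ϱ : Real Φ V) (W : Submodule (KK ℂ) V) {δ : Gam} {v : M} :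
    v ∈ (ϱ.modF W).F δ ↔ v ∈ Φ.F δ ∧ ϱ.ι δ v ∈ W := Iff.rfl

omit [NeZero n] [IsScalarTower ℂ R M] in
theorem langton_succ_mem {X : Fin 3 → R} {Φ : Filt σ X c M} {V : Type} [AddCommGroup V] [Module (KK ℂ) V]
    [Module ℂ V] [IsScalarTower ℂ (KK ℂ) V] (ϱ : Real Φ V) (W : Submodule (KK ℂ) V) {δ : Gam} {v : M}
    (hv : v ∈ Φ.F (δ + e1)) : v ∈ (ϱ.modF W).F δ := by
  refine ⟨Φ.anti _ hv, ?_⟩
  change ϱ.ι _ v ∈ W
  rw [(ϱ.ker _ v (Φ.anti _ hv)).2 hv]; exact W.zero_mem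

/-- Elementary modification along `W`.  `F' δ = {v ∈ F δ | ι δ v ∈ W}` is admissible (`F (δ + e1) ≤ F' δ ≤ F δ`, `b' = b + 1`); take `ϱ'` from
`exists_real`, `N = ϱ.fam`, `N' = ϱ'.fam`, `Q = (N.map W.mkQ).shift ℓ`.  By `exists_extend_gam` there are `θ2 : V' → V` with
`θ2 (ι' δ v) = ι δ v` (`v ∈ F' δ`) and `θ1 : V ⧸ W → V'` with `θ1 (mkQ (ι (δ + e1) v)) = ι' δ v` (`v ∈ F (δ + e1)`).  `N'.map θ2 ≤ N.infW W` and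
`Q.map θ1 ≤ N'.infW (ker θ2)` (check on generators; for the kernel use `span`), with equality in the degrees `dg ℓ δ` (`mem_fam`), and
`Q.span ⊓ ker θ1 = ⊥` (`exists_smul_mem` along the ray `m • ℓ`, with `ε = 0`).  `deg_map_add`, `deg_eq_of_ray`, `SlopeLE.extension`, `of_le`, `of_ray`,
`image_of_inj`. -/
theorem Real.modify (hℓ : Ample ℓ) (hM : Good ℂ M (σ.X ν)) (hc : 0 < c) {Φ : Filt σ (σ.X ν) c M} {V : Type}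
    [AddCommGroup V] [Module (KK ℂ) V] [Module ℂ V] [IsScalarTower ℂ (KK ℂ) V] [FiniteDimensional (KK ℂ) V]
    (ϱ : Real Φ V) (hN : ϱ.fam.FG) (W : Submodule (KK ℂ) V) {H : Deg} (hH : Nef H) :
    ∃ (Φ' : Filt σ (σ.X ν) c M) (r : ℕ) (ϱ' : Real Φ' (Fin r → KK ℂ)), ϱ'.fam.FG ∧
      Fam.deg H ϱ'.fam = Fam.deg H (ϱ.fam.infW W) + Fam.deg H ((ϱ.fam.map W.mkQ).shift ℓ) ∧
      ∀ μ : ℚ, Fam.SlopeLE H (ϱ.fam.infW W) μ → Fam.SlopeLE H ((ϱ.fam.map W.mkQ).shift ℓ) μ →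
        Fam.SlopeLE H ϱ'.fam μ := by
  obtain ⟨r, ϱ', hN'⟩ := (ϱ.modF W).exists_real hℓ hM hc
  refine ⟨ϱ.modF W, r, ϱ', hN', ?_⟩
  -- the map to `V`
  obtain ⟨θ2, hθ2⟩ := exists_extend_gam (n := n) hℓ
    (fun δ => ((ϱ.modF W).F δ).map ((ϱ'.ι δ).prod (ϱ.ι δ)))
    (by
      rintro δ δ' f _ hf ⟨v, hv, rfl⟩
      refine ⟨σ.a δ' f • v, (ϱ.modF W).smul_mem δ δ' f v hf hv, ?_⟩
      ext1
      · exact ϱ'.smul δ δ' f v hf hv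
      · exact ϱ.smul δ δ' f v hf hv.1)
    (by
      rintro δ v' ⟨v, hv, h⟩
      have h1 : ϱ'.ι δ v = 0 := congrArg Prod.fst h
      have h2 : ϱ.ι δ v = v' := congrArg Prod.snd h
      rw [← h2]
      exact (ϱ.ker δ v hv.1).2 ((ϱ'.ker δ v hv).1 h1).1)
  have hθ2' : ∀ δ, ∀ v ∈ (ϱ.modF W).F δ, θ2 (ϱ'.ι δ v) = ϱ.ι δ v := fun δ v hv =>
    hθ2 δ _ ⟨v, hv, rfl⟩
  -- the map from `V ⧸ W`
  obtain ⟨θ1, hθ1⟩ := exists_extend_gam (n := n) hℓ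
    (fun δ => (Φ.F (δ + e1)).map (((W.mkQ.restrictScalars ℂ) ∘ₗ ϱ.ι (δ + e1)).prod (ϱ'.ι δ)))
    (by
      rintro δ δ' f _ hf ⟨v, hv, rfl⟩
      refine ⟨σ.a δ' f • v, by rw [add_assoc]; exact Φ.smul_mem _ δ' f v hf hv, ?_⟩
      ext1
      · change W.mkQ (ϱ.ι (δ' + δ + e1) (σ.a δ' f • v)) = f • W.mkQ (ϱ.ι (δ + e1) v)
        rw [add_assoc, ϱ.smul _ δ' f v hf hv, map_smul]
      · exact ϱ'.smul δ δ' f v hf (langton_succ_mem ϱ W hv))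
    (by
      rintro δ v' ⟨v, hv, h⟩
      have h1 : W.mkQ (ϱ.ι (δ + e1) v) = 0 := congrArg Prod.fst h
      have h2 : ϱ'.ι δ v = v' := congrArg Prod.snd h
      rw [← h2]
      exact (ϱ'.ker δ v (langton_succ_mem ϱ W hv)).2 ⟨hv, (Submodule.Quotient.mk_eq_zero W).1 h1⟩)
  have hθ1' : ∀ δ, ∀ v ∈ Φ.F (δ + e1), θ1 (W.mkQ (ϱ.ι (δ + e1) v)) = ϱ'.ι δ v := fun δ v hv =>
    hθ1 δ _ ⟨v, hv, rfl⟩
  set Q := (ϱ.fam.map W.mkQ).shift ℓ with hQ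
  have hQfg : Q.FG := (hN.map _).shift _
  have hQmem : ∀ (δ : Gam) x, x ∈ Q.sub (dg ℓ δ) ↔ ∃ v ∈ Φ.F (δ + e1), x = W.mkQ (ϱ.ι (δ + e1) v) := by
    intro δ x
    rw [hQ, Fam.shift_sub, show dg ℓ δ + ℓ = dg ℓ (δ + e1) by rw [dg_add, dg_e1], Fam.mem_map]
    constructor
    · rintro ⟨u, hu, rfl⟩
      obtain ⟨v, hv, rfl⟩ := ϱ.mem_fam.1 hu
      exact ⟨v, hv, rfl⟩
    · rintro ⟨v, hv, rfl⟩
      exact ⟨_, ϱ.mem_fam.2 ⟨v, hv, rfl⟩, rfl⟩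
  have h2le : ϱ'.fam.map θ2 ≤ ϱ.fam.infW W := by
    unfold Real.fam
    rw [Fam.map_gen, Fam.gen_le_iff]
    rintro _ ⟨_, ⟨δ, v, hv, rfl⟩, rfl⟩
    change θ2 (ϱ'.ι δ v) ∈ (ϱ.fam.infW W).sub (dg ℓ δ)
    rw [hθ2' δ v hv]
    exact ⟨ϱ.mem_fam.2 ⟨v, hv.1, rfl⟩, hv.2⟩
  have h2eq : ∀ (m : ℤ) (ρ : Fin 5 → ℤ),
      (ϱ.fam.infW W).sub (m • ℓ + rel ρ) ≤ (ϱ'.fam.map θ2).sub (m • ℓ + rel ρ) := by
    intro m ρ x hx
    obtain ⟨v, hv, rfl⟩ := (ϱ.mem_fam (δ := (m, ρ))).1 hx.1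
    have hv' : v ∈ (ϱ.modF W).F (m, ρ) := ⟨hv, hx.2⟩
    exact ⟨_, (ϱ'.mem_fam (δ := (m, ρ))).2 ⟨v, hv', rfl⟩, hθ2' _ v hv'⟩
  have h1le : Q.map θ1 ≤ ϱ'.fam.infW (LinearMap.ker θ2) := by
    rw [hQ]
    conv_lhs => unfold Real.fam
    rw [Fam.map_gen, Fam.shift_gen, Fam.map_gen, Fam.gen_le_iff]
    rintro _ ⟨_, ⟨_, ⟨_, ⟨δ, v, hv, rfl⟩, rfl⟩, rfl⟩, rfl⟩
    obtain ⟨δ0, rfl⟩ : ∃ δ0, δ = δ0 + e1 := ⟨δ - e1, by simp⟩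
    change θ1 (W.mkQ (ϱ.ι (δ0 + e1) v)) ∈ (ϱ'.fam.infW (LinearMap.ker θ2)).sub (dg ℓ (δ0 + e1) - ℓ)
    rw [hθ1' δ0 v hv, dg_add, dg_e1, add_sub_cancel_right]
    refine ⟨ϱ'.mem_fam.2 ⟨v, langton_succ_mem ϱ W hv, rfl⟩, ?_⟩
    change θ2 (ϱ'.ι δ0 v) = 0
    rw [hθ2' δ0 v (langton_succ_mem ϱ W hv)]
    exact (ϱ.ker δ0 v (Φ.anti _ hv)).2 hv
  have h1eq : ∀ (m : ℤ) (ρ : Fin 5 → ℤ),
      (ϱ'.fam.infW (LinearMap.ker θ2)).sub (m • ℓ + rel ρ) ≤ (Q.map θ1).sub (m • ℓ + rel ρ) := by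
    intro m ρ x hx
    obtain ⟨v, hv, rfl⟩ := (ϱ'.mem_fam (δ := (m, ρ))).1 hx.1
    have h0 : θ2 (ϱ'.ι (m, ρ) v) = 0 := hx.2
    rw [hθ2' _ v hv] at h0
    have hv1 := (ϱ.ker _ v hv.1).1 h0
    exact ⟨_, (hQmem (m, ρ) _).2 ⟨v, hv1, rfl⟩, hθ1' _ v hv1⟩
  have hinj : Q.span ⊓ LinearMap.ker θ1 = ⊥ := by
    rw [eq_bot_iff]
    rintro x ⟨hx, hx0⟩
    obtain ⟨m, g, hg0, -, hg⟩ :=
      ((tendsto_smul_deep hℓ).eventually (Fam.exists_smul_mem hx 0)).exists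
    rw [add_zero, ← dg_mk_zero] at hg
    obtain ⟨v, hv, hgx⟩ := (hQmem _ _).1 hg
    have h1 : ϱ'.ι (m, 0) v = 0 := by
      rw [← hθ1' _ v hv, ← hgx, map_smul, LinearMap.mem_ker.1 hx0, smul_zero]
    have h2 := ((ϱ'.ker _ v (langton_succ_mem ϱ W hv)).1 h1).2
    have h3 : g • x = 0 := by rw [hgx]; exact (Submodule.Quotient.mk_eq_zero W).2 h2
    exact (smul_eq_zero.1 h3).resolve_left hg0
  have hd1 : Fam.deg H (Q.map θ1) = Fam.deg H Q := by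
    obtain ⟨c', s, hd⟩ := hQfg.exists_data
    rw [hd.deg_eq hQfg, ((Fam.HasData.map_iff hQfg hinj).2 hd).deg_eq (hQfg.map _)]
  constructor
  · rw [Fam.deg_map_add hN' θ2 H, (Fam.deg_eq_of_ray (hN.infW W) h2le hℓ h2eq H).2,
      ← (Fam.deg_eq_of_ray (hN'.infW _) h1le hℓ h1eq H).2, hd1, add_comm]
  · intro μ hA hB
    exact Fam.SlopeLE.extension hN' hH θ2
      ((hB.image_of_inj hQfg hinj).of_ray (hN'.infW _) h1le hℓ h1eq) (hA.of_le (hN.infW W) hH h2le)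

/-- Among the `(Φ, r, ϱ)` with `FG` and `SlopeLE H _ 0` (nonempty: `exists_filt`, `exists_real`, `exists_slopeLE`, `exists_shift`, `twist`,
`B_pos_of_ample`) take one of largest degree (`≤ 0`; `Int.exists_greatest_of_bdd`).  With `(W, μ)` from `exists_min_slope`, if `μ < -B ℓ H` then the
quotient is semistable (`image`, `slopeLE_iff_slopeGE`), its twist has `SlopeLE 0`, and `modify` raises the degree by `rk * B ℓ H > 0`. -/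
theorem exists_langton (σ : Sys n ℓ R) (hℓ : Ample ℓ) (ν : NN ℂ n ((c : ℤ) • ℓ)) (hM : Good ℂ M (σ.X ν))
    (hc : 0 < c) {H : Deg} (hH : Ample H) :
    ∃ (Φ : Filt σ (σ.X ν) c M) (r : ℕ) (ϱ : Real Φ (Fin r → KK ℂ)), ϱ.fam.FG ∧
      Fam.SlopeLE H ϱ.fam 0 ∧ Fam.SlopeGE H ϱ.fam (-((B ℓ H : ℤ) : ℚ)) := by
  have hpos : 0 < B ℓ H := B_pos_of_ample hℓ hH
  let P : ℤ → Prop := fun d => ∃ (Φ : Filt σ (σ.X ν) c M) (r : ℕ) (ϱ : Real Φ (Fin r → KK ℂ)),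
    ϱ.fam.FG ∧ Fam.SlopeLE H ϱ.fam 0 ∧ Fam.deg H ϱ.fam = d
  have hne : ∃ d, P d := by
    obtain ⟨Φ⟩ := exists_filt σ hℓ ν hM
    obtain ⟨r, ϱ, hN⟩ := Φ.exists_real hℓ hM hc
    obtain ⟨μ, hμ⟩ := hN.exists_slopeLE hH.nef
    obtain ⟨j, hj⟩ := exists_nat_ge μ
    obtain ⟨Φ', ϱ', h'⟩ := ϱ.exists_shift j
    refine ⟨_, Φ', r, ϱ', h' ▸ hN.shift _, ?_, rfl⟩
    rw [h']
    refine (hμ.twist hN _).mono_slope ?_
    rw [B_neg_left, B_smul_left]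
    push_cast
    have h1 : (1 : ℚ) ≤ ((B ℓ H : ℤ) : ℚ) := by exact_mod_cast hpos
    have h2 : (0 : ℚ) ≤ j := Nat.cast_nonneg j
    nlinarith
  have hbd : ∃ b : ℤ, ∀ d, P d → d ≤ b := by
    refine ⟨0, ?_⟩
    rintro _ ⟨Φ, r, ϱ, -, hle, rfl⟩
    have := hle.deg_le
    rw [zero_mul] at this
    exact_mod_cast this
  obtain ⟨_, ⟨Φ, r, ϱ, hN, hle, rfl⟩, hmax⟩ := Int.exists_greatest_of_bdd hbd hne
  refine ⟨Φ, r, ϱ, hN, hle, ?_⟩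
  obtain ⟨W, μ, hr, hdeg, hge⟩ := hN.exists_min_slope hH.nef (ϱ.fam_ne_bot hM)
  by_cases hμ : -((B ℓ H : ℤ) : ℚ) ≤ μ
  · exact hge.mono_slope hμ
  exfalso
  obtain ⟨Φ', r', ϱ', hN', hd, hs⟩ := ϱ.modify hℓ hM hc hN W hH.nef
  have hQ : Fam.SlopeLE H (ϱ.fam.map W.mkQ) μ :=
    (Fam.slopeLE_iff_slopeGE hdeg).2 (hge.image hN W.mkQ)
  have h1 := hs 0 (hle.of_le hN hH.nef (Fam.infW_le _ _))
    ((hQ.twist (hN.map _) ℓ).mono_slope (by linarith))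
  have h2 := hmax _ ⟨Φ', r', ϱ', hN', h1, rfl⟩
  have h3 := Fam.deg_map_add hN W.mkQ H
  rw [Submodule.ker_mkQ] at h3
  rw [hd, Fam.deg_shift (hN.map _), h3] at h2
  have h4 : (1 : ℤ) ≤ (ϱ.fam.map W.mkQ).rk := by exact_mod_cast hr
  nlinarith

end Crest.Agent.R169
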