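import Mathlib

/-!
# rid 169, file `Lin`: Koszul-type definitions (three elements acting on a module).  Definitions only.
-/

set_option autoImplicit false

namespace Crest.Agent.R169

section
variable {R : Type} [CommRing R] {M : Type} [AddCommGroup M] [Module R M]

/-- The middle Koszul differential of three elements: the cross product `X × v`. -/
def cross (X : Fin 3 → R) (v : Fin 3 → M) : Fin 3 → M :=
  ![X 1 • v 2 - X 2 • v 1, X 2 • v 0 - X 0 • v 2, X 0 • v 1 - X 1 • v 0]

@[simp] theorem cross_zero (X : Fin 3 → R) (v : Fin 3 → M) :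
    cross X v 0 = X 1 • v 2 - X 2 • v 1 := rfl
@[simp] theorem cross_one (X : Fin 3 → R) (v : Fin 3 → M) :
    cross X v 1 = X 2 • v 0 - X 0 • v 2 := rfl
@[simp] theorem cross_two (X : Fin 3 → R) (v : Fin 3 → M) :
    cross X v 2 = X 0 • v 1 - X 1 • v 0 := rfl

theorem sum_smul_cross (X : Fin 3 → R) (v : Fin 3 → M) : ∑ i, X i • cross X v i = 0 := by
  simp only [Fin.sum_univ_three, cross_zero, cross_one, cross_two, smul_sub, smul_smul]
  rw [mul_comm (X 1) (X 2), mul_comm (X 1) (X 0), mul_comm (X 2) (X 0)]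
  rw [mul_comm (X 2) (X 1)]
  abel

variable (M) in
/-- Vanishing of the first Koszul homology of `X` on `M`. -/
def KosH1 (X : Fin 3 → R) : Prop :=
  ∀ u : Fin 3 → M, ∑ i, X i • u i = 0 → ∃ v : Fin 3 → M, u = cross X v

/-- The ideal generated by the three elements. -/
abbrev idl (X : Fin 3 → R) : Ideal R := Ideal.span (Set.range X)

variable (M) in
/-- `I^j M` for `I = (X 0, X 1, X 2)`. -/
abbrev ipow (X : Fin 3 → R) (j : ℕ) : Submodule R M := idl X ^ j • ⊤

variable {k : Type} [Field k] [Algebra k R] [Module k M] [IsScalarTower k R M]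

/-- `X 0 • A + X 1 • A + X 2 • A` for a `k`-subspace `A`. -/
def sumX (X : Fin 3 → R) (A : Submodule k M) : Submodule k M where
  carrier := {v | ∃ u : Fin 3 → M, (∀ i, u i ∈ A) ∧ v = ∑ i, X i • u i}
  zero_mem' := ⟨0, fun _ => A.zero_mem, by simp⟩
  add_mem' := by
    rintro _ _ ⟨u, hu, rfl⟩ ⟨u', hu', rfl⟩
    exact ⟨u + u', fun i => A.add_mem (hu i) (hu' i), by simp [Finset.sum_add_distrib]⟩
  smul_mem' := by
    rintro c _ ⟨u, hu, rfl⟩
    refine ⟨c • u, fun i => A.smul_mem c (hu i), ?_⟩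
    rw [Finset.smul_sum]
    exact Finset.sum_congr rfl fun i _ => by rw [Pi.smul_apply, smul_comm]

theorem mem_sumX {X : Fin 3 → R} {A : Submodule k M} {v : M} :
    v ∈ sumX X A ↔ ∃ u : Fin 3 → M, (∀ i, u i ∈ A) ∧ v = ∑ i, X i • u i := Iff.rfl

theorem smul_mem_sumX (X : Fin 3 → R) {A : Submodule k M} (i : Fin 3) {v : M} (hv : v ∈ A) :
    X i • v ∈ sumX X A := by
  classical
  refine ⟨Pi.single i v, fun j => ?_, ?_⟩
  · by_cases h : j = i
    · subst h; simpa using hv
    · simp [Pi.single_eq_of_ne h]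
  · rw [Finset.sum_eq_single i] <;> simp +contextual [Pi.single_eq_of_ne]

theorem sumX_le {X : Fin 3 → R} {A B : Submodule k M} (h : ∀ i, ∀ v ∈ A, X i • v ∈ B) :
    sumX X A ≤ B := by
  rintro _ ⟨u, hu, rfl⟩
  exact B.sum_mem fun i _ => h i _ (hu i)

theorem sumX_mono (X : Fin 3 → R) {A B : Submodule k M} (h : A ≤ B) : sumX X A ≤ sumX X B := by
  rintro _ ⟨u, hu, rfl⟩
  exact ⟨u, fun i => h (hu i), rfl⟩

/-- The vectors that all three elements multiply into `A`. -/
def hull (X : Fin 3 → R) (A : Submodule k M) : Submodule k M where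
  carrier := {v | ∀ i, X i • v ∈ A}
  zero_mem' := fun i => by simp
  add_mem' := fun ha hb i => by rw [smul_add]; exact A.add_mem (ha i) (hb i)
  smul_mem' := fun c v hv i => by rw [smul_comm]; exact A.smul_mem c (hv i)

theorem mem_hull {X : Fin 3 → R} {A : Submodule k M} {v : M} :
    v ∈ hull X A ↔ ∀ i, X i • v ∈ A := Iff.rfl

/-- Codimension of a subspace. -/
noncomputable abbrev codim (U : Submodule k M) : ℕ := Module.finrank k (M ⧸ U)

/-- A graded module over `k[T 0, T 1, T 2]` (each `T i` of degree one) whose graded pieces are given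
as subspaces of one ambient module. -/
def AFam (T : Fin 3 → R) (D : ℤ → Submodule k M) : Prop :=
  ∀ i d, ∀ v ∈ D d, T i • v ∈ D (d + 1)

/-- A finitely generated such graded module. -/
structure AFG (T : Fin 3 → R) (D : ℤ → Submodule k M) : Prop where
  fam : AFam T D
  fin : ∀ d, FiniteDimensional k (D d)
  low : ∃ d0, ∀ d, d ≤ d0 → D d = ⊥
  gen : ∃ d1, ∀ d, d1 ≤ d → D (d + 1) ≤ sumX T (D d)

end

/-- What we use of a maximal Cohen–Macaulay module `M` with respect to the parameters `X`. -/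
structure Good (k : Type) [Field k] {R : Type} [CommRing R] [Algebra k R] (M : Type) [AddCommGroup M]
    [Module R M] [Module k M] [IsScalarTower k R M] (X : Fin 3 → R) : Prop where
  fin : ∀ j : ℕ, FiniteDimensional k (M ⧸ (ipow M X j).restrictScalars k)
  ne_top : ipow M X 1 ≠ ⊤
  kos : ∀ a : ℕ, KosH1 M (fun i => X i ^ a)
  qreg : ∀ (E : MvPolynomial (Fin 3) k) (j : ℕ), E.IsHomogeneous j → E ≠ 0 →
    ∀ (i : ℕ) (v : M), MvPolynomial.aeval X E • v ∈ ipow M X (i + j) → v ∈ ipow M X i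

section
variable (k : Type) [Field k] {F : Type} [Field F] [Algebra k F]

/-- `F` is the rational function field `k(ξ 0, ξ 1)`. -/
structure Coord (ξ : Fin 2 → F) : Prop where
  ind : AlgebraicIndependent k ξ
  gen : ∀ f : F, ∃ a b : MvPolynomial (Fin 2) k,
    MvPolynomial.aeval ξ b ≠ 0 ∧ f * MvPolynomial.aeval ξ b = MvPolynomial.aeval ξ a

/-- Polynomials in `ξ 0, ξ 1` of total degree at most `j` (zero for `j < 0`). -/
def PiF (ξ : Fin 2 → F) (j : ℤ) : Submodule k F :=
  Submodule.span k {f | ∃ a b : ℕ, (a : ℤ) + b ≤ j ∧ f = ξ 0 ^ a * ξ 1 ^ b}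

/-- The dehomogenised coordinates `(ξ 0, ξ 1, 1)`. -/
def TT (ξ : Fin 2 → F) : Fin 3 → F := ![ξ 0, ξ 1, 1]

variable {k} {V : Type} [AddCommGroup V] [Module F V] [Module k V] [IsScalarTower k F V]

/-- Degree `e` part of the graded dual `Hom(D, k[x,y,z])`. -/
def DualA (ξ : Fin 2 → F) (D : ℤ → Submodule k V) (e : ℤ) : Submodule k (V →ₗ[F] F) where
  carrier := {φ | ∀ d, ∀ v ∈ D d, φ v ∈ PiF k ξ (d + e)}
  zero_mem' := fun d v _ => by simp
  add_mem' := fun ha hb d v hv => by
    rw [LinearMap.add_apply]; exact Submodule.add_mem _ (ha d v hv) (hb d v hv)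
  smul_mem' := fun c φ h d v hv => by
    rw [LinearMap.smul_apply]; exact Submodule.smul_mem _ c (h d v hv)

omit [IsScalarTower k F V] in
theorem mem_DualA {ξ : Fin 2 → F} {D : ℤ → Submodule k V} {e : ℤ} {φ : V →ₗ[F] F} :
    φ ∈ DualA ξ D e ↔ ∀ d, ∀ v ∈ D d, φ v ∈ PiF k ξ (d + e) := Iff.rfl

/-- The union of the graded pieces spans the ambient `F`-vector space. -/
def Spans (F : Type) [Field F] {V : Type} [AddCommGroup V] [Module F V] [Module k V]
    (D : ℤ → Submodule k V) : Prop :=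
  Submodule.span F {v | ∃ d, v ∈ D d} = ⊤

end

/-- `P` holds for the reduction of the polynomial data `v` along every ring map `θ : Λ → k` to a
field, for every subring `Λ ⊆ ℂ` that contains a certain finite set (and the coefficients of `v`). -/
def Generic {I ι : Type} (v : I → ι → MvPolynomial (Fin 2) ℂ)
    (P : (k : Type) → [Field k] → (I → ι → MvPolynomial (Fin 2) k) → Prop) : Prop :=
  ∃ X : Finset ℂ, ∀ Λ : Subring ℂ, (∀ x ∈ X, x ∈ Λ) →
    ∀ v' : I → ι → MvPolynomial (Fin 2) Λ,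
      (∀ i j, MvPolynomial.map Λ.subtype (v' i j) = v i j) →
      ∀ (k : Type) [Field k] (θ : Λ →+* k), P k (fun i j => MvPolynomial.map θ (v' i j))

end Crest.Agent.R169
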