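import Crest.Agent.R169.MCMAux

/-!
# rid 169, file `MCM`: a maximal Cohen–Macaulay module is `Good`

Pure commutative algebra.  Prefix helper lemmas with `mcm_`.
-/

set_option autoImplicit false

namespace Crest.Agent.R169

variable {R : Type} [CommRing R] {M : Type} [AddCommGroup M] [Module R M]

/-- Depth sensitivity of the Koszul complex, in the one case we need.

Proof.  `rs = [r1, r2, r3]`; unfold `IsWeaklyRegular` with `isWeaklyRegular_cons_iff` (or
`isWeaklyRegular_iff`): `r1` is regular on `M`, `r2` on `M1 = M / r1 M`, `r3` on `M2 = M1 / r2 M1`.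
It is easiest to restate this inside `M`: `r1 v = 0 → v = 0`; `r2 v ∈ r1 M → v ∈ r1 M`;
`r3 v ∈ r1 M + r2 M → v ∈ r1 M + r2 M`.  Write `r_i ^ N = ∑ a_j X_j` (`Ideal.mem_span_range_iff_exists_fun`).
* (H3 on `M2`) if `X i • v = 0` in `M2` for all `i` then `r3 ^ N • v = 0`, so `v = 0`.
* (H2 on `M1`) if `cross X u = 0` in `M1` then `u i = X i • v` for one `v`.  Indeed
  `(a·X) u = X (a·u) - a × (X × u)`, so `r2 ^ N • u i = X i • v` with `v = ∑ a j • u j`; and descend on the
  exponent: if `r2 ^ (j+1) • u i = X i • v` for all `i` then `X i • v = 0` in `M2`, so `v = r2 • v'` in `M1` and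
  `r2 ^ j • u i = X i • v'` by regularity of `r2` on `M1`.
* (H1 on `M`) if `∑ X i • u i = 0` then `r1 ^ N • u = cross X w` with `w = u × a`, i.e.
  `w = ![a 2 • u 1 - a 1 • u 2, a 0 • u 2 - a 2 • u 0, a 1 • u 0 - a 0 • u 1]`
  (`X × (u × a) = (X·a) u - (X·u) a`); descend: if `r1 ^ (j+1) • u = cross X v` then `cross X v = 0` in `M1`,
  so `v i = X i • w + r1 • v' i`, `cross X v = r1 • cross X v'`, and `r1 ^ j • u = cross X v'`. -/
theorem kosH1_of_regular (X : Fin 3 → R) (rs : List R) (hlen : rs.length = 3)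
    (hreg : RingTheory.Sequence.IsWeaklyRegular M rs)
    (hnil : ∀ r ∈ rs, ∃ N : ℕ, r ^ N ∈ idl X) : KosH1 M X := by
  obtain ⟨r1, r2, r3, rfl⟩ := List.length_eq_three.1 hlen
  simp only [RingTheory.Sequence.isWeaklyRegular_cons_iff] at hreg
  obtain ⟨n1, h1⟩ := hnil r1 (by simp)
  obtain ⟨n2, h2⟩ := hnil r2 (by simp)
  obtain ⟨n3, h3⟩ := hnil r3 (by simp)
  exact mcm_h1 hreg.1 h1 (mcm_h2 hreg.2.1 h2 (mcm_h3 hreg.2.2.1 h3))

/-- Quasi-regularity: `gr_I M = (M / I M)[x,y,z]`, on which a nonzero form over the field `k` is regular.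

Proof.  (1) If `X0^a X1^b X2^c • m ∈ (X0^(a+1), X1^(b+1), X2^(c+1)) M` then `m ∈ I M`: for `a ≥ 1` (trivial for
`a = 0`), `X0^a • (m' - X0 • u0) - X1^(b+1) • u1 - X2^(c+1) • u2 = 0` with `m' = X1^b X2^c • m` is a Koszul cycle
for the exponents `(a, b+1, c+1)`, so its first entry `m' - X0 • u0` lies in `(X1^(b+1), X2^(c+1)) M`, i.e.
`m' ∈ (X0, X1^(b+1), X2^(c+1)) M`; repeat for `X1` (exponents `(1, b, c+1)`) and `X2` (exponents `(1,1,c)`).
(2) Elements of `I^d M` are the sums `∑_{|α| = d} X^α • m α` (induction on `d`).  If such a sum lies in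
`I^(d+1) M`, all `m α ∈ I M`: write the right side as `∑ X^α • m' α` with `m' α ∈ I M`, subtract, so wlog the sum is
`0`; every `α ≠ α0` of degree `d` has a coordinate `α i ≥ α0 i + 1`, so (1) applies to `α0`.
(3) Induct on `i`: suppose `v ∈ I^i' M`, `i' < i`; write `v = ∑_{|α| = i'} X^α • m α`.  Then
`E(X) • v = ∑_{|β| = i' + j} X^β • (∑_{α + α' = β} coeff α' E • m α) ∈ I^(i'+j+1) M`, so by (2) for every `k`-linear
functional `l` on `M` killing `I M` the polynomial `P = ∑ monomial α (l (m α))` has `E * P = 0`, hence `P = 0`;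
so each `m α ∈ I M` (functionals separate points of `M / I M`), and `v ∈ I^(i'+1) M`. -/
theorem quasi_regular {k : Type} [Field k] [Algebra k R] [Module k M] [IsScalarTower k R M]
    (X : Fin 3 → R) (hH : ∀ a : Fin 3 → ℕ, KosH1 M (fun i => X i ^ a i))
    (E : MvPolynomial (Fin 3) k) (j : ℕ) (hE : E.IsHomogeneous j) (hE0 : E ≠ 0) (i : ℕ) (v : M)
    (hv : MvPolynomial.aeval X E • v ∈ ipow M X (i + j)) : v ∈ ipow M X i := by
  have key : ∀ i' ≤ i, v ∈ ipow M X i' := by
    intro i'
    induction i' with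
    | zero => simp [ipow]
    | succ i' ih =>
      exact fun h => mcm_step hH hE hE0 (ih (by omega))
        (Submodule.smul_mono_left (Ideal.pow_le_pow_right (by omega)) hv)
  exact key i le_rfl

/-- Packaging.  Proof: `R / I` is a finite-dimensional local algebra, so each `r` in the maximal ideal is
nilpotent mod `I` (e.g. `R / I` is Artinian: `IsArtinianRing.isNilpotent_jacobson_bot`; or the chain
`(r^m) + I` stabilises and `1 - r s` is a unit); then `r ^ N' ∈ (X i ^ a i)` for any exponents (the image of `r^N`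
is a sum of three nilpotents; e.g. `Ideal.radical` of the span of the powers contains each `X i`).
`ne_top` is Nakayama (`Submodule.top_ne_ideal_smul_of_le_jacobson_annihilator` or similar).
`fin`: `M / I^j M` is spanned by the `X^α • e s • m t`, `|α| < j`, with `e s` lifting a basis of `R / I` and `m t`
generating `M`; or induct on `j` with the surjection `(M / I M)^{monomials} → I^j M / I^(j+1) M`. -/
theorem good_of_regular {k : Type} [Field k] [Algebra k R] [Module k M] [IsScalarTower k R M]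
    [IsLocalRing R] [Module.Finite R M] [Nontrivial M] (X : Fin 3 → R)
    (hX : ∀ i, X i ∈ IsLocalRing.maximalIdeal R) (hfin : FiniteDimensional k (R ⧸ idl X))
    (rs : List R) (hlen : rs.length = 3) (hm : ∀ r ∈ rs, r ∈ IsLocalRing.maximalIdeal R)
    (hreg : RingTheory.Sequence.IsRegular M rs) : Good k M X := by
  have hH : ∀ a : Fin 3 → ℕ, KosH1 M (fun i => X i ^ a i) := fun a =>
    kosH1_of_regular _ rs hlen hreg.toIsWeaklyRegular fun r hr => mcm_nil X hfin (hm r hr) a
  refine ⟨mcm_fin X hfin, ?_, fun a => hH fun _ => a, fun E j hE hE0 => quasi_regular X hH E j hE hE0⟩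
  rw [ipow, pow_one]
  refine (Submodule.top_ne_ideal_smul_of_le_jacobson_annihilator
    ((Ideal.span_le.2 ?_).trans (IsLocalRing.maximalIdeal_le_jacobson _))).symm
  rintro _ ⟨i, rfl⟩
  exact hX i

end Crest.Agent.R169
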