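import Crest.Agent.R169.Lin

/-!
# rid 169, file `MCMAux`: helper lemmas for `MCM`
-/

set_option autoImplicit false

namespace Crest.Agent.R169

open Finset MvPolynomial

variable {R : Type} [CommRing R] {M : Type} [AddCommGroup M] [Module R M]

theorem mcm_mk_zero {r : R} {v : M} (h : (Submodule.Quotient.mk v : QuotSMulTop r M) = 0) :
    ∃ w, v = r • w := by
  obtain ⟨w, -, hw⟩ := (Submodule.mem_smul_pointwise_iff_exists _ _ _).1
    ((Submodule.Quotient.mk_eq_zero _).1 h)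
  exact ⟨w, hw.symm⟩

theorem mcm_h3 {X : Fin 3 → R} {r : R} (hr : IsSMulRegular M r) {n : ℕ} (hn : r ^ n ∈ idl X) (v : M)
    (hv : ∀ i, X i • v = 0) : v = 0 := by
  obtain ⟨a, ha⟩ := Ideal.mem_span_range_iff_exists_fun.1 hn
  refine hr.pow n (?_ : r ^ n • v = r ^ n • (0 : M))
  rw [← ha, smul_zero, sum_smul]
  exact sum_eq_zero fun i _ => by rw [mul_smul, hv, smul_zero]

theorem mcm_h2 {X : Fin 3 → R} {r : R} (hr : IsSMulRegular M r) {n : ℕ} (hn : r ^ n ∈ idl X)
    (h3 : ∀ v : QuotSMulTop r M, (∀ i, X i • v = 0) → v = 0) (u : Fin 3 → M) (hu : cross X u = 0) :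
    ∃ v, ∀ i, u i = X i • v := by
  obtain ⟨a, ha⟩ := Ideal.mem_span_range_iff_exists_fun.1 hn
  have key : ∀ j : ℕ, (∃ v, ∀ i, r ^ j • u i = X i • v) → ∃ v, ∀ i, u i = X i • v := by
    intro j
    induction j with
    | zero => simp
    | succ j ih =>
      rintro ⟨v, hv⟩
      obtain ⟨w, rfl⟩ := mcm_mk_zero (h3 (Submodule.Quotient.mk v) fun i => by
        rw [← Submodule.Quotient.mk_smul, ← hv, Submodule.Quotient.mk_eq_zero, pow_succ', mul_smul]
        exact Submodule.smul_mem_pointwise_smul _ _ _ Submodule.mem_top)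
      refine ih ⟨w, fun i => hr ?_⟩
      change r • r ^ j • u i = r • X i • w
      rw [← mul_smul, ← pow_succ', hv, smul_comm]
  have h0 : X 1 • u 2 - X 2 • u 1 = 0 := congrFun hu 0
  have h1 : X 2 • u 0 - X 0 • u 2 = 0 := congrFun hu 1
  have h2 : X 0 • u 1 - X 1 • u 0 = 0 := congrFun hu 2
  refine key n ⟨∑ j, a j • u j, fun i => ?_⟩
  rw [← ha]
  simp only [Fin.sum_univ_three]
  fin_cases i
  · change _ • u 0 = X 0 • _
    linear_combination (norm := module) (-a 1) • h2 + a 2 • h1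
  · change _ • u 1 = X 1 • _
    linear_combination (norm := module) a 0 • h2 - a 2 • h0
  · change _ • u 2 = X 2 • _
    linear_combination (norm := module) a 1 • h0 - a 0 • h1

theorem mcm_h1 {X : Fin 3 → R} {r : R} (hr : IsSMulRegular M r) {n : ℕ} (hn : r ^ n ∈ idl X)
    (h2 : ∀ u : Fin 3 → QuotSMulTop r M, cross X u = 0 → ∃ v, ∀ i, u i = X i • v) : KosH1 M X := by
  intro u hu
  obtain ⟨a, ha⟩ := Ideal.mem_span_range_iff_exists_fun.1 hn
  have key : ∀ j : ℕ, (∃ v, ∀ i, r ^ j • u i = cross X v i) → ∃ v, u = cross X v := by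
    intro j
    induction j with
    | zero => exact fun ⟨v, hv⟩ => ⟨v, funext fun i => by simpa using hv i⟩
    | succ j ih =>
      rintro ⟨v, hv⟩
      obtain ⟨w, hw⟩ := h2 (fun i => Submodule.Quotient.mk (v i)) (funext fun i => by
        have : (Submodule.Quotient.mk (cross X v i) : QuotSMulTop r M) = 0 := by
          rw [← hv, Submodule.Quotient.mk_eq_zero, pow_succ', mul_smul]
          exact Submodule.smul_mem_pointwise_smul _ _ _ Submodule.mem_top
        rw [Pi.zero_apply, ← this]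
        fin_cases i <;> rfl)
      obtain ⟨w, rfl⟩ := Submodule.Quotient.mk_surjective _ w
      choose v' hv' using fun i => mcm_mk_zero (r := r) (v := v i - X i • w)
        (by rw [Submodule.Quotient.mk_sub, hw i, Submodule.Quotient.mk_smul, sub_self])
      refine ih ⟨v', fun i => hr ?_⟩
      change r • r ^ j • u i = r • cross X v' i
      rw [← mul_smul, ← pow_succ', hv]
      fin_cases i
      · change X 1 • v 2 - X 2 • v 1 = r • (X 1 • v' 2 - X 2 • v' 1)
        linear_combination (norm := module) X 1 • hv' 2 - X 2 • hv' 1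
      · change X 2 • v 0 - X 0 • v 2 = r • (X 2 • v' 0 - X 0 • v' 2)
        linear_combination (norm := module) X 2 • hv' 0 - X 0 • hv' 2
      · change X 0 • v 1 - X 1 • v 0 = r • (X 0 • v' 1 - X 1 • v' 0)
        linear_combination (norm := module) X 0 • hv' 1 - X 1 • hv' 0
  refine key n ⟨![a 2 • u 1 - a 1 • u 2, a 0 • u 2 - a 2 • u 0, a 1 • u 0 - a 0 • u 1], fun i => ?_⟩
  rw [← ha]
  simp only [Fin.sum_univ_three] at hu ⊢
  fin_cases i
  · change _ • u 0 = X 1 • (a 1 • u 0 - a 0 • u 1) - X 2 • (a 0 • u 2 - a 2 • u 0)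
    linear_combination (norm := module) a 0 • hu
  · change _ • u 1 = X 2 • (a 2 • u 1 - a 1 • u 2) - X 0 • (a 1 • u 0 - a 0 • u 1)
    linear_combination (norm := module) a 1 • hu
  · change _ • u 2 = X 0 • (a 0 • u 2 - a 2 • u 0) - X 1 • (a 2 • u 1 - a 1 • u 2)
    linear_combination (norm := module) a 2 • hu

theorem mcm_mem_idl {X : Fin 3 → R} {N : Submodule R M} {v : M} :
    v ∈ idl X • N ↔ ∃ u : Fin 3 → M, (∀ i, u i ∈ N) ∧ v = ∑ i, X i • u i := by
  constructor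
  · intro h
    refine Submodule.smul_induction_on h (fun r hr n hn => ?_) ?_
    · obtain ⟨a, rfl⟩ := Ideal.mem_span_range_iff_exists_fun.1 hr
      exact ⟨fun i => a i • n, fun i => N.smul_mem _ hn, by
        rw [sum_smul]; exact sum_congr rfl fun i _ => by rw [mul_comm, mul_smul]⟩
    · rintro _ _ ⟨u, hu, rfl⟩ ⟨u', hu', rfl⟩
      exact ⟨u + u', fun i => N.add_mem (hu i) (hu' i), by simp [sum_add_distrib]⟩
  · rintro ⟨u, hu, rfl⟩
    exact Submodule.sum_mem _ fun i _ =>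
      Submodule.smul_mem_smul (Ideal.subset_span ⟨i, rfl⟩) (hu i)

theorem mcm_mono {X : Fin 3 → R} (hH : ∀ a : Fin 3 → ℕ, KosH1 M (fun i => X i ^ a i)) (α : Fin 3 → ℕ)
    {m : M} (h : (∏ i, X i ^ α i) • m ∈ idl (fun i => X i ^ (α i + 1)) • (⊤ : Submodule R M)) :
    m ∈ idl X • (⊤ : Submodule R M) := by
  obtain ⟨u, -, hu⟩ := mcm_mem_idl.1 h
  simp only [Fin.sum_univ_three, Fin.prod_univ_three] at hu
  obtain ⟨v, hv⟩ := hH ![α 0, α 1 + 1, α 2 + 1]
    ![(X 1 ^ α 1 * X 2 ^ α 2) • m - X 0 • u 0, -u 1, -u 2] (by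
      rw [Fin.sum_univ_three]
      change X 0 ^ α 0 • ((X 1 ^ α 1 * X 2 ^ α 2) • m - X 0 • u 0) + X 1 ^ (α 1 + 1) • (-u 1) +
        X 2 ^ (α 2 + 1) • (-u 2) = 0
      linear_combination (norm := module) hu)
  have h1 : (X 1 ^ α 1 * X 2 ^ α 2) • m - X 0 • u 0 =
    X 1 ^ (α 1 + 1) • v 2 - X 2 ^ (α 2 + 1) • v 1 := congrFun hv 0
  obtain ⟨w, hw⟩ := hH ![1, α 1, α 2 + 1] ![-u 0, X 2 ^ α 2 • m - X 1 • v 2, v 1] (by
      rw [Fin.sum_univ_three]
      change X 0 ^ 1 • (-u 0) + X 1 ^ α 1 • (X 2 ^ α 2 • m - X 1 • v 2) + X 2 ^ (α 2 + 1) • v 1 = 0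
      linear_combination (norm := module) h1)
  have h2 : X 2 ^ α 2 • m - X 1 • v 2 = X 2 ^ (α 2 + 1) • w 0 - X 0 ^ 1 • w 2 := congrFun hw 1
  obtain ⟨z, hz⟩ := hH ![1, 1, α 2] ![w 2, -v 2, m - X 2 • w 0] (by
      rw [Fin.sum_univ_three]
      change X 0 ^ 1 • w 2 + X 1 ^ 1 • (-v 2) + X 2 ^ α 2 • (m - X 2 • w 0) = 0
      linear_combination (norm := module) h2)
  have h3 : m - X 2 • w 0 = X 0 ^ 1 • z 1 - X 1 ^ 1 • z 0 := congrFun hz 2
  refine mcm_mem_idl.2 ⟨![z 1, -z 0, w 0], fun _ => Submodule.mem_top, ?_⟩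
  rw [Fin.sum_univ_three]
  change m = X 0 • z 1 + X 1 • (-z 0) + X 2 • w 0
  linear_combination (norm := module) h3

/-- exponents of degree `d` -/
noncomputable abbrev mcmS (d : ℕ) : Finset (Fin 3 →₀ ℕ) := finsuppAntidiag univ d

theorem mcm_memS {d : ℕ} {α : Fin 3 →₀ ℕ} : α ∈ mcmS d ↔ α.degree = d := by
  simp [Finsupp.degree_eq_sum]

theorem mcm_aeval {S : Type} [CommRing S] [Algebra S R] (X : Fin 3 → R) {F : MvPolynomial (Fin 3) S}
    {d : ℕ} (hF : F.IsHomogeneous d) :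
    aeval X F = ∑ β ∈ mcmS d, coeff β F • ∏ i, X i ^ β i := by
  rw [aeval_def, eval₂_eq']
  simp only [← Algebra.smul_def]
  refine sum_subset (fun β hβ => ?_) fun β _ hβ => ?_
  · by_contra h
    exact mem_support_iff.1 hβ (hF.coeff_eq_zero fun h' => h (mcm_memS.2 h'))
  · rw [notMem_support_iff.1 hβ, zero_smul]

theorem mcm_mem_pow {X : Fin 3 → R} {N : Submodule R M} {d : ℕ} {v : M} :
    v ∈ idl X ^ d • N ↔
      ∃ m : (Fin 3 →₀ ℕ) → M, (∀ α ∈ mcmS d, m α ∈ N) ∧ v = ∑ α ∈ mcmS d, (∏ i, X i ^ α i) • m α := by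
  constructor
  · intro h
    refine Submodule.smul_induction_on h (fun r hr n hn => ?_) ?_
    · obtain ⟨F, hF, rfl⟩ := (Ideal.mem_span_pow_iff_exists_isHomogeneous X r).1 hr
      refine ⟨fun α => coeff α F • n, fun α _ => N.smul_mem _ hn, ?_⟩
      rw [← coe_aeval_eq_eval, RingHom.coe_coe, mcm_aeval X hF, sum_smul]
      exact sum_congr rfl fun α _ => by rw [smul_eq_mul, mul_comm, mul_smul]
    · rintro _ _ ⟨u, hu, rfl⟩ ⟨u', hu', rfl⟩
      exact ⟨u + u', fun i hi => N.add_mem (hu i hi) (hu' i hi), by simp [sum_add_distrib]⟩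
  · rintro ⟨u, hu, rfl⟩
    refine Submodule.sum_mem _ fun α hα => Submodule.smul_mem_smul
      ((Ideal.mem_span_pow_iff_exists_isHomogeneous X _).2
        ⟨monomial α 1, isHomogeneous_monomial _ (mcm_memS.1 hα), ?_⟩) (hu α hα)
    rw [eval_monomial, one_mul, Finsupp.prod_fintype _ _ fun i => pow_zero _]

theorem mcm_coeff {X : Fin 3 → R} (hH : ∀ a : Fin 3 → ℕ, KosH1 M (fun i => X i ^ a i)) {d : ℕ}
    (m : (Fin 3 →₀ ℕ) → M) (h : ∑ α ∈ mcmS d, (∏ i, X i ^ α i) • m α ∈ ipow M X (d + 1)) :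
    ∀ α ∈ mcmS d, m α ∈ idl X • (⊤ : Submodule R M) := by
  intro α hα
  rw [ipow, pow_succ, mul_smul] at h
  obtain ⟨m', h1, h2⟩ := mcm_mem_pow.1 h
  rw [← sub_add_cancel (m α) (m' α)]
  refine Submodule.add_mem _ (mcm_mono hH α ?_) (h1 α hα)
  rw [← sub_eq_zero, ← sum_sub_distrib, ← add_sum_erase _ _ hα, add_eq_zero_iff_eq_neg] at h2
  rw [smul_sub, h2]
  refine Submodule.neg_mem _ (Submodule.sum_mem _ fun β hβ => ?_)
  rw [← smul_sub]
  refine Submodule.smul_mem_smul ?_ Submodule.mem_top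
  obtain ⟨i, hi⟩ : ∃ i, α i + 1 ≤ β i := by
    by_contra hc
    push Not at hc
    have h3 := mcm_memS.1 hα
    have h4 := mcm_memS.1 (mem_of_mem_erase hβ)
    rw [Finsupp.degree_eq_sum, Fin.sum_univ_three] at h3 h4
    have := hc 0
    have := hc 1
    have := hc 2
    refine ne_of_mem_erase hβ (Finsupp.ext fun i => ?_)
    fin_cases i
    · change β 0 = α 0; omega
    · change β 1 = α 1; omega
    · change β 2 = α 2; omega
  exact Ideal.mem_of_dvd _ ((pow_dvd_pow _ hi).trans (dvd_prod_of_mem (fun i => X i ^ β i) (mem_univ i)))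
    (Ideal.subset_span ⟨i, rfl⟩)

variable {k : Type} [Field k] [Algebra k R] [Module k M] [IsScalarTower k R M]

theorem mcm_step {X : Fin 3 → R} (hH : ∀ a : Fin 3 → ℕ, KosH1 M (fun i => X i ^ a i))
    {E : MvPolynomial (Fin 3) k} {j : ℕ} (hE : E.IsHomogeneous j) (hE0 : E ≠ 0) {i : ℕ} {v : M}
    (h1 : v ∈ ipow M X i) (h2 : aeval X E • v ∈ ipow M X (j + i + 1)) : v ∈ ipow M X (i + 1) := by
  obtain ⟨m, -, rfl⟩ := mcm_mem_pow.1 h1
  have h3 := mcm_coeff hH (d := j + i)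
    (fun β => ∑ α ∈ mcmS i, coeff β (E * monomial α 1) • m α) (by
      convert h2 using 1
      simp only [smul_sum]
      rw [sum_comm]
      refine sum_congr rfl fun α hα => ?_
      have := mcm_aeval X (hE.mul (isHomogeneous_monomial (1 : k) (mcm_memS.1 hα)))
      rw [map_mul, aeval_monomial, map_one, one_mul, Finsupp.prod_fintype _ _ fun i => pow_zero _] at this
      rw [← mul_smul, this, sum_smul]
      exact sum_congr rfl fun β _ => by rw [smul_assoc, smul_comm])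
  rw [ipow, pow_succ, mul_smul]
  refine mcm_mem_pow.2 ⟨m, fun α hα => ?_, rfl⟩
  by_contra hc
  obtain ⟨l, hl, hl'⟩ := Submodule.exists_dual_map_eq_bot_of_notMem
    (p := (idl X • (⊤ : Submodule R M)).restrictScalars k) hc inferInstance
  have hP : (∑ α ∈ mcmS i, monomial α (l (m α))).IsHomogeneous i :=
    IsHomogeneous.sum _ _ _ fun α hα => isHomogeneous_monomial _ (mcm_memS.1 hα)
  have h4 : E * ∑ α ∈ mcmS i, monomial α (l (m α)) = 0 := by
    ext β
    rw [coeff_zero]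
    by_cases hβ : β ∈ mcmS (j + i)
    · have h5 : l (∑ α ∈ mcmS i, coeff β (E * monomial α 1) • m α) = 0 :=
        (Submodule.mem_bot k).1 (hl' ▸ Submodule.mem_map_of_mem (h3 β hβ))
      rw [← h5, map_sum, mul_sum, coeff_sum]
      refine sum_congr rfl fun α _ => ?_
      rw [map_smul, smul_eq_mul, mul_comm _ (l _), ← smul_eq_mul (l _), ← coeff_smul, ← mul_smul_comm,
        smul_monomial, smul_eq_mul, mul_one]
    · exact (hE.mul hP).coeff_eq_zero fun h => hβ (mcm_memS.2 h)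
  have h5 := congrArg (coeff α) ((mul_eq_zero.1 h4).resolve_left hE0)
  rw [coeff_sum, sum_eq_single_of_mem α hα fun β _ hβ => by rw [coeff_monomial, if_neg hβ],
    coeff_monomial, if_pos rfl, coeff_zero] at h5
  exact hl h5

theorem mcm_fin [Module.Finite R M] (X : Fin 3 → R) (hfin : FiniteDimensional k (R ⧸ idl X)) (j : ℕ) :
    FiniteDimensional k (M ⧸ (ipow M X j).restrictScalars k) := by
  have h1 : Module.Finite k (M ⧸ (idl X • (⊤ : Submodule R M)).restrictScalars k) := by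
    have : Module.Finite (R ⧸ idl X) (M ⧸ idl X • (⊤ : Submodule R M)) :=
      Module.Finite.of_restrictScalars_finite R _ _
    have : Module.Finite k (M ⧸ idl X • (⊤ : Submodule R M)) := Module.Finite.trans (R ⧸ idl X) _
    exact Module.Finite.equiv (Submodule.Quotient.restrictScalarsEquiv k _).symm
  obtain ⟨A, hA⟩ := Submodule.exists_isCompl ((idl X • (⊤ : Submodule R M)).restrictScalars k)
  have hA1 : A.FG := Module.Finite.iff_fg.1 (Module.Finite.equiv (Submodule.quotientEquivOfIsCompl _ _ hA))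
  have key : ∃ B : Submodule k M, B.FG ∧ ∀ v, ∃ b ∈ B, v - b ∈ ipow M X j := by
    induction j with
    | zero => exact ⟨⊥, Submodule.fg_bot, fun v => ⟨0, Submodule.zero_mem _, by simp [ipow]⟩⟩
    | succ j ih =>
      obtain ⟨B, hB, h2⟩ := ih
      refine ⟨A ⊔ ⨆ i, B.map (DistribSMul.toLinearMap k M (X i)),
        hA1.sup (Submodule.fg_iSup _ fun i => hB.map _), fun v => ?_⟩
      obtain ⟨w, hw, a, ha, rfl⟩ := Submodule.mem_sup.1 (hA.sup_eq_top ▸ Submodule.mem_top (x := v))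
      obtain ⟨u, -, rfl⟩ := mcm_mem_idl.1 hw
      choose b hb hb' using fun i => h2 (u i)
      refine ⟨a + ∑ i, X i • b i, Submodule.add_mem_sup ha (Submodule.sum_mem _ fun i _ =>
        Submodule.mem_iSup_of_mem i (Submodule.mem_map_of_mem (hb i))), ?_⟩
      rw [ipow, pow_succ', mul_smul]
      refine mcm_mem_idl.2 ⟨fun i => u i - b i, hb', ?_⟩
      simp only [smul_sub, sum_sub_distrib]
      abel
  obtain ⟨B, hB, h2⟩ := key
  refine ⟨?_⟩
  have : B.map ((ipow M X j).restrictScalars k).mkQ = ⊤ := by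
    refine eq_top_iff.2 fun x _ => ?_
    obtain ⟨v, rfl⟩ := Submodule.Quotient.mk_surjective _ x
    obtain ⟨b, hb, h3⟩ := h2 v
    exact ⟨b, hb, ((Submodule.Quotient.eq _).2 h3).symm⟩
  exact this ▸ hB.map _

theorem mcm_nil [IsLocalRing R] (X : Fin 3 → R) (hfin : FiniteDimensional k (R ⧸ idl X)) {r : R}
    (hr : r ∈ IsLocalRing.maximalIdeal R) (a : Fin 3 → ℕ) : ∃ N : ℕ, r ^ N ∈ idl fun i => X i ^ a i := by
  have h1 : IsArtinian R (R ⧸ idl X) := isArtinian_of_tower k inferInstance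
  obtain ⟨n, y, hy⟩ := IsArtinian.exists_pow_succ_smul_dvd r (Ideal.Quotient.mk (idl X) 1)
  obtain ⟨y, rfl⟩ := Ideal.Quotient.mk_surjective y
  have h2 : r ^ n * (1 - r * y) ∈ idl X := by
    rw [← Ideal.Quotient.eq_zero_iff_mem, mul_sub, map_sub, sub_eq_zero, ← mul_assoc, ← pow_succ]
    exact hy.symm
  have h3 : IsUnit (1 - r * y) :=
    IsLocalRing.isUnit_one_sub_self_of_mem_nonunits _ (Ideal.mul_mem_right y _ hr)
  have h4 : r ∈ (idl X).radical := ⟨n, (Ideal.mul_unit_mem_iff_mem _ h3).1 h2⟩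
  refine Ideal.radical_le_radical_iff.2 (Ideal.span_le.2 ?_) h4
  rintro _ ⟨i, rfl⟩
  exact ⟨a i, Ideal.subset_span ⟨i, rfl⟩⟩

end Crest.Agent.R169
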