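import Crest.Agent.R169.Bog

/-!
# rid 169, file `Neg`: the Euler characteristics over the window have negative sum

Prefix helper lemmas with `neg_`.
-/

set_option autoImplicit false

namespace Crest.Agent.R169

open Filter Module

/-- The polarisation of the cone. -/
def ll : Deg := ![31, 0, 0, 1, 1, 31, 1, 0, 0, 0]

/-- The polarisation that measures slopes. -/
def HH : Deg := ![1, 30, 0, 1, 1, 31, 1, 0, 0, 0]

theorem ample_ll : Ample ll := by unfold Ample; decide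
theorem ample_HH : Ample HH := by unfold Ample; decide
theorem B_ll_ll : B ll ll = 125 := by rw [B_eq]; decide
theorem B_HH_HH : B HH HH = 125 := by rw [B_eq]; decide
theorem B_ll_HH : B ll HH = 1025 := by rw [B_eq]; decide
theorem kap_HH : kap 2052 HH = 130 * 1025 := by
  rw [kap_eq, sum_fin10]; simp [HH]; norm_num

/-- A semistable piece of slope `μ ∈ [-1025, 0]`.  With `y = 65 • ll - kap2 n` (so `B y HH = 0`), `ξ = y - (μ/125) • HH` satisfies
`B (c + r ξ) HH = 0`, and `r qq y + B y c + s = (r qq ξ + B ξ c + s) + r μ²/250 ≤ r μ²/250 ≤ 4203 r`.  By `Pol_ray` around `65 • ll` the linear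
terms cancel in the symmetric sum `t = -67..67`, and `∑ t² * qq ll = 135 * (67*68/3) * 125/2`.  `sig 2052 = (2052² - 10)/24 > 175445`. -/
theorem neg_numeric {r : ℕ} {c : Deg} {s μ : ℚ} (hμ : μ * r = (B c HH : ℤ)) (h1 : -1025 ≤ μ) (h2 : μ ≤ 0)
    (h : ∀ ξ : Fin 10 → ℚ, B (toQ c + (r : ℚ) • ξ) (toQ HH) = 0 → r * qq ξ + B ξ (toQ c) + s ≤ 0) :
    ∑ j ∈ Finset.range 135, Pol 2052 r c s (((j : ℤ) - 2) • ll) ≤ -r := by
  set y : Fin 10 → ℚ := toQ ((65 : ℤ) • ll) - kap2 2052 with hy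
  have hyH : B y (toQ HH) = 0 := by
    have h1 := kap_HH
    rw [kap] at h1
    rw [hy, B_sub_left, B_toQ, B_smul_left, B_ll_HH]; push_cast; linarith
  have hHH : B (toQ HH) (toQ HH) = 125 := by rw [B_toQ, B_HH_HH]; norm_num
  have hcH : B (toQ c) (toQ HH) = μ * r := by rw [B_toQ, hμ]
  have h0 := h (y - (μ / 125) • toQ HH) (by
    rw [B_add_left, B_smul_left, B_sub_left, B_smul_left, hyH, hHH, hcH]; ring)
  have hq : qq (y - (μ / 125) • toQ HH) = qq y + μ ^ 2 / 250 := by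
    simp only [qq, B_sub_left, B_sub_right, B_smul_left, B_smul_right, hHH, B_comm (toQ HH) y, hyH]; ring
  rw [hq, B_sub_left, B_smul_left, B_comm (toQ HH) (toQ c), hcH] at h0
  have hP : Pol 2052 r c s ((65 : ℤ) • ll) = r * (qq y - sig 2052) + B y (toQ c) + s := rfl
  have hl : qq (toQ ll) = 125 / 2 := by rw [qq, B_toQ, B_ll_ll]; norm_num
  have e : ∀ j : ℕ, ((j : ℤ) - 2) • ll = (65 : ℤ) • ll + ((j : ℤ) - 67) • ll := fun j => by
    rw [← add_smul]; congr 1; ring
  simp only [e, Pol_ray, hl, Finset.sum_add_distrib, ← Finset.sum_mul, Finset.sum_const, Finset.card_range]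
  have s1 : ∑ j ∈ Finset.range 135, ((((j : ℤ) - 67 : ℤ)) : ℚ) = 0 := by
    simp only [Finset.sum_range_succ, Finset.sum_range_zero]; norm_num
  have s2 : ∑ j ∈ Finset.range 135, ((((j : ℤ) - 67 : ℤ)) : ℚ) ^ 2 = 205020 := by
    simp only [Finset.sum_range_succ, Finset.sum_range_zero]; norm_num
  rw [s1, s2, hP, sig, nsmul_eq_mul]
  have hr : (0 : ℚ) ≤ r := Nat.cast_nonneg r
  have hm : μ ^ 2 ≤ 1025 ^ 2 := by nlinarith
  have := mul_le_mul_of_nonneg_left hm hr
  push_cast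
  nlinarith

/-- Induction on the rank (generalising `V, N, r, c, s`).  For `N = ⊥` the data are `(0, ≡0, 0)`.  Otherwise take `(W, μ)` from `exists_max_slope`:
`μ ≤ 0` from `hle`, and `μ ≥ -1025` from `-1025 rk N ≤ deg N ≤ μ rk N`.  `N.infW W` is semistable (`of_le`, `slopeLE_iff_slopeGE`):
`bogomolov`, `neg_numeric`.  The quotient `N.map W.mkQ` has `SlopeLE μ` (`quotient`), `SlopeGE (-1025)` (`image`) and smaller rank.
`HasData.add`, `unique`, `Pol_add`, `Pol_congr`.  Do not `subst hn` early (keep `n` a variable inside `Fam`, rewrite only inside `Pol`). -/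
theorem negativity {n : ℕ} [NeZero n] (hn : n = 2052) {V : Type} [AddCommGroup V] [Module (KK ℂ) V] [Module ℂ V]
    [IsScalarTower ℂ (KK ℂ) V] [FiniteDimensional (KK ℂ) V] {N : Fam ℂ n V} (hN : N.FG) {r : ℕ} {c : Deg} {s : ℚ}
    (hd : N.HasData r c s) (hle : Fam.SlopeLE HH N 0) (hge : Fam.SlopeGE HH N (-1025)) :
    ∑ j ∈ Finset.range 135, Pol n r c s (((j : ℤ) - 2) • ll) ≤ -r := by
  induction r using Nat.strong_induction_on generalizing V c s with
  | _ r ih =>
  have hr := hd.rk_eq hN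
  by_cases h0 : N = ⊥
  · subst h0
    obtain ⟨h1, h2, h3⟩ := hd.unique Fam.hasData_bot
    subst h1 h3
    simp [Pol_congr 0 h2, Pol_zero]
  obtain ⟨W, μ, hW1, hWd, hμ⟩ := hN.exists_max_slope ample_HH.nef h0
  have hW1' : (1 : ℚ) ≤ (N.infW W).rk := by exact_mod_cast hW1
  have hμ0 : μ ≤ 0 := by
    have := hle W
    rw [hWd] at this
    nlinarith
  have hrk := Fam.rk_map_add W.mkQ N
  rw [Submodule.ker_mkQ] at hrk
  have hμ1 : -1025 ≤ μ := by
    have h1 := hge.le_deg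
    have h2 := hμ.deg_le
    have h3 : (1 : ℚ) ≤ N.rk := by exact_mod_cast (by omega : 1 ≤ N.rk)
    nlinarith
  obtain ⟨c1, s1, hd1⟩ := (hN.infW W).exists_data
  obtain ⟨c2, s2, hd2⟩ := (hN.map W.mkQ).exists_data
  have hdd := Fam.HasData.add hN W.mkQ (by rw [Submodule.ker_mkQ]; exact hd1) hd2
  obtain ⟨e1, e2, e3⟩ := hd.unique hdd
  have hA : μ * (N.infW W).rk = (B c1 HH : ℤ) := by rw [← hWd, hd1.deg_eq (hN.infW W)]
  have hB := neg_numeric hA hμ1 hμ0 fun ξ hξ => Fam.bogomolov (hN.infW W) hd1 hW1 ample_HH hA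
    ((Fam.slopeLE_iff_slopeGE hWd).1 (hμ.of_le hN ample_HH.nef (Fam.infW_le N W))) hξ
  have hC := ih _ (by omega) (hN.map W.mkQ) hd2 ((hμ.quotient hN hWd).mono_slope hμ0) (hge.image hN W.mkQ)
  rw [← hn] at hB
  rw [Pol_congr r e2, e1, e3]
  simp only [Pol_add, Finset.sum_add_distrib]
  push_cast at hB hC ⊢
  linarith

end Crest.Agent.R169
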