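import Crest.Agent.R169.RingT1
import Crest.Agent.R169.Defs2
import Crest.Agent.R169.NN2

/-!
# rid 169, file `RingT2`: the section ring of the Kummer cover

Prefix helper lemmas with `ringt2_`.
-/

set_option autoImplicit false

namespace Crest.Agent.R169

section
open Filter

variable {Ω : Type} [Field Ω] [Algebra (KK ℂ) Ω] [Algebra ℂ Ω] [IsScalarTower ℂ (KK ℂ) Ω]
  {n : ℕ} [NeZero n] {ζ : Fin 5 → Ω} {ℓ : Deg}

/-- `ζ ^ ρ` -/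
noncomputable def ringt2Z (ζ : Fin 5 → Ω) (ρ : Fin 5 → ℤ) : Ω := ∏ i, ζ i ^ ρ i

/-- `f ↦ f ζ ^ ρ` -/
noncomputable def ringt2L (ζ : Fin 5 → Ω) (ρ : Fin 5 → ℤ) : KK ℂ →ₗ[ℂ] Ω :=
  (LinearMap.toSpanSingleton (KK ℂ) Ω (ringt2Z ζ ρ)).restrictScalars ℂ

theorem ringt2_L (ρ : Fin 5 → ℤ) (f : KK ℂ) : ringt2L ζ ρ f = f • ringt2Z ζ ρ := rfl

/-- sections of `m ℓ` on the Kummer cover -/
noncomputable def ringt2C (n : ℕ) (ℓ : Deg) (ζ : Fin 5 → Ω) (m : ℕ) : Submodule ℂ Ω :=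
  ⨆ ρ, (S ℂ n (dg ℓ ((m : ℤ), ρ))).map (ringt2L ζ ρ)

omit [NeZero n] in
theorem ringt2_mem {m : ℕ} {ρ : Fin 5 → ℤ} {f : KK ℂ} (hf : f ∈ S ℂ n (dg ℓ ((m : ℤ), ρ))) :
    f • ringt2Z ζ ρ ∈ ringt2C n ℓ ζ m := Submodule.mem_iSup_of_mem ρ ⟨f, hf, rfl⟩

omit [NeZero n] in
theorem ringt2_le {m : ℕ} {A : Submodule ℂ Ω}
    (h : ∀ ρ, ∀ f ∈ S ℂ n (dg ℓ ((m : ℤ), ρ)), f • ringt2Z ζ ρ ∈ A) : ringt2C n ℓ ζ m ≤ A :=
  iSup_le fun ρ _ ⟨f, hf, e⟩ => e ▸ h ρ f hf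

omit [Algebra (KK ℂ) Ω] [Algebra ℂ Ω] [IsScalarTower ℂ (KK ℂ) Ω] in
theorem ringt2_Z_zero : ringt2Z ζ 0 = 1 := by simp [ringt2Z]

omit [NeZero n] in
theorem ringt2_neg (hℓ : Ample ℓ) {δ : Gam} (h : δ.1 < 0) {f : KK ℂ} (hf : f ∈ S ℂ n (dg ℓ δ)) :
    f = 0 := by
  rwa [S_eq_bot_of_neg hℓ.nef (by
    rw [dg, B_add_left, B_rel_left, add_zero, B_smul_left]
    exact mul_neg_of_neg_of_pos h (B_pos_of_ample hℓ hℓ))] at hf

variable (hζ : ∀ i, ζ i ^ n = algebraMap (KK ℂ) Ω (pp ℂ i))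
include hζ

omit [Algebra ℂ Ω] [IsScalarTower ℂ (KK ℂ) Ω] in
theorem ringt2_Z_add (ρ ρ' : Fin 5 → ℤ) : ringt2Z ζ (ρ + ρ') = ringt2Z ζ ρ * ringt2Z ζ ρ' := by
  rw [ringt2Z, ringt2Z, ringt2Z, ← Finset.prod_mul_distrib]
  refine Finset.prod_congr rfl fun i _ => zpow_add₀ (fun h => pp_ne_zero ℂ i ?_) _ _
  rw [← map_eq_zero (algebraMap (KK ℂ) Ω), ← hζ, h, zero_pow (NeZero.ne n)]

omit [Algebra ℂ Ω] [IsScalarTower ℂ (KK ℂ) Ω] in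
theorem ringt2_Z_per (ρ ρ' : Fin 5 → ℤ) :
    ringt2Z ζ (ρ + (n : ℤ) • ρ') = mono ℂ ρ' • ringt2Z ζ ρ := by
  rw [ringt2_Z_add hζ, Algebra.smul_def (mono ℂ ρ'), mul_comm, mono, map_prod]
  refine congrArg (· * _) (Finset.prod_congr rfl fun i _ => ?_)
  rw [Pi.smul_apply, smul_eq_mul, zpow_mul, zpow_natCast, hζ, map_zpow₀]

theorem ringt2_graded : SetLike.GradedMonoid (ringt2C n ℓ ζ) where
  one_mem := by
    simpa only [ringt2_Z_zero, one_smul] using ringt2_mem (ζ := ζ) (m := 0) (ρ := 0)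
      (one_mem_S (k := ℂ) (n := n) (dg_zero ℓ).ge)
  mul_mem i j a b ha hb := by
    refine (?_ : _ ≤ ringt2C n ℓ ζ (i + j)) (Submodule.mul_mem_mul ha hb)
    simp only [ringt2C, Submodule.iSup_mul, Submodule.mul_iSup]
    refine iSup_le fun ρ' => iSup_le fun ρ => Submodule.mul_le.2 ?_
    rintro _ ⟨f, hf, rfl⟩ _ ⟨g, hg, rfl⟩
    have h := mul_mem_S hf hg
    rw [← dg_add, Prod.mk_add_mk, ← Nat.cast_add] at h
    rw [ringt2_L, ringt2_L, smul_mul_smul_comm, ← ringt2_Z_add hζ]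
    exact ringt2_mem h

theorem ringt2_fin (m : ℕ) : FiniteDimensional ℂ (ringt2C n ℓ ζ m) := by
  refine Submodule.finiteDimensional_of_le (S₂ := ⨆ c : Fin 5 → Fin n,
    (S ℂ n (dg ℓ ((m : ℤ), chr c))).map (ringt2L ζ (chr c))) (ringt2_le fun ρ f hf => ?_)
  obtain ⟨c, ρ', rfl⟩ : ∃ (c : Fin 5 → Fin n) (ρ' : Fin 5 → ℤ), ρ = chr c + (n : ℤ) • ρ' :=
    ⟨fun i => comb4_md n (ρ i), fun i => ρ i / n, funext fun i => by
      simp only [chr, comb4_md_val, Pi.add_apply, Pi.smul_apply, smul_eq_mul,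
        Int.emod_add_mul_ediv]⟩
  rw [dg, rel_add, rel_smul, ← add_assoc] at hf
  refine Submodule.mem_iSup_of_mem c ⟨_, (Fam.mem_add_rel_iff (SF ℂ n) _ ρ' f).1 hf, ?_⟩
  rw [ringt2_L, ringt2_Z_per hζ, smul_assoc, smul_comm]

theorem ringt2_zero : ringt2C n ℓ ζ 0 ≤ 1 := ringt2_le fun ρ f hf => by
  by_cases h0 : f = 0
  · rw [h0, zero_smul]; exact zero_mem _
  obtain ⟨ρ', h⟩ := exists_rel_of_mem_S hf h0
  have e : dg ℓ (((0 : ℕ) : ℤ), ρ) + (n : ℤ) • rel ρ' = rel (ρ + (n : ℤ) • ρ') := by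
    rw [dg, Nat.cast_zero, zero_smul, zero_add, rel_add, rel_smul]
  have h1 := eq_zero_of_rel_nonneg (e ▸ h)
  obtain ⟨z, rfl⟩ := (mem_S_of_eq_zero (e.trans (by rw [h1, rel_zero]))).1 hf
  rw [smul_assoc, ← ringt2_Z_per hζ, h1, ringt2_Z_zero]
  exact Submodule.smul_mem _ z (Submodule.one_le.1 le_rfl)

theorem ringt2_sys [SetLike.GradedMonoid (ringt2C n ℓ ζ)] (hℓ : Ample ℓ) :
    ∃ σ : Sys n ℓ (Rees (ringt2C n ℓ ζ)), ∀ δ, ∀ f ∈ S ℂ n (dg ℓ δ),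
      (σ.a δ f : Polynomial Ω) = Polynomial.monomial δ.1.toNat (f • ringt2Z ζ δ.2) := by
  have h1 : ∀ δ : Gam, ∀ f ∈ S ℂ n (dg ℓ δ), ringt2L ζ δ.2 f ∈ ringt2C n ℓ ζ δ.1.toNat := by
    intro δ f hf
    rcases lt_or_ge δ.1 0 with h | h
    · rw [ringt2_neg hℓ h hf, map_zero]; exact zero_mem _
    · exact ringt2_mem (by rwa [Int.toNat_of_nonneg h])
  choose a ha using fun δ : Gam => LinearMap.exists_extend
    ((reesMk (ringt2C n ℓ ζ) δ.1.toNat).comp ((ringt2L ζ δ.2).restrict (h1 δ)))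
  have h2 : ∀ δ, ∀ f ∈ S ℂ n (dg ℓ δ),
      (a δ f : Polynomial Ω) = Polynomial.monomial δ.1.toNat (f • ringt2Z ζ δ.2) := fun δ f hf =>
    congrArg Subtype.val (LinearMap.congr_fun (ha δ) ⟨f, hf⟩)
  refine ⟨⟨a, fun δ δ' f g hf hg => ?_, fun ρ => Subtype.ext ?_⟩, h2⟩
  · rcases lt_or_ge δ.1 0 with h | h
    · rw [ringt2_neg hℓ h hf, zero_mul, map_zero, map_zero, zero_mul]
    rcases lt_or_ge δ'.1 0 with h' | h'
    · rw [ringt2_neg hℓ h' hg, mul_zero, map_zero, map_zero, mul_zero]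
    refine Subtype.ext ?_
    rw [MulMemClass.coe_mul, h2 _ _ hf, h2 _ _ hg, h2 _ _ (dg_add ℓ δ δ' ▸ mul_mem_S hf hg),
      Polynomial.monomial_mul_monomial, Prod.fst_add, Prod.snd_add, Int.toNat_add h h',
      ringt2_Z_add hζ, smul_mul_smul_comm]
  · rw [h2 _ _ (mono_mem_S (by rw [dg, zero_smul, zero_add, rel_neg, rel_smul, neg_add_cancel])),
      ← ringt2_Z_per hζ, neg_add_cancel, ringt2_Z_zero]
    rfl

omit hζ in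
theorem ringt2_gen (hℓ : Ample ℓ) {c : ℕ} (ν : NN ℂ n ((c : ℤ) • ℓ)) : ∃ m1, ∀ m, m1 ≤ m →
    ringt2C n ℓ ζ (m + c) ≤ sumX (fun i => ν.x i • ringt2Z ζ 0) (ringt2C n ℓ ζ m) := by
  obtain ⟨m0, h0⟩ := eventually_atTop.1 ((tendsto_smul_deep hℓ).eventually
    (eventually_forall_add_rel (ν.surj Fam.fg_SF)))
  refine ⟨m0.toNat, fun m hm => ringt2_le fun ρ f hf => ?_⟩
  rw [dg, Nat.cast_add, add_smul, add_right_comm] at hf
  obtain ⟨u, hu, rfl⟩ := h0 m (by omega) ρ hf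
  refine ⟨fun i => u i • ringt2Z ζ ρ, fun i => ringt2_mem (hu i), ?_⟩
  simp only [Finset.sum_smul, ringt2_Z_zero, smul_assoc, one_smul]

end

/-- Let `Ω = AlgebraicClosure K`, `ζ i ^ n = pp i` (`IsAlgClosed.exists_pow_nat_eq`), `ζ^ρ = ∏ ζ i ^ ρ i`, `L ρ : K →ₗ[ℂ] Ω`, `f ↦ algebraMap f * ζ^ρ`, and
`C m = ⨆ ρ, (S (dg ℓ (m, ρ))).map (L ρ)`.  `C` is a graded monoid (`mul_mem_S`, `dg_add`; `Submodule.iSup_induction`).  The term for `ρ + n • ρ'` equals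
the term for `ρ` (`mem_add_rel_iff`; `ζ^(n • ρ') = mono ρ'`), so `C m` is a finite supremum over `chr _`, finite-dimensional.  `C 0 = ℂ`: a nonzero
`f ∈ S (rel ρ)` forces `ρ = -n • ρ'` (`exists_rel_of_mem_S`, `eq_zero_of_rel_nonneg`) and `f = z • mono ρ'` (`mem_S_of_eq_zero`).  `T = Rees C`.
`a (m, ρ)` is an extension to `K` (`LinearMap.exists_extend`) of `reesMk m.toNat ∘ L ρ` on `S (dg ℓ (m, ρ))` for `m ≥ 0`, and `0` for `m < 0`, where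
`S = ⊥` (`S_eq_bot_of_neg`, `B_pos_of_ample`).  `rees_injective` with `aeval_ne_zero`; `rees_finite` with `ν.surj` for `SF`
(`eventually_forall_add_rel`, `tendsto_smul_deep`). -/
theorem exists_ringT (n : ℕ) [NeZero n] {ℓ : Deg} (hℓ : Ample ℓ) {c : ℕ} (hc : 0 < c) (ν : NN ℂ n ((c : ℤ) • ℓ)) :
    ∃ (T : Type) (_ : CommRing T) (_ : IsDomain T) (_ : Algebra ℂ T) (𝒜 : ℕ → Submodule ℂ T)
      (_ : GradedAlgebra 𝒜) (σ : Sys n ℓ T), (∀ t ∈ 𝒜 0, ∃ z : ℂ, t = algebraMap ℂ T z) ∧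
      (∀ i, σ.X ν i ∈ 𝒜 c) ∧
      Function.Injective (MvPolynomial.aeval (σ.X ν) : MvPolynomial (Fin 3) ℂ →ₐ[ℂ] T) ∧
      (MvPolynomial.aeval (σ.X ν) : MvPolynomial (Fin 3) ℂ →ₐ[ℂ] T).toRingHom.Finite := by
  choose ζ hζ using fun i => IsAlgClosed.exists_pow_nat_eq
    (algebraMap (KK ℂ) (AlgebraicClosure (KK ℂ)) (pp ℂ i)) (NeZero.pos n)
  have := ringt2_graded (ℓ := ℓ) hζ
  obtain ⟨σ, hσ⟩ := ringt2_sys hζ hℓ
  obtain ⟨inst⟩ := rees_graded (ringt2C n ℓ ζ)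
  have hx : ∀ i, ν.x i ∈ S ℂ n (dg ℓ ((c : ℤ), 0)) := fun i => (dg_mk_zero ℓ c).symm ▸ ν.mem i
  have hX : σ.X ν = fun i => reesMk (ringt2C n ℓ ζ) c ⟨_, ringt2_mem (hx i)⟩ :=
    funext fun i => Subtype.ext (hσ _ _ (hx i))
  refine ⟨Rees (ringt2C n ℓ ζ), inferInstance, inferInstance, inferInstance, _, inst, σ,
    fun t ht => ?_, fun i => ?_, ?_, ?_⟩
  · obtain ⟨y, rfl⟩ := (mem_ReesGr_iff _).1 ht
    obtain ⟨z, hz⟩ := Submodule.mem_one.1 (ringt2_zero hζ y.2)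
    exact ⟨z, Subtype.ext (by rw [coe_reesMk, ← hz]; rfl)⟩
  all_goals rw [hX]
  · exact reesMk_mem _ _ _
  · refine rees_injective _ hc _ fun E j hE h0 => ?_
    simp only [ringt2_Z_zero, ← Algebra.algebraMap_eq_smul_one]
    exact (MvPolynomial.aeval_algebraMap_apply _ ν.x E).trans_ne
      ((map_ne_zero _).2 (ν.aeval_ne_zero hE h0))
  · exact rees_finite _ hc _ (ringt2_fin hζ) (ringt2_gen hℓ ν)

end Crest.Agent.R169
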