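import Crest.Agent.R169.Filt1
import Crest.Agent.R169.SD
import Crest.Agent.R169.H0

/-!
# rid 169, file `Window`: depth three makes the Euler characteristics over the window sum to `≥ 0`

Prefix helper lemmas with `window_aux_`.
-/

set_option autoImplicit false

namespace Crest.Agent.R169

open Filter Module

variable {n : ℕ} [NeZero n] {ℓ : Deg} {R : Type} [CommRing R] [Algebra ℂ R] {c : ℕ}
  {M : Type} [AddCommGroup M] [Module R M] [Module ℂ M] [IsScalarTower ℂ R M]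
  {σ : Sys n ℓ R} {ν : NN ℂ n ((c : ℤ) • ℓ)} {Φ : Filt σ (σ.X ν) c M}
  {V : Type} [AddCommGroup V] [Module (KK ℂ) V] [Module ℂ V] [IsScalarTower ℂ (KK ℂ) V]
  [FiniteDimensional (KK ℂ) V] (ϱ : Real Φ V) {H : Deg}

omit [NeZero n] in
theorem window_aux_dg (ℓ : Deg) (c : ℕ) {a b t : ℤ} (h : b = a + t * c) (ρ : Fin 5 → ℤ) :
    dg ℓ (b, ρ) = dg ℓ (a, ρ) + t • ((c : ℤ) • ℓ) := by
  simp only [dg, h, add_smul, mul_smul]
  abel

theorem window_aux_B (ℓ H : Deg) (a : ℤ) (ρ : Fin 5 → ℤ) : B (dg ℓ (a, ρ)) H = a * B ℓ H := by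
  rw [dg, B_add_left, B_rel_left, add_zero, B_smul_left]

theorem window_aux_e1 (a : ℤ) (ρ : Fin 5 → ℤ) : ((a, ρ) : Gam) + e1 = (a + 1, ρ) := by
  simp [e1]

theorem window_aux_add {a b t : ℤ} (h : b = a + t) (ρ : Fin 5 → ℤ) :
    ((b, ρ) : Gam) = (t, 0) + (a, ρ) := by
  simp [h, add_comm]

omit [NeZero n] [IsScalarTower ℂ R M] in
theorem window_aux_smul (κ : ℕ) (i : Fin 3) {a b : ℤ} (h : b = a + κ * c) {ρ : Fin 5 → ℤ} {v : M}
    (hv : v ∈ Φ.F (a, ρ)) : σ.X ν i ^ κ • v ∈ Φ.F (b, ρ) := by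
  rw [window_aux_add h, ← (σ.a_pow ν i κ).2]
  exact Φ.smul_mem _ _ _ _ (σ.a_pow ν i κ).1 hv

omit [NeZero n] [IsScalarTower ℂ R M] [IsScalarTower ℂ (KK ℂ) V] [FiniteDimensional (KK ℂ) V] in
theorem window_aux_iota (κ : ℕ) (i : Fin 3) {a b : ℤ} (h : b = a + κ * c) {ρ : Fin 5 → ℤ} {v : M}
    (hv : v ∈ Φ.F (a, ρ)) : ϱ.ι (b, ρ) (σ.X ν i ^ κ • v) = ν.x i ^ κ • ϱ.ι (a, ρ) v := by
  rw [window_aux_add h, ← (σ.a_pow ν i κ).2]
  exact ϱ.smul _ _ _ _ (σ.a_pow ν i κ).1 hv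

theorem window_aux_div {K W : Type} [Field K] [AddCommGroup W] [Module K W] {a b : K} (ha : a ≠ 0)
    {y z : W} (h : a • z - b • y = 0) : b • a⁻¹ • y = z := by
  rw [smul_comm, ← sub_eq_zero.1 h, inv_smul_smul₀ ha]

omit [IsScalarTower ℂ R M] in
theorem window_aux_step (hℓ : Ample ℓ) (hH : Ample H) (hN : ϱ.fam.FG) (hle : Fam.SlopeLE H ϱ.fam 0)
    {j : ℤ} (hj : j < 0) (ρ : Fin 5 → ℤ) (κ : ℕ) (u : Fin 3 → M)
    (hu : ∀ i, cross (fun i => σ.X ν i ^ κ) u i ∈ Φ.F (j + 2 * κ * c + 1, ρ))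
    (h : ∀ i, u i ∈ Φ.F (j + κ * c, ρ)) : ∀ i, u i ∈ Φ.F (j + κ * c + 1, ρ) := by
  have h0 : ∀ i, ϱ.ι (j + 2 * κ * c, ρ) (cross (fun i => σ.X ν i ^ κ) u i) = 0 := fun i =>
    (ϱ.ker _ _ (Φ.anti_le (by omega) ρ (hu i))).2 (by rw [window_aux_e1]; exact hu i)
  have e : j + 2 * κ * c = j + κ * c + κ * c := by ring
  have h1 := h0 1
  have h2 := h0 2
  rw [cross_one, map_sub, window_aux_iota ϱ κ _ e (h _), window_aux_iota ϱ κ _ e (h _)] at h1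
  rw [cross_two, map_sub, window_aux_iota ϱ κ _ e (h _), window_aux_iota ϱ κ _ e (h _)] at h2
  have hx : ν.x 0 ^ κ ≠ 0 := pow_ne_zero _ (ν.ne 0)
  have hw : ∀ i, ν.x i ^ κ • (ν.x 0 ^ κ)⁻¹ • ϱ.ι (j + κ * c, ρ) (u 0) = ϱ.ι (j + κ * c, ρ) (u i) := by
    intro i
    fin_cases i
    · exact smul_inv_smul₀ hx _
    · exact window_aux_div hx h2
    · exact window_aux_div hx (sub_eq_zero.2 (sub_eq_zero.1 h1).symm)
  have hb : (0 : ℚ) + (B (dg ℓ (j, ρ)) H : ℤ) < 0 := by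
    rw [zero_add, window_aux_B]
    exact_mod_cast mul_neg_of_neg_of_pos hj (B_pos_of_ample hℓ hH)
  have hbot := hle.hull_eq_bot ν hN hH.nef hb κ
  have hw0 : (ν.x 0 ^ κ)⁻¹ • ϱ.ι (j + κ * c, ρ) (u 0) = 0 := by
    rw [← Submodule.mem_bot ℂ, ← hbot, mem_hull]
    intro i
    rw [hw i, ← window_aux_dg ℓ c rfl]
    exact ϱ.mem_fam.2 ⟨u i, h i, rfl⟩
  intro i
  rw [← window_aux_e1]
  exact (ϱ.ker _ _ (h i)).1 (by rw [← hw i, hw0, smul_zero])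

omit [IsScalarTower ℂ R M] in
/-- Induct upwards on `j ≤ m` (start where `F = ⊤`): if all `u i ∈ F (j + κ c, ρ)` and `j < m`, apply `ι (j + 2 κ c, ρ)` to the cross product (it lies in
`F (m + 2κc) ≤ F (j + 2κc + 1)`; `a_pow`, `smul`, `ker`): `cross (x^κ) (ι u) = 0` in `V`, so `ι (u i) = x i ^ κ • w` with `w = (x 0 ^ κ)⁻¹ • ι (u 0)` in the
hull at `γ = dg ℓ (j, ρ)`, which is `⊥` by `hull_eq_bot` (`B γ H = j * B ℓ H < 0`). -/
theorem Real.window_inj (hℓ : Ample ℓ) (hH : Ample H) (hN : ϱ.fam.FG) (hle : Fam.SlopeLE H ϱ.fam 0) {m : ℤ}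
    (hm : m ≤ 0) (ρ : Fin 5 → ℤ) (κ : ℕ) (u : Fin 3 → M)
    (hu : ∀ i, cross (fun i => σ.X ν i ^ κ) u i ∈ Φ.F (m + 2 * κ * c, ρ)) : ∀ i, u i ∈ Φ.F (m + κ * c, ρ) := by
  obtain ⟨b, hb⟩ := Φ.exists_eq_top
  have key : ∀ j : ℤ, min m (-b - κ * c) ≤ j → j ≤ m → ∀ i, u i ∈ Φ.F (j + κ * c, ρ) := by
    intro j hj
    induction j, hj using Int.leInduction with
    | base =>
      intro _ i
      rw [hb _ ρ (by have := min_le_right m (-b - κ * c); omega)]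
      exact Submodule.mem_top
    | succ j _ ih =>
      intro hj i
      rw [show j + 1 + κ * c = j + κ * c + 1 by ring]
      exact window_aux_step ϱ hℓ hH hN hle (by omega) ρ κ u
        (fun i => Φ.anti_le (by omega) ρ (hu i)) (ih (by omega)) i
  exact key m (min_le_left _ _) le_rfl

omit [NeZero n] [FiniteDimensional (KK ℂ) V] in
theorem window_aux_lift (κ : ℕ) {a b : ℤ} (h : b = a + κ * c) {ρ : Fin 5 → ℤ}
    (hs : ϱ.fam.sub (dg ℓ (b, ρ)) ≤ sumX (fun i => ν.x i ^ κ) (ϱ.fam.sub (dg ℓ (a, ρ)))) :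
    Φ.F (b, ρ) ≤ sumX (fun i => σ.X ν i ^ κ) (Φ.F (a, ρ)) ⊔ Φ.F (b + 1, ρ) := by
  intro v hv
  obtain ⟨y, hy, e⟩ := hs (ϱ.mem_fam.2 ⟨v, hv, rfl⟩)
  choose u hu hyu using fun i => ϱ.mem_fam.1 (hy i)
  have h1 : ∑ i, σ.X ν i ^ κ • u i ∈ Φ.F (b, ρ) :=
    Submodule.sum_mem _ fun i _ => window_aux_smul κ i h (hu i)
  have h2 : v - ∑ i, σ.X ν i ^ κ • u i ∈ Φ.F (b + 1, ρ) := by
    rw [← window_aux_e1]
    refine (ϱ.ker _ _ (sub_mem hv h1)).1 ?_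
    rw [map_sub, e, map_sum, sub_eq_zero]
    exact Finset.sum_congr rfl fun i _ => by rw [window_aux_iota ϱ κ i h (hu i), hyu]
  rw [← add_sub_cancel (∑ i, σ.X ν i ^ κ • u i) v]
  exact Submodule.add_mem_sup ⟨u, hu, rfl⟩ h2

/-- `NN.sd` at the degrees `dg ℓ (m + j0, ρ)`, `j0 < c`, covers every `m' = m + j0 + t c ≥ m` and gives
`F (m' + 3κc) ≤ sumX (X^κ) (F (m' + 2κc)) ⊔ F (m' + 3κc + 1)` (`mem_fam`, `a_pow`, `smul`, `ker`).  Iterate `J` times, then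
`F (m + 3κc + J) ⊆ I^(3κ + j) M ≤ sumX (X^κ) (I^j M)` (`sand`, `ipow_le_sumX`) with `I^j M ⊆ F (m + 2κc)`. -/
theorem Real.window_surj (hℓ : Ample ℓ) (hH : Ample H) (hc : 0 < c) (hN : ϱ.fam.FG) {μ : ℚ}
    (hge : Fam.SlopeGE H ϱ.fam μ) {m : ℤ} (hm : kap n H < μ + m * (B ℓ H : ℤ)) (ρ : Fin 5 → ℤ) :
    ∃ k0 : ℕ, ∀ κ : ℕ, k0 ≤ κ →
      Φ.F (m + 3 * κ * c, ρ) ≤ sumX (fun i => σ.X ν i ^ κ) (Φ.F (m + 2 * κ * c, ρ)) := by
  have hB : (0 : ℚ) ≤ (B ℓ H : ℤ) := by exact_mod_cast (B_pos_of_ample hℓ hH).le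
  have hγ : ∀ j : ℕ, kap n H < μ + (B (dg ℓ (m + j, ρ)) H : ℤ) := fun j => by
    rw [window_aux_B]
    push_cast
    have : (0 : ℚ) ≤ j * (B ℓ H : ℤ) := mul_nonneg (Nat.cast_nonneg j) hB
    rw [add_mul]
    linarith
  choose k0 hk0 using fun j : ℕ => ν.sd hN hH.nef hge (hγ j)
  refine ⟨(Finset.range c).sup k0, fun κ hκ => ?_⟩
  have step : ∀ d : ℕ, Φ.F (m + d + 3 * κ * c, ρ) ≤
      sumX (fun i => σ.X ν i ^ κ) (Φ.F (m + 2 * κ * c, ρ)) ⊔ Φ.F (m + d + 3 * κ * c + 1, ρ) := by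
    intro d
    have hd : (d : ℤ) = (d % c : ℕ) + (d / c : ℕ) * c := by
      exact_mod_cast (Nat.mod_add_div' d c).symm
    have h1 := hk0 (d % c) κ
      ((Finset.le_sup (f := k0) (Finset.mem_range.2 (Nat.mod_lt d hc))).trans hκ) (d / c)
    rw [← window_aux_dg ℓ c (b := m + d + 3 * κ * c) (by rw [hd]; push_cast; ring),
      ← window_aux_dg ℓ c (b := m + d + 2 * κ * c) (by rw [hd]; push_cast; ring)] at h1
    exact (window_aux_lift ϱ κ (by ring) h1).trans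
      (sup_le_sup_right (sumX_mono _ (Φ.anti_le (by omega) ρ)) _)
  have iter : ∀ d : ℕ, Φ.F (m + 3 * κ * c, ρ) ≤
      sumX (fun i => σ.X ν i ^ κ) (Φ.F (m + 2 * κ * c, ρ)) ⊔ Φ.F (m + d + 3 * κ * c, ρ) := by
    intro d
    induction d with
    | zero => simp
    | succ d ih =>
      refine ih.trans (sup_le le_sup_left ((step d).trans (le_of_eq ?_)))
      congr 3
      push_cast
      ring
  obtain ⟨b, hb⟩ := Φ.sand
  obtain ⟨j, hj⟩ : ∃ j : ℕ, m + 2 * κ * c ≤ (c : ℤ) * j - b := by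
    refine ⟨(m + 2 * κ * c + b).toNat, ?_⟩
    have h1 := Int.self_le_toNat (m + 2 * κ * c + b)
    have h2 : ((m + 2 * κ * c + b).toNat : ℤ) ≤ (c : ℤ) * (m + 2 * κ * c + b).toNat :=
      le_mul_of_one_le_left (Nat.cast_nonneg _) (by exact_mod_cast hc)
    omega
  obtain ⟨d, hd⟩ : ∃ d : ℕ, (c : ℤ) * (3 * κ + j : ℕ) + b ≤ m + d + 3 * κ * c := by
    refine ⟨(c * j + b - m).toNat, ?_⟩
    have h1 := Int.self_le_toNat (c * j + b - m)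
    push_cast
    linarith
  refine (iter d).trans (sup_le le_rfl fun v hv => ?_)
  have h1 := ipow_le_sumX (σ.X ν) κ j ((hb (3 * κ + j) ρ).2 v (Φ.anti_le hd ρ hv))
  exact sumX_mono _ (fun w hw => Φ.anti_le hj ρ ((hb j ρ).1 w hw)) h1

omit [NeZero n] [FiniteDimensional (KK ℂ) V] in
theorem window_aux_tel (hM : Good ℂ M (σ.X ν)) (hc : 0 < c) (a : ℤ) (ρ : Fin 5 → ℤ) (L : ℕ) :
    codim (Φ.F (a + L, ρ)) =
      codim (Φ.F (a, ρ)) + ∑ j ∈ Finset.range L, ϱ.fam.dim (dg ℓ (a + j, ρ)) := by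
  induction L with
  | zero => simp
  | succ L ih =>
    rw [Finset.sum_range_succ, ← add_assoc, ← ih, ← ϱ.codim_succ hM hc, window_aux_e1,
      Nat.cast_succ, add_assoc]

theorem window_aux_char (hℓ : Ample ℓ) (hH : Ample H) (hc : 0 < c) (hM : Good ℂ M (σ.X ν))
    (hN : ϱ.fam.FG) (hle : Fam.SlopeLE H ϱ.fam 0) {μ : ℚ}
    (hge : Fam.SlopeGE H ϱ.fam μ) {m1 : ℤ} {L : ℕ} (h1 : m1 ≤ 0)
    (h2 : kap n H < μ + ((m1 : ℚ) + L) * (B ℓ H : ℤ)) (ρ : Fin 5 → ℤ) : ∀ᶠ κ : ℕ in atTop,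
      3 * ∑ j ∈ Finset.range L, ϱ.fam.dim (dg ℓ (m1 + 2 * κ * c + j, ρ)) ≤
        ∑ j ∈ Finset.range L, ϱ.fam.dim (dg ℓ (m1 + 3 * κ * c + j, ρ)) +
          3 * ∑ j ∈ Finset.range L, ϱ.fam.dim (dg ℓ (m1 + κ * c + j, ρ)) := by
  obtain ⟨k0, hk0⟩ := ϱ.window_surj hℓ hH hc hN hge (m := m1 + L) (by push_cast; exact h2) ρ
  filter_upwards [eventually_ge_atTop k0] with κ hκ
  have := fun δ => Φ.finite hM hc δ
  have : FiniteDimensional ℂ (M ⧸ sumX (fun i => σ.X ν i ^ κ) (⊤ : Submodule ℂ M)) := by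
    have := hM.fin (3 * κ + 0)
    have h := (ipow_le_sumX (M := M) (σ.X ν) κ 0).trans (sumX_mono _ le_top)
    exact Module.Finite.of_surjective _ (Submodule.factor_surjective h)
  have lo := window_low (fun i => σ.X ν i ^ κ) (Φ.F (m1 + κ * c, ρ)) (Φ.F (m1 + 2 * κ * c, ρ))
    (Φ.F (m1 + 3 * κ * c, ρ)) (fun i v hv => window_aux_smul κ i (by ring) hv)
    (fun i v hv => window_aux_smul κ i (by ring) hv) (ϱ.window_inj hℓ hH hN hle h1 ρ κ)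
  have hi := window_high (fun i => σ.X ν i ^ κ) (Φ.F (m1 + L + κ * c, ρ))
    (Φ.F (m1 + L + 2 * κ * c, ρ)) (Φ.F (m1 + L + 3 * κ * c, ρ))
    (fun i v hv => window_aux_smul κ i (by ring) hv)
    (fun i v hv => window_aux_smul κ i (by ring) hv) (hM.kos κ) (hk0 κ hκ)
  rw [add_right_comm m1 L, add_right_comm m1 L, add_right_comm m1 L, window_aux_tel ϱ hM hc,
    window_aux_tel ϱ hM hc, window_aux_tel ϱ hM hc] at hi
  omega

omit [NeZero n] [IsScalarTower ℂ R M] [FiniteDimensional (KK ℂ) V] in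
theorem window_aux_cdim [NeZero n] (m1 t a : ℤ) (h : a = t * c) (j : ℕ) :
    ϱ.fam.cdim (((j : ℤ) + m1) • ℓ + t • ((c : ℤ) • ℓ)) =
      ∑ χ : Fin 5 → Fin n, ϱ.fam.dim (dg ℓ (m1 + a + j, chr χ)) := by
  refine Finset.sum_congr rfl fun χ _ => ?_
  congr 1
  simp only [dg, h, add_smul, mul_smul]
  abel

/-- For each character `ρ = chr _` and large `κ`: `window_low` at `m1`, `window_high` at `m1 + L` (`hM.kos κ`; `M / sumX (X^κ) ⊤` is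
finite-dimensional by `ipow_le_sumX`, `hM.fin`).  Subtract, telescope with `codim_succ`:
`0 ≤ ∑ j < L, (d (j + 3κc) - 3 d (j + 2κc) + 3 d (j + κc))` with `d a = dim (dg ℓ (m1 + a, ρ))`.  Sum over the characters; `HasData.third` at the
`L` degrees `(m1 + j) • ℓ` with `h = c • ℓ`. -/
theorem Real.window (hℓ : Ample ℓ) (hH : Ample H) (hc : 0 < c) (hM : Good ℂ M (σ.X ν)) (hN : ϱ.fam.FG)
    {r : ℕ} {c' : Deg} {s : ℚ} (hd : ϱ.fam.HasData r c' s) (hle : Fam.SlopeLE H ϱ.fam 0) {μ : ℚ}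
    (hge : Fam.SlopeGE H ϱ.fam μ) {m1 : ℤ} {L : ℕ} (h1 : m1 ≤ 0)
    (h2 : kap n H < μ + ((m1 : ℚ) + L) * (B ℓ H : ℤ)) :
    0 ≤ ∑ j ∈ Finset.range L, Pol n r c' s (((j : ℤ) + m1) • ℓ) := by
  have e1 := (eventually_all (l := atTop)).2 fun χ : Fin 5 → Fin n =>
    window_aux_char ϱ hℓ hH hc hM hN hle hge h1 h2 (chr χ)
  have e2 := (eventually_all_finset (Finset.range L) (l := atTop)).2 fun (j : ℕ) _ =>
    hd.third ν.ample (((j : ℤ) + m1) • ℓ)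
  obtain ⟨κ, a1, a2⟩ := (e1.and e2).exists
  have hn : (0 : ℚ) < (n : ℚ) ^ 3 := pow_pos (Nat.cast_pos.2 (NeZero.pos n)) 3
  refine nonneg_of_mul_nonneg_right ?_ hn
  rw [Finset.mul_sum, ← Finset.sum_congr rfl a2]
  have a3 := Finset.sum_le_sum fun χ (_ : χ ∈ Finset.univ) => a1 χ
  rw [Finset.sum_add_distrib, ← Finset.mul_sum, ← Finset.mul_sum, Finset.sum_comm,
    Finset.sum_comm (s := Finset.univ), Finset.sum_comm (s := Finset.univ)] at a3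
  simp only [← window_aux_cdim ϱ m1 (2 * κ) _ rfl, ← window_aux_cdim ϱ m1 (3 * κ) _ rfl,
    ← window_aux_cdim ϱ m1 κ _ rfl] at a3
  rw [Finset.sum_add_distrib, Finset.sum_sub_distrib, ← Finset.mul_sum, ← Finset.mul_sum]
  have a4 := (Nat.cast_le (α := ℚ)).2 a3
  push_cast at a4
  linarith

end Crest.Agent.R169
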