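import Crest.Agent.R169.Langton
import Crest.Agent.R169.Window
import Crest.Agent.R169.Neg
import Crest.Agent.R169.MCM
import Crest.Agent.R169.RingT2

/-!
# rid 169, file `NoMCM`: no maximal Cohen–Macaulay module
-/

set_option autoImplicit false

namespace Crest.Agent.R169

open Module

theorem no_good {n : ℕ} [NeZero n] (hn : n = 2052) {R : Type} [CommRing R] [Algebra ℂ R] {c : ℕ} (hc : 0 < c)
    (σ : Sys n ll R) (ν : NN ℂ n ((c : ℤ) • ll)) (M : Type) [AddCommGroup M] [Module R M] [Module ℂ M]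
    [IsScalarTower ℂ R M] : ¬ Good ℂ M (σ.X ν) := by
  intro hM
  obtain ⟨Φ, r, ϱ, hN, hle, hge⟩ := exists_langton σ ample_ll ν hM hc ample_HH
  obtain ⟨c', s, hd⟩ := hN.exists_data
  rw [B_ll_HH] at hge
  have hge' : Fam.SlopeGE HH ϱ.fam (-1025) := by simpa using hge
  have h1 := ϱ.window ample_ll ample_HH hc hM hN hd hle hge' (m1 := -2) (L := 135) (by norm_num) (by
    rw [B_ll_HH, hn, kap_HH]; norm_num)
  have h2 := negativity hn hN hd hle hge'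
  have h3 : ϱ.fam.rk ≠ 0 := fun h => ϱ.fam_ne_bot hM (Fam.rk_eq_zero_iff.1 h)
  have h4 : (1 : ℚ) ≤ ϱ.fam.rk := by exact_mod_cast Nat.one_le_iff_ne_zero.2 h3
  simp only [← sub_eq_add_neg] at h1
  linarith

theorem no_mcm {n : ℕ} [NeZero n] (hn : n = 2052) {R : Type} [CommRing R] [Algebra ℂ R] [IsLocalRing R] {c : ℕ}
    (hc : 0 < c) (σ : Sys n ll R) (ν : NN ℂ n ((c : ℤ) • ll))
    (hX : ∀ i, σ.X ν i ∈ IsLocalRing.maximalIdeal R) (hfin : FiniteDimensional ℂ (R ⧸ idl (σ.X ν)))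
    (M : Type) [AddCommGroup M] [Module R M] (h1 : Module.Finite R M) (h2 : Nontrivial M) (rs : List R)
    (hlen : rs.length = 3) (hm : ∀ r ∈ rs, r ∈ IsLocalRing.maximalIdeal R) :
    ¬ RingTheory.Sequence.IsRegular M rs := by
  intro hreg
  letI : Module ℂ M := Module.compHom M (algebraMap ℂ R)
  haveI : IsScalarTower ℂ R M := IsScalarTower.of_algebraMap_smul fun _ _ => rfl
  exact no_good hn hc σ ν M (good_of_regular (σ.X ν) hX hfin rs hlen hm hreg)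

theorem exists_NN_ll (n : ℕ) [NeZero n] : Nonempty (NN ℂ n (((3 * n : ℕ) : ℤ) • ll)) := by
  have h := exists_NN ℂ n (β := (3 : ℤ) • ll) fun e => by
    rw [Bv_smul, Pi.smul_apply, smul_eq_mul]; have := ample_ll e; omega
  rwa [smul_smul, show (n : ℤ) * 3 = ((3 * n : ℕ) : ℤ) by push_cast; ring] at h

/-- The cone. -/
theorem exists_cone : ∃ (n : ℕ) (_ : NeZero n) (c : ℕ) (ν : NN ℂ n ((c : ℤ) • ll))
    (T : Type) (_ : CommRing T) (_ : IsDomain T) (_ : Algebra ℂ T) (𝒜 : ℕ → Submodule ℂ T)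
    (_ : GradedAlgebra 𝒜) (σ : Sys n ll T), n = 2052 ∧ 0 < c ∧ (∀ t ∈ 𝒜 0, ∃ z : ℂ, t = algebraMap ℂ T z) ∧
      (∀ i, σ.X ν i ∈ 𝒜 c) ∧
      Function.Injective (MvPolynomial.aeval (σ.X ν) : MvPolynomial (Fin 3) ℂ →ₐ[ℂ] T) ∧
      (MvPolynomial.aeval (σ.X ν) : MvPolynomial (Fin 3) ℂ →ₐ[ℂ] T).toRingHom.Finite := by
  obtain ⟨n, hn⟩ : ∃ n : ℕ, n = 2052 := ⟨_, rfl⟩
  haveI : NeZero n := ⟨by omega⟩
  obtain ⟨ν⟩ := exists_NN_ll n
  have hc : 0 < 3 * n := by omega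
  obtain ⟨T, i1, i2, i3, 𝒜, i4, σ, h⟩ := exists_ringT n ample_ll hc ν
  exact ⟨n, inferInstance, 3 * n, ν, T, i1, i2, i3, 𝒜, i4, σ, hn, hc, h⟩

end Crest.Agent.R169
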