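import Crest.Agent.R169.Basic3

/-!
# rid 169, file `Noeth`: families are Noetherian; dévissage

Prefix helper lemmas with `noeth_`.
-/

set_option autoImplicit false
set_option linter.unusedSectionVars false

namespace Crest.Agent.R169

open Filter

namespace Fam

variable {k : Type} [Field k] {n : ℕ} [NeZero n]
  {V : Type} [AddCommGroup V] [Module (KK k) V] [Module k V] [IsScalarTower k (KK k) V]

/-- The monoid of monomials. -/
abbrev NoethM : Type := (Fin 10 → ℕ) × (Fin 5 → ℤ)

/-- The degree of a monomial. -/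
def noethDeg (n : ℕ) (m : NoethM) : Deg := (fun e => (m.1 e : ℤ)) - (n : ℤ) • rel m.2

omit [NeZero n] in
theorem noeth_deg_add (m m' : NoethM) : noethDeg n (m + m') = noethDeg n m + noethDeg n m' := by
  funext e
  simp only [noethDeg, Prod.fst_add, Prod.snd_add, rel_add, Pi.sub_apply, Pi.add_apply,
    Pi.smul_apply, smul_eq_mul]
  push_cast
  ring

omit [NeZero n] in
theorem noeth_deg_zero : noethDeg n 0 = 0 := by
  funext e
  simp [noethDeg, rel_zero]

omit [NeZero n] in
theorem noeth_mono_mem (m : NoethM) : R169.mono k m.2 ∈ S k n (noethDeg n m) :=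
  mono_mem_S fun e => by simp [noethDeg]

variable (k n V) in
/-- The action of a monomial on functions of the degree. -/
noncomputable def noethAct : Multiplicative NoethM →* Module.End k (Deg → V) where
  toFun m :=
    { toFun := fun w γ => R169.mono k m.toAdd.2 • w (γ - noethDeg n m.toAdd)
      map_add' := fun w w' => by funext γ; simp
      map_smul' := fun c w => by funext γ; simp [smul_comm c] }
  map_one' := by
    ext w γ
    simp [noeth_deg_zero, mono_zero]
  map_mul' m m' := by
    ext w γ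
    simp only [toAdd_mul, Prod.snd_add, mono_add, noeth_deg_add, LinearMap.coe_mk, AddHom.coe_mk,
      Module.End.mul_apply, mul_smul, sub_sub]

omit [NeZero n] in
theorem noeth_max {N : Fam k n V} (hN : N.FG) (T : Set (Fam k n V)) (hT : ∀ X ∈ T, X ≤ N)
    (hne : T.Nonempty) : ∃ X ∈ T, ∀ Y ∈ T, X ≤ Y → Y = X := by
  classical
  let R := AddMonoidAlgebra k NoethM
  have : IsNoetherianRing R := Algebra.FiniteType.isNoetherianRing k _
  let φ : R →ₐ[k] Module.End k (Deg → V) := AddMonoidAlgebra.lift k _ _ (noethAct k n V)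
  let _ : Module R (Deg → V) := Module.compHom (Deg → V) φ.toRingHom
  have hsm : ∀ (m : NoethM) (c : k) (w : Deg → V) (γ : Deg),
      ((AddMonoidAlgebra.single m c : R) • w) γ = c • R169.mono k m.2 • w (γ - noethDeg n m) := by
    intro m c w γ
    change (φ (AddMonoidAlgebra.single m c) w) γ = _
    rw [AddMonoidAlgebra.lift_single]
    rfl
  let hat : Fam k n V → Submodule R (Deg → V) := fun X =>
    { carrier := {w | ∀ γ, w γ ∈ X.sub γ}
      zero_mem' := fun γ => zero_mem _
      add_mem' := fun ha hb γ => add_mem (ha γ) (hb γ)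
      smul_mem' := fun r w hw => by
        induction r using AddMonoidAlgebra.induction_linear with
        | zero => rw [zero_smul]; exact fun γ => zero_mem _
        | add a b ha hb => rw [add_smul]; exact fun γ => add_mem (ha γ) (hb γ)
        | single m c =>
          intro γ
          rw [hsm]
          refine Submodule.smul_mem _ c ?_
          have := X.smul_mem (noeth_mono_mem m) (hw (γ - noethDeg n m))
          rwa [add_sub_cancel] at this }
  let til : Fam k n V → Submodule R (Deg → V) := fun X =>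
    Submodule.span R {w | ∃ γ, ∃ v ∈ X.sub γ, w = Pi.single γ v}
  have h1 : ∀ X, til X ≤ hat X := fun X => Submodule.span_le.2 (by
    rintro _ ⟨γ, v, hv, rfl⟩ γ'
    by_cases h : γ' = γ
    · subst h; simpa using hv
    · simp [Pi.single_eq_of_ne h])
  have h2 : ∀ X Y, X ≤ Y → til X ≤ til Y := fun X Y h => Submodule.span_mono (by
    rintro _ ⟨γ, v, hv, rfl⟩
    exact ⟨γ, v, h γ hv, rfl⟩)
  have h3 : ∀ X Y, til X ≤ til Y → X ≤ Y := fun X Y h γ v hv => by
    have := h1 Y (h (Submodule.subset_span ⟨γ, v, hv, rfl⟩)) γ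
    simpa using this
  obtain ⟨G, hG, rfl⟩ := hN
  let P : Submodule R (Deg → V) := Submodule.span R ((fun p : Deg × V => Pi.single p.1 p.2) '' G)
  have hc : ∀ (c : k) (γ : Deg) (v : V), Pi.single γ v ∈ P → (Pi.single γ (c • v) : Deg → V) ∈ P := by
    intro c γ v hv
    convert P.smul_mem (AddMonoidAlgebra.single 0 c : R) hv using 1
    funext γ'
    rw [hsm, noeth_deg_zero, sub_zero, Prod.snd_zero, mono_zero, one_smul, Pi.single_smul,
      Pi.smul_apply]
  have h4 : til (gen n G) ≤ P := Submodule.span_le.2 (by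
    rintro _ ⟨γ, v, hv, rfl⟩
    change (Pi.single γ v : Deg → V) ∈ P
    induction hv using Submodule.span_induction with
    | mem x h =>
      obtain ⟨p, hp, f, hf, rfl⟩ := h
      induction hf using Submodule.span_induction with
      | mem f h =>
        obtain ⟨ρ, hρ, rfl⟩ := h
        let m : NoethM := (fun e => ((γ - p.1 + (n : ℤ) • rel ρ) e).toNat, ρ)
        have hm : noethDeg n m = γ - p.1 := by
          funext e
          have := hρ e
          simp only [noethDeg, m, Pi.sub_apply, Pi.add_apply, Pi.zero_apply] at this ⊢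
          omega
        convert P.smul_mem (AddMonoidAlgebra.single m 1 : R)
          (Submodule.subset_span ⟨p, hp, rfl⟩) using 1
        funext γ'
        rw [hsm, one_smul, hm]
        by_cases h : γ' = γ
        · subst h; simp [m]
        · beta_reduce
          rw [Pi.single_eq_of_ne h, Pi.single_eq_of_ne, smul_zero]
          intro h'
          apply h
          rw [← sub_add_cancel γ' (γ - p.1), h', add_sub_cancel]
      | zero => simp
      | add a b _ _ ha hb => rw [add_smul, Pi.single_add]; exact add_mem ha hb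
      | smul c a _ ha => rw [smul_assoc]; exact hc c _ _ ha
    | zero => simp
    | add a b _ _ ha hb => rw [Pi.single_add]; exact add_mem ha hb
    | smul c a _ ha => exact hc c _ _ ha)
  have hP : IsNoetherian R P := isNoetherian_of_fg_of_noetherian P (Submodule.fg_span (hG.image _))
  obtain ⟨_, ⟨X, hX, rfl⟩, hmax⟩ := set_has_maximal_iff_noetherian.2 hP
    ((fun X => (til X).comap P.subtype) '' T) (hne.image _)
  refine ⟨X, hX, fun Y hY hXY => le_antisymm (h3 _ _ fun w hw => ?_) hXY⟩
  have h5 := (Submodule.comap_mono (f := P.subtype) (h2 X Y hXY)).eq_or_lt.resolve_right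
    (hmax _ ⟨Y, hY, rfl⟩)
  have h6 : (⟨w, h4 (h2 _ _ (hT Y hY) hw)⟩ : P) ∈ (til Y).comap P.subtype := hw
  rw [← h5] at h6
  exact h6

/-- Hilbert's basis theorem for families.

Route A (Dickson).  Let `(δ i, u i)`, `i : Fin l`, generate `N`.  For a degree `γ`, `N.sub γ` is spanned by the finitely many
`mono ρ • u i` with `a = γ - δ i + n • rel ρ ≥ 0`; call `(i, a) : Fin l × (Fin 10 → ℕ)` the *monomial* (`ρ` is determined by
`γ, i, a`).  Order monomials by `a` lexicographically (`toLex`, or `MonomialOrder` on `Fin 10 →₀ ℕ`), then `i`; the order is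
invariant under adding the same vector to `a`.  Call `(i,a)` *leading* if some element of `N'.sub (δ i + a)` equals
`u i + (combination of smaller monomials of the degree δ i + a)`.  For each `i` the leading `a` form an upper set, so have
finitely many minimal elements (`Pi.isPWO`/`Finsupp.isPWO`, `Set.IsPWO` antichains are finite, or `WellQuasiOrderedLE`); choose
elements `g` for them.  They generate `N'`: for `v ∈ N'.sub γ` written as a combination of monomials, the largest monomial with
nonzero coefficient is leading (multiply `v` by `mono (-ρ)`, see `mem_add_rel_iff`), so subtracting a multiple of `mono ρ • g` removes it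
and only changes smaller monomials; induct on the finite set of monomials of degree `γ`.

Route B.  The map `MvPolynomial (Fin 10 ⊕ Fin 5 ⊕ Fin 5) k → AddMonoidAlgebra (KK k) Deg` sending the variables to
`single (single e 1) 1`, `single (-n • rel e_i) (pp i)`, `single (n • rel e_i) (pp i)⁻¹`; wlog `V = span` is `Fin r → K`, so that
`Fin r → AddMonoidAlgebra K Deg` is a module; `⊕ N.sub γ` is a finitely generated submodule, so Noetherian; the homogeneous
components of generators of `⊕ N'.sub γ` generate `N'`. -/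
theorem FG.of_le {N N' : Fam k n V} (hN : N.FG) (h : N' ≤ N) : N'.FG := by
  obtain ⟨_, ⟨G, hG, hle, rfl⟩, hmax⟩ := noeth_max hN
    {X | ∃ G : Set (Deg × V), G.Finite ∧ gen n G ≤ N' ∧ X = gen n G}
    (by rintro _ ⟨G, -, h1, rfl⟩; exact h1.trans h)
    ⟨_, ∅, Set.finite_empty, gen_le_iff.2 (by simp), rfl⟩
  refine ⟨G, hG, le_antisymm (fun γ v hv => ?_) hle⟩
  have h1 := hmax (gen n (insert (γ, v) G)) ⟨_, hG.insert _, gen_le_iff.2 (by
    rintro p (rfl | hp)
    · exact hv
    · exact gen_le_iff.1 hle p hp), rfl⟩ (gen_mono (Set.subset_insert _ _))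
  rw [← h1]
  exact subset_gen (p := (γ, v)) (Set.mem_insert _ _)

theorem FG.infW {N : Fam k n V} (hN : N.FG) (W : Submodule (KK k) V) : (N.infW W).FG :=
  hN.of_le (infW_le N W)

theorem fg_colon (N : Fam k n V) (δ : Deg) (w : V) : (N.colon δ w).FG :=
  fg_SF.of_le (colon_le_SF N δ w)

/-- Ascending chain condition.  (An increasing sequence below `N` has a union that is a family, finitely generated, so the
sequence is stationary; `wellFounded_iff_has_min`/`RelEmbedding.wellFounded_iff_isEmpty`/`WellFounded.monotone_chain_condition`.) -/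
theorem FG.exists_maximal {N : Fam k n V} (hN : N.FG) (T : Set (Fam k n V)) (hT : ∀ X ∈ T, X ≤ N)
    (hne : T.Nonempty) : ∃ X ∈ T, ∀ Y ∈ T, X ≤ Y → Y = X := by
  exact noeth_max hN T hT hne

/-- Take `X` maximal with `N' ≤ X ≤ N`, `Q X`.  If `X ≠ N`, take a maximal `P` among the ideals `X.colon δ w`, `w ∈ N.sub δ`,
`w ∉ X.sub δ`.  It is prime: if `f * g ∈ P`, `g ∉ P.sub γ'`, then `g • w ∉ X.sub (γ' + δ)` and `X.colon (γ' + δ) (g • w) ≥ P`, so
equal, and it contains `f`.  Then `X ⊔ gen {(δ, w)} > X` contradicts maximality. -/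
theorem devissage {N N' : Fam k n V} (hN : N.FG) (hle : N' ≤ N) (Q : Fam k n V → Prop) (h0 : Q N')
    (step : ∀ X, N' ≤ X → X ≤ N → Q X → ∀ δ w, w ∈ N.sub δ → (X.colon δ w).IsPrime →
      Q (X ⊔ gen n {(δ, w)})) : Q N := by
  obtain ⟨X, ⟨h1, h2, h3⟩, hmax⟩ := hN.exists_maximal {X | N' ≤ X ∧ X ≤ N ∧ Q X}
    (fun X hX => hX.2.1) ⟨N', le_rfl, hle, h0⟩
  by_contra hQ
  have hne : ∃ δ w, w ∈ N.sub δ ∧ w ∉ X.sub δ := by
    by_contra hc
    push Not at hc
    exact hQ (le_antisymm h2 (fun δ w hw => hc δ w hw) ▸ h3)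
  obtain ⟨δ₀, w₀, hw₀⟩ := hne
  obtain ⟨_, ⟨δ, w, hw, hw', rfl⟩, hP⟩ := (fg_SF (k := k) (n := n)).exists_maximal
    {P | ∃ δ w, w ∈ N.sub δ ∧ w ∉ X.sub δ ∧ P = X.colon δ w}
    (by rintro _ ⟨δ, w, -, -, rfl⟩; exact colon_le_SF X δ w) ⟨_, δ₀, w₀, hw₀.1, hw₀.2, rfl⟩
  have hprime : (X.colon δ w).IsPrime := by
    refine ⟨colon_le_SF X δ w, fun h => hw' (by simpa using (mem_colon.1 h).2), ?_⟩
    intro γ γ' f g hf hg hfg
    refine or_iff_not_imp_right.2 fun hg' => ?_
    have h4 : g • w ∉ X.sub (γ' + δ) := fun h => hg' (mem_colon.2 ⟨hg, h⟩)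
    have h5 := hP (X.colon (γ' + δ) (g • w)) ⟨_, _, N.smul_mem hg hw, h4, rfl⟩ fun β a ha => by
      refine mem_colon.2 ⟨ha.1, ?_⟩
      have := X.smul_mem hg (mem_colon.1 ha).2
      rwa [smul_comm, add_left_comm] at this
    rw [← h5]
    refine mem_colon.2 ⟨hf, ?_⟩
    have := (mem_colon.1 hfg).2
    rwa [mul_smul, add_assoc] at this
  have h6 := hmax (X ⊔ gen n {(δ, w)}) ⟨h1.trans le_sup_left,
    sup_le h2 (gen_le_iff.2 (by rintro _ rfl; exact hw)), step X h1 h2 h3 δ w hw hprime⟩ le_sup_left
  apply hw'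
  rw [← h6]
  exact Submodule.mem_sup_right (subset_gen (p := (δ, w)) rfl)

/-- Dévissage with `Q X := ∀ᶠ γ in deep, N'.sub γ = X.sub γ` (`tendsto_sub_deep`, `mem_gen_singleton`). -/
theorem eventually_eq_of_irr {N N' : Fam k n V} (hN : N.FG) (hle : N' ≤ N)
    (h : ∀ X, N' ≤ X → ∀ δ w, w ∈ N.sub δ → (X.colon δ w).IsPrime → (X.colon δ w).Irr) :
    ∀ᶠ γ in deep, N'.sub γ = N.sub γ := by
  refine devissage hN hle (fun X => ∀ᶠ γ in deep, N'.sub γ = X.sub γ)
    (Eventually.of_forall fun _ => rfl) fun X h1 _ hQ δ w hw hp => ?_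
  filter_upwards [hQ, (tendsto_sub_deep δ).eventually (h X h1 δ w hw hp)] with γ h2 h3
  rw [h2, sup_sub]
  refine (sup_eq_left.2 fun v hv => ?_).symm
  obtain ⟨f, hf, rfl⟩ := mem_gen_singleton.1 hv
  rw [← h3] at hf
  simpa using (mem_colon.1 hf).2

end Fam

end Crest.Agent.R169
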