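import Crest.Agent.R169.NN2
import Crest.Agent.R169.GM2
import Crest.Agent.R169.Val4

/-!
# rid 169, file `Omega1`: the dualising family, definition and finite generation

Prefix helper lemmas with `omega1_`.
-/

set_option autoImplicit false

namespace Crest.Agent.R169

open Filter Module

namespace NN

variable {k : Type} [Field k] {n : ℕ} {h : Deg} (ν : NN k n h)
  {V : Type} [AddCommGroup V] [Module (KK k) V] [Module k V] [IsScalarTower k (KK k) V]

/-- The function field of the plane. -/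
noncomputable def FF : IntermediateField k (KK k) := IntermediateField.adjoin k (Set.range ν.xi)

noncomputable def xiF : Fin 2 → ν.FF := fun i => ⟨ν.xi i, IntermediateField.subset_adjoin _ _ ⟨i, rfl⟩⟩

instance tower : IsScalarTower k ν.FF V :=
  ⟨fun c f v => by
    change ((c • f : ν.FF) : KK k) • v = c • ((f : KK k) • v)
    rw [IntermediateField.coe_smul, smul_assoc]⟩

theorem coe_TT_xiF (i : Fin 3) : ((TT ν.xiF i : ν.FF) : KK k) = TT ν.xi i := by
  fin_cases i <;> rfl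

omit [Module k V] [IsScalarTower k (KK k) V] in
theorem omega1_smul (i : Fin 3) (κ : ℕ) (v : V) : TT ν.xiF i ^ κ • v = TT ν.xi i ^ κ • v := by
  rw [← coe_TT_xiF]
  rfl

theorem sumX_xiF (κ : ℕ) (A : Submodule k V) :
    sumX (fun i => TT ν.xiF i ^ κ) A = sumX (fun i => TT ν.xi i ^ κ) A := by
  ext v
  simp only [mem_sumX, omega1_smul]

/-- The dualising family for a nonzero `F`-linear form `τ` on `K`. -/
noncomputable def om (τ : KK k →ₗ[ν.FF] ν.FF) : Fam k n (KK k) where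
  sub β :=
    { carrier := {f | ∀ j : ℤ, ∀ g ∈ S k n (j • h - β), τ (f * g * ν.x 2 ^ (-j)) ∈ PiF k ν.xiF j}
      zero_mem' := fun j g _ => by simp
      add_mem' := fun ha hb j g hg => by
        rw [add_mul, add_mul, map_add]; exact add_mem (ha j g hg) (hb j g hg)
      smul_mem' := fun c f hf j g hg => by
        rw [smul_mul_assoc, smul_mul_assoc, LinearMap.map_smul_of_tower]
        exact Submodule.smul_mem _ c (hf j g hg) }
  smul_mem := fun {γ δ} f v hf hv j g hg => by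
    have h1 := mul_mem_S hf hg
    have h2 : γ + (j • h - (γ + δ)) = j • h - δ := by abel
    rw [h2] at h1
    have := hv j _ h1
    rw [smul_eq_mul, mul_comm f v, mul_assoc v f g]
    exact this

theorem mem_om {τ : KK k →ₗ[ν.FF] ν.FF} {β : Deg} {f : KK k} :
    f ∈ (ν.om τ).sub β ↔
      ∀ j : ℤ, ∀ g ∈ S k n (j • h - β), τ (f * g * ν.x 2 ^ (-j)) ∈ PiF k ν.xiF j := Iff.rfl

theorem omega1_fam (N : Fam k n V) (γ : Deg) : AFam (TT ν.xiF) (ν.Dm N γ) := fun i d v hv => by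
  have h2 := ν.pow_smul_mem i 1 (ν.mem_Dm.1 hv)
  rw [← ν.nn2_smul 1 d i v, add_assoc, ← add_smul, ← omega1_smul, pow_one] at h2
  exact ν.mem_Dm.2 h2

theorem omega1_aeval {σ : Type} (ξ : σ → ν.FF) (P : MvPolynomial σ k) :
    ((MvPolynomial.aeval ξ P : ν.FF) : KK k) = MvPolynomial.aeval (fun i => (ξ i : KK k)) P :=
  DFunLike.congr_fun (MvPolynomial.comp_aeval ξ ν.FF.val) P

theorem omega1_inj {τ : KK k →ₗ[ν.FF] ν.FF} (hτ : τ ≠ 0) {a b : KK k}
    (H : ∀ κ, τ (κ * a) = τ (κ * b)) : a = b := by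
  by_contra hne
  refine hτ (LinearMap.ext fun κ => ?_)
  have := H (κ / (a - b))
  rwa [← sub_eq_zero, ← map_sub, ← mul_sub, div_mul_cancel₀ _ (sub_ne_zero.2 hne)] at this

/-- `(x 2)^j * PiF j ⊆ S (j h)` (`mem_PiF_iff_homog`, `aeval_mem`, or on the spanning monomials). -/
theorem mul_coe_mem_S {j : ℤ} {f : ν.FF} (hf : f ∈ PiF k ν.xiF j) : ν.x 2 ^ j * (f : KK k) ∈ S k n (j • h) := by
  have h1 : (1 : KK k) ∈ ν.Dm (SF k n) 0 0 := ν.mem_Dm.2 (by simpa using one_mem_S le_rfl)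
  have h2 := ν.mem_Dm.1 (gm2_smul_mem (ν.omega1_fam _ _) hf h1)
  rw [zero_add, zero_add] at h2
  rw [← mul_one (f : KK k)]
  exact h2

variable [NeZero n]

/-- `ν.ind` (descend along the injective `FF.val`), `IntermediateField.mem_adjoin_range_iff`. -/
theorem coord : Coord k ν.xiF := by
  have e : ∀ P : MvPolynomial (Fin 2) k,
      ((MvPolynomial.aeval ν.xiF P : ν.FF) : KK k) = MvPolynomial.aeval ν.xi P := ν.omega1_aeval _
  refine ⟨AlgebraicIndependent.of_comp ν.FF.val ν.ind, fun f => ?_⟩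
  obtain ⟨a, b, hf⟩ := (IntermediateField.mem_adjoin_range_iff k ν.xi f).1 f.2
  by_cases hb : MvPolynomial.aeval ν.xi b = 0
  · exact ⟨0, 1, by simp, Subtype.ext (by simpa [hb] using hf)⟩
  · refine ⟨a, b, fun h0 => hb (by rw [← e, h0]; rfl), Subtype.ext ?_⟩
    rw [IntermediateField.coe_mul, e, e, hf, div_mul_cancel₀ _ hb]

theorem afgF {N : Fam k n V} (hN : N.FG) (γ : Deg) : AFG (TT ν.xiF) (ν.Dm N γ) := by
  obtain ⟨-, h2, h3, d1, h4⟩ := ν.afg hN γ
  refine ⟨ν.omega1_fam N γ, h2, h3, d1, fun d hd => (h4 d hd).trans_eq ?_⟩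
  simpa using (ν.sumX_xiF 1 _).symm

/-- Let `W0` be the `F`-span of `⋃ d, Dm SF 0 d`: finite-dimensional (generators of `afgF`), closed under products.  For `κ ∈ K` and large
`d` there is `g ≠ 0` with `g, g κ ∈ S (d h)` (`exists_denom`); `u = g * (x 2)^(-d) ∈ W0` acts injectively, so onto, on `W0`, so
`u⁻¹ ∈ W0` and `κ ∈ W0`.  For general `γ` multiply by one nonzero element of some `Dm SF γ d`. -/
theorem spans_SF (γ : Deg) : Spans ν.FF (ν.Dm (SF k n) γ) := by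
  refine eq_top_iff.2 fun κ _ => ?_
  obtain ⟨δ, g, hg0, hg, hκ⟩ := (exists_denom (n := n) (fun _ : Unit => κ) fun _ => γ).exists
  obtain ⟨i, E, g', hE, hE0, hg', e⟩ := ν.exists_form_dvd hg hg0
  have h2 := pow_ne_zero i (ν.ne 2)
  have e1 : ((MvPolynomial.aeval (TT ν.xiF) E : ν.FF) : KK k) = g * g' / ν.x 2 ^ i := by
    rw [omega1_aeval, e, ← ν.nn2_aeval hE]
    simp only [coe_TT_xiF]
  have h0 : MvPolynomial.aeval (TT ν.xiF) E ≠ 0 := fun h0 => by
    rw [h0, e] at e1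
    exact div_ne_zero (ν.aeval_ne_zero hE hE0) h2 e1.symm
  rw [← inv_smul_smul₀ h0 κ]
  refine Submodule.smul_mem _ _ (Submodule.subset_span ⟨i, ν.mem_Dm.2 ?_⟩)
  have h3 := mul_mem_S (hκ ()) hg'
  rw [add_comm δ, add_assoc, add_sub_cancel] at h3
  change ν.x 2 ^ (i : ℤ) * (((MvPolynomial.aeval (TT ν.xiF) E : ν.FF) : KK k) * κ) ∈ S k n _
  rwa [e1, zpow_natCast, ← mul_assoc, mul_div_cancel₀ _ h2, mul_right_comm]

instance finiteK : FiniteDimensional ν.FF (KK k) :=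
  AFG.finiteDimensional_of_spans (ν.afgF Fam.fg_SF 0) (ν.spans_SF 0)

/-- `a ↦ (κ ↦ τ (κ * a))` is an injective, hence bijective, `F`-linear map `K → Dual F K`; let `Φ v` be the preimage of
`κ ↦ φ (κ • v)`. -/
theorem exists_Phi {τ : KK k →ₗ[ν.FF] ν.FF} (hτ : τ ≠ 0) (φ : V →ₗ[ν.FF] ν.FF) :
    ∃ Φ : V →ₗ[KK k] KK k, ∀ v, φ v = τ (Φ v) := by
  let T : KK k →ₗ[ν.FF] Dual ν.FF (KK k) := (LinearMap.mul ν.FF (KK k)).flip.compr₂ τ
  have hT : Function.Surjective T :=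
    (LinearMap.injective_iff_surjective_of_finrank_eq_finrank Subspace.dual_finrank_eq.symm).1
      fun a b e => ν.omega1_inj hτ fun κ => DFunLike.congr_fun e κ
  have H : ∀ v : V, ∃ a, ∀ κ : KK k, τ (κ * a) = φ (κ • v) := fun v => by
    obtain ⟨a, ha⟩ := hT (φ ∘ₗ (LinearMap.toSpanSingleton (KK k) V v).restrictScalars ν.FF)
    exact ⟨a, fun κ => DFunLike.congr_fun ha κ⟩
  choose Φ hΦ using H
  refine ⟨⟨⟨Φ, fun u v => ν.omega1_inj hτ fun κ => ?_⟩, fun a v => ν.omega1_inj hτ fun κ => ?_⟩,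
    fun v => by simpa using (hΦ v 1).symm⟩
  · rw [mul_add, map_add, hΦ, hΦ, hΦ, smul_add, map_add]
  · simp only [RingHom.id_apply, smul_eq_mul, ← mul_assoc, hΦ, mul_smul]

/-- Choose an `F`-basis `b i` of `K` inside one `Dm SF 0 a`, and `b' i ∈ K` with `f = ∑ τ (f * b i) • b' i` for all `f` (`exists_Phi`-type
duality).  By `exists_denom` there are `g0 ≠ 0` and `α0` with `g0 * b' i ∈ S α0`.  For `f ∈ om.sub β`, `g ∈ S (j h - β)`:
`f g z^(-j) = ∑ τ (f (g z^a b i) z^(-(j+a))) • b' i` (`z = x 2`), so `(g0 z^a f) g ∈ S ((j + a) h + α0)` by `mul_coe_mem_S`.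
`mem_S_of_forall_mul` gives `g0 z^a f ∈ S (β + (a h + α0) + n • 1)`, i.e. `Within`; `within_iff_le`, `FG.of_le`. -/
theorem om_fg {τ : KK k →ₗ[ν.FF] ν.FF} (hτ : τ ≠ 0) : (ν.om τ).FG := by
  obtain ⟨𝒱⟩ := exists_valSys k n
  let b := Module.finBasis ν.FF (KK k)
  choose c hc d hd using fun i => gm2_clear ν.coord (ν.omega1_fam _ _) (ν.spans_SF 0) (b i)
  obtain ⟨a, ha⟩ := (Set.finite_range d).bddAbove
  have hw : ∀ i, ν.x 2 ^ a * (c i • b i) ∈ S k n (a • h) := fun i => by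
    simpa using ν.mem_Dm.1 (gm2_mono (ν.omega1_fam _ _) (ha ⟨i, rfl⟩) (hd i))
  let Ψ : KK k →ₗ[ν.FF] (Fin (finrank ν.FF (KK k)) → ν.FF) :=
    LinearMap.pi fun i => τ ∘ₗ LinearMap.mulRight ν.FF (c i • b i)
  obtain ⟨L, hL⟩ := Ψ.exists_leftInverse_of_injective (LinearMap.ker_eq_bot'.2 fun f hf => by
    have h1 : τ ∘ₗ LinearMap.mulRight ν.FF f = 0 := b.ext fun i => by
      have h2 : τ (f * (c i • b i)) = 0 := congrFun hf i
      rw [mul_smul_comm, map_smul, smul_eq_mul, mul_comm f] at h2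
      exact (mul_eq_zero.1 h2).resolve_left (hc i)
    exact ν.omega1_inj hτ fun κ => by simpa using DFunLike.congr_fun h1 κ)
  obtain ⟨b', hb'⟩ : ∃ b' : Fin (finrank ν.FF (KK k)) → KK k,
      ∀ f, f = ∑ i, (τ (f * (c i • b i)) : KK k) * b' i :=
    ⟨_, fun f => (DFunLike.congr_fun hL f).symm.trans (LinearMap.pi_apply_eq_sum_univ L (Ψ f))⟩
  obtain ⟨α, g0, hg0, -, hg⟩ := (exists_denom (n := n) b' 0).exists
  have h2 := ν.ne 2
  have h3 : (g0 * ν.x 2 ^ a)⁻¹ ≠ 0 := inv_ne_zero (mul_ne_zero hg0 (zpow_ne_zero _ h2))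
  refine (Fam.fg_gen (Set.finite_singleton _)).of_le
    ((Fam.within_iff_le h3 (α := a • h + α + (n : ℤ) • (1 : Deg))).1 fun β f hf => ?_)
  rw [add_comm, ← add_assoc, div_inv_eq_mul]
  refine 𝒱.mem_S_of_forall_mul ν.ample fun j g hg' => ?_
  have e : f * (g0 * ν.x 2 ^ a) * g = ∑ i, ν.x 2 ^ (j + a) *
      (τ (f * (g * (ν.x 2 ^ a * (c i • b i))) * ν.x 2 ^ (-(j + a))) : KK k) * (g0 * b' i) := by
    have e1 : ∀ i, f * (g * (ν.x 2 ^ a * (c i • b i))) * ν.x 2 ^ (-(j + a)) =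
        f * g * ν.x 2 ^ (-j) * (c i • b i) := fun i => by
      rw [zpow_neg, zpow_neg, zpow_add₀ h2]
      field_simp
    have e2 : f * (g0 * ν.x 2 ^ a) * g = ν.x 2 ^ (j + a) * g0 * (f * g * ν.x 2 ^ (-j)) := by
      rw [zpow_neg, zpow_add₀ h2]
      field_simp
    rw [e2]
    conv_lhs => rw [hb' (f * g * ν.x 2 ^ (-j)), Finset.mul_sum]
    exact Finset.sum_congr rfl fun i _ => by rw [e1]; ring
  rw [e]
  refine Submodule.sum_mem _ fun i _ => ?_
  have h4 := mul_mem_S hg' (hw i)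
  rw [sub_add_eq_add_sub, ← add_smul] at h4
  have h5 := mul_mem_S (ν.mul_coe_mem_S (hf (j + a) _ h4)) (hg i)
  rwa [Pi.zero_apply, add_zero, add_smul, add_assoc] at h5

end NN

end Crest.Agent.R169
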