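import Crest.Agent.R169.Omega1

/-!
# rid 169, file `Omega2`: duality

Prefix helper lemmas with `omega2_`.
-/

set_option autoImplicit false

namespace Crest.Agent.R169

open Filter Module

namespace NN

variable {k : Type} [Field k] {n : ℕ} [NeZero n] {h : Deg} (ν : NN k n h)

/-- `gm2_lower` for the `n^5` modules `Dm SF (rel (chr c))`: `n^5 R (t - a)² ≤ 2 cdim SF (t h) = n³ (B h h t² + O(t))`. -/
theorem finrank_FF_le : (n : ℤ) ^ 5 * finrank ν.FF (KK k) ≤ (n : ℤ) ^ 3 * B h h := by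
  choose a ha using fun c : Fin 5 → Fin n =>
    gm2_lower ν.coord (ν.afgF Fam.fg_SF (rel (chr c))) (ν.spans_SF _)
  set R : ℕ := finrank ν.FF (KK k) with hR
  have h3 : (0 : ℚ) ≤ (n : ℚ) ^ 3 * (B h h : ℤ) - (n : ℚ) ^ 5 * R := by
    refine comb3_quad (a := 2 * (n : ℚ) ^ 3 * Pol n 1 0 0 0 - R * ∑ c, (a c : ℚ) ^ 2)
      (b := 2 * (n : ℚ) ^ 3 * (B (toQ 0 - kap2 n) (toQ h) + (B h 0 : ℤ)) + 2 * R * ∑ c, (a c : ℚ)) ?_
    filter_upwards [(tendsto_add_smul_deep ν.ample 0).eventually (hasData_SF (k := k) (n := n)),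
      eventually_all.2 ha] with t ht h0
    have h4 : ∑ c, (R : ℚ) * (t - a c) ^ 2 ≤ 2 * ((SF k n).cdim (0 + t • h) : ℚ) := by
      rw [Fam.cdim, Nat.cast_sum, Finset.mul_sum]
      refine Finset.sum_le_sum fun c _ => ?_
      have h5 := h0 c
      rw [finrank_Dm, add_comm (rel _), ← zero_add (t • h)] at h5
      exact_mod_cast h5
    have h5 : ∑ c, (R : ℚ) * (t - a c) ^ 2 =
        (n : ℚ) ^ 5 * R * t ^ 2 - 2 * R * t * ∑ c, (a c : ℚ) + R * ∑ c, (a c : ℚ) ^ 2 := by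
      have h6 : (n : ℚ) ^ 5 * R * t ^ 2 = ∑ _c : Fin 5 → Fin n, (R : ℚ) * t ^ 2 := by
        simp [mul_assoc]
      rw [h6, Finset.mul_sum, Finset.mul_sum, ← Finset.sum_sub_distrib, ← Finset.sum_add_distrib]
      exact Finset.sum_congr rfl fun c _ => by ring
    rw [ht, Pol_ray, comb3_qq_toQ, h5] at h4
    push_cast at h4 ⊢
    linarith
  have h4 : (n : ℚ) ^ 5 * R ≤ (n : ℚ) ^ 3 * (B h h : ℤ) := by linarith
  exact_mod_cast h4

/-- `f ↦ (u ↦ τ (f * z^(-e) * u))` -/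
noncomputable def omega2L (τ : KK k →ₗ[ν.FF] ν.FF) (e : ℤ) : KK k →ₗ[k] (KK k →ₗ[ν.FF] ν.FF) where
  toFun f := τ ∘ₗ LinearMap.mulLeft ν.FF (f * ν.x 2 ^ (-e))
  map_add' f g := LinearMap.ext fun u => by simp [add_mul, mul_assoc]
  map_smul' c f := LinearMap.ext fun u => by
    simp only [LinearMap.comp_apply, LinearMap.mulLeft_apply, smul_mul_assoc, RingHom.id_apply,
      LinearMap.smul_apply, LinearMap.map_smul_of_tower]

omit [NeZero n] in
theorem omega2L_apply (τ : KK k →ₗ[ν.FF] ν.FF) (e : ℤ) (f u : KK k) :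
    ν.omega2L τ e f u = τ (f * ν.x 2 ^ (-e) * u) := rfl

omit [NeZero n] in
theorem omega2_mem (τ : KK k →ₗ[ν.FF] ν.FF) (γ : Deg) (e : ℤ) (f : KK k) :
    ν.omega2L τ e f ∈ DualA ν.xiF (ν.Dm (SF k n) γ) e ↔ f ∈ (ν.om τ).sub (e • h - γ) := by
  have hz := ν.ne 2
  constructor
  · intro H j g hg
    have h1 : ν.x 2 ^ (-(j - e)) * g ∈ ν.Dm (SF k n) γ (j - e) := by
      rw [mem_Dm, smul_eq_mul, ← mul_assoc, ← zpow_add₀ hz, add_neg_cancel, zpow_zero, one_mul,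
        show γ + (j - e) • h = j • h - (e • h - γ) by rw [sub_smul]; abel]
      exact hg
    have h2 := H _ _ h1
    rw [omega2L_apply, sub_add_cancel, mul_assoc, ← mul_assoc (ν.x 2 ^ (-e)), ← zpow_add₀ hz,
      show -e + -(j - e) = -j by ring, mul_comm _ g, ← mul_assoc] at h2
    exact h2
  · intro H d u hu
    have h1 := H (d + e) (ν.x 2 ^ d * u) (by
      rw [show (d + e) • h - (e • h - γ) = γ + d • h by rw [add_smul]; abel]
      exact ν.mem_Dm.1 hu)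
    rw [omega2L_apply]
    convert h1 using 2
    rw [neg_add, zpow_add₀ hz, zpow_neg _ d]
    have := zpow_ne_zero d hz
    field_simp

theorem omega2_dim {τ : KK k →ₗ[ν.FF] ν.FF} (hτ : τ ≠ 0) (γ : Deg) (e : ℤ) :
    finrank k (DualA ν.xiF (ν.Dm (SF k n) γ) e) = (ν.om τ).dim (e • h - γ) := by
  have hz := ν.ne 2
  have hinj : Function.Injective (ν.omega2L τ e) := by
    rw [injective_iff_map_eq_zero]
    intro f hf
    by_contra h0
    refine hτ (LinearMap.ext fun u => ?_)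
    have h1 := LinearMap.congr_fun hf ((f * ν.x 2 ^ (-e))⁻¹ * u)
    rwa [omega2L_apply, mul_inv_cancel_left₀ (mul_ne_zero h0 (zpow_ne_zero _ hz))] at h1
  have h1 : DualA ν.xiF (ν.Dm (SF k n) γ) e = ((ν.om τ).sub (e • h - γ)).map (ν.omega2L τ e) := by
    ext φ
    constructor
    · intro hφ
      obtain ⟨Φ, hΦ⟩ := ν.exists_Phi hτ φ
      have h2 : ν.omega2L τ e (Φ 1 * ν.x 2 ^ e) = φ := by
        refine LinearMap.ext fun u => ?_
        rw [omega2L_apply, hΦ, mul_assoc (Φ 1), ← zpow_add₀ hz, add_neg_cancel, zpow_zero, mul_one,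
          mul_comm, ← smul_eq_mul, ← map_smul, smul_eq_mul, mul_one]
      exact ⟨_, (ν.omega2_mem τ γ e _).1 (h2 ▸ hφ), h2⟩
    · rintro ⟨f, hf, rfl⟩
      exact (ν.omega2_mem τ γ e f).2 hf
  rw [h1]
  exact (Submodule.equivMapOfInjective _ hinj _).finrank_eq.symm

/-- Write `z = x 2`.
`ex`: `gm1_exists` for `D = Dm N γ` (`mem_Dm`, `mem_sumX_Dm`, `sumX_xiF`).  For `φ ∈ DualA D e` take `Φ0` from `exists_Phi` and
`Φ = z^e • Φ0`: for `v ∈ N.sub δ`, `g ∈ S (j h - (δ + (e h - γ)))` the vector `u = z^(-(j-e)) • g • v` lies in `D (j - e)` and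
`φ u = τ (Φ v * g * z^(-j))`.
`dim`: `gm1_dim` for `D = Dm SF γ`; `DualA D e` injects `k`-linearly in `om.sub (e h - γ)`: the inverse map
`f ↦ (u ↦ τ (f * z^(-e) * u))` from `om.sub (e h - γ)` to `DualA D e` is `k`-linear and onto by `exists_Phi` (`f = z^e * Φ0 1`).
`upper`: the same map `om.sub (t h + rel c) → DualA (Dm SF (-rel c)) t` is injective (`τ ≠ 0`); `gm2_upper` for each character,
`sum_dim_sub_rel`, `finrank_FF_le` (`t² + 3t ≥ 0`). -/
theorem isDual_om {τ : KK k →ₗ[ν.FF] ν.FF} (hτ : τ ≠ 0) : IsDual ν (ν.om τ) := by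
  have hz := ν.ne 2
  refine ⟨ν.om_fg hτ, ?_, fun γ e0 => ?_, ?_⟩
  · intro V _ _ _ _ N hN γ e0
    obtain ⟨k0, H⟩ := gm1_exists ν.coord (ν.afgF hN γ) e0
    refine ⟨k0, fun κ hκ e he => ?_⟩
    rcases H κ hκ e he with H | ⟨φ, hφ, d, v, hv, hv0⟩
    · left
      intro v hv
      have h0 := zpow_ne_zero (3 * (κ : ℤ) - 3 - e) hz
      have h1 := H (x := (ν.x 2 ^ (3 * (κ : ℤ) - 3 - e))⁻¹ • v)
        (ν.mem_Dm.2 (by rwa [smul_inv_smul₀ h0]))
      rwa [sumX_xiF, mem_sumX_Dm, show 2 * (κ : ℤ) - 3 - e + κ = 3 * κ - 3 - e by ring,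
        smul_inv_smul₀ h0] at h1
    · right
      obtain ⟨Φ, hΦ⟩ := ν.exists_Phi hτ φ
      refine ⟨ν.x 2 ^ e • Φ, ⟨_, _, ν.mem_Dm.1 hv, ?_⟩, fun δ v hv j g hg => ?_⟩
      · rw [LinearMap.smul_apply, map_smul, smul_eq_mul, smul_eq_mul]
        refine mul_ne_zero (zpow_ne_zero _ hz) (mul_ne_zero (zpow_ne_zero _ hz) fun h0 => hv0 ?_)
        rw [hΦ, h0, map_zero]
      · have h1 : ν.x 2 ^ (-(j - e)) • g • v ∈ ν.Dm N γ (j - e) := by
          rw [mem_Dm, smul_smul, ← zpow_add₀ hz, add_neg_cancel, zpow_zero, one_smul,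
            show γ + (j - e) • h = j • h - (δ + (e • h - γ)) + δ by rw [sub_smul]; abel]
          exact N.smul_mem hg hv
        have h2 := hφ _ _ h1
        rw [hΦ, sub_add_cancel, Φ.map_smul, Φ.map_smul] at h2
        convert h2 using 2
        rw [LinearMap.smul_apply, neg_sub, sub_eq_add_neg, zpow_add₀ hz]
        simp only [smul_eq_mul]
        ring
  · obtain ⟨k0, H⟩ := gm1_dim ν.coord (ν.afgF Fam.fg_SF γ) (ν.spans_SF γ) e0
    refine ⟨k0, fun κ hκ e he => ?_⟩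
    have h1 := H κ hκ e he
    rw [finrank_Dm, sumX_xiF, finrank_sumX_Dm, ν.omega2_dim hτ] at h1
    exact h1
  · choose C hC using fun c : Fin 5 → Fin n =>
      gm2_upper ν.coord (ν.afgF Fam.fg_SF (-rel (chr c))) (ν.spans_SF _)
    refine ⟨((∑ c, C c : ℤ) : ℚ), ?_⟩
    filter_upwards [eventually_all.2 hC, eventually_ge_atTop 0] with t ht h0
    have h1 : ((ν.om τ).cdim (t • h) : ℤ) + (SF k n).cdim (t • h) ≤
        (n : ℤ) ^ 5 * finrank ν.FF (KK k) * (t ^ 2 + 3 * t) + ∑ c, C c := by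
      have h2 : (n : ℤ) ^ 5 * finrank ν.FF (KK k) * (t ^ 2 + 3 * t) =
          ∑ _c : Fin 5 → Fin n, (finrank ν.FF (KK k) : ℤ) * (t ^ 2 + 3 * t) := by
        simp [mul_assoc]
      rw [← Fam.sum_dim_sub_rel (SF k n), Fam.cdim, h2, Nat.cast_sum, Nat.cast_sum,
        ← Finset.sum_add_distrib, ← Finset.sum_add_distrib]
      refine Finset.sum_le_sum fun c _ => ?_
      have h3 := ht c
      rw [finrank_Dm, ν.omega2_dim hτ, sub_neg_eq_add, neg_add_eq_sub, add_comm] at h3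
      exact h3
    have h2 := mul_le_mul_of_nonneg_right ν.finrank_FF_le (show 0 ≤ t ^ 2 + 3 * t by positivity)
    have h3 : ((ν.om τ).cdim (t • h) : ℤ) + (SF k n).cdim (t • h) ≤
        (n : ℤ) ^ 3 * B h h * (t ^ 2 + 3 * t) + ∑ c, C c := by linarith
    exact_mod_cast h3

theorem exists_dual : ∃ ω, IsDual ν ω := by
  obtain ⟨τ, hτ⟩ := Module.Projective.exists_dual_eq_one ν.FF (one_ne_zero : (1 : KK k) ≠ 0)
  refine ⟨_, ν.isDual_om (τ := τ) fun h0 => ?_⟩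
  rw [h0] at hτ
  exact zero_ne_one hτ

end NN

end Crest.Agent.R169
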