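import Crest.Agent.R169.Prime

/-!
# rid 169, file `Point1`: a point in the chart of a node

Prefix helper lemmas with `point1_`.
-/

set_option autoImplicit false

namespace Crest.Agent.R169

open Filter Module

namespace Fam

variable {k : Type} [Field k] {n : ℕ}
  {V : Type} [AddCommGroup V] [Module (KK k) V] [Module k V] [IsScalarTower k (KK k) V]

theorem point1_exists_deg {e e' : Fin 10} (h : e ≠ e') (i j : ℤ) : ∃ γ : Deg, γ e = i ∧ γ e' = j :=
  ⟨Pi.single e i + Pi.single e' j, by simp [Pi.single_eq_of_ne h], by simp [Pi.single_eq_of_ne h.symm]⟩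

theorem point1_le_loc (N : Fam k n V) {e e' : Fin 10} {i j : ℤ} {γ : Deg} (hi : γ e = i) (hj : γ e' = j) :
    N.sub γ ≤ N.loc e e' i j :=
  le_iSup (fun γ : {γ : Deg // γ e = i ∧ γ e' = j} => N.sub γ.1) ⟨γ, hi, hj⟩

/-- Rank-nullity for `A → L / B`. -/
theorem point1_finrank_eq {W : Type} [AddCommGroup W] [Module k W] {A L : Submodule k W} (B : Submodule k W)
    (hAL : A ≤ L) [FiniteDimensional k A] :
    finrank k A = finrank k ↥(A ⊓ B) + finrank k ((A.submoduleOf L).map (B.submoduleOf L).mkQ) := by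
  have h1 := LinearMap.finrank_range_add_finrank_ker ((B.submoduleOf L).mkQ ∘ₗ Submodule.inclusion hAL)
  have h2 : LinearMap.range ((B.submoduleOf L).mkQ ∘ₗ Submodule.inclusion hAL) =
      (A.submoduleOf L).map (B.submoduleOf L).mkQ := by
    rw [LinearMap.range_comp, Submodule.range_inclusion]
    rfl
  have h3 : LinearMap.ker ((B.submoduleOf L).mkQ ∘ₗ Submodule.inclusion hAL) =
      (A ⊓ B).comap A.subtype := by
    ext x
    simp only [LinearMap.mem_ker, LinearMap.comp_apply, Submodule.mkQ_apply, Submodule.Quotient.mk_eq_zero,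
      Submodule.mem_comap, Submodule.mem_inf, Submodule.subtype_apply]
    exact ⟨fun hx => ⟨x.2, hx⟩, fun hx => hx.2⟩
  rw [h2, h3, (Submodule.comapSubtypeEquivOfLe (inf_le_left : A ⊓ B ≤ A)).finrank_eq] at h1
  omega

theorem point1_finrank_quot_congr {W : Type} [AddCommGroup W] [Module k W] (φ : W ≃ₗ[k] W)
    {A B A' B' : Submodule k W} (hA : ∀ v, v ∈ A ↔ φ v ∈ A') (hB : ∀ v, v ∈ B ↔ φ v ∈ B') :
    finrank k (A ⧸ B.submoduleOf A) = finrank k (A' ⧸ B'.submoduleOf A') := by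
  have hmap : A.map (φ : W →ₗ[k] W) = A' := by
    ext v
    constructor
    · rintro ⟨u, hu, rfl⟩
      exact (hA u).1 hu
    · intro hv
      exact ⟨φ.symm v, (hA _).2 (by simpa using hv), by simp⟩
  refine (Submodule.Quotient.equiv _ _ (φ.ofSubmodules A A' hmap) ?_).finrank_eq
  ext v
  constructor
  · rintro ⟨u, hu, rfl⟩
    exact (hB u).1 hu
  · intro hv
    refine ⟨(φ.ofSubmodules A A' hmap).symm v, ?_, by simp⟩
    refine (hB _).2 ?_
    have : φ ((φ.ofSubmodules A A' hmap).symm v : W) = v :=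
      congrArg Subtype.val ((φ.ofSubmodules A A' hmap).apply_symm_apply v)
    change φ ((φ.ofSubmodules A A' hmap).symm v : W) ∈ B'
    rw [this]
    exact hv

/-- The union is directed (`γ ⊔ γ'`, `Fam.mono`; nonempty), `Submodule.mem_iSup_of_directed`. -/
theorem mem_loc {N : Fam k n V} {e e' : Fin 10} (h : e ≠ e') {i j : ℤ} {v : V} :
    v ∈ N.loc e e' i j ↔ ∃ γ : Deg, γ e = i ∧ γ e' = j ∧ v ∈ N.sub γ := by
  constructor
  · intro hv
    have : Nonempty {γ : Deg // γ e = i ∧ γ e' = j} := by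
      obtain ⟨γ, hγ⟩ := point1_exists_deg h i j
      exact ⟨⟨γ, hγ⟩⟩
    have hdir : Directed (· ≤ ·) fun γ : {γ : Deg // γ e = i ∧ γ e' = j} => N.sub γ.1 := by
      rintro ⟨γ, h1, h2⟩ ⟨γ', h1', h2'⟩
      exact ⟨⟨γ ⊔ γ', by simp [h1, h1'], by simp [h2, h2']⟩, N.mono le_sup_left, N.mono le_sup_right⟩
    obtain ⟨⟨γ, h1, h2⟩, hγ⟩ := (Submodule.mem_iSup_of_directed _ hdir).1 hv
    exact ⟨γ, h1, h2, hγ⟩
  · rintro ⟨γ, h1, h2, hγ⟩
    exact point1_le_loc N h1 h2 hγ

theorem smul_mem_loc {N : Fam k n V} {e e' : Fin 10} (h : e ≠ e') {i j i' j' : ℤ} {f : KK k} {v : V}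
    (hf : f ∈ (SF k n).loc e e' i' j') (hv : v ∈ N.loc e e' i j) : f • v ∈ N.loc e e' (i' + i) (j' + j) := by
  obtain ⟨γ, h1, h2, hγ⟩ := (mem_loc h).1 hf
  obtain ⟨δ, h1', h2', hδ⟩ := (mem_loc h).1 hv
  exact (mem_loc h).2 ⟨γ + δ, by simp [h1, h1'], by simp [h2, h2'], N.smul_mem hγ hδ⟩

theorem loc_mono_deg (N : Fam k n V) {e e' : Fin 10} (h : e ≠ e') {i j i' j' : ℤ} (hi : i ≤ i') (hj : j ≤ j') :
    N.loc e e' i j ≤ N.loc e e' i' j' := by
  intro v hv
  obtain ⟨γ, h1, h2, hγ⟩ := (mem_loc h).1 hv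
  obtain ⟨δ, h1', h2'⟩ := point1_exists_deg h i' j'
  exact (mem_loc h).2 ⟨γ ⊔ δ, by simp [h1, h1', hi], by simp [h2, h2', hj], N.mono le_sup_left hγ⟩

theorem loc_SF_eq_span {e e' : Fin 10} (h : e ≠ e') (i j : ℤ) :
    (SF k n).loc e e' i j = Submodule.span k {f | ∃ ρ : Fin 5 → ℤ,
      0 ≤ i + n * rel ρ e ∧ 0 ≤ j + n * rel ρ e' ∧ f = R169.mono k ρ} := by
  apply le_antisymm
  · refine iSup_le ?_
    rintro ⟨γ, h1, h2⟩
    refine Submodule.span_mono ?_
    rintro f ⟨ρ, hρ, rfl⟩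
    refine ⟨ρ, ?_, ?_, rfl⟩
    · simpa [h1] using hρ e
    · simpa [h2] using hρ e'
  · refine Submodule.span_le.2 ?_
    rintro f ⟨ρ, h1, h2, rfl⟩
    refine (mem_loc h).2 ⟨fun x => if x = e then i else if x = e' then j else -(n * rel ρ x), by simp,
      by simp [h.symm], mono_mem_S fun x => ?_⟩
    by_cases hx : x = e
    · subst hx
      simpa using h1
    · by_cases hx' : x = e'
      · subst hx'
        simpa [hx] using h2
      · simp [hx, hx']

/-- The local quotient ring in the bidegree `(i,j)`. -/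
abbrev LQ (P : Fam k n (KK k)) (e e' : Fin 10) (i j : ℤ) : Type :=
  ↥((SF k n).loc e e' i j) ⧸ (P.loc e e' i j).submoduleOf ((SF k n).loc e e' i j)

noncomputable def lcod (P : Fam k n (KK k)) (e e' : Fin 10) (i j : ℤ) : ℕ := finrank k (LQ P e e' i j)

theorem point1_mem_loc_add (N : Fam k n V) {e e' : Fin 10} (h : e ≠ e') (i j : ℤ) (ρ : Fin 5 → ℤ) (v : V) :
    v ∈ N.loc e e' (i + n * rel ρ e) (j + n * rel ρ e') ↔ R169.mono k ρ • v ∈ N.loc e e' i j := by
  rw [mem_loc h, mem_loc h]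
  constructor
  · rintro ⟨γ, h1, h2, hγ⟩
    refine ⟨γ - (n : ℤ) • rel ρ, by simp [h1], by simp [h2], (mem_add_rel_iff N _ ρ v).1 ?_⟩
    rwa [sub_add_cancel]
  · rintro ⟨γ, h1, h2, hγ⟩
    exact ⟨γ + (n : ℤ) • rel ρ, by simp [h1], by simp [h2], (mem_add_rel_iff N _ ρ v).2 hγ⟩

/-- Multiplication by `mono ρ` with `rel ρ e = a`, `rel ρ e' = b` (`exists_rel_pair`) is a linear equivalence of `K` carrying
`loc (i + n a) (j + n b)` to `loc i j` for every family (`mem_add_rel_iff`). -/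
theorem lcod_add (P : Fam k n (KK k)) {e e' : Fin 10} (h : Adj e e') (i j a b : ℤ) :
    lcod P e e' (i + n * a) (j + n * b) = lcod P e e' i j := by
  obtain ⟨ρ, rfl, rfl⟩ := exists_rel_pair h a b
  exact point1_finrank_quot_congr
    ((LinearEquiv.smulOfNeZero (KK k) (KK k) (R169.mono k ρ) (mono_ne_zero k ρ)).restrictScalars k)
    (fun v => point1_mem_loc_add (SF k n) h.ne i j ρ v) (fun v => point1_mem_loc_add P h.ne i j ρ v)

/-- The sections that lie in `P` on the chart. -/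
noncomputable def sat (P : Fam k n (KK k)) {e e' : Fin 10} (h : e ≠ e') : Fam k n (KK k) where
  sub γ := S k n γ ⊓ P.loc e e' (γ e) (γ e')
  smul_mem := fun {γ _} _ _ hf hv => ⟨mul_mem_S hf hv.1,
    smul_mem_loc h ((mem_loc h).2 ⟨γ, rfl, rfl, hf⟩) hv.2⟩

/-- The image of `S γ` in the local quotient. -/
noncomputable def point1_img (P : Fam k n (KK k)) (e e' : Fin 10) (i j : ℤ) (γ : Deg) :
    Submodule k (LQ P e e' i j) :=
  ((S k n γ).submoduleOf ((SF k n).loc e e' i j)).map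
    ((P.loc e e' i j).submoduleOf ((SF k n).loc e e' i j)).mkQ

theorem point1_img_mono (P : Fam k n (KK k)) (e e' : Fin 10) (i j : ℤ) {γ γ' : Deg} (h : γ ≤ γ') :
    point1_img P e e' i j γ ≤ point1_img P e e' i j γ' :=
  Submodule.map_mono (Submodule.comap_mono (S_mono h))

theorem point1_exists_img (P : Fam k n (KK k)) {e e' : Fin 10} (h : e ≠ e') (i j : ℤ)
    (s : Finset (LQ P e e' i j)) :
    ∃ γ : Deg, γ e = i ∧ γ e' = j ∧ ∀ x ∈ s, x ∈ point1_img P e e' i j γ := by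
  classical
  induction s using Finset.induction_on with
  | empty =>
    obtain ⟨γ, h1, h2⟩ := point1_exists_deg h i j
    exact ⟨γ, h1, h2, by simp⟩
  | insert x s _ ih =>
    obtain ⟨γ, h1, h2, hγ⟩ := ih
    obtain ⟨y, rfl⟩ := Submodule.mkQ_surjective _ x
    obtain ⟨δ, h1', h2', hδ⟩ := (mem_loc h).1 y.2
    refine ⟨γ ⊔ δ, by simp [h1, h1'], by simp [h2, h2'], fun z hz => ?_⟩
    rcases Finset.mem_insert.1 hz with rfl | hz
    · exact point1_img_mono P e e' i j le_sup_right ⟨y, hδ, rfl⟩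
    · exact point1_img_mono P e e' i j le_sup_left (hγ z hz)

variable [NeZero n]

theorem point1_dim_eq (P : Fam k n (KK k)) {e e' : Fin 10} (h : e ≠ e') {i j : ℤ} {γ : Deg}
    (hi : γ e = i) (hj : γ e' = j) :
    (SF k n).dim γ = (P.sat h).dim γ + finrank k (point1_img P e e' i j γ) := by
  subst hi hj
  exact point1_finrank_eq (A := S k n γ) (P.loc e e' (γ e) (γ e')) (point1_le_loc (SF k n) rfl rfl)

theorem point1_img_finite (P : Fam k n (KK k)) {e e' : Fin 10} {i j : ℤ} {γ : Deg}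
    (hi : γ e = i) (hj : γ e' = j) : FiniteDimensional k (point1_img P e e' i j γ) := by
  have : FiniteDimensional k ((S k n γ).submoduleOf ((SF k n).loc e e' i j)) :=
    (Submodule.comapSubtypeEquivOfLe (p := S k n γ) (point1_le_loc (SF k n) hi hj)).symm.finiteDimensional
  unfold point1_img
  infer_instance

/-- `S γ / sat γ` injects in the local quotient. -/
theorem dim_le_sat_add_lcod (P : Fam k n (KK k)) {e e' : Fin 10} (h : e ≠ e') (γ : Deg)
    [FiniteDimensional k (LQ P e e' (γ e) (γ e'))] :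
    (SF k n).dim γ ≤ (P.sat h).dim γ + lcod P e e' (γ e) (γ e') := by
  rw [point1_dim_eq P h rfl rfl]
  exact Nat.add_le_add_left (Submodule.finrank_le _) _

/-- A point of the chart. -/
structure InChart (P : Fam k n (KK k)) (e e' : Fin 10) : Prop where
  prime : P.IsPrime
  adj : Adj e e'
  off : ∀ e'', e'' ≠ e → e'' ≠ e' → ¬ P.Var e''
  bdd : ∃ C : ℕ, ∀ᶠ γ in deep, (SF k n).dim γ ≤ P.dim γ + C

variable {P : Fam k n (KK k)} {e e' : Fin 10}

/-- If `f ∈ S γ` and `f ∈ P.sub γ'` with `γ ≤ γ'` equal at `e, e'`, then `f * 1 ∈ P.sub (γ + (γ' - γ))` and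
`1 ∉ P.sub (γ' - γ)` by `exists_var` and `off`. -/
theorem InChart.sat_eq (h : InChart P e e') : P.sat h.adj.ne = P := by
  apply le_antisymm
  · rintro γ f ⟨hf, hf'⟩
    obtain ⟨δ, h1, h2, hδ⟩ := (mem_loc h.adj.ne).1 hf'
    have h0 : 0 ≤ γ ⊔ δ - γ := sub_nonneg.2 le_sup_left
    have hmem : f * 1 ∈ P.sub (γ + (γ ⊔ δ - γ)) := by
      rw [mul_one, add_sub_cancel]
      exact P.mono le_sup_right hδ
    rcases h.prime.mem_or_mem hf (one_mem_S h0) hmem with h3 | h3
    · exact h3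
    · obtain ⟨e'', h4, h5⟩ := h.prime.exists_var h0 h3
      refine absurd h5 (h.off e'' ?_ ?_)
      · rintro rfl
        simp [h1] at h4
      · rintro rfl
        simp [h2] at h4
  · intro γ f hf
    exact ⟨h.prime.le γ hf, point1_le_loc P rfl rfl hf⟩

/-- Any `C + 1` elements of `loc i j` lie in one `S γ` with `γ` deep (add a multiple of `exists_ample_node`), so a nontrivial
combination lies in `P.sub γ`: the rank of `LQ` is `≤ C` (`rank_le`, or `Module.Finite` from a bound on independent families). -/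
theorem InChart.finite (h : InChart P e e') (i j : ℤ) : FiniteDimensional k (LQ P e e' i j) := by
  obtain ⟨C, hC⟩ := h.bdd
  obtain ⟨a, ha0, ha1, ha2, ha⟩ := exists_ample_node h.adj
  have hrank : Module.rank k (LQ P e e' i j) ≤ C := by
    refine rank_le fun s hs => ?_
    obtain ⟨γ, h1, h2, hγ⟩ := point1_exists_img P h.adj.ne i j s
    obtain ⟨t, ht⟩ := ((tendsto_add_nsmul_deep ha γ).eventually hC).exists
    have hle : γ ≤ γ + (t : ℤ) • a := le_add_of_nonneg_right (smul_nonneg (Int.natCast_nonneg t) ha0)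
    have h1' : (γ + (t : ℤ) • a) e = i := by simp [h1, ha1]
    have h2' : (γ + (t : ℤ) • a) e' = j := by simp [h2, ha2]
    have hdim := point1_dim_eq P h.adj.ne h1' h2'
    rw [h.sat_eq] at hdim
    have := point1_img_finite P h1' h2'
    have hspan : Submodule.span k (s : Set (LQ P e e' i j)) ≤ point1_img P e e' i j (γ + (t : ℤ) • a) :=
      Submodule.span_le.2 fun x hx => point1_img_mono P e e' i j hle (hγ x hx)
    have h3 := Submodule.finrank_mono hspan
    rw [finrank_span_finset_eq_card hs] at h3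
    omega
  exact Module.rank_lt_aleph0_iff.1 (hrank.trans_lt Cardinal.natCast_lt_aleph0)

/-- For each class `(i,j)` mod `n` pick `γ0` at `(i,j)` such that `S γ0 → LQ i j` is onto (finitely many lifts of a basis); for deep
`γ`, `eventually_node_le` gives `γ' = γ + n • rel ρ ≥ γ0` at `(i,j)`, so `S γ' → LQ` is onto with kernel `sat γ' = P.sub γ'`;
`dim_add_rel`, `lcod_add`. -/
theorem InChart.eventually_dim (h : InChart P e e') :
    ∀ᶠ γ in deep, (SF k n).dim γ = P.dim γ + lcod P e e' (γ e) (γ e') := by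
  have key : ∀ i j : ℤ, ∃ γ0 : Deg, γ0 e = i ∧ γ0 e' = j ∧ point1_img P e e' i j γ0 = ⊤ := by
    intro i j
    have := h.finite i j
    obtain ⟨s, hs⟩ := Module.Finite.fg_top (R := k) (M := LQ P e e' i j)
    obtain ⟨γ, h1, h2, hγ⟩ := point1_exists_img P h.adj.ne i j s
    exact ⟨γ, h1, h2, top_le_iff.1 (hs ▸ Submodule.span_le.2 fun x hx => hγ x hx)⟩
  choose γ0 h1 h2 h3 using key
  have hn : (0 : ℤ) < n := Int.natCast_pos.2 (Nat.pos_of_ne_zero (NeZero.ne n))
  have hev := (Filter.eventually_all_finset (Finset.Ico (0 : ℤ) n ×ˢ Finset.Ico (0 : ℤ) n)).2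
    fun q _ => eventually_node_le (n := n) h.adj (γ0 q.1 q.2)
  filter_upwards [hev] with γ hγ
  obtain ⟨ρ, r1, r2, r3⟩ := hγ (γ e % n, γ e' % n)
    (by simp [Int.emod_nonneg _ hn.ne', Int.emod_lt_of_pos _ hn])
    (by rw [h1]; exact (Int.mod_modEq _ _).symm) (by rw [h2]; exact (Int.mod_modEq _ _).symm)
  rw [h1] at r1
  rw [h2] at r2
  have hdim := point1_dim_eq P h.adj.ne r1 r2
  have htop : point1_img P e e' (γ e % n) (γ e' % n) (γ + (n : ℤ) • rel ρ) = ⊤ :=
    top_le_iff.1 (h3 (γ e % n) (γ e' % n) ▸ point1_img_mono P e e' _ _ r3)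
  rw [h.sat_eq, dim_add_rel, dim_add_rel, htop, finrank_top] at hdim
  rw [hdim, ← lcod_add P h.adj (γ e) (γ e') (rel ρ e) (rel ρ e')]
  have r1' : γ e + n * rel ρ e = γ e % n := by simpa using r1
  have r2' : γ e' + n * rel ρ e' = γ e' % n := by simpa using r2
  rw [r1', r2']
  rfl

/-- `sum_chr_pair`. -/
theorem InChart.eventually_cdim (h : InChart P e e') :
    ∀ᶠ γ in deep, ((SF k n).cdim γ : ℚ) = P.cdim γ +
      (n : ℚ) ^ 3 * ∑ i : Fin n, ∑ j : Fin n, (lcod P e e' (i : ℕ) (j : ℕ) : ℚ) := by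
  filter_upwards [eventually_forall_add_rel h.eventually_dim] with γ hγ
  rw [← sum_chr_pair h.adj (fun i j => (lcod P e e' i j : ℚ))
    (fun i j => by simpa using lcod_add P h.adj i j 1 0)
    (fun i j => by simpa using lcod_add P h.adj i j 0 1) γ]
  unfold cdim
  push_cast
  rw [← Finset.sum_add_distrib]
  refine Finset.sum_congr rfl fun c _ => ?_
  rw [hγ (chr c)]
  push_cast
  rfl

/-- Let `δ = single e'' 1`, `X = P ⊔ gen {(δ, 1)} ≤ Q`.  `P.colon δ 1 = P` (prime, `off`), so `cdim_sup_gen` and `eventually_cdim`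
(at `γ` and `γ - δ`) give `cdim X γ = cdim S γ` eventually; `sub_eq_of_cdim_eq`. -/
theorem InChart.irr_of_var (h : InChart P e e') {Q : Fam k n (KK k)} (hQ : Q ≤ SF k n) (hPQ : P ≤ Q)
    {e'' : Fin 10} (h1 : e'' ≠ e) (h2 : e'' ≠ e') (hv : Q.Var e'') : Q.Irr := by
  have h0 : (0 : Deg) ≤ Pi.single e'' 1 := fun x => by
    by_cases hx : x = e''
    · subst hx
      simp
    · simp [Pi.single_eq_of_ne hx]
  have hcol : P.colon (Pi.single e'' 1) (1 : KK k) = P := by
    apply le_antisymm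
    · intro γ f hf
      obtain ⟨hf1, hf2⟩ := mem_colon.1 hf
      rcases h.prime.mem_or_mem hf1 (one_mem_S h0) hf2 with h3 | h3
      · exact h3
      · exact absurd h3 (h.off e'' h1 h2)
    · intro γ f hf
      refine mem_colon.2 ⟨h.prime.le γ hf, ?_⟩
      rw [smul_eq_mul, mul_one]
      exact P.mono (le_add_of_nonneg_right h0) hf
  have hX : P ⊔ gen n {((Pi.single e'' 1 : Deg), (1 : KK k))} ≤ Q := by
    refine sup_le hPQ (gen_le_iff.2 ?_)
    rintro _ rfl
    exact hv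
  filter_upwards [h.eventually_cdim, (tendsto_sub_deep (Pi.single e'' 1)).eventually h.eventually_cdim]
    with γ hγ hγ'
  have h3 := cdim_sup_gen (fg_SF.of_le h.prime.le) (Pi.single e'' 1) (1 : KK k) γ
  rw [hcol] at h3
  have h4 : (SF k n).cdim γ ≤ (P ⊔ gen n {((Pi.single e'' 1 : Deg), (1 : KK k))}).cdim γ := by
    have h5 := congrArg (Nat.cast : ℕ → ℚ) h3
    push_cast at h5
    have : ((SF k n).cdim γ : ℚ) ≤ (P ⊔ gen n {((Pi.single e'' 1 : Deg), (1 : KK k))}).cdim γ := by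
      linarith
    exact_mod_cast this
  have h5 := sub_eq_of_cdim_eq fg_SF (hX.trans hQ) h4
  exact le_antisymm (hQ γ) (h5.symm.le.trans (hX γ))

end Fam

end Crest.Agent.R169
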