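import Crest.Agent.R169.Point1
import Crest.Agent.R169.Chart

/-!
# rid 169, file `Point2`: the Frobenius power of a point has at most `p²` times its length

Prefix helper lemmas with `point2_`.
-/

set_option autoImplicit false

namespace Crest.Agent.R169

open Filter Module

namespace Fam

variable {k : Type} [Field k] {n : ℕ} [NeZero n] {P : Fam k n (KK k)} {e e' : Fin 10}
  (p : ℕ) [ExpChar k p]

section aux
variable {F W : Type} [Field F] [AddCommGroup W] [Module F W]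

theorem point2_span_bound {A B : Submodule F W} {ι : Type} [Fintype ι] (c : ι → W) (hc : ∀ t, c t ∈ A)
    (h : ∀ f ∈ A, ∃ a : ι → F, f - ∑ t, a t • c t ∈ B) :
    FiniteDimensional F (A ⧸ B.submoduleOf A) ∧ finrank F (A ⧸ B.submoduleOf A) ≤ Fintype.card ι := by
  have htop : Submodule.span F (Set.range fun t => (B.submoduleOf A).mkQ ⟨c t, hc t⟩) = ⊤ := by
    rw [eq_top_iff]
    rintro x -
    obtain ⟨f, rfl⟩ := (B.submoduleOf A).mkQ_surjective x
    obtain ⟨a, ha⟩ := h f.1 f.2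
    have : (B.submoduleOf A).mkQ f = ∑ t, a t • (B.submoduleOf A).mkQ ⟨c t, hc t⟩ := by
      simp only [← map_smul, ← map_sum]
      rw [← sub_eq_zero, ← map_sub, Submodule.mkQ_apply, Submodule.Quotient.mk_eq_zero]
      change ((f - ∑ t, a t • (⟨c t, hc t⟩ : A) : A) : W) ∈ B
      simpa using ha
    rw [this]
    exact Submodule.sum_mem _ fun t _ => Submodule.smul_mem _ _ (Submodule.subset_span ⟨t, rfl⟩)
  refine ⟨?_, finrank_le_of_span_eq_top htop⟩
  exact Module.Finite.of_fg_top (htop ▸ Submodule.fg_span (Set.finite_range _))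

theorem point2_lift_basis (A B : Submodule F W) [FiniteDimensional F (A ⧸ B.submoduleOf A)] :
    ∃ c : Fin (finrank F (A ⧸ B.submoduleOf A)) → W, (∀ t, c t ∈ A) ∧
      ∀ f ∈ A, ∃ a : Fin (finrank F (A ⧸ B.submoduleOf A)) → F, f - ∑ t, a t • c t ∈ B := by
  let b := Module.finBasis F (A ⧸ B.submoduleOf A)
  choose c hc using fun t => (B.submoduleOf A).mkQ_surjective (b t)
  refine ⟨fun t => c t, fun t => (c t).2, fun f hf => ⟨b.repr ((B.submoduleOf A).mkQ ⟨f, hf⟩), ?_⟩⟩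
  have h1 : (B.submoduleOf A).mkQ (⟨f, hf⟩ -
      ∑ t, b.repr ((B.submoduleOf A).mkQ ⟨f, hf⟩) t • c t) = 0 := by
    rw [map_sub, map_sum]
    simp only [map_smul, hc]
    rw [b.sum_repr, sub_self]
  rw [Submodule.mkQ_apply, Submodule.Quotient.mk_eq_zero] at h1
  have h2 : ((⟨f, hf⟩ - ∑ t, b.repr ((B.submoduleOf A).mkQ ⟨f, hf⟩) t • c t : A) : W) ∈ B := h1
  simpa using h2

end aux

omit [NeZero n] [ExpChar k p] in
theorem point2_pow_loc (h : e ≠ e') {i j : ℤ} {f : KK k} (hf : f ∈ (SF k n).loc e e' i j) :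
    f ^ p ∈ (SF k n).loc e e' (p * i) (p * j) := by
  obtain ⟨γ, h1, h2, h3⟩ := (mem_loc h).1 hf
  exact (mem_loc h).2 ⟨(p : ℤ) • γ, by simp [h1], by simp [h2], pow_mem_S h3 p⟩

omit [NeZero n] [ExpChar k p] in
theorem point2_pow_loc_frob (h : e ≠ e') {i j : ℤ} {f : KK k} (hf : f ∈ P.loc e e' i j) :
    f ^ p ∈ (frobK p P).loc e e' (p * i) (p * j) := by
  obtain ⟨γ, h1, h2, h3⟩ := (mem_loc h).1 hf
  exact (mem_loc h).2 ⟨(p : ℤ) • γ, by simp [h1], by simp [h2], mem_frob p (fun f => f ^ p) h3⟩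

omit [NeZero n] [ExpChar k p] in
theorem point2_mul_loc (h : e ≠ e') {u w : Fin 5 → ℤ} {r : Fin 3 → Fin 5 → ℤ}
    (hc : ChartData k e e' u w r) (hp : 0 < p) (N : Fam k n (KK k)) (i j : ℤ) (x1 x2 : ℕ) {f : KK k}
    (hf : f ∈ N.loc e e' (p * ((i + (n : ℤ) * x1) / p)) (p * ((j + (n : ℤ) * x2) / p))) :
    f * R169.mono k u ^ x1 * R169.mono k w ^ x2 ∈ N.loc e e' i j := by
  have hm : R169.mono k u ^ x1 * R169.mono k w ^ x2 ∈
      (SF k n).loc e e' (-((n : ℤ) * x1)) (-((n : ℤ) * x2)) := by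
    rw [loc_SF_eq_span h]
    refine Submodule.subset_span ⟨(x1 : ℤ) • u + (x2 : ℤ) • w, ?_, ?_, ?_⟩
    · rw [rel_add, rel_smul, rel_smul]
      simp [hc.ue, hc.we]
    · rw [rel_add, rel_smul, rel_smul]
      simp [hc.ue', hc.we']
    · rw [mono_add, mono_smul, mono_smul, zpow_natCast, zpow_natCast]
  have hp' : (p : ℤ) ≠ 0 := by exact_mod_cast hp.ne'
  have h1 := Int.mul_ediv_self_le (x := i + (n : ℤ) * x1) hp'
  have h2 := Int.mul_ediv_self_le (x := j + (n : ℤ) * x2) hp'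
  have := loc_mono_deg N h (i' := i) (j' := j) (by linarith) (by linarith) (smul_mem_loc h hm hf)
  rwa [smul_eq_mul, mul_comm, ← mul_assoc] at this

omit [NeZero n] [ExpChar k p] in
theorem point2_le_colon (hP : P ≤ SF k n) {X : Fam k n (KK k)} (hX : frobK p P ≤ X) {δ : Deg} {w : KK k}
    (hw : w ∈ S k n δ) (hQ : (X.colon δ w).IsPrime) : P ≤ X.colon δ w := by
  intro γ f hf
  refine hQ.mem_of_pow_mem (hP γ hf) (m := p) (mem_colon.2 ⟨pow_mem_S (hP γ hf) p, ?_⟩)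
  have := X.smul_mem hw (hX _ (mem_frob p (fun f => f ^ p) hf))
  rwa [smul_eq_mul, mul_comm, add_comm, ← smul_eq_mul] at this

/-- Let `u, w` be chart coordinates (`exists_chart`), and for `x = (x1,x2)` let `b x t` (`t : Fin (lcod ..)`) be elements of
`loc i_x j_x` (`i_x = (i + n x1)/p`, `j_x = (j + n x2)/p`) lifting a basis of `LQ`.  The elements
`(b x t)^p * mono u^x1 * mono w^x2` lie in `(SF).loc i j` (degree `(p i_x - n x1, p j_x - n x2) ≤ (i,j)`) and span `LQ (frobK p P) i j`: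
by `loc_SF_eq_span` and `ChartData.mono_mem_span` it suffices to treat `f^p * mono u^x1 * mono w^x2` with `f ∈ loc i_x j_x`;
write `f = ∑ c t • b x t + g`, `g ∈ P.loc`; then `f^p = ∑ (c t)^p • (b x t)^p + g^p` (`add_pow_expChar`, `sum_pow_expChar`; `K` has
`ExpChar p`) and `g^p * mono u^x1 * mono w^x2 ∈ (frobK p P).loc i j`. -/
theorem InChart.lcod_frob (h : InChart P e e') (i j : ℤ) :
    FiniteDimensional k (LQ (frobK p P) e e' i j) ∧
    lcod (frobK p P) e e' i j ≤ ∑ x1 : Fin p, ∑ x2 : Fin p,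
      lcod P e e' ((i + (n : ℤ) * (x1 : ℕ)) / p) ((j + (n : ℤ) * (x2 : ℕ)) / p) := by
  have hp : 0 < p := expChar_pos k p
  have hne := h.adj.ne
  obtain ⟨u, w, r, hc⟩ := exists_chart (k := k) h.adj
  have : ExpChar (KK k) p := expChar_of_injective_algebraMap (algebraMap k (KK k)).injective p
  have hb := fun x : Fin p × Fin p =>
    @point2_lift_basis k (KK k) _ _ _
      ((SF k n).loc e e' ((i + (n : ℤ) * (x.1 : ℕ)) / p) ((j + (n : ℤ) * (x.2 : ℕ)) / p))
      (P.loc e e' ((i + (n : ℤ) * (x.1 : ℕ)) / p) ((j + (n : ℤ) * (x.2 : ℕ)) / p)) (h.finite _ _)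
  choose b hb1 hb2 using hb
  let ι := Σ x : Fin p × Fin p,
    Fin (lcod P e e' ((i + (n : ℤ) * (x.1 : ℕ)) / p) ((j + (n : ℤ) * (x.2 : ℕ)) / p))
  let c : ι → KK k := fun y =>
    b y.1 y.2 ^ p * R169.mono k u ^ (y.1.1 : ℕ) * R169.mono k w ^ (y.1.2 : ℕ)
  have hcm : ∀ y, c y ∈ (SF k n).loc e e' i j := fun y =>
    point2_mul_loc p hne hc hp _ i j _ _ (point2_pow_loc p hne (hb1 y.1 y.2))
  have key : (SF k n).loc e e' i j ≤ (frobK p P).loc e e' i j ⊔ Submodule.span k (Set.range c) := by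
    rw [loc_SF_eq_span hne, Submodule.span_le]
    rintro _ ⟨ρ, h1, h2, rfl⟩
    refine (Submodule.span_le.2 ?_) (hc.mono_mem_span n hp h1 h2)
    rintro _ ⟨x1, x2, ρ', h3, h4, rfl⟩
    have hρ' : R169.mono k ρ' ∈
        (SF k n).loc e e' ((i + (n : ℤ) * (x1 : ℕ)) / p) ((j + (n : ℤ) * (x2 : ℕ)) / p) := by
      rw [loc_SF_eq_span hne]
      exact Submodule.subset_span ⟨ρ', h3, h4, rfl⟩
    obtain ⟨a, ha⟩ := hb2 (x1, x2) _ hρ'
    have h5 := point2_mul_loc p hne hc hp _ i j _ _ (point2_pow_loc_frob p hne ha)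
    have h6 : R169.mono k ρ' ^ p * R169.mono k u ^ (x1 : ℕ) * R169.mono k w ^ (x2 : ℕ) =
        (R169.mono k ρ' - ∑ t, a t • b (x1, x2) t) ^ p * R169.mono k u ^ (x1 : ℕ) *
          R169.mono k w ^ (x2 : ℕ) + ∑ t, a t ^ p • c ⟨(x1, x2), t⟩ := by
      rw [sub_pow_expChar, sum_pow_char]
      simp only [c, smul_pow, sub_mul, Finset.sum_mul, smul_mul_assoc]
      rw [sub_add_cancel]
    rw [SetLike.mem_coe, h6]
    exact Submodule.add_mem_sup h5 (Submodule.sum_mem _ fun t _ =>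
      Submodule.smul_mem _ _ (Submodule.subset_span ⟨_, rfl⟩))
  have := point2_span_bound (B := (frobK p P).loc e e' i j) c hcm fun f hf => by
    obtain ⟨g, hg, s, hs, rfl⟩ := Submodule.mem_sup.1 (key hf)
    obtain ⟨a, rfl⟩ := (Submodule.mem_span_range_iff_exists_fun k).1 hs
    exact ⟨a, by simpa using hg⟩
  refine ⟨this.1, this.2.trans (le_of_eq ?_)⟩
  simp only [ι, Fintype.card_sigma, Fintype.card_fin, Fintype.sum_prod_type]

/-- `eventually_eq_of_irr` for `frobK p P ≤ sat`.  For `X ≥ frobK p P`, `w ∈ sat.sub δ`, `Q = X.colon δ w` prime: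
`P ≤ Q` (for `f ∈ P.sub γ`, `f^p • w = w • f^p ∈ (frobK p P).sub (p γ + δ)`, `mem_of_pow_mem`), and `w ∈ (frobK p P).sub δ'` for some
`δ' ≥ δ` equal at `e, e'`, so `1 ∈ Q.sub (δ' - δ)`, `exists_var`, `irr_of_var`. -/
theorem InChart.eventually_frob_eq_sat (h : InChart P e e') :
    ∀ᶠ γ in deep, (frobK p P).sub γ = ((frobK p P).sat h.adj.ne).sub γ := by
  have hne := h.adj.ne
  have hle : frobK p P ≤ SF k n := frobK_le_SF p h.prime.le
  refine eventually_eq_of_irr (N := (frobK p P).sat hne) (fg_SF.of_le fun γ => inf_le_left)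
    (fun γ v hv => ⟨hle γ hv, (mem_loc hne).2 ⟨γ, rfl, rfl, hv⟩⟩) fun X hX δ w hw hQ => ?_
  have hPQ := point2_le_colon p h.prime.le hX hw.1 hQ
  obtain ⟨γ, h1, h2, h3⟩ := (mem_loc hne).1 hw.2
  have ha : 0 ≤ γ ⊔ δ - δ := sub_nonneg.2 le_sup_right
  have h4 : (1 : KK k) ∈ (X.colon δ w).sub (γ ⊔ δ - δ) := by
    refine mem_colon.2 ⟨one_mem_S ha, ?_⟩
    rw [one_smul, sub_add_cancel]
    exact hX _ ((frobK p P).mono le_sup_left h3)
  obtain ⟨e'', h5, h6⟩ := hQ.exists_var ha h4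
  refine h.irr_of_var (colon_le_SF X δ w) hPQ (e'' := e'') ?_ ?_ h6
  · rintro rfl
    simp [h1] at h5
  · rintro rfl
    simp [h2] at h5

/-- If `P` is in no chart it is irrelevant (`irr_of_not_node`), and so is `frobK p P` (`eventually_eq_of_irr` for
`frobK p P ≤ SF`: the colon primes contain `P`, so are irrelevant): `s = 0`.  Otherwise `s = ∑∑ lcod P`; use `eventually_cdim`,
`eventually_frob_eq_sat`, `dim_le_sat_add_lcod`, `sum_chr_pair` for `lcod (frobK p P)` (periodic by `lcod_add`), `lcod_frob`, and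
`sum_floor_frob` twice (`expChar_pos`). -/
theorem IsPrime.point_data (hP : P.IsPrime) (hb : ∃ C : ℕ, ∀ᶠ γ in deep, (SF k n).dim γ ≤ P.dim γ + C) :
    ∃ s : ℚ, (∀ᶠ γ in deep, ((SF k n).cdim γ : ℚ) = P.cdim γ + (n : ℚ) ^ 3 * s) ∧
      ∀ᶠ γ in deep, ((SF k n).cdim γ : ℚ) ≤ (frobK p P).cdim γ + (n : ℚ) ^ 3 * ((p : ℚ) ^ 2 * s) := by
  have hp : 0 < p := expChar_pos k p
  by_cases hch : ∃ e e', InChart P e e'
  · obtain ⟨e, e', h⟩ := hch
    refine ⟨∑ i : Fin n, ∑ j : Fin n, (lcod P e e' (i : ℕ) (j : ℕ) : ℚ), h.eventually_cdim, ?_⟩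
    have hsum : ∑ i : Fin n, ∑ j : Fin n, lcod (frobK p P) e e' (i : ℕ) (j : ℕ) ≤
        p ^ 2 * ∑ i : Fin n, ∑ j : Fin n, lcod P e e' (i : ℕ) (j : ℕ) := by
      refine (Finset.sum_le_sum fun i _ => Finset.sum_le_sum fun j _ =>
        (h.lcod_frob p _ _).2).trans (le_of_eq ?_)
      have h1 : ∀ i : Fin n, ∑ j : Fin n, ∑ x1 : Fin p, ∑ x2 : Fin p,
          lcod P e e' ((((i : ℕ) : ℤ) + (n : ℤ) * (x1 : ℕ)) / p) ((((j : ℕ) : ℤ) + (n : ℤ) * (x2 : ℕ)) / p) =
          ∑ x1 : Fin p, p * ∑ j : Fin n,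
            lcod P e e' ((((i : ℕ) : ℤ) + (n : ℤ) * (x1 : ℕ)) / p) (j : ℕ) := fun i => by
        rw [Finset.sum_comm]
        exact Finset.sum_congr rfl fun x1 _ => sum_floor_frob hp fun y =>
          lcod P e e' ((((i : ℕ) : ℤ) + (n : ℤ) * (x1 : ℕ)) / p) y
      rw [Finset.sum_congr rfl fun i _ => h1 i,
        sum_floor_frob hp fun y => p * ∑ j : Fin n, lcod P e e' y (j : ℕ), ← Finset.mul_sum]
      ring
    have hsum' : ∑ i : Fin n, ∑ j : Fin n, (lcod (frobK p P) e e' (i : ℕ) (j : ℕ) : ℚ) ≤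
        (p : ℚ) ^ 2 * ∑ i : Fin n, ∑ j : Fin n, (lcod P e e' (i : ℕ) (j : ℕ) : ℚ) := by
      exact_mod_cast hsum
    filter_upwards [eventually_forall_add_rel (h.eventually_frob_eq_sat p)] with γ hγ
    have h2 := sum_chr_pair (n := n) h.adj (fun i j => (lcod (frobK p P) e e' i j : ℚ))
      (fun i j => by simpa using lcod_add (frobK p P) h.adj i j 1 0)
      (fun i j => by simpa using lcod_add (frobK p P) h.adj i j 0 1) γ
    have h3 : (SF k n).cdim γ ≤ (frobK p P).cdim γ + ∑ c : Fin 5 → Fin n,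
        lcod (frobK p P) e e' ((γ + rel (chr c)) e) ((γ + rel (chr c)) e') := by
      rw [cdim, cdim, ← Finset.sum_add_distrib]
      refine Finset.sum_le_sum fun c _ => ?_
      have := (h.lcod_frob p ((γ + rel (chr c)) e) ((γ + rel (chr c)) e')).1
      have := dim_le_sat_add_lcod (frobK p P) h.adj.ne (γ + rel (chr c))
      rwa [dim, dim, ← hγ] at this
    have h4 : ((SF k n).cdim γ : ℚ) ≤ (frobK p P).cdim γ + ∑ c : Fin 5 → Fin n,
        (lcod (frobK p P) e e' ((γ + rel (chr c)) e) ((γ + rel (chr c)) e') : ℚ) := by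
      exact_mod_cast h3
    rw [h2] at h4
    have h5 := mul_le_mul_of_nonneg_left hsum' (by positivity : (0 : ℚ) ≤ (n : ℚ) ^ 3)
    linarith
  · have hirr : P.Irr := hP.irr_of_not_node fun e e' hadj => by
      by_contra hcon
      exact hch ⟨e, e', hP, hadj, fun e'' h1 h2 h3 => hcon ⟨e'', h1, h2, h3⟩, hb⟩
    have hf : ∀ᶠ γ in deep, (frobK p P).sub γ = (SF k n).sub γ :=
      eventually_eq_of_irr fg_SF (frobK_le_SF p hP.le) fun X hX δ w hw hQ => by
        have hPQ := point2_le_colon p hP.le hX hw hQ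
        filter_upwards [hirr] with γ hγ
        exact le_antisymm (hQ.le γ) (hγ ▸ hPQ γ)
    refine ⟨0, ?_, ?_⟩
    · filter_upwards [eventually_cdim_eq (A := P) (A' := SF k n) hirr] with γ hγ
      simp [hγ]
    · filter_upwards [eventually_cdim_eq hf] with γ hγ
      simp [hγ]

end Fam

end Crest.Agent.R169
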