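import Crest.Agent.R169.Basic3

/-!
# rid 169, file `ValApi`: consequences of the axioms of a valuation system

Prefix helper lemmas with `valapi_`.
-/

set_option autoImplicit false

namespace Crest.Agent.R169

open Filter

variable {k : Type} [Field k] {n : ℕ}

namespace ValSys

variable (𝒱 : ValSys k n)

theorem w_one (j : 𝒱.J) : 𝒱.w j 0 1 = 0 := by
  have h := 𝒱.w_mul j 0 0 1 1 one_ne_zero one_ne_zero
  rw [add_zero, mul_one] at h
  omega

theorem w_inv (j : 𝒱.J) (γ : Deg) {f : KK k} (hf : f ≠ 0) : 𝒱.w j (-γ) f⁻¹ = -𝒱.w j γ f := by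
  have h := 𝒱.w_mul j γ (-γ) f f⁻¹ hf (inv_ne_zero hf)
  rw [add_neg_cancel, mul_inv_cancel₀ hf, w_one] at h
  omega

theorem w_div (j : 𝒱.J) (γ δ : Deg) {f g : KK k} (hf : f ≠ 0) (hg : g ≠ 0) :
    𝒱.w j (γ - δ) (f / g) = 𝒱.w j γ f - 𝒱.w j δ g := by
  rw [sub_eq_add_neg, div_eq_mul_inv, 𝒱.w_mul j _ _ _ _ hf (inv_ne_zero hg), w_inv _ _ _ hg]
  ring

theorem w_pow (j : 𝒱.J) (γ : Deg) {f : KK k} (hf : f ≠ 0) (m : ℕ) :
    𝒱.w j ((m : ℤ) • γ) (f ^ m) = m * 𝒱.w j γ f := by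
  induction m with
  | zero => simp [w_one]
  | succ m ih =>
    rw [Nat.cast_succ, add_smul, one_smul, pow_succ, 𝒱.w_mul j _ _ _ _ (pow_ne_zero _ hf) hf, ih]
    ring

theorem w_prod (j : 𝒱.J) {T : Type} (s : Finset T) (γ : T → Deg) (f : T → KK k) (hf : ∀ t ∈ s, f t ≠ 0) :
    𝒱.w j (∑ t ∈ s, γ t) (∏ t ∈ s, f t) = ∑ t ∈ s, 𝒱.w j (γ t) (f t) := by
  classical
  induction s using Finset.induction_on with
  | empty => simp [w_one]
  | insert a s ha ih =>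
    rw [Finset.sum_insert ha, Finset.prod_insert ha, Finset.sum_insert ha,
      𝒱.w_mul j _ _ _ _ (hf a (Finset.mem_insert_self _ _))
        (Finset.prod_ne_zero_iff.2 fun t ht => hf t (Finset.mem_insert_of_mem ht)),
      ih fun t ht => hf t (Finset.mem_insert_of_mem ht)]

theorem w_neg (j : 𝒱.J) (γ : Deg) {f : KK k} (hf : f ≠ 0) : 𝒱.w j γ (-f) = 𝒱.w j γ f := by
  have h := 𝒱.w_smul j γ (-1 : k) f (neg_ne_zero.2 one_ne_zero) hf
  rwa [neg_smul, one_smul] at h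

theorem w_nonneg (j : 𝒱.J) {γ : Deg} {f : KK k} (hf : f ∈ S k n γ) (h0 : f ≠ 0) : 0 ≤ 𝒱.w j γ f :=
  (𝒱.mem_S γ f h0).1 hf j

/-- Strict ultrametric equality. -/
theorem w_add_of_lt (j : 𝒱.J) (γ : Deg) {f g : KK k} (hf : f ≠ 0) (hg : g = 0 ∨ 𝒱.w j γ f < 𝒱.w j γ g) :
    f + g ≠ 0 ∧ 𝒱.w j γ (f + g) = 𝒱.w j γ f := by
  by_cases hg0 : g = 0
  · subst hg0
    simpa using hf
  have hlt := hg.resolve_left hg0
  have hfg : f + g ≠ 0 := by
    intro h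
    have e : g = -f := by linear_combination h
    rw [e, w_neg _ _ _ hf] at hlt
    exact lt_irrefl _ hlt
  refine ⟨hfg, ?_⟩
  have h1 := 𝒱.w_add j γ f g hf hg0 hfg
  have h2 := 𝒱.w_add j γ (f + g) (-g) hfg (neg_ne_zero.2 hg0) (by simpa using hf)
  rw [add_neg_cancel_right, w_neg _ _ _ hg0] at h2
  omega

theorem valapi_add (j : 𝒱.J) (γ : Deg) (m : ℤ) {f g : KK k} (hf : f = 0 ∨ m ≤ 𝒱.w j γ f)
    (hg : g = 0 ∨ m ≤ 𝒱.w j γ g) : f + g = 0 ∨ m ≤ 𝒱.w j γ (f + g) := by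
  by_cases hf0 : f = 0
  · simpa [hf0] using hg
  by_cases hg0 : g = 0
  · simpa [hg0] using hf
  by_cases h : f + g = 0
  · exact Or.inl h
  have h1 := 𝒱.w_add j γ f g hf0 hg0 h
  have h2 := hf.resolve_left hf0
  have h3 := hg.resolve_left hg0
  exact Or.inr (by omega)

theorem le_w_sum (j : 𝒱.J) (γ : Deg) (m : ℤ) {T : Type} (s : Finset T) (f : T → KK k)
    (hf : ∀ t ∈ s, f t = 0 ∨ m ≤ 𝒱.w j γ (f t)) :
    ∑ t ∈ s, f t = 0 ∨ m ≤ 𝒱.w j γ (∑ t ∈ s, f t) := by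
  classical
  induction s using Finset.induction_on with
  | empty => simp
  | insert a s ha ih =>
    rw [Finset.sum_insert ha]
    exact valapi_add 𝒱 j γ m (hf a (Finset.mem_insert_self _ _))
      (ih fun t ht => hf t (Finset.mem_insert_of_mem ht))

/-- A lower bound on generators is a lower bound on the family. -/
theorem le_w_gen (j : 𝒱.J) (α : Deg) (g : KK k) (hg : g ≠ 0) (m : ℤ) (G : Set (Deg × KK k))
    (h : ∀ p ∈ G, p.2 = 0 ∨ m ≤ 𝒱.w j (α + p.1) (p.2 / g)) {δ : Deg} {f : KK k}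
    (hf : f ∈ (Fam.gen n G : Fam k n (KK k)).sub δ) : f = 0 ∨ m ≤ 𝒱.w j (α + δ) (f / g) := by
  have key : f / g = 0 ∨ m ≤ 𝒱.w j (α + δ) (f / g) := by
    induction hf using Submodule.span_induction with
    | mem x hx =>
      obtain ⟨p, hp, a, ha, rfl⟩ := hx
      by_cases ha0 : a = 0
      · left; simp [ha0]
      by_cases hp0 : p.2 = 0
      · left; simp [hp0]
      right
      have h1 := (h p hp).resolve_left hp0
      have h2 := 𝒱.w_nonneg j ha ha0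
      have h3 := 𝒱.w_mul j (δ - p.1) (α + p.1) a (p.2 / g) ha0 (div_ne_zero hp0 hg)
      have e1 : δ - p.1 + (α + p.1) = α + δ := by abel
      rw [e1, ← mul_div_assoc] at h3
      rw [smul_eq_mul, h3]
      omega
    | zero => left; simp
    | add a b _ _ ha hb =>
      rw [add_div]
      exact valapi_add 𝒱 j _ m ha hb
    | smul c a _ ha =>
      by_cases hc : c = 0
      · left; simp [hc]
      by_cases ha0 : a / g = 0
      · left; rw [smul_div_assoc, ha0, smul_zero]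
      right
      rw [smul_div_assoc, 𝒱.w_smul j _ c _ hc ha0]
      exact ha.resolve_left ha0
  rcases key with h0 | h0
  · exact Or.inl ((div_eq_zero_iff.1 h0).resolve_right hg)
  · exact Or.inr h0

theorem valapi_zpow (j : 𝒱.J) (γ : Deg) {f : KK k} (hf : f ≠ 0) (m : ℤ) :
    𝒱.w j (m • γ) (f ^ m) = m * 𝒱.w j γ f := by
  obtain ⟨l, rfl | rfl⟩ := Int.eq_nat_or_neg m
  · rw [zpow_natCast, w_pow _ _ _ hf]
  · rw [zpow_neg, zpow_natCast, neg_smul, w_inv _ _ _ (pow_ne_zero _ hf), w_pow _ _ _ hf]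
    ring

/-- Products of (integer) powers of uniformisers. -/
theorem exists_prescribed (m : 𝒱.J → ℤ) (hm : {j | m j ≠ 0}.Finite) :
    ∃ (α : Deg) (g : KK k), g ≠ 0 ∧ ∀ j, 𝒱.w j α g = m j := by
  classical
  choose γ f hf0 hf1 hf2 using 𝒱.unif
  refine ⟨∑ t ∈ hm.toFinset, m t • γ t, ∏ t ∈ hm.toFinset, f t ^ m t,
    Finset.prod_ne_zero_iff.2 fun t _ => zpow_ne_zero _ (hf0 t), fun j => ?_⟩
  rw [w_prod _ _ _ _ _ fun t _ => zpow_ne_zero _ (hf0 t)]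
  simp only [valapi_zpow _ _ _ (hf0 _)]
  rw [Finset.sum_eq_single j]
  · rw [hf1, mul_one]
  · intro t _ ht
    rw [hf2 t j (Ne.symm ht), mul_zero]
  · intro hj
    have : m j = 0 := by simpa using hj
    rw [this, zero_mul]

/-- Prescribe `max 0 (-w j' α u)` at `j' ≠ j` and `0` at `j`. -/
theorem exists_local_denom (j : 𝒱.J) (α : Deg) {u : KK k} (hu : u = 0 ∨ 0 ≤ 𝒱.w j α u) :
    ∃ (ε : Deg) (f : KK k), f ≠ 0 ∧ f ∈ S k n ε ∧ 𝒱.w j ε f = 0 ∧ f * u ∈ S k n (ε + α) := by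
  classical
  by_cases hu0 : u = 0
  · exact ⟨0, 1, one_ne_zero, one_mem_S le_rfl, w_one _ _, by simp [hu0]⟩
  have hj := hu.resolve_left hu0
  obtain ⟨ε, f, hf0, hf⟩ := 𝒱.exists_prescribed (fun j' => max 0 (-𝒱.w j' α u))
    ((𝒱.fin α u hu0).subset fun j' hj' h0 => hj' (by simp [h0]))
  refine ⟨ε, f, hf0, (𝒱.mem_S _ _ hf0).2 fun j' => ?_, ?_,
    (𝒱.mem_S _ _ (mul_ne_zero hf0 hu0)).2 fun j' => ?_⟩
  · rw [hf]; exact le_max_left _ _
  · rw [hf]; omega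
  · rw [𝒱.w_mul _ _ _ _ _ hf0 hu0, hf]; omega

theorem mem_S_of_coprime {α β γ : Deg} {a b f : KK k} (ha0 : a ≠ 0) (hb0 : b ≠ 0)
    (hc : ∀ j, 𝒱.w j α a = 0 ∨ 𝒱.w j β b = 0) (h1 : a * f ∈ S k n (γ + α)) (h2 : b * f ∈ S k n (γ + β)) :
    f ∈ S k n γ := by
  by_cases hf0 : f = 0
  · rw [hf0]; exact zero_mem _
  refine (𝒱.mem_S _ _ hf0).2 fun j => ?_
  have e1 := 𝒱.w_nonneg j h1 (mul_ne_zero ha0 hf0)
  have e2 := 𝒱.w_nonneg j h2 (mul_ne_zero hb0 hf0)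
  rw [add_comm, 𝒱.w_mul _ _ _ _ _ ha0 hf0] at e1
  rw [add_comm, 𝒱.w_mul _ _ _ _ _ hb0 hf0] at e2
  rcases hc j with h | h <;> omega

variable [NeZero n]

/-- `f ∈ S γ`, `f⁻¹ ∈ S (-γ)`, `exists_eq_of_mem_S_neg`. -/
theorem Bv_eq_zero_of_unit {γ : Deg} {f : KK k} (hf : f ≠ 0) (h : ∀ j, 𝒱.w j γ f = 0) : Bv γ = 0 := by
  have h1 : f ∈ S k n γ := (𝒱.mem_S _ _ hf).2 fun j => (h j).ge
  have h2 : f⁻¹ ∈ S k n (-γ) := (𝒱.mem_S _ _ (inv_ne_zero hf)).2 fun j => by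
    rw [w_inv _ _ _ hf, h j]; simp
  obtain ⟨ρ, hρ⟩ := exists_eq_of_mem_S_neg h1 hf h2 (inv_ne_zero hf)
  have := congrArg Bv hρ
  rwa [Bv_add, Bv_smul, Bv_rel, smul_zero, add_zero, Bv_zero] at this

include 𝒱 in
/-- Test with the monomials `g` of `eventually_exists_rel_lt` (for `j = bd e`: `w j g < n`; otherwise `w j g = 0`), and
`w j (β + α + n • 1) f = w j (β + α) f + w j (n • 1) 1`, where `w j (n • 1) 1 = n` for `j = bd e`, else `0`. -/
theorem mem_S_of_forall_mul {h α β : Deg} (hh : Ample h) {f : KK k}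
    (hf : ∀ j : ℤ, ∀ g ∈ S k n (j • h - β), f * g ∈ S k n (j • h + α)) :
    f ∈ S k n (β + α + (n : ℤ) • (1 : Deg)) := by
  by_cases hf0 : f = 0
  · rw [hf0]; exact zero_mem _
  refine (𝒱.mem_S _ _ hf0).2 fun j => ?_
  have hT : Tendsto (fun t : ℤ => t • h - β) atTop deep :=
    (tendsto_sub_deep β).comp (tendsto_smul_deep hh)
  have key : ∀ (t : ℤ) (ρ : Fin 5 → ℤ), 0 ≤ t • h - β + (n : ℤ) • rel ρ →
      0 ≤ 𝒱.w j (β + α) f + 𝒱.w j (t • h - β) (mono k ρ) := by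
    intro t ρ hρ
    have h1 := 𝒱.w_nonneg j (hf t _ (mono_mem_S hρ)) (mul_ne_zero hf0 (mono_ne_zero k ρ))
    have e1 : t • h + α = β + α + (t • h - β) := by abel
    rwa [e1, 𝒱.w_mul _ _ _ _ _ hf0 (mono_ne_zero k ρ)] at h1
  have h2 := 𝒱.w_mul j (β + α) ((n : ℤ) • (1 : Deg)) f (mono k 0) hf0 (mono_ne_zero k 0)
  rw [mono_zero, mul_one, ← mono_zero k] at h2
  rw [h2]
  by_cases hj : j ∈ Set.range 𝒱.bd
  · obtain ⟨e, rfl⟩ := hj
    obtain ⟨t, ρ, h3, h4⟩ := (hT.eventually (eventually_exists_rel_lt (n := n) e)).exists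
    have h5 := key t ρ h3
    rw [𝒱.w_bd] at h5 ⊢
    simp only [Pi.add_apply, Pi.smul_apply, smul_eq_mul, rel_zero, Pi.one_apply, Pi.zero_apply,
      mul_zero, mul_one, add_zero] at h4 h5 ⊢
    omega
  · obtain ⟨t, ρ, h3⟩ := (hT.eventually (eventually_exists_rel (n := n))).exists
    have h5 := key t ρ h3
    rw [𝒱.w_nbd j hj] at h5 ⊢
    exact h5

end ValSys

namespace Fam

theorem within_gen_iff {G : Set (Deg × KK k)} {g : KK k} {α : Deg} :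
    (gen n G : Fam k n (KK k)).Within g α ↔ ∀ p ∈ G, p.2 / g ∈ S k n (α + p.1) := by
  refine ⟨fun h p hp => h _ _ (subset_gen hp), fun h δ f hf => ?_⟩
  induction hf using Submodule.span_induction with
  | mem x hx =>
    obtain ⟨p, hp, a, ha, rfl⟩ := hx
    have := mul_mem_S ha (h p hp)
    have e1 : δ - p.1 + (α + p.1) = α + δ := by abel
    rwa [e1, ← mul_div_assoc] at this
  | zero => simp
  | add a b _ _ ha hb => rw [add_div]; exact add_mem ha hb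
  | smul c a _ ha => rw [smul_div_assoc]; exact Submodule.smul_mem _ c ha

theorem Within.mono {I I' : Fam k n (KK k)} (h : I ≤ I') {g : KK k} {α : Deg} (h' : I'.Within g α) :
    I.Within g α := fun δ f hf => h' δ f (h δ hf)

/-- `g • S(α)` is finitely generated: it is `gen {(-α, g)}`. -/
theorem within_iff_le {I : Fam k n (KK k)} {g : KK k} (hg : g ≠ 0) {α : Deg} :
    I.Within g α ↔ I ≤ gen n {(-α, g)} := by
  refine ⟨fun h δ f hf => mem_gen_singleton.2 ⟨f / g, ?_, ?_⟩, fun h δ f hf => ?_⟩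
  · rw [sub_neg_eq_add, add_comm]; exact h δ f hf
  · rw [smul_eq_mul, div_mul_cancel₀ _ hg]
  · obtain ⟨a, ha, rfl⟩ := mem_gen_singleton.1 (h δ hf)
    rw [smul_eq_mul, mul_div_cancel_right₀ _ hg, add_comm]
    rwa [sub_neg_eq_add] at ha

variable {𝒱 : ValSys k n}

theorem Tight.ne_bot {I : Fam k n (KK k)} {g : KK k} {α : Deg} (h : Tight 𝒱 I g α) : I ≠ ⊥ := by
  rintro rfl
  obtain ⟨δ, f, hf, hf0, -⟩ := h.att (𝒱.bd 0)
  exact hf0 ((Submodule.mem_bot k).1 hf)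

/-- At each `j` test with the element of `I` where the minimum is attained. -/
theorem Tight.div_mem {I : Fam k n (KK k)} {g g' : KK k} {α α' : Deg} (h : Tight 𝒱 I g α) (hg' : g' ≠ 0)
    (h' : I.Within g' α') : g / g' ∈ S k n (α' - α) := by
  refine (𝒱.mem_S _ _ (div_ne_zero h.ne hg')).2 fun j => ?_
  obtain ⟨δ, f, hf, hf0, hw⟩ := h.att j
  have h1 := 𝒱.w_nonneg j (h' δ f hf) (div_ne_zero hf0 hg')
  have h2 := 𝒱.w_mul j (α + δ) (α' - α) (f / g) (g / g') (div_ne_zero hf0 h.ne) (div_ne_zero h.ne hg')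
  have e1 : α + δ + (α' - α) = α' + δ := by abel
  rw [e1, div_mul_div_cancel₀ h.ne] at h2
  omega

theorem Tight.B_le {I : Fam k n (KK k)} {g g' : KK k} {α α' : Deg} (h : Tight 𝒱 I g α) (hg' : g' ≠ 0)
    (h' : I.Within g' α') {H : Deg} (hH : Nef H) : B α H ≤ B α' H := by
  have := B_nonneg_of_mem_S (h.div_mem hg' h') (div_ne_zero h.ne hg') hH
  rw [B_sub_left] at this
  omega

theorem Tight.Bv_eq [NeZero n] {I : Fam k n (KK k)} {g g' : KK k} {α α' : Deg} (h : Tight 𝒱 I g α)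
    (h' : Tight 𝒱 I g' α') : Bv α = Bv α' := by
  have h1 := h.div_mem h'.ne h'.within
  have h2 := h'.div_mem h.ne h.within
  rw [← neg_sub α' α] at h2
  obtain ⟨ρ, hρ⟩ := exists_eq_of_mem_S_neg h1 (div_ne_zero h.ne h'.ne) h2 (div_ne_zero h'.ne h.ne)
  have := congrArg Bv hρ
  rw [Bv_add, Bv_smul, Bv_rel, smul_zero, add_zero, Bv_zero, Bv_sub] at this
  exact (sub_eq_zero.1 this).symm

/-- The greatest common divisor.  Let `(δ i, f i)` be the nonzero generators (there is one), `m j = min_i w j (δ i) (f i)`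
(finitely supported), `(α', g)` with `w j α' g = m j` (`exists_prescribed`), `α = -α'`. -/
theorem FG.exists_tight (𝒱 : ValSys k n) {I : Fam k n (KK k)} (h : I.FG) (h0 : I ≠ ⊥) :
    ∃ g α, Tight 𝒱 I g α := by
  classical
  obtain ⟨G, hG, rfl⟩ := h
  let T : Finset (Deg × KK k) := hG.toFinset.filter fun p => p.2 ≠ 0
  have hT : ∀ p, p ∈ T ↔ p ∈ G ∧ p.2 ≠ 0 := fun p => by simp [T]
  have hne : T.Nonempty := by
    by_contra hc
    refine h0 (le_bot_iff.1 (gen_le_iff.2 fun p hp => ?_))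
    by_contra hp0
    exact hc ⟨p, (hT p).2 ⟨hp, fun e => hp0 (by rw [e]; exact zero_mem _)⟩⟩
  have hfin : {j | T.inf' hne (fun p => 𝒱.w j p.1 p.2) ≠ 0}.Finite := by
    refine (T.finite_toSet.biUnion fun p hp => 𝒱.fin p.1 p.2 ((hT p).1 hp).2).subset fun j hj => ?_
    obtain ⟨p, hp, e⟩ := Finset.exists_mem_eq_inf' hne (fun p => 𝒱.w j p.1 p.2)
    exact Set.mem_biUnion hp (by rw [Set.mem_ofPred_eq, ← e]; exact hj)
  obtain ⟨α, g, hg0, hg⟩ := 𝒱.exists_prescribed _ hfin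
  have hw : ∀ j (p : Deg × KK k), p.2 ≠ 0 →
      𝒱.w j (-α + p.1) (p.2 / g) = 𝒱.w j p.1 p.2 - T.inf' hne (fun p => 𝒱.w j p.1 p.2) := by
    intro j p hp
    rw [neg_add_eq_sub, 𝒱.w_div j _ _ hp hg0, hg]
  refine ⟨g, -α, hg0, within_gen_iff.2 fun p hp => ?_, fun j => ?_⟩
  · by_cases hp0 : p.2 = 0
    · rw [hp0, zero_div]; exact zero_mem _
    refine (𝒱.mem_S _ _ (div_ne_zero hp0 hg0)).2 fun j => ?_
    rw [hw j p hp0]
    exact sub_nonneg.2 (Finset.inf'_le (fun p => 𝒱.w j p.1 p.2) ((hT p).2 ⟨hp, hp0⟩))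
  · obtain ⟨p, hp, e⟩ := Finset.exists_mem_eq_inf' hne (fun p => 𝒱.w j p.1 p.2)
    refine ⟨p.1, p.2, subset_gen ((hT p).1 hp).1, ((hT p).1 hp).2, ?_⟩
    rw [hw j p ((hT p).1 hp).2, e, sub_self]

theorem tight_gen_singleton (𝒱 : ValSys k n) (δ : Deg) {g : KK k} (hg : g ≠ 0) :
    Tight 𝒱 (gen n {(δ, g)}) g (-δ) := by
  refine ⟨hg, within_gen_iff.2 ?_, fun j => ⟨δ, g, subset_gen (p := (δ, g)) rfl, hg, ?_⟩⟩
  · rintro p rfl
    rw [div_self hg, neg_add_cancel]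
    exact one_mem_S le_rfl
  · rw [div_self hg, neg_add_cancel, 𝒱.w_one]

/-- `frobK` is generated by the `(p • δ, f ^ p)`; `within_gen_iff`, `pow_mem_S`, `w_pow`. -/
theorem Tight.pow {I : Fam k n (KK k)} {g : KK k} {α : Deg} (h : Tight 𝒱 I g α) (p : ℕ) :
    Tight 𝒱 (frobK p I) (g ^ p) ((p : ℤ) • α) := by
  refine ⟨pow_ne_zero _ h.ne, within_gen_iff.2 ?_, fun j => ?_⟩
  · rintro _ ⟨δ, f, hf, rfl⟩
    dsimp only
    rw [← div_pow, ← smul_add]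
    exact pow_mem_S (h.within δ f hf) p
  · obtain ⟨δ, f, hf, hf0, hw⟩ := h.att j
    refine ⟨(p : ℤ) • δ, f ^ p, mem_frob p (fun f => f ^ p) hf, pow_ne_zero _ hf0, ?_⟩
    rw [← div_pow, ← smul_add, 𝒱.w_pow j _ (div_ne_zero hf0 h.ne), hw, mul_zero]

end Fam

end Crest.Agent.R169
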