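import Crest.Agent.R169.Noeth
import Crest.Agent.R169.ValApi
import Crest.Agent.R169.Val3
import Crest.Agent.R169.Comb3

/-!
# rid 169, file `Prime`: homogeneous primes

The *variable* of the line `e` is the section `1 ∈ S (Pi.single e 1)`.  Prefix helper lemmas with `prime_`.
-/

set_option autoImplicit false

namespace Crest.Agent.R169

open Filter

namespace Fam

variable {k : Type} [Field k] {n : ℕ} [NeZero n] {P : Fam k n (KK k)}

/-- The variable of the line `e` lies in `P`. -/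
def Var (P : Fam k n (KK k)) (e : Fin 10) : Prop := (1 : KK k) ∈ P.sub (Pi.single e 1)

omit [NeZero n] in
theorem IsPrime.mem_of_pow_mem (hP : P.IsPrime) {γ : Deg} {f : KK k} (hf : f ∈ S k n γ) {m : ℕ}
    (h : f ^ m ∈ P.sub ((m : ℤ) • γ)) : f ∈ P.sub γ := by
  induction m with
  | zero => exact absurd (by simpa using h) hP.one_not_mem
  | succ m ih =>
    rw [pow_succ, Nat.cast_succ, add_smul, one_smul] at h
    exact (hP.mem_or_mem (pow_mem_S hf m) hf h).elim ih id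

omit [NeZero n] in
theorem IsPrime.exists_mem_of_prod_mem (hP : P.IsPrime) {T : Type} (s : Finset T) {γ : T → Deg}
    {f : T → KK k} (hf : ∀ t ∈ s, f t ∈ S k n (γ t)) (h : ∏ t ∈ s, f t ∈ P.sub (∑ t ∈ s, γ t)) :
    ∃ t ∈ s, f t ∈ P.sub (γ t) := by
  classical
  induction s using Finset.induction_on with
  | empty => exact absurd (by simpa using h) hP.one_not_mem
  | insert t s ht ih =>
    rw [Finset.prod_insert ht, Finset.sum_insert ht] at h
    have hf' : ∀ t ∈ s, f t ∈ S k n (γ t) := fun u hu => hf u (Finset.mem_insert_of_mem hu)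
    rcases hP.mem_or_mem (hf t (Finset.mem_insert_self t s)) (prod_mem_S s hf') h with h | h
    · exact ⟨t, Finset.mem_insert_self t s, h⟩
    · obtain ⟨u, hu, h⟩ := ih hf' h
      exact ⟨u, Finset.mem_insert_of_mem hu, h⟩

omit [NeZero n] in
/-- `1 ∈ S a` is the product of the variables. -/
theorem IsPrime.exists_var (hP : P.IsPrime) {a : Deg} (ha : 0 ≤ a) (h : (1 : KK k) ∈ P.sub a) :
    ∃ e, 1 ≤ a e ∧ P.Var e := by
  have h1 : ∀ e : Fin 10, (1 : KK k) ∈ S k n (Pi.single e 1) := fun e =>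
    one_mem_S (Pi.single_nonneg.2 zero_le_one)
  have e1 : ∑ e, ((a e).toNat : ℤ) • (Pi.single e 1 : Deg) = a := by
    funext x
    simp [Finset.sum_apply, Pi.single_apply, show 0 ≤ a x from ha x]
  obtain ⟨e, -, he⟩ := hP.exists_mem_of_prod_mem Finset.univ
    (fun e _ => pow_mem_S (h1 e) (a e).toNat) (by simpa only [e1, one_pow, Finset.prod_const_one] using h)
  refine ⟨e, ?_, hP.mem_of_pow_mem (h1 e) he⟩
  by_contra h0
  rw [show (a e).toNat = 0 by omega] at he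
  exact hP.one_not_mem (by simpa using he)

omit [NeZero n] in
/-- `mem_add_rel_iff` and `Fam.mono`. -/
theorem Var.mono_mem {e : Fin 10} (h : P.Var e) {γ : Deg} {ρ : Fin 5 → ℤ}
    (h0 : 0 ≤ γ + (n : ℤ) • rel ρ) (h1 : 1 ≤ (γ + (n : ℤ) • rel ρ) e) : R169.mono k ρ ∈ P.sub γ := by
  rw [← mul_one (R169.mono k ρ), ← smul_eq_mul, ← mem_add_rel_iff]
  refine P.mono (fun x => ?_) h
  by_cases hx : x = e
  · rwa [hx, Pi.single_eq_same]
  · rw [Pi.single_eq_of_ne hx]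
    exact h0 x

omit [NeZero n] in
theorem IsPrime.exists_var_of_mono_mem (hP : P.IsPrime) {γ : Deg} {ρ : Fin 5 → ℤ}
    (h0 : 0 ≤ γ + (n : ℤ) • rel ρ) (h : R169.mono k ρ ∈ P.sub γ) :
    ∃ e, 1 ≤ (γ + (n : ℤ) • rel ρ) e ∧ P.Var e := by
  rw [← mul_one (R169.mono k ρ), ← smul_eq_mul, ← mem_add_rel_iff] at h
  exact hP.exists_var h0 h

/-- The five Plücker relations, as triples of pairs of lines. -/
def pl : Fin 5 → Fin 3 → Fin 10 × Fin 10 :=
  ![![(6,2), (9,7), (0,5)], ![(6,3), (9,8), (1,5)], ![(6,4), (0,8), (1,7)], ![(5,4), (7,3), (8,2)],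
    ![(9,4), (0,3), (1,2)]]

/-- The exponents of the three monomials. -/
def prime_r : Fin 5 → Fin 3 → Fin 5 → ℤ :=
  ![![0, ![0,0,-1,0,0], ![1,0,-1,0,0]], ![0, ![0,0,0,-1,0], ![0,1,0,-1,0]],
    ![0, ![1,0,0,0,-1], ![0,1,0,0,-1]], ![0, ![0,0,0,1,-1], ![0,0,1,0,-1]],
    ![0, ![1,0,0,1,-1], ![0,1,1,0,-1]]]

/-- The signs. -/
def prime_c : Fin 5 → Fin 3 → ℤ := ![![1,1,-1], ![1,1,-1], ![1,1,-1], ![1,-1,1], ![1,-1,1]]

theorem prime_c_sq : ∀ q j, prime_c q j * prime_c q j = 1 := by decide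

theorem prime_deg : ∀ q j, (Pi.single (pl q 0).1 1 + Pi.single (pl q 0).2 1 : Deg) + rel (prime_r q j) =
    Pi.single (pl q j).1 1 + Pi.single (pl q j).2 1 := by decide +kernel

theorem prime_rel (k : Type) [Field k] (q : Fin 5) :
    ∑ j, prime_c q j • R169.mono k (prime_r q j) = 0 := by
  have h2 : pp k 2 = pp k 0 - 1 := by simp [pp, ppP]
  have h3 : pp k 3 = pp k 1 - 1 := by simp [pp, ppP]
  have h4 : pp k 4 = pp k 1 - pp k 0 := by simp [pp, ppP]
  have n2 := pp_ne_zero k 2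
  have n3 := pp_ne_zero k 3
  have n4 := pp_ne_zero k 4
  fin_cases q <;>
    simp [Fin.sum_univ_three, prime_c, prime_r, R169.mono, Fin.prod_univ_five] <;>
    field_simp <;> simp only [h2, h3, h4] <;> ring

theorem prime_iff (hP : P.IsPrime) {γ : Deg} {ρ : Fin 5 → ℤ} {a b : Fin 10}
    (h : γ + rel ρ = Pi.single a 1 + Pi.single b 1) :
    R169.mono k ρ ∈ P.sub ((n : ℤ) • γ) ↔ P.Var a ∨ P.Var b := by
  have hn : (1 : ℤ) ≤ n := by exact_mod_cast NeZero.pos n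
  have e : ∀ x, ((n : ℤ) • γ + (n : ℤ) • rel ρ) x =
      n * ((if x = a then 1 else 0) + if x = b then 1 else 0) := fun x => by
    rw [← smul_add, h]
    simp [Pi.single_apply]
  have h0 : 0 ≤ (n : ℤ) • γ + (n : ℤ) • rel ρ := fun x => by
    rw [e]
    change (0 : ℤ) ≤ _
    positivity
  refine ⟨fun hm => ?_, fun hv => ?_⟩
  · obtain ⟨x, hx, hv⟩ := hP.exists_var_of_mono_mem h0 hm
    rw [e] at hx
    split_ifs at hx with h1 h2 h2
    · exact Or.inl (h1 ▸ hv)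
    · exact Or.inl (h1 ▸ hv)
    · exact Or.inr (h2 ▸ hv)
    · omega
  · rcases hv with hv | hv <;> refine hv.mono_mem h0 ?_ <;> rw [e] <;> split_ifs <;> omega

/-- In degree `γ = n • (single a0 1 + single b0 1)` (`(a0,b0) = pl q 0`) the three monomials `1, mono r1, mono r2` have
`γ + n • rel r_i = n • (single a_i 1 + single b_i 1)` and satisfy a linear relation with coefficients `±1`:
`q=0: r1 = ![0,0,-1,0,0], r2 = ![1,0,-1,0,0], 1 + mono r1 - mono r2 = 0`;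
`q=1: ![0,0,0,-1,0], ![0,1,0,-1,0], 1 + mono r1 - mono r2 = 0`;
`q=2: ![1,0,0,0,-1], ![0,1,0,0,-1], 1 + mono r1 - mono r2 = 0`;
`q=3: ![0,0,0,1,-1], ![0,0,1,0,-1], 1 - mono r1 + mono r2 = 0`;
`q=4: ![1,0,0,1,-1], ![0,1,1,0,-1], 1 - mono r1 + mono r2 = 0`.
So if two of the three lie in `P` (`Var.mono_mem`) so does the third (`exists_var_of_mono_mem`). -/
theorem IsPrime.plucker (hP : P.IsPrime) (q : Fin 5) (i : Fin 3)
    (h : ∀ j, j ≠ i → P.Var (pl q j).1 ∨ P.Var (pl q j).2) : P.Var (pl q i).1 ∨ P.Var (pl q i).2 := by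
  rw [← prime_iff hP (prime_deg q i)]
  have h1 := prime_rel k q
  rw [← Finset.add_sum_erase _ _ (Finset.mem_univ i), add_eq_zero_iff_eq_neg] at h1
  have h2 := congrArg (prime_c q i • ·) h1
  simp only [smul_smul, prime_c_sq, one_smul] at h2
  rw [h2]
  refine zsmul_mem (neg_mem (sum_mem fun j hj => zsmul_mem ?_ _)) _
  exact (prime_iff hP (prime_deg q j)).2 (h j (Finset.ne_of_mem_erase hj))

/-- The four lines through an index. -/
def prime_star : Fin 5 → Fin 4 → Fin 10 :=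
  ![![0,1,6,9], ![5,6,7,8], ![2,3,5,9], ![0,2,4,7], ![1,3,4,8]]

theorem prime_comb (z : Fin 10 → Bool)
    (h1 : ∀ q i, (∀ j, j ≠ i → z (pl q j).1 ∨ z (pl q j).2) → z (pl q i).1 ∨ z (pl q i).2)
    (h2 : ∀ e i, ∃ x, x ≠ e ∧ x ≠ nb e i ∧ z x) :
    (∃ e, ∀ i, z (nb e i)) ∨ ∃ q, ∀ i, z (prime_star q i) := by
  simp [Fin.forall_fin_succ, Fin.exists_fin_succ, pl, nb, prime_star, -Bool.not_eq_true] at h1 h2 ⊢
  simp only [← Bool.or_eq_true, ← Bool.and_eq_true, imp_iff_not_or, Bool.not_eq_true,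
    ← Bool.not_eq_true'] at h1 h2 ⊢
  revert h1 h2
  generalize z 0 = z0, z 1 = z1, z 2 = z2, z 3 = z3, z 4 = z4, z 5 = z5, z 6 = z6, z 7 = z7, z 8 = z8,
    z 9 = z9
  revert z0 z1 z2 z3 z4 z5 z6 z7 z8 z9
  decide +kernel

/-- Let `Z = {e | P.Var e}`.  A subset of `Fin 10` closed under the Plücker implications and not contained in a node contains
either the three neighbours of some line `e0`, or the four lines through one index: `{0,1,6,9}`, `{5,6,7,8}`, `{2,3,5,9}`,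
`{0,2,4,7}`, `{1,3,4,8}` (check on `Fin 10 → Bool` by `decide`, or argue: two distinct non-adjacent lines `ij, ik` give
`il·jk, im·jk`).  A monomial of degree `γ` has `a = γ + n • rel ρ ≥ 0` with `Bv a = Bv γ`; if `a` vanished on `Z` then
`Bv a e0 = -a e0 ≤ 0` in the first case, and `Bv a x + Bv a y = 0` in the second for the adjacent pair
`(x,y) = (5,4), (0,3), (0,8), (1,5), (0,5)` respectively (`Bv a x + Bv a y` is the sum of `a` over the four lines); both are impossible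
when all `Bv γ e ≥ 1`.  So every monomial of degree `γ` lies in `P`. -/
theorem IsPrime.irr_of_not_node (hP : P.IsPrime)
    (h : ∀ e e', Adj e e' → ∃ e'', e'' ≠ e ∧ e'' ≠ e' ∧ P.Var e'') : P.Irr := by
  classical
  have key := prime_comb (fun e => decide (P.Var e)) (by simpa only [decide_eq_true_eq] using hP.plucker)
    fun e i => by simpa only [decide_eq_true_eq] using h e _ (adj_nb e i)
  simp only [decide_eq_true_eq] at key
  filter_upwards [eventually_le_Bv 1] with γ hγ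
  refine le_antisymm (hP.le γ) (Submodule.span_le.2 ?_)
  rintro _ ⟨ρ, hρ, rfl⟩
  by_contra hn
  have hB : ∀ e, 1 ≤ Bv (γ + (n : ℤ) • rel ρ) e := by
    simpa only [Bv_add, Bv_smul, Bv_rel, smul_zero, add_zero] using hγ
  have hz : ∀ e, P.Var e → (γ + (n : ℤ) • rel ρ) e ≤ 0 := fun e he =>
    Int.le_of_lt_add_one (not_le.1 fun h1 => hn (he.mono_mem hρ h1))
  replace hρ : ∀ e, 0 ≤ (γ + (n : ℤ) • rel ρ) e := hρ
  generalize γ + (n : ℤ) • rel ρ = a at hB hz hρ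
  rcases key with ⟨e, he⟩ | ⟨q, hq⟩
  · have := hB e
    unfold Bv at this
    linarith [hz _ (he 0), hz _ (he 1), hz _ (he 2), hρ e]
  · have h0 := hz _ (hq 0)
    have h1 := hz _ (hq 1)
    have h2 := hz _ (hq 2)
    have h3 := hz _ (hq 3)
    have b0 : 1 ≤ a 5 + a 8 + a 3 - a 0 := hB 0
    have b1 : 1 ≤ a 5 + a 7 + a 2 - a 1 := hB 1
    have b3 : 1 ≤ a 6 + a 0 + a 7 - a 3 := hB 3
    have b4 : 1 ≤ a 6 + a 9 + a 5 - a 4 := hB 4
    have b5 : 1 ≤ a 0 + a 1 + a 4 - a 5 := hB 5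
    have b8 : 1 ≤ a 9 + a 0 + a 2 - a 8 := hB 8
    fin_cases q <;> simp [prime_star] at h0 h1 h2 h3 <;> omega

/-- `f = (unit) * ∏ ϖ_j ^ (w j f)`; the unit `u` and `u⁻¹` are sections of opposite degrees, so `u ∉ P`. -/
theorem IsPrime.exists_unif (hP : P.IsPrime) (𝒱 : ValSys k n) {γ : Deg} {f : KK k} (hf : f ∈ P.sub γ)
    (h0 : f ≠ 0) : ∃ (j : 𝒱.J) (α : Deg) (u : KK k), u ≠ 0 ∧ u ∈ P.sub α ∧ ∀ j', j' ≠ j → 𝒱.w j' α u = 0 := by
  classical
  choose δ ϖ h1 h2 h3 using 𝒱.unif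
  have hS : ∀ j, ϖ j ∈ S k n (δ j) := fun j => (𝒱.mem_S _ _ (h1 j)).2 fun j' => by
    by_cases hj : j' = j
    · rw [hj, h2]; exact zero_le_one
    · rw [h3 j j' hj]
  have hT := 𝒱.fin γ f h0
  have hg0 : ∏ j ∈ hT.toFinset, ϖ j ^ (𝒱.w j γ f).toNat ≠ 0 :=
    Finset.prod_ne_zero_iff.2 fun j _ => pow_ne_zero _ (h1 j)
  have hg : (∏ j ∈ hT.toFinset, ϖ j ^ (𝒱.w j γ f).toNat) / f ∈
      S k n (∑ j ∈ hT.toFinset, ((𝒱.w j γ f).toNat : ℤ) • δ j - γ) := by
    refine (𝒱.mem_S _ _ (div_ne_zero hg0 h0)).2 fun j => ?_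
    rw [𝒱.w_div j _ _ hg0 h0, 𝒱.w_prod j _ _ _ fun j _ => pow_ne_zero _ (h1 j),
      Finset.sum_eq_single j, 𝒱.w_pow j _ (h1 j), h2]
    · omega
    · intro j' _ hj
      rw [𝒱.w_pow j _ (h1 j'), h3 j' j hj.symm, mul_zero]
    · intro hj
      rw [𝒱.w_pow j _ (h1 j), show 𝒱.w j γ f = 0 by simpa using hj]
      simp
  have hm := P.smul_mem hg hf
  rw [smul_eq_mul, div_mul_cancel₀ _ h0, sub_add_cancel] at hm
  obtain ⟨j, -, hj⟩ := hP.exists_mem_of_prod_mem _ (fun j _ => pow_mem_S (hS j) _) hm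
  exact ⟨j, δ j, ϖ j, h1 j, hP.mem_of_pow_mem (hS j) hj, h3 j⟩

theorem prime_cdim_gen (α γ : Deg) {a : KK k} (ha : a ≠ 0) :
    (gen n {(α, a)} : Fam k n (KK k)).cdim γ = (SF k n).cdim (γ - α) := by
  have h := cdim_sup_gen (fg_bot (k := k) (n := n)) α a γ
  have e : (⊥ : Fam k n (KK k)).colon α a = ⊥ :=
    le_bot_iff.1 fun δ f hf => (smul_eq_zero.1 (mem_colon.1 hf).2).resolve_right ha
  rwa [e, bot_sup_eq, cdim_bot, cdim_bot, add_zero, zero_add] at h

/-- For `X = gen {(α,a), (β,b)} = gen {(α,a)} ⊔ gen {(β,b)}`: `X.dim γ + dim S (γ-α-β) = dim S (γ-α) + dim S (γ-β)`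
(the intersection `a S(γ-α) ⊓ b S(γ-β)` is `a b S(γ-α-β)` by `mem_S_of_coprime`; `Submodule.finrank_sup_add_finrank_inf_eq`).  Sum over
characters, `hasData_SF`, `Pol_second`: eventually `cdim S - cdim X = n³ B α β`; then `dim_add_cdim_le`. -/
theorem bounded_of_coprime (𝒱 : ValSys k n) (hP : P ≤ SF k n) {α β : Deg} {a b : KK k} (ha : a ∈ P.sub α)
    (hb : b ∈ P.sub β) (ha0 : a ≠ 0) (hb0 : b ≠ 0) (hc : ∀ j, 𝒱.w j α a = 0 ∨ 𝒱.w j β b = 0) :
    ∃ C : ℕ, ∀ᶠ γ in deep, (SF k n).dim γ ≤ P.dim γ + C := by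
  have haS : a ∈ S k n α := hP α ha
  have hbS : b ∈ S k n β := hP β hb
  have e : (gen n {(α, a)} : Fam k n (KK k)).colon β b = gen n {(α, a)} := by
    ext γ f
    rw [mem_colon, mem_gen_singleton, mem_gen_singleton]
    simp only [smul_eq_mul]
    constructor
    · rintro ⟨hf, g, hg, e⟩
      refine ⟨f / a, 𝒱.mem_S_of_coprime ha0 hb0 hc ?_ ?_, (div_mul_cancel₀ _ ha0).symm⟩
      · rwa [mul_div_cancel₀ _ ha0, sub_add_cancel]
      · rwa [← mul_div_assoc, mul_comm, e, mul_div_cancel_right₀ _ ha0, sub_add_eq_add_sub]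
    · rintro ⟨g, hg, rfl⟩
      refine ⟨by simpa using mul_mem_S hg haS, g * b, ?_, mul_right_comm _ _ _⟩
      rw [← sub_add_eq_add_sub]
      exact mul_mem_S hg hbS
  have hX : (gen n {(α, a)} ⊔ gen n {(β, b)} : Fam k n (KK k)) ≤ P :=
    sup_le (gen_le_iff.2 fun p hp => by rwa [Set.mem_singleton_iff.1 hp])
      (gen_le_iff.2 fun p hp => by rwa [Set.mem_singleton_iff.1 hp])
  have hD := hasData_SF (k := k) (n := n)
  refine ⟨((n : ℤ) ^ 3 * B α β).toNat, ?_⟩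
  filter_upwards [hD, (tendsto_sub_deep α).eventually hD, (tendsto_sub_deep β).eventually hD,
    (tendsto_sub_deep α).eventually ((tendsto_sub_deep β).eventually hD)] with γ d0 d1 d2 d3
  have c1 := cdim_sup_gen (fg_gen (k := k) (n := n) (Set.finite_singleton (α, a))) β b γ
  rw [e, prime_cdim_gen _ _ ha0, prime_cdim_gen _ _ ha0, sub_right_comm] at c1
  have c2 := dim_add_cdim_le fg_SF (hX.trans hP) γ
  have c3 := dim_mono (fg_SF.of_le hP) hX γ
  have c4 : ((SF k n).cdim γ : ℚ) = (gen n {(α, a)} ⊔ gen n {(β, b)} : Fam k n (KK k)).cdim γ +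
      (n : ℚ) ^ 3 * (B α β : ℤ) := by
    have c5 := congrArg (Nat.cast : ℕ → ℚ) c1
    push_cast at c5
    rw [← Pol_second (n := n) γ]
    linear_combination d0 - d1 - d2 + d3 - c5
  have c6 : ((SF k n).cdim γ : ℤ) = (gen n {(α, a)} ⊔ gen n {(β, b)} : Fam k n (KK k)).cdim γ +
      (n : ℤ) ^ 3 * B α β := by exact_mod_cast c4
  omega

/-- A prime containing an ideal without common divisor: `exists_unif`, `Tight.att`, `bounded_of_coprime`. -/
theorem IsPrime.bounded_of_tight (hP : P.IsPrime) {𝒱 : ValSys k n} {I : Fam k n (KK k)} (hI : Tight 𝒱 I 1 0)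
    (h : I ≤ P) : ∃ C : ℕ, ∀ᶠ γ in deep, (SF k n).dim γ ≤ P.dim γ + C := by
  obtain ⟨δ, f, hf, h0, -⟩ := hI.att (𝒱.bd 0)
  obtain ⟨j, α, u, hu0, hu, hw⟩ := hP.exists_unif 𝒱 (h δ hf) h0
  obtain ⟨β, g, hg, hg0, hw'⟩ := hI.att j
  rw [zero_add, div_one] at hw'
  refine bounded_of_coprime 𝒱 hP.le hu (h β hg) hu0 hg0 fun j' => ?_
  by_cases hj : j' = j
  · exact Or.inr (hj ▸ hw')
  · exact Or.inl (hw j' hj)

end Fam

end Crest.Agent.R169
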