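import Crest.Agent.R169.AN

/-!
# rid 169, file `RingT1`: the graded ring attached to a multiplicative sequence of subspaces

Prefix helper lemmas with `ringt1_`.
-/

set_option autoImplicit false

namespace Crest.Agent.R169

variable {Ω : Type} [CommRing Ω] [Algebra ℂ Ω] (C : ℕ → Submodule ℂ Ω) [SetLike.GradedMonoid C]

/-- `⊕ C m τ^m ⊆ Ω[τ]`. -/
def Rees : Subalgebra ℂ (Polynomial Ω) where
  carrier := {P | ∀ m, P.coeff m ∈ C m}
  add_mem' := fun ha hb m => by rw [Polynomial.coeff_add]; exact add_mem (ha m) (hb m)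
  mul_mem' := fun ha hb m => by
    rw [Polynomial.coeff_mul]
    refine Submodule.sum_mem _ fun x hx => ?_
    rw [← Finset.HasAntidiagonal.mem_antidiagonal.1 hx]
    exact SetLike.mul_mem_graded (ha _) (hb _)
  algebraMap_mem' := fun z m => by
    rw [Polynomial.algebraMap_apply, Polynomial.coeff_C]
    split_ifs with h
    · subst h
      rw [Algebra.algebraMap_eq_smul_one]
      exact Submodule.smul_mem _ _ (SetLike.one_mem_graded C)
    · exact zero_mem _

theorem mem_Rees {P : Polynomial Ω} : P ∈ Rees C ↔ ∀ m, P.coeff m ∈ C m := Iff.rfl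

def ReesGr (m : ℕ) : Submodule ℂ (Rees C) where
  carrier := {P | ∀ m', m' ≠ m → P.1.coeff m' = 0}
  zero_mem' := fun _ _ => by simp
  add_mem' := fun ha hb m' h => by simp [ha m' h, hb m' h]
  smul_mem' := fun z P hP m' h => by simp [hP m' h]

theorem monomial_mem_Rees {m : ℕ} {y : Ω} (hy : y ∈ C m) : Polynomial.monomial m y ∈ Rees C := by
  intro m'
  rw [Polynomial.coeff_monomial]
  split_ifs with h
  · exact h ▸ hy
  · exact zero_mem _

/-- The element `y τ^m`. -/
noncomputable def reesMk (m : ℕ) : C m →ₗ[ℂ] Rees C where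
  toFun y := ⟨Polynomial.monomial m y.1, monomial_mem_Rees C y.2⟩
  map_add' y y' := Subtype.ext (by simp)
  map_smul' z y := Subtype.ext (Polynomial.smul_monomial z m y.1).symm

@[simp] theorem coe_reesMk (m : ℕ) (y : C m) : (reesMk C m y : Polynomial Ω) = Polynomial.monomial m y.1 := rfl

theorem reesMk_mem (m : ℕ) (y : C m) : reesMk C m y ∈ ReesGr C m := by
  intro m' h
  rw [coe_reesMk, Polynomial.coeff_monomial, if_neg h.symm]

theorem mem_ReesGr_iff {m : ℕ} {P : Rees C} : P ∈ ReesGr C m ↔ ∃ y : C m, P = reesMk C m y := by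
  refine ⟨fun h => ⟨⟨P.1.coeff m, P.2 m⟩, Subtype.ext (Polynomial.ext fun m' => ?_)⟩, ?_⟩
  · rw [coe_reesMk, Polynomial.coeff_monomial]
    split_ifs with h'
    · rw [h']
    · exact h m' (Ne.symm h')
  · rintro ⟨y, rfl⟩
    exact reesMk_mem C m y

theorem ringt1_sum (P : Rees C) :
    P = ∑ m ∈ P.1.support, reesMk C m ⟨P.1.coeff m, P.2 m⟩ := by
  refine Subtype.ext ?_
  rw [AddSubmonoidClass.coe_finsetSum]
  exact P.1.as_sum_support

theorem ringt1_coeff (x : DirectSum ℕ fun m => ReesGr C m) (m : ℕ) :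
    (DirectSum.coeAddMonoidHom (ReesGr C) x).1.coeff m = (x m).1.1.coeff m := by
  induction x using DirectSum.induction_on with
  | zero => simp
  | of i y =>
    rw [DirectSum.coeAddMonoidHom_of]
    by_cases h : i = m
    · subst h
      rw [DirectSum.of_eq_same]
    · rw [DirectSum.of_eq_of_ne _ _ _ (Ne.symm h), y.2 m (Ne.symm h)]
      simp
  | add x y hx hy => simp [hx, hy]

/-- E.g. show `DirectSum.IsInternal (ReesGr C)` or build `DirectSum.Decomposition` with
`decompose' P = DirectSum.mk _ P.1.support (fun m => reesMk m (coeff m))`. -/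
theorem rees_graded : Nonempty (GradedAlgebra (ReesGr C)) := by
  have hint : DirectSum.IsInternal (ReesGr C) := by
    refine ⟨fun x x' hx => ?_, fun P => ?_⟩
    · refine DFinsupp.ext fun m => Subtype.ext (Subtype.ext (Polynomial.ext fun m' => ?_))
      by_cases h : m' = m
      · subst h
        exact (ringt1_coeff C x m').symm.trans (hx ▸ ringt1_coeff C x' m')
      · exact ((x m).2 m' h).trans ((x' m).2 m' h).symm
    · rw [ringt1_sum C P]
      refine ⟨∑ m ∈ P.1.support, DirectSum.of (fun m => ReesGr C m) m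
        ⟨reesMk C m ⟨P.1.coeff m, P.2 m⟩, reesMk_mem C m _⟩, ?_⟩
      rw [map_sum]
      exact Finset.sum_congr rfl fun m _ => DirectSum.coeAddMonoidHom_of _ _ _
  refine ⟨{ hint.chooseDecomposition with
    one_mem := fun m h => ?_
    mul_mem := fun i j P Q hP hQ m h => ?_ }⟩
  · rw [Subalgebra.coe_one, Polynomial.coeff_one, if_neg h]
  · obtain ⟨y, rfl⟩ := (mem_ReesGr_iff C).1 hP
    obtain ⟨y', rfl⟩ := (mem_ReesGr_iff C).1 hQ
    rw [Subalgebra.coe_mul, coe_reesMk, coe_reesMk, Polynomial.monomial_mul_monomial,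
      Polynomial.coeff_monomial, if_neg (Ne.symm h)]

theorem ringt1_aeval {c : ℕ} (y : Fin 3 → C c) {E : MvPolynomial (Fin 3) ℂ} {j : ℕ}
    (hE : E.IsHomogeneous j) :
    (MvPolynomial.aeval (fun i => reesMk C c (y i)) E : Rees C).1 =
      Polynomial.monomial (c * j) (MvPolynomial.aeval (fun i => (y i : Ω)) E) := by
  induction j generalizing E with
  | zero =>
    obtain ⟨z, rfl⟩ : E ∈ (1 : Submodule ℂ _) := by
      rw [← MvPolynomial.homogeneousSubmodule_zero]; exact hE
    simp
  | succ j ih =>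
    obtain ⟨b, hb, rfl⟩ := an_split hE
    rw [map_sum, map_sum, map_sum, AddSubmonoidClass.coe_finsetSum]
    refine Finset.sum_congr rfl fun i _ => ?_
    rw [map_mul, map_mul, MvPolynomial.aeval_X, MvPolynomial.aeval_X, Subalgebra.coe_mul, ih (hb i),
      coe_reesMk, Polynomial.monomial_mul_monomial, mul_add, mul_one, add_comm]

/-- The coefficient of `τ^(c j)` in `aeval (y τ^c) P` is `aeval y (homogeneousComponent j P)`. -/
theorem rees_injective {c : ℕ} (hc : 0 < c) (y : Fin 3 → C c)
    (hy : ∀ (E : MvPolynomial (Fin 3) ℂ) (j : ℕ), E.IsHomogeneous j → E ≠ 0 →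
      MvPolynomial.aeval (fun i => (y i : Ω)) E ≠ 0) :
    Function.Injective (MvPolynomial.aeval (fun i => reesMk C c (y i)) : MvPolynomial (Fin 3) ℂ →ₐ[ℂ] Rees C) := by
  refine (injective_iff_map_eq_zero _).2 fun P hP => ?_
  rw [← P.sum_homogeneousComponent] at hP ⊢
  refine Finset.sum_eq_zero fun j hj => ?_
  by_contra h0
  refine hy _ j (MvPolynomial.homogeneousComponent_isHomogeneous j P) h0 ?_
  have h1 := congrArg (fun Q : Rees C => Q.1.coeff (c * j)) hP
  simp only [map_sum, AddSubmonoidClass.coe_finsetSum, Polynomial.finsetSum_coeff,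
    ringt1_aeval C y (MvPolynomial.homogeneousComponent_isHomogeneous _ P),
    Polynomial.coeff_monomial, Nat.mul_right_inj hc.ne'] at h1
  rw [Finset.sum_ite_eq' , if_pos hj] at h1
  simpa using h1

/-- Generators: `reesMk m` of bases of `C m`, `m < m1 + c`; strong induction on the degree. -/
theorem rees_finite {c : ℕ} (hc : 0 < c) (y : Fin 3 → C c) (hfin : ∀ m, FiniteDimensional ℂ (C m))
    (hgen : ∃ m1, ∀ m, m1 ≤ m → C (m + c) ≤ sumX (fun i => (y i : Ω)) (C m)) :
    (MvPolynomial.aeval (fun i => reesMk C c (y i)) : MvPolynomial (Fin 3) ℂ →ₐ[ℂ] Rees C).toRingHom.Finite := by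
  classical
  obtain ⟨m1, hm1⟩ := hgen
  set f : MvPolynomial (Fin 3) ℂ →ₐ[ℂ] Rees C := MvPolynomial.aeval (fun i => reesMk C c (y i))
    with hf
  let _ := f.toRingHom.toAlgebra
  have : IsScalarTower ℂ (MvPolynomial (Fin 3) ℂ) (Rees C) := IsScalarTower.of_algHom f
  choose t ht using fun m => (hfin m).fg_top
  let s : Finset (Rees C) := (Finset.range (m1 + c)).biUnion fun m => (t m).image (reesMk C m)
  have key : ∀ m, ∀ z : C m,
      reesMk C m z ∈ Submodule.span (MvPolynomial (Fin 3) ℂ) (s : Set (Rees C)) := by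
    intro m
    induction m using Nat.strong_induction_on with
    | _ m ih =>
      intro z
      rcases lt_or_ge m (m1 + c) with h | h
      · have h1 : Submodule.span ℂ (t m : Set (C m)) ≤
            ((Submodule.span (MvPolynomial (Fin 3) ℂ) (s : Set (Rees C))).restrictScalars ℂ).comap
              (reesMk C m) := Submodule.span_le.2 fun x hx =>
          Submodule.subset_span (Finset.mem_biUnion.2
            ⟨m, Finset.mem_range.2 h, Finset.mem_image_of_mem _ hx⟩)
        exact h1 (ht m ▸ Submodule.mem_top)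
      · obtain ⟨m', rfl⟩ : ∃ m', m = m' + c := ⟨m - c, by omega⟩
        obtain ⟨u, hu, he⟩ := hm1 m' (by omega) z.2
        have h1 : reesMk C (m' + c) z = ∑ i, (MvPolynomial.X i : MvPolynomial (Fin 3) ℂ) •
            reesMk C m' ⟨u i, hu i⟩ := by
          refine Subtype.ext ?_
          rw [AddSubmonoidClass.coe_finsetSum, coe_reesMk, he, map_sum]
          refine Finset.sum_congr rfl fun i _ => ?_
          have h2 : (MvPolynomial.X i : MvPolynomial (Fin 3) ℂ) • reesMk C m' ⟨u i, hu i⟩ =
              f (MvPolynomial.X i) * reesMk C m' ⟨u i, hu i⟩ := rfl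
          rw [h2, hf, MvPolynomial.aeval_X, Subalgebra.coe_mul, coe_reesMk, coe_reesMk,
            Polynomial.monomial_mul_monomial, add_comm, smul_eq_mul]
        rw [h1]
        exact Submodule.sum_mem _ fun i _ => Submodule.smul_mem _ _ (ih m' (by omega) _)
  refine ⟨⟨s, eq_top_iff.2 fun P _ => ?_⟩⟩
  rw [ringt1_sum C P]
  exact Submodule.sum_mem _ fun m _ => key m _

end Crest.Agent.R169
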