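import Crest.Agent.R169.Basic1

/-!
# rid 169, file `Val1`: the five valuations at infinity and at the two blown up points

`th k i` is an injective ring map into the domain `Polynomial (Pl k)` (evaluating the new variable at `1` gives the identity,
or for `i = 1` the translation `s ↦ 1 + s, t ↦ 1 + t`), so `natDegree` and `natTrailingDegree` are additive
(`Polynomial.natDegree_mul`, `Polynomial.natTrailingDegree_mul`).  Prefix helper lemmas with `val1_`.
-/

set_option autoImplicit false

namespace Crest.Agent.R169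

variable {k : Type} [Field k]

theorem val1_th0 (j : Fin 2) :
    th k 0 (MvPolynomial.X j) = Polynomial.X * Polynomial.C (MvPolynomial.X j) := by
  fin_cases j <;> simp [th]

theorem val1_th1 (j : Fin 2) :
    th k 1 (MvPolynomial.X j) = 1 + Polynomial.X * Polynomial.C (MvPolynomial.X j) := by
  fin_cases j <;> simp [th]

theorem val1_th4 (j : Fin 2) :
    th k 4 (MvPolynomial.X j) = Polynomial.X * Polynomial.C (MvPolynomial.X j) := by
  fin_cases j <;> simp [th]

theorem val1_th20 : th k 2 (MvPolynomial.X 0) = Polynomial.X * Polynomial.C (MvPolynomial.X 0) := by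
  simp [th]

theorem val1_th21 : th k 2 (MvPolynomial.X 1) = Polynomial.C (MvPolynomial.X 1) := by
  simp [th]

theorem val1_th30 : th k 3 (MvPolynomial.X 0) = Polynomial.C (MvPolynomial.X 0) := by
  simp [th]

theorem val1_th31 : th k 3 (MvPolynomial.X 1) = Polynomial.X * Polynomial.C (MvPolynomial.X 1) := by
  simp [th]

theorem val1_left_inv (i : Fin 5) :
    ∃ φ : Polynomial (Pl k) →ₐ[k] Pl k, φ.comp (th k i) = AlgHom.id k (Pl k) := by
  have e : ∀ i : Fin 5, (∀ j, Polynomial.eval 1 (th k i (MvPolynomial.X j)) = MvPolynomial.X j) →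
      ∃ φ : Polynomial (Pl k) →ₐ[k] Pl k, φ.comp (th k i) = AlgHom.id k (Pl k) := fun i h =>
    ⟨(Polynomial.aeval (R := Pl k) (1 : Pl k)).restrictScalars k, MvPolynomial.algHom_ext fun j => by
      simpa [Polynomial.coe_aeval_eq_eval] using h j⟩
  fin_cases i
  · exact e 0 fun j => by simp [val1_th0]
  · exact ⟨(MvPolynomial.aeval fun j => (MvPolynomial.X j - 1 : Pl k)).comp
      ((Polynomial.aeval (R := Pl k) (1 : Pl k)).restrictScalars k),
      MvPolynomial.algHom_ext fun j => by simp [val1_th1]⟩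
  · exact e 2 fun j => by fin_cases j <;> simp [val1_th20, val1_th21]
  · exact e 3 fun j => by fin_cases j <;> simp [val1_th30, val1_th31]
  · exact e 4 fun j => by simp [val1_th4]

theorem th_injective (i : Fin 5) : Function.Injective (th k i) := by
  obtain ⟨φ, h⟩ := val1_left_inv (k := k) i
  exact Function.LeftInverse.injective (g := φ) fun P => DFunLike.congr_fun h P

theorem val1_th_ne (i : Fin 5) {P : Pl k} (hP : P ≠ 0) : th k i P ≠ 0 :=
  (map_ne_zero_iff _ (th_injective i)).2 hP

theorem ov_mul (i : Fin 5) {P Q : Pl k} (hP : P ≠ 0) (hQ : Q ≠ 0) : ov i (P * Q) = ov i P + ov i Q := by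
  unfold ov
  rw [map_mul]
  split_ifs
  · rw [Polynomial.natTrailingDegree_mul (val1_th_ne i hP) (val1_th_ne i hQ)]
    push_cast
    rfl
  · rw [Polynomial.natDegree_mul (val1_th_ne i hP) (val1_th_ne i hQ)]
    push_cast
    ring

theorem ov_add (i : Fin 5) {P Q : Pl k} (hP : P ≠ 0) (hQ : Q ≠ 0) (h : P + Q ≠ 0) :
    min (ov i P) (ov i Q) ≤ ov i (P + Q) := by
  have h' := val1_th_ne i h
  unfold ov
  rw [map_add] at h' ⊢
  split_ifs
  · have : min (th k i P).natTrailingDegree (th k i Q).natTrailingDegree ≤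
        (th k i P + th k i Q).natTrailingDegree := by
      refine Polynomial.le_natTrailingDegree h' fun m hm => ?_
      rw [Polynomial.coeff_add, Polynomial.coeff_eq_zero_of_lt_natTrailingDegree (lt_min_iff.1 hm).1,
        Polynomial.coeff_eq_zero_of_lt_natTrailingDegree (lt_min_iff.1 hm).2, add_zero]
    omega
  · have := Polynomial.natDegree_add_le (th k i P) (th k i Q)
    omega

theorem ov_C (i : Fin 5) (c : k) : ov i (MvPolynomial.C c : Pl k) = 0 := by
  have h : th k i (MvPolynomial.C c) = Polynomial.C (MvPolynomial.C c) := (th k i).commutes c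
  unfold ov
  rw [h, Polynomial.natTrailingDegree_C, Polynomial.natDegree_C]
  simp

theorem ov_smul (i : Fin 5) {c : k} (hc : c ≠ 0) (P : Pl k) : ov i (c • P) = ov i P := by
  by_cases hP : P = 0
  · rw [hP, smul_zero]
  rw [MvPolynomial.smul_eq_C_mul, ov_mul i (by simpa using hc) hP, ov_C, zero_add]

theorem val1_d1 {i : Fin 5} (hi : ¬ i.val < 2) {P : Pl k} (a b : Pl k) (ha : a ≠ 0)
    (h : th k i P = Polynomial.C a * Polynomial.X + Polynomial.C b) : ov i P = -1 := by
  rw [ov, if_neg hi, h, Polynomial.natDegree_linear ha]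
  rfl

theorem val1_d0 {i : Fin 5} (hi : ¬ i.val < 2) {P : Pl k} (b : Pl k)
    (h : th k i P = Polynomial.C b) : ov i P = 0 := by
  rw [ov, if_neg hi, h, Polynomial.natDegree_C]
  rfl

theorem val1_t0 {i : Fin 5} (hi : i.val < 2) {P : Pl k} (a b : Pl k) (hb : b ≠ 0)
    (h : th k i P = Polynomial.C a * Polynomial.X + Polynomial.C b) : ov i P = 0 := by
  rw [ov, if_pos hi, h, Polynomial.natTrailingDegree_eq_zero.2 (Or.inr (by simpa using hb))]
  rfl

theorem val1_t1 {i : Fin 5} (hi : i.val < 2) {P : Pl k} (a : Pl k) (ha : a ≠ 0)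
    (h : th k i P = Polynomial.C a * Polynomial.X) : ov i P = 1 := by
  rw [ov, if_pos hi, h, Polynomial.C_mul_X_eq_monomial, Polynomial.natTrailingDegree_monomial ha]
  rfl

theorem val1_ov0 (j : Fin 5) : ov 0 (ppP k j) = ![1, 1, 0, 0, 1] j := by
  have h0 : (MvPolynomial.X 0 : Pl k) ≠ 0 := MvPolynomial.X_ne_zero _
  have h1 : (MvPolynomial.X 1 : Pl k) ≠ 0 := MvPolynomial.X_ne_zero _
  have h4 : (MvPolynomial.X 1 - MvPolynomial.X 0 : Pl k) ≠ 0 := ppP_ne_zero k 4
  fin_cases j
  · exact val1_t1 (by decide) _ h0 (by simp [ppP, val1_th0])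
  · exact val1_t1 (by decide) _ h1 (by simp [ppP, val1_th0])
  · exact val1_t0 (by decide) (MvPolynomial.X 0) (-1) (by simp) (by simp [ppP, val1_th0]; ring)
  · exact val1_t0 (by decide) (MvPolynomial.X 1) (-1) (by simp) (by simp [ppP, val1_th0]; ring)
  · exact val1_t1 (by decide) _ h4 (by simp [ppP, val1_th0]; ring)

theorem val1_ov1 (j : Fin 5) : ov 1 (ppP k j) = ![0, 0, 1, 1, 1] j := by
  have h0 : (MvPolynomial.X 0 : Pl k) ≠ 0 := MvPolynomial.X_ne_zero _
  have h1 : (MvPolynomial.X 1 : Pl k) ≠ 0 := MvPolynomial.X_ne_zero _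
  have h4 : (MvPolynomial.X 1 - MvPolynomial.X 0 : Pl k) ≠ 0 := ppP_ne_zero k 4
  fin_cases j
  · exact val1_t0 (by decide) (MvPolynomial.X 0) 1 (by simp) (by simp [ppP, val1_th1]; ring)
  · exact val1_t0 (by decide) (MvPolynomial.X 1) 1 (by simp) (by simp [ppP, val1_th1]; ring)
  · exact val1_t1 (by decide) _ h0 (by simp [ppP, val1_th1])
  · exact val1_t1 (by decide) _ h1 (by simp [ppP, val1_th1])
  · exact val1_t1 (by decide) _ h4 (by simp [ppP, val1_th1]; ring)

theorem val1_ov2 (j : Fin 5) : ov 2 (ppP k j) = ![-1, 0, -1, 0, -1] j := by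
  have h0 : (MvPolynomial.X 0 : Pl k) ≠ 0 := MvPolynomial.X_ne_zero _
  fin_cases j
  · exact val1_d1 (by decide) _ 0 h0 (by simp [ppP, val1_th20])
  · exact val1_d0 (by decide) (MvPolynomial.X 1) (by simp [ppP, val1_th21])
  · exact val1_d1 (by decide) _ (-1) h0 (by simp [ppP, val1_th20]; ring)
  · exact val1_d0 (by decide) (MvPolynomial.X 1 - 1) (by simp [ppP, val1_th21])
  · exact val1_d1 (by decide) _ (MvPolynomial.X 1) (neg_ne_zero.2 h0)
      (by simp [ppP, val1_th20, val1_th21]; ring)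

theorem val1_ov3 (j : Fin 5) : ov 3 (ppP k j) = ![0, -1, 0, -1, -1] j := by
  have h1 : (MvPolynomial.X 1 : Pl k) ≠ 0 := MvPolynomial.X_ne_zero _
  fin_cases j
  · exact val1_d0 (by decide) (MvPolynomial.X 0) (by simp [ppP, val1_th30])
  · exact val1_d1 (by decide) _ 0 h1 (by simp [ppP, val1_th31])
  · exact val1_d0 (by decide) (MvPolynomial.X 0 - 1) (by simp [ppP, val1_th30])
  · exact val1_d1 (by decide) _ (-1) h1 (by simp [ppP, val1_th31]; ring)
  · exact val1_d1 (by decide) _ (-MvPolynomial.X 0) h1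
      (by simp [ppP, val1_th30, val1_th31]; ring)

theorem val1_ov4 (j : Fin 5) : ov 4 (ppP k j) = -1 := by
  have h0 : (MvPolynomial.X 0 : Pl k) ≠ 0 := MvPolynomial.X_ne_zero _
  have h1 : (MvPolynomial.X 1 : Pl k) ≠ 0 := MvPolynomial.X_ne_zero _
  have h4 : (MvPolynomial.X 1 - MvPolynomial.X 0 : Pl k) ≠ 0 := ppP_ne_zero k 4
  fin_cases j
  · exact val1_d1 (by decide) _ 0 h0 (by simp [ppP, val1_th4])
  · exact val1_d1 (by decide) _ 0 h1 (by simp [ppP, val1_th4])
  · exact val1_d1 (by decide) _ (-1) h0 (by simp [ppP, val1_th4]; ring)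
  · exact val1_d1 (by decide) _ (-1) h1 (by simp [ppP, val1_th4]; ring)
  · exact val1_d1 (by decide) _ 0 h4 (by simp [ppP, val1_th4]; ring)

theorem val1_rel_up {R : Type} [CommRing R] (ρ : Fin 5 → R) (i : Fin 5) : rel ρ (up i) =
    ![ρ 0 + ρ 1 + ρ 4, ρ 2 + ρ 3 + ρ 4, -(ρ 0 + ρ 2 + ρ 4), -(ρ 1 + ρ 3 + ρ 4),
      -(ρ 0 + ρ 1 + ρ 2 + ρ 3 + ρ 4)] i := by
  fin_cases i <;> rfl

/-- 25 small computations, e.g. `th 0 (X 1 - X 0) = X * C (X 1 - X 0)`, `th 0 (X 0 - 1) = X * C (X 0) - 1`. -/
theorem ov_ppP (i j : Fin 5) : ov i (ppP k j) = rel (Pi.single j (1 : ℤ)) (up i) := by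
  fin_cases i
  · exact (val1_ov0 j).trans (by revert j; decide)
  · exact (val1_ov1 j).trans (by revert j; decide)
  · exact (val1_ov2 j).trans (by revert j; decide)
  · exact (val1_ov3 j).trans (by revert j; decide)
  · exact (val1_ov4 j).trans (by revert j; decide)

theorem pm_ne_zero (a : Fin 5 → ℕ) : pm k a ≠ 0 := by
  exact Finset.prod_ne_zero_iff.2 fun i _ => pow_ne_zero _ (ppP_ne_zero k i)

theorem val1_ov_one (i : Fin 5) : ov i (1 : Pl k) = 0 := by
  simpa using ov_C i (1 : k)

theorem val1_ov_pow (i : Fin 5) {P : Pl k} (hP : P ≠ 0) (n : ℕ) : ov i (P ^ n) = n * ov i P := by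
  induction n with
  | zero => simp [val1_ov_one]
  | succ n ih => rw [pow_succ, ov_mul i (pow_ne_zero _ hP) hP, ih]; push_cast; ring

theorem val1_ov_prod (i : Fin 5) {ι : Type} (s : Finset ι) (f : ι → Pl k) (hf : ∀ j, f j ≠ 0) :
    ov i (∏ j ∈ s, f j) = ∑ j ∈ s, ov i (f j) := by
  classical
  induction s using Finset.induction_on with
  | empty => simp [val1_ov_one]
  | insert a s ha ih =>
    rw [Finset.prod_insert ha, Finset.sum_insert ha,
      ov_mul i (hf a) (Finset.prod_ne_zero_iff.2 fun j _ => hf j), ih]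

theorem ov_pm (i : Fin 5) (a : Fin 5 → ℕ) : ov i (pm k a) = rel (fun j => (a j : ℤ)) (up i) := by
  rw [pm, val1_ov_prod i _ _ fun j => pow_ne_zero _ (ppP_ne_zero k j), val1_rel_up]
  simp only [val1_ov_pow i (ppP_ne_zero k _), Fin.sum_univ_five]
  fin_cases i
  · simp [val1_ov0]
  · simp [val1_ov1]
  · simp [val1_ov2]; ring
  · simp [val1_ov3]; ring
  · simp [val1_ov4]; ring

theorem ov_zero_nonneg (P : Pl k) : 0 ≤ ov 0 P := by
  simp [ov]

theorem ov_one_nonneg (P : Pl k) : 0 ≤ ov 1 P := by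
  simp [ov]

theorem ov_nonpos (P : Pl k) : ov 2 P ≤ 0 ∧ ov 3 P ≤ 0 ∧ ov 4 P ≤ 0 := by
  simp [ov]

theorem val1_coeff (φ : Pl k →ₐ[k] Polynomial (Pl k)) (w : Fin 2 → ℕ)
    (h : ∀ j, φ (MvPolynomial.X j) = Polynomial.X ^ w j * Polynomial.C (MvPolynomial.X j))
    (P : Pl k) (d : ℕ) (m : Fin 2 →₀ ℕ) :
    MvPolynomial.coeff m ((φ P).coeff d) =
      if w 0 * m 0 + w 1 * m 1 = d then MvPolynomial.coeff m P else 0 := by
  classical
  induction P using MvPolynomial.induction_on' with
  | monomial u c =>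
    have e : φ (MvPolynomial.monomial u c) =
        Polynomial.monomial (w 0 * u 0 + w 1 * u 1) (MvPolynomial.monomial u c) := by
      have hc : φ (MvPolynomial.C c) = Polynomial.C (MvPolynomial.C c) := φ.commutes c
      rw [← Polynomial.C_mul_X_pow_eq_monomial, MvPolynomial.monomial_eq,
        Finsupp.prod_fintype _ _ (fun _ => pow_zero _), Fin.prod_univ_two]
      simp only [map_mul, map_pow, h, hc]
      ring
    rw [e, Polynomial.coeff_monomial]
    by_cases hu : u = m
    · subst hu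
      split_ifs <;> simp
    · split_ifs <;> simp [MvPolynomial.coeff_monomial, hu]
  | add P Q hP hQ =>
    rw [map_add, Polynomial.coeff_add, MvPolynomial.coeff_add, hP, hQ, MvPolynomial.coeff_add]
    split_ifs <;> simp

/-- total degree `≤ deg_s + deg_t`.  The coefficient of `τ^d` in `th 4 P` (resp. `th 2 P`, `th 3 P`) is the sum of the terms of `P`
with exponent `m 0 + m 1 = d` (resp. `m 0 = d`, `m 1 = d`); so every `m ∈ P.support` has `m 0 ≤ natDegree (th 2 P)`, etc. -/
theorem ov_add_le (P : Pl k) : ov 2 P + ov 3 P ≤ ov 4 P := by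
  have h2 := val1_coeff (th k 2) ![1, 0] (fun j => by fin_cases j <;> simp [val1_th20, val1_th21]) P
  have h3 := val1_coeff (th k 3) ![0, 1] (fun j => by fin_cases j <;> simp [val1_th30, val1_th31]) P
  have h4 := val1_coeff (th k 4) ![1, 1] (fun j => by fin_cases j <;> simp [val1_th4]) P
  have : (th k 4 P).natDegree ≤ (th k 2 P).natDegree + (th k 3 P).natDegree := by
    refine Polynomial.natDegree_le_iff_coeff_eq_zero.2 fun d hd => MvPolynomial.ext _ _ fun m => ?_
    rw [h4, MvPolynomial.coeff_zero]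
    split_ifs with hm
    · by_contra hc
      have a2 : m 0 ≤ (th k 2 P).natDegree := Polynomial.le_natDegree_of_ne_zero fun h0 => by
        have := h2 (m 0) m
        rw [h0, if_pos (by simp)] at this
        exact hc this.symm
      have a3 : m 1 ≤ (th k 3 P).natDegree := Polynomial.le_natDegree_of_ne_zero fun h0 => by
        have := h3 (m 1) m
        rw [h0, if_pos (by simp)] at this
        exact hc this.symm
      simp at hm
      omega
    · rfl
  simp only [ov]
  rw [if_neg (by decide), if_neg (by decide), if_neg (by decide)]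
  omega

/-- Restriction to the diagonal `t = s`. -/
noncomputable def diag (k : Type) [Field k] : Pl k →ₐ[k] Polynomial k :=
  MvPolynomial.aeval fun _ => Polynomial.X

/-- `P ≡ aeval (fun _ => X 0) P` modulo `X 1 - X 0` (induction on `P`), and the right side is `Polynomial.aeval (X 0) (diag P)`. -/
theorem dvd_of_diag_eq_zero {P : Pl k} (h : diag k P = 0) : ppP k 4 ∣ P := by
  have e : Ideal.Quotient.mkₐ k (Ideal.span {ppP k 4}) =
      (Ideal.Quotient.mkₐ k (Ideal.span {ppP k 4})).comp
        ((Polynomial.aeval (MvPolynomial.X 0 : Pl k)).comp (diag k)) := by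
    refine MvPolynomial.algHom_ext fun j => ?_
    simp only [diag, AlgHom.comp_apply, MvPolynomial.aeval_X, Polynomial.aeval_X,
      Ideal.Quotient.mkₐ_eq_mk]
    fin_cases j
    · rfl
    · exact Ideal.Quotient.eq.2 (Ideal.mem_span_singleton_self _)
  have := DFunLike.congr_fun e P
  simp only [AlgHom.comp_apply, h, map_zero, Ideal.Quotient.mkₐ_eq_mk] at this
  exact Ideal.mem_span_singleton.1 (Ideal.Quotient.eq_zero_iff_mem.1 this)

theorem val1_X_pow_dvd (p : Polynomial (Pl k)) : Polynomial.X ^ p.natTrailingDegree ∣ p :=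
  Polynomial.X_pow_dvd_iff.2 fun _ h => Polynomial.coeff_eq_zero_of_lt_natTrailingDegree h

/-- `diag P = (th 0 P).map (eval 1) = (th 4 P).map (eval 1)` and `(diag P).comp (1 + X) = (th 1 P).map (eval 1)`. -/
theorem diag_bounds (P : Pl k) :
    Polynomial.X ^ (ov 0 P).toNat ∣ diag k P ∧ (Polynomial.X - 1) ^ (ov 1 P).toNat ∣ diag k P ∧
      ((diag k P).natDegree : ℤ) ≤ -ov 4 P := by
  let ev : Polynomial (Pl k) →ₐ[k] Polynomial k :=
    Polynomial.mapAlgHom (MvPolynomial.aeval fun _ => (1 : k))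
  have evX : ev Polynomial.X = Polynomial.X := by simp [ev]
  have e0 : diag k = ev.comp (th k 0) := MvPolynomial.algHom_ext fun j => by
    simp [diag, val1_th0, ev]
  have e4 : diag k = ev.comp (th k 4) := MvPolynomial.algHom_ext fun j => by
    simp [diag, val1_th4, ev]
  have e1 : diag k = ((Polynomial.aeval (Polynomial.X - 1 : Polynomial k)).comp ev).comp (th k 1) :=
    MvPolynomial.algHom_ext fun j => by simp [diag, val1_th1, ev]
  refine ⟨?_, ?_, ?_⟩
  · have := map_dvd ev (val1_X_pow_dvd (th k 0 P))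
    rw [map_pow, evX] at this
    rw [e0]
    simpa [ov] using this
  · have := map_dvd ((Polynomial.aeval (Polynomial.X - 1 : Polynomial k)).comp ev)
      (val1_X_pow_dvd (th k 1 P))
    rw [map_pow, AlgHom.comp_apply, evX, Polynomial.aeval_X] at this
    rw [e1]
    simpa [ov] using this
  · have : (ev (th k 4 P)).natDegree ≤ (th k 4 P).natDegree := Polynomial.natDegree_map_le
    rw [e4]
    simpa [ov] using this

theorem diag_pm (a : Fin 5 → ℕ) (h : a 4 = 0) :
    diag k (pm k a) = Polynomial.X ^ (a 0 + a 1) * (Polynomial.X - 1) ^ (a 2 + a 3) := by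
  simp [pm, Fin.prod_univ_five, ppP, diag, h]
  ring

variable (k) in
/-- Polynomials with the five valuations bounded below. -/
noncomputable def Rp (m : Fin 5 → ℤ) : Submodule k (Pl k) where
  carrier := {P | P = 0 ∨ ∀ i, m i ≤ ov i P}
  zero_mem' := Or.inl rfl
  add_mem' := by
    intro P Q hP hQ
    by_cases h : P + Q = 0
    · exact Or.inl h
    rcases hP with rfl | hP
    · simpa using hQ
    rcases hQ with rfl | hQ
    · rw [add_zero]; exact Or.inr hP
    by_cases hP0 : P = 0
    · subst hP0; rw [zero_add]; exact Or.inr hQ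
    by_cases hQ0 : Q = 0
    · subst hQ0; rw [add_zero]; exact Or.inr hP
    exact Or.inr fun i => le_trans (le_min (hP i) (hQ i)) (ov_add i hP0 hQ0 h)
  smul_mem' := by
    intro c P hP
    by_cases hc : c = 0
    · subst hc; left; simp
    rcases hP with rfl | hP
    · left; simp
    exact Or.inr fun i => by rw [ov_smul i hc]; exact hP i

theorem mem_Rp {m : Fin 5 → ℤ} {P : Pl k} : P ∈ Rp k m ↔ P = 0 ∨ ∀ i, m i ≤ ov i P := Iff.rfl

end Crest.Agent.R169
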