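import Crest.Agent.R169.Val1

/-!
# rid 169, file `Val2`: `Rp` is spanned by monomials; its dimension

Write `m = ![m0, m1, -a, -b, -d]`: order `≥ m0` at `(0,0)`, `≥ m1` at `(1,1)`, `deg_s ≤ a`, `deg_t ≤ b`, total degree `≤ d`.
Key exact sequence, for `0 ≤ m0, m1, a, b, d` and `d ≤ a + b`:
`0 → Rp ![m0-1, m1-1, -(a-1), -(b-1), -(d-1)] --(· * (t-s))--> Rp m --diag--> Q → 0`, where
`Q = X^m0 (X-1)^m1 * {polynomials of degree ≤ d - m0 - m1}` (zero if `d < m0 + m1`) is spanned by the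
`X^(m0+u) (X-1)^(m1+u')`, `u + u' = d - m0 - m1` (write `X^j = X^j (X - (X-1))^(D-j)`), each of which is `diag` of a monomial
`s^i t^j (s-1)^p (t-1)^q ∈ Rp m`: `i + j = m0 + u`, `p + q = m1 + u'`, choose `σ = i + p` with `max 0 (d-b) ≤ σ ≤ min a d`.
Kernel: `dvd_of_diag_eq_zero`, `ov_mul`, `ov_ppP` (`ov i (t-s) = 1, 1, -1, -1, -1`).
Trivial reductions: `Rp` is unchanged if `m0 < 0` is replaced by `m0 + 1` (same for `m1`; `ov_zero_nonneg`), or `d > a + b` by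
`d - 1` (`ov_add_le`), and `Rp = ⊥` if `a < 0`, `b < 0` or `d < 0` (`ov_nonpos`).
Prefix helper lemmas with `val2_`.
-/

set_option autoImplicit false

namespace Crest.Agent.R169

open Module

variable {k : Type} [Field k]

variable (k) in
/-- `Rp` with named parameters -/
noncomputable abbrev val2R (m0 m1 a b d : ℤ) : Submodule k (Pl k) := Rp k ![m0, m1, -a, -b, -d]

variable (k) in
/-- the span of the admissible monomials -/
noncomputable def val2M (m0 m1 a b d : ℤ) : Submodule k (Pl k) :=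
  Submodule.span k {P | ∃ e : Fin 5 → ℕ, (m0 ≤ (e 0 : ℤ) + e 1 + e 4 ∧ m1 ≤ (e 2 : ℤ) + e 3 + e 4 ∧
    (e 0 : ℤ) + e 2 + e 4 ≤ a ∧ (e 1 : ℤ) + e 3 + e 4 ≤ b ∧
    (e 0 : ℤ) + e 1 + e 2 + e 3 + e 4 ≤ d) ∧ P = pm k e}

theorem val2_rel (ρ : Fin 5 → ℤ) : rel ρ (up 0) = ρ 0 + ρ 1 + ρ 4 ∧ rel ρ (up 1) = ρ 2 + ρ 3 + ρ 4 ∧
    rel ρ (up 2) = -(ρ 0 + ρ 2 + ρ 4) ∧ rel ρ (up 3) = -(ρ 1 + ρ 3 + ρ 4) ∧
    rel ρ (up 4) = -(ρ 0 + ρ 1 + ρ 2 + ρ 3 + ρ 4) := ⟨rfl, rfl, rfl, rfl, rfl⟩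

theorem val2_forall (m0 m1 a b d : ℤ) (f : Fin 5 → ℤ) :
    (∀ i, (![m0, m1, -a, -b, -d] : Fin 5 → ℤ) i ≤ f i) ↔
      m0 ≤ f 0 ∧ m1 ≤ f 1 ∧ -a ≤ f 2 ∧ -b ≤ f 3 ∧ -d ≤ f 4 := by
  constructor
  · intro h
    exact ⟨h 0, h 1, h 2, h 3, h 4⟩
  · rintro ⟨h0, h1, h2, h3, h4⟩ i
    fin_cases i
    exacts [h0, h1, h2, h3, h4]

theorem val2_mem {m0 m1 a b d : ℤ} {P : Pl k} : P ∈ val2R k m0 m1 a b d ↔
    P = 0 ∨ (m0 ≤ ov 0 P ∧ m1 ≤ ov 1 P ∧ -a ≤ ov 2 P ∧ -b ≤ ov 3 P ∧ -d ≤ ov 4 P) := by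
  rw [mem_Rp, val2_forall m0 m1 a b d fun i => ov i P]

theorem val2_M_le (m0 m1 a b d : ℤ) : val2M k m0 m1 a b d ≤ val2R k m0 m1 a b d := by
  refine Submodule.span_le.2 ?_
  rintro _ ⟨e, ⟨h0, h1, h2, h3, h4⟩, rfl⟩
  obtain ⟨e0, e1, e2, e3, e4⟩ := val2_rel fun j => (e j : ℤ)
  refine val2_mem.2 (Or.inr ?_)
  simp only [ov_pm, e0, e1, e2, e3, e4]
  omega

theorem val2_M_mono {m0 m1 a b d m0' m1' d' : ℤ} (h0 : m0 ≤ m0') (h1 : m1 ≤ m1') (h2 : d' ≤ d) :
    val2M k m0' m1' a b d' ≤ val2M k m0 m1 a b d := by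
  refine Submodule.span_mono ?_
  rintro _ ⟨e, h, rfl⟩
  exact ⟨e, by omega, rfl⟩

theorem val2_norm (m0 m1 a b d : ℤ) :
    val2R k m0 m1 a b d = val2R k (max m0 0) (max m1 0) a b (min d (a + b)) := by
  ext P
  have h0 := ov_zero_nonneg P
  have h1 := ov_one_nonneg P
  have h2 := ov_add_le P
  rw [val2_mem, val2_mem]
  refine or_congr_right ?_
  omega

theorem val2_bot {m0 m1 a b d : ℤ} (h : a < 0 ∨ b < 0 ∨ d < 0) : val2R k m0 m1 a b d = ⊥ := by
  refine eq_bot_iff.2 fun P hP => ?_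
  have h0 := ov_nonpos P
  rcases val2_mem.1 hP with h1 | h1
  · exact h1
  · omega

theorem val2_mul_mem {m0 m1 a b d : ℤ} {P : Pl k} : ppP k 4 * P ∈ val2R k m0 m1 a b d ↔
    P ∈ val2R k (m0 - 1) (m1 - 1) (a - 1) (b - 1) (d - 1) := by
  by_cases hP : P = 0
  · subst hP
    simp
  have h4 := ppP_ne_zero k 4
  obtain ⟨e0, e1, e2, e3, e4⟩ := val2_rel (Pi.single 4 (1 : ℤ))
  simp only [Pi.single_apply] at e0 e1 e2 e3 e4
  rw [val2_mem, val2_mem]
  simp only [ov_mul _ h4 hP, ov_ppP, e0, e1, e2, e3, e4, mul_eq_zero, h4, hP, false_or]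
  simp only [Fin.reduceEq, if_false, if_true]
  omega

theorem val2_diag_pp : diag k (ppP k 4) = 0 := by
  simp [diag, ppP]

theorem val2_pm_succ (e : Fin 5 → ℕ) : ppP k 4 * pm k e = pm k (e + Pi.single 4 1) := by
  simp only [pm, Fin.prod_univ_five, Pi.add_apply, Pi.single_apply]
  simp only [Fin.reduceEq, if_false, if_true, add_zero, pow_succ]
  ring

theorem val2_mul_M {m0 m1 a b d : ℤ} {P : Pl k}
    (h : P ∈ val2M k (m0 - 1) (m1 - 1) (a - 1) (b - 1) (d - 1)) :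
    ppP k 4 * P ∈ val2M k m0 m1 a b d := by
  induction h using Submodule.span_induction with
  | mem x hx =>
    obtain ⟨e, h, rfl⟩ := hx
    refine Submodule.subset_span ⟨_, ?_, val2_pm_succ e⟩
    simp only [Pi.add_apply, Pi.single_apply]
    simp only [Fin.reduceEq, if_false, if_true, add_zero]
    push_cast
    omega
  | zero => simp
  | add x y _ _ hx hy => rw [mul_add]; exact add_mem hx hy
  | smul c x _ hx => rw [mul_smul_comm]; exact Submodule.smul_mem _ c hx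

open Polynomial in
theorem val2_lift {m0 m1 : ℕ} {a b d : ℤ} (ha : 0 ≤ a) (hb : 0 ≤ b) (hd : d ≤ a + b) {p : k[X]}
    (hp : p = 0 ∨ (m0 : ℤ) + m1 + p.natDegree ≤ d) :
    ∃ P ∈ val2M k m0 m1 a b d, diag k P = X ^ m0 * (X - 1) ^ m1 * p := by
  rcases hp with rfl | hp
  · exact ⟨0, zero_mem _, by simp⟩
  change X ^ m0 * (X - 1) ^ m1 * p ∈ (val2M k m0 m1 a b d).map (diag k).toLinearMap
  rw [p.as_sum_range_C_mul_X_pow, Finset.mul_sum]
  refine Submodule.sum_mem _ fun j hj => ?_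
  have hj' : j ≤ p.natDegree := Nat.lt_succ_iff.1 (Finset.mem_range.1 hj)
  have h1 : X ^ m0 * (X - 1) ^ m1 * (C (p.coeff j) * X ^ j) =
      p.coeff j • (X ^ (m0 + j) * (X - 1) ^ m1) := by
    rw [smul_eq_C_mul]; ring
  rw [h1]
  refine Submodule.smul_mem _ _ ?_
  obtain ⟨a, rfl⟩ := Int.eq_ofNat_of_zero_le ha
  set σ := min a (m0 + j + m1) with hσ
  set i := min σ (m0 + j) with hi
  refine ⟨pm k ![i, m0 + j - i, σ - i, m1 - (σ - i), 0], Submodule.subset_span ⟨_, ?_, rfl⟩, ?_⟩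
  · simp only [Matrix.cons_val]
    omega
  · rw [AlgHom.toLinearMap_apply, diag_pm _ rfl]
    simp only [Matrix.cons_val]
    congr 2 <;> omega

open Polynomial in
theorem val2_diag {m0 m1 : ℕ} {a b d : ℤ} {P : Pl k} (hP : P ∈ val2R k m0 m1 a b d) :
    ∃ p : k[X], (p = 0 ∨ (m0 : ℤ) + m1 + p.natDegree ≤ d) ∧
      diag k P = X ^ m0 * (X - 1) ^ m1 * p := by
  rcases val2_mem.1 hP with rfl | ⟨h0, h1, -, -, h4⟩
  · exact ⟨0, Or.inl rfl, by simp⟩
  obtain ⟨d0, d1, d4⟩ := diag_bounds P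
  have hc : IsCoprime (X : k[X]) (X - 1) := ⟨1, -1, by ring⟩
  obtain ⟨p, hp⟩ := (hc.pow (m := m0) (n := m1)).mul_dvd
    ((pow_dvd_pow _ (by omega)).trans d0) ((pow_dvd_pow _ (by omega)).trans d1)
  refine ⟨p, ?_, hp⟩
  by_cases h : p = 0
  · exact Or.inl h
  right
  have hX1 : (X - 1 : k[X]) ≠ 0 := by simpa using X_sub_C_ne_zero (1 : k)
  have hd1 : (X - 1 : k[X]).natDegree = 1 := by simpa using natDegree_X_sub_C (1 : k)
  rw [hp, natDegree_mul (mul_ne_zero (pow_ne_zero _ X_ne_zero) (pow_ne_zero _ hX1)) h,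
    natDegree_mul (pow_ne_zero _ X_ne_zero) (pow_ne_zero _ hX1), natDegree_pow, natDegree_pow,
    natDegree_X, hd1] at d4
  push_cast at d4
  omega

theorem val2_le (n : ℕ) : ∀ m0 m1 a b d : ℤ, a < n → val2R k m0 m1 a b d ≤ val2M k m0 m1 a b d := by
  induction n with
  | zero => intro m0 m1 a b d ha; rw [val2_bot (Or.inl ha)]; exact bot_le
  | succ n ih =>
    intro m0 m1 a b d han
    by_cases h : a < 0 ∨ b < 0 ∨ d < 0
    · rw [val2_bot h]; exact bot_le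
    rw [val2_norm]
    refine le_trans ?_ (val2_M_mono (le_max_left m0 0) (le_max_left m1 0) (min_le_left d (a + b)))
    obtain ⟨m0, h0⟩ := Int.eq_ofNat_of_zero_le (le_max_right m0 0)
    obtain ⟨m1, h1⟩ := Int.eq_ofNat_of_zero_le (le_max_right m1 0)
    rw [h0, h1]
    intro P hP
    obtain ⟨p, hp, hp'⟩ := val2_diag hP
    obtain ⟨P', hP', hd⟩ := val2_lift (a := a) (b := b) (by omega) (by omega) (min_le_right _ _) hp
    obtain ⟨Q, hQ⟩ := dvd_of_diag_eq_zero (P := P - P') (by rw [map_sub, hp', hd, sub_self])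
    have h2 : ppP k 4 * Q ∈ val2R k m0 m1 a b (min d (a + b)) :=
      hQ ▸ sub_mem hP (val2_M_le _ _ _ _ _ hP')
    have h3 := val2_mul_M (ih _ _ _ _ _ (by push_cast at han; omega) (val2_mul_mem.1 h2))
    rw [← hQ] at h3
    simpa using add_mem h3 hP'

theorem val2_eq (m0 m1 a b d : ℤ) : val2R k m0 m1 a b d = val2M k m0 m1 a b d :=
  le_antisymm (val2_le (a.toNat + 1) _ _ _ _ _ (by omega)) (val2_M_le _ _ _ _ _)

theorem val2_eta (m : Fin 5 → ℤ) : m = ![m 0, m 1, -(-m 2), -(-m 3), -(-m 4)] := by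
  funext i
  fin_cases i <;> simp

/-- `≥` is `ov_pm`.  `≤`: first use the trivial reductions to replace `m0` by `max m0 0`, `m1` by `max m1 0`, `d` by
`min d (a+b)` (the set of admissible monomials only shrinks), then induct on `a` (or on `d`) with the exact sequence;
multiplying a monomial by `t - s` raises `a 4` by one. -/
theorem Rp_eq_span (m : Fin 5 → ℤ) :
    Rp k m = Submodule.span k {P | ∃ a : Fin 5 → ℕ,
      (∀ i, m i ≤ rel (fun j => (a j : ℤ)) (up i)) ∧ P = pm k a} := by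
  have h := val2_eq (k := k) (m 0) (m 1) (-m 2) (-m 3) (-m 4)
  rw [val2R, ← val2_eta m] at h
  rw [h, val2M]
  congr 1
  ext P
  refine exists_congr fun e => and_congr_left' ?_
  obtain ⟨e0, e1, e2, e3, e4⟩ := val2_rel fun j => (e j : ℤ)
  have h1 := val2_forall (m 0) (m 1) (-m 2) (-m 3) (-m 4) fun i => rel (fun j => (e j : ℤ)) (up i)
  rw [← val2_eta m] at h1
  rw [h1, e0, e1, e2, e3, e4]
  omega

theorem Rp_finite (m : Fin 5 → ℤ) : FiniteDimensional k (Rp k m) := by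
  rw [Rp_eq_span]
  refine FiniteDimensional.span_of_finite k
    (((Set.finite_Iic fun _ : Fin 5 => (-m 4).toNat).image (pm k)).subset ?_)
  rintro _ ⟨e, he, rfl⟩
  refine ⟨e, fun i => ?_, rfl⟩
  have h1 := he 4
  rw [(val2_rel fun j => (e j : ℤ)).2.2.2.2] at h1
  fin_cases i <;> simp only [Fin.reduceFinMk, Fin.zero_eta, Fin.mk_one, Fin.isValue] <;> omega

open Polynomial in
theorem val2_step (m0 m1 D : ℕ) {a b d : ℤ} (ha : 0 ≤ a) (hb : 0 ≤ b) (hd : d ≤ a + b)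
    (hD : d = m0 + m1 + D) : finrank k (val2R k m0 m1 a b d) =
      finrank k (val2R k (m0 - 1) (m1 - 1) (a - 1) (b - 1) (d - 1)) + (D + 1) := by
  have := Rp_finite (k := k) ![m0, m1, -a, -b, -d]
  have h1 := LinearMap.finrank_range_add_finrank_ker
    ((diag k).toLinearMap.domRestrict (val2R k m0 m1 a b d))
  have hX1 : (X - 1 : k[X]) ≠ 0 := by simpa using X_sub_C_ne_zero (1 : k)
  have h2 : LinearMap.range ((diag k).toLinearMap.domRestrict (val2R k m0 m1 a b d)) =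
      (degreeLT k (D + 1)).map (LinearMap.mulLeft k (X ^ m0 * (X - 1) ^ m1)) := by
    ext x
    constructor
    · rintro ⟨P, rfl⟩
      obtain ⟨p, hp, hp'⟩ := val2_diag P.2
      refine ⟨p, mem_degreeLT.2 ?_, hp'.symm⟩
      rcases hp with rfl | hp
      · simp
      · exact degree_le_natDegree.trans_lt (by exact_mod_cast (by omega : p.natDegree < D + 1))
    · rintro ⟨p, hp, rfl⟩
      have hp' : p = 0 ∨ (m0 : ℤ) + m1 + p.natDegree ≤ d := by
        by_cases h : p = 0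
        · exact Or.inl h
        · have := (natDegree_lt_iff_degree_lt h).2 (mem_degreeLT.1 hp)
          omega
      obtain ⟨P, hP, hP'⟩ := val2_lift ha hb hd hp'
      exact ⟨⟨P, val2_M_le _ _ _ _ _ hP⟩, hP'⟩
  have h3 : (LinearMap.ker ((diag k).toLinearMap.domRestrict (val2R k m0 m1 a b d))).map
      (val2R k m0 m1 a b d).subtype =
      (val2R k (m0 - 1) (m1 - 1) (a - 1) (b - 1) (d - 1)).map (LinearMap.mulLeft k (ppP k 4)) := by
    ext x
    constructor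
    · rintro ⟨P, hP, rfl⟩
      obtain ⟨Q, hQ⟩ := dvd_of_diag_eq_zero (P := P.1) hP
      exact ⟨Q, val2_mul_mem.1 (hQ ▸ P.2), hQ.symm⟩
    · rintro ⟨Q, hQ, rfl⟩
      refine ⟨⟨_, val2_mul_mem.2 hQ⟩, ?_, rfl⟩
      change diag k (ppP k 4 * Q) = 0
      rw [map_mul, val2_diag_pp, zero_mul]
  rw [h2, ← Submodule.finrank_map_subtype_eq _ (LinearMap.ker _), h3,
    ← (Submodule.equivMapOfInjective (LinearMap.mulLeft k (ppP k 4))
      (mul_right_injective₀ (ppP_ne_zero k 4)) _).finrank_eq,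
    ← (Submodule.equivMapOfInjective _ (mul_right_injective₀
      (mul_ne_zero (pow_ne_zero _ X_ne_zero) (pow_ne_zero _ hX1))) _).finrank_eq,
    (degreeLTEquiv k (D + 1)).finrank_eq, Module.finrank_fin_fun] at h1
  exact h1.symm.trans (add_comm _ _)

theorem val2_rank (n : ℕ) : ∀ a b m0 m1 m2 : ℤ, a ≤ n → 0 ≤ m0 → 0 ≤ m1 → 0 ≤ m2 → m0 ≤ a → m1 ≤ a →
    m2 ≤ a → m0 ≤ b → m1 ≤ b → m2 ≤ b → m0 + m1 + m2 ≤ a + b →
    2 * (finrank k (val2R k m0 m1 a b (a + b - m2)) : ℤ) =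
      2 * (a + 1) * (b + 1) - m0 * (m0 + 1) - m1 * (m1 + 1) - m2 * (m2 + 1) := by
  induction n using Nat.strong_induction_on with
  | _ n ih =>
    intro a b m0 m1 m2 han h0 h1 h2 h0a h1a h2a h0b h1b h2b hs
    obtain ⟨m0, rfl⟩ := Int.eq_ofNat_of_zero_le h0
    obtain ⟨m1, rfl⟩ := Int.eq_ofNat_of_zero_le h1
    obtain ⟨D, hD⟩ := Int.eq_ofNat_of_zero_le (show 0 ≤ a + b - m2 - m0 - m1 by omega)
    rw [val2_step m0 m1 D (by omega) (by omega) (by omega) (by omega)]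
    push_cast
    rw [← hD]
    by_cases h : a = 0 ∨ b = 0
    · rw [val2_bot (by omega), finrank_bot]
      obtain rfl : m0 = 0 := by omega
      obtain rfl : m1 = 0 := by omega
      obtain rfl : m2 = 0 := by omega
      rcases h with rfl | rfl <;> push_cast <;> ring
    · have key : ∀ x : ℤ, 0 ≤ x → max (x - 1) 0 * (max (x - 1) 0 + 1) = x * (x - 1) := by
        intro x hx
        rcases hx.eq_or_lt with rfl | hx
        · simp
        · rw [max_eq_left (by omega)]; ring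
      have h3 := ih (n - 1) (by omega) (a - 1) (b - 1) (max (m0 - 1) 0) (max (m1 - 1) 0)
        (max (m2 - 1) 0) (by omega) (by omega) (by omega) (by omega) (by omega) (by omega)
        (by omega) (by omega) (by omega) (by omega) (by omega)
      rw [key _ h0, key _ h1, key _ h2] at h3
      rw [val2_norm, show min (a + b - m2 - 1) (a - 1 + (b - 1)) =
        a - 1 + (b - 1) - max (m2 - 1) 0 by omega]
      linear_combination h3

/-- With `m2 = a + b - d`.  Induction on `a`: for `a = 0` or `b = 0` all `mi = 0` and the left term of the exact sequence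
vanishes, so the dimension is `d + 1`.  Otherwise pass to `(a-1, b-1, max (m0-1) 0, max (m1-1) 0, max (m2-1) 0)`, which
satisfies the same inequalities; `x (x+1)` has the same value at `-1` and `0`, and the formula drops by
`d - m0 - m1 + 1 = dim Q`. -/
theorem finrank_Rp (a b m0 m1 m2 : ℤ) (h0 : 0 ≤ m0) (h1 : 0 ≤ m1) (h2 : 0 ≤ m2)
    (h0a : m0 ≤ a) (h1a : m1 ≤ a) (h2a : m2 ≤ a) (h0b : m0 ≤ b) (h1b : m1 ≤ b) (h2b : m2 ≤ b)
    (hs : m0 + m1 + m2 ≤ a + b) :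
    2 * (finrank k (Rp k ![m0, m1, -a, -b, -(a + b - m2)]) : ℤ) =
      2 * (a + 1) * (b + 1) - m0 * (m0 + 1) - m1 * (m1 + 1) - m2 * (m2 + 1) := by
  exact val2_rank a.toNat a b m0 m1 m2 (by omega) h0 h1 h2 h0a h1a h2a h0b h1b h2b hs

end Crest.Agent.R169
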